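import Crest.Agent.R112.Ker

set_option autoImplicit false

namespace Crest.Agent.R112

open MeasureTheory Metric Set Filter Topology

/-! # Scaling and translation -/

variable {F : ℂ → ℝ} {G : ℂ → ℂ}

/-- change of variables `w ↦ c w + z` (`Measure.integral_comp_smul`, `integral_add_right_eq_self`) -/
theorem integral_affine {E : Type*} [NormedAddCommGroup E] [NormedSpace ℝ E] (f : ℂ → E) {c : ℝ}
    (hc : 0 < c) (z : ℂ) : ∫ w, f (c * w + z) = (c ^ 2)⁻¹ • ∫ y, f y := by
  have h := Measure.integral_comp_smul (volume : Measure ℂ) (fun y => f (y + z)) c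
  rw [integral_add_right_eq_self, Complex.finrank_real_complex, abs_of_pos (by positivity)] at h
  exact h

theorem setIntegral_affine {E : Type*} [NormedAddCommGroup E] [NormedSpace ℝ E] (f : ℂ → E)
    {c : ℝ} (hc : 0 < c) (z : ℂ) {U : Set ℂ} (hU : MeasurableSet U) :
    ∫ w in (fun w : ℂ => (c : ℂ) * w + z) ⁻¹' U, f (c * w + z) = (c ^ 2)⁻¹ • ∫ y in U, f y := by
  have hm : Measurable fun w : ℂ => (c : ℂ) * w + z := by fun_prop
  rw [← integral_indicator hU, ← integral_indicator (hm hU), ← integral_affine _ hc z]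
  rfl

theorem av_affine (F : ℂ → ℝ) {c : ℝ} (hc : 0 < c) (z x : ℂ) (r : ℝ) :
    av (fun w => F (c * w + z)) x r = av F (c * x + z) (c * r) := by
  have h1 : ball x r = (fun w : ℂ => (c : ℂ) * w + z) ⁻¹' ball (c * x + z) (c * r) := by
    ext w
    rw [mem_preimage, mem_ball, mem_ball, dist_add_right, dist_eq_norm, dist_eq_norm, ← mul_sub,
      norm_mul, Complex.norm_real, Real.norm_of_nonneg hc.le, mul_lt_mul_iff_right₀ hc]
  unfold av
  rw [h1, setIntegral_affine F hc z measurableSet_ball, smul_eq_mul, mul_pow,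
    mul_left_comm Real.pi, ← div_eq_inv_mul, div_div]

theorem integrable_affine {E : Type*} [NormedAddCommGroup E] {f : ℂ → E} (hf : Integrable f)
    {c : ℝ} (hc : 0 < c) (z : ℂ) : Integrable fun w : ℂ => f (c * w + z) :=
  (hf.comp_add_right z).comp_smul hc.ne'

theorem ker_affine {c : ℝ} (hc : 0 < c) (z x a ζ : ℂ) (r T : ℝ) (w : ℂ) :
    ker x a ζ r T w = c * ker (c * x + z) a ζ (c * r) (c * T) (c * w + z) := by
  have hc' : (c : ℂ) ≠ 0 := Complex.ofReal_ne_zero.2 hc.ne'
  unfold ker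
  rw [show (0 : ℝ) = c * 0 from (mul_zero c).symm, ← intervalIntegral.smul_integral_comp_mul_left,
    mul_zero, Complex.real_smul, ← mul_assoc, ← intervalIntegral.integral_const_mul]
  congr 1
  funext t
  have e1 : (c : ℂ) * w + z - (c * x + z) - ((c * t : ℝ) : ℂ) * a = c * (w - x - t * a) := by
    push_cast; ring
  have e2 : ((c * r : ℝ) : ℂ) + ((c * t : ℝ) : ℂ) * ζ = c * (r + t * ζ) := by
    push_cast; ring
  have e3 : Zv (c * x + z) a ζ (c * r) (c * t) (c * w + z) = Zv x a ζ r t w := by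
    unfold Zv
    rw [e1, e2, mul_left_comm, mul_div_mul_left _ _ hc']
  rw [e3, e1, e2, norm_mul, norm_mul, Complex.norm_real, Real.norm_of_nonneg hc.le]
  simp only [mul_lt_mul_iff_right₀ hc]
  split_ifs
  · rw [mul_pow, mul_left_comm Real.pi, Complex.ofReal_mul (c ^ 2), Complex.ofReal_pow, ← sq,
      ← mul_div_assoc, mul_div_mul_left _ _ (pow_ne_zero 2 hc')]
  · rw [mul_zero]

/-- `ker x a ζ r T w = c * ker (c x + z) a ζ (c r) (c T) (c w + z)` (substitute `t ↦ c t`) -/
theorem Hyp.affine (h : Hyp F G) {c : ℝ} (hc : 0 < c) (z : ℂ) :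
    Hyp (fun w => F (c * w + z)) (fun w => c * G (c * w + z)) := by
  refine ⟨integrable_affine h.intF hc z, (integrable_affine h.intG hc z).const_mul _,
    fun x a ζ r T hr hT hζ => ?_⟩
  have h1 := h.path (c * x + z) a ζ (c * r) (c * T) (mul_pos hc hr) (mul_nonneg hc.le hT)
    (by rw [mul_assoc, mul_div_assoc]; exact mul_le_mul_of_nonneg_left hζ hc.le)
  have e1 : (c : ℂ) * x + z + ((c * T : ℝ) : ℂ) * a = c * (x + T * a) + z := by push_cast; ring
  have e2 : ((c * r : ℝ) : ℂ) + ((c * T : ℝ) : ℂ) * ζ = c * (r + T * ζ) := by push_cast; ring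
  rw [e1, e2, norm_mul, Complex.norm_real, Real.norm_of_nonneg hc.le] at h1
  rw [av_affine F hc, av_affine F hc, h1]
  simp only [ker_affine hc z x, ip_real_mul_left, ip_real_mul_right]
  rw [integral_const_mul, integral_const_mul,
    integral_affine (fun y => ip (ker (c * x + z) a ζ (c * r) (c * T) y) (G y)) hc z, smul_eq_mul]
  field_simp

theorem Hyp.translate (h : Hyp F G) (z : ℂ) : Hyp (fun w => F (w + z)) (fun w => G (w + z)) := by
  simpa using h.affine one_pos z

theorem mx_translate (F : ℂ → ℝ) (R : Set ℝ) (z x : ℂ) :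
    mx (fun w => F (w + z)) R x = mx F R (x + z) := by
  unfold mx
  congr 2
  funext r
  simpa using av_affine F one_pos z x r

theorem bb_affine (F : ℂ → ℝ) (n : ℤ) (z x : ℂ) :
    bb (fun w => F (((2 : ℝ) ^ n : ℝ) * w + z)) 0 x = bb F n (((2 : ℝ) ^ n : ℝ) * x + z) := by
  have hc : (0 : ℝ) < 2 ^ n := by positivity
  rw [bb_zero]
  unfold bb mx
  rw [zpow_add_one₀ two_ne_zero, show Icc ((2 : ℝ) ^ n) (2 ^ n * 2) = (fun r => 2 ^ n * r) '' Icc 1 2
    by rw [image_mul_left_Icc' hc, mul_one], image_image]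
  simp only [av_affine F hc]

end Crest.Agent.R112
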