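import Crest.Agent.R112.Star

set_option autoImplicit false

namespace Crest.Agent.R112

open MeasureTheory Metric Set Filter Topology

/-! # The antichain inequality -/

theorem anti_sum_Phi {G : ℂ → ℂ} (hG : Integrable G) (v : ℂ) (R : Cell) :
    ∑ c ∈ sub R 0 1 1, Phi v (V G c) = Phi v (V G R) + Dc G R := by
  have h1 : V G R = ∑ c ∈ sub R 0 1 1, V G c := by
    have := integral_box_eq_sum (f := G) (Q := R) (o := 0) (s := 1) 1 hG.integrableOn
    rwa [box_zero_one] at this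
  have h2 : ip v (V G R) = ∑ c ∈ sub R 0 1 1, ip v (V G c) := by
    rw [h1]
    simp only [ip, Complex.re_sum, Complex.im_sum, Finset.mul_sum, Finset.sum_add_distrib]
  simp only [Phi, Dc, S, Finset.sum_sub_distrib, h2]
  ring

theorem anti_aux {G : ℂ → ℂ} (hG : Integrable G) {v : ℂ} (hv : ‖v‖ = 1) (n : ℕ) :
    ∀ (R : Cell) (𝒜 : Finset Cell), (∀ P ∈ 𝒜, R.1 - P.1 ≤ n) → (∀ P ∈ 𝒜, cell P ⊆ cell R) →
    (∀ P ∈ 𝒜, ∀ P' ∈ 𝒜, P ≠ P' → Disjoint (cell P) (cell P')) →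
    ∃ 𝒮 : Finset Cell,
      (∀ Q ∈ 𝒮, cell Q ⊆ cell R ∧ ∃ P ∈ 𝒜, P.1 < Q.1 ∧ cell P ⊆ cell Q) ∧
      ∑ P ∈ 𝒜, Phi v (V G P) ≤ Phi v (V G R) + ∑ Q ∈ 𝒮, Dc G Q := by
  classical
  have base : ∀ (R : Cell) (𝒜 : Finset Cell), (∀ P ∈ 𝒜, P = R) →
      ∑ P ∈ 𝒜, Phi v (V G P) ≤ Phi v (V G R) + ∑ Q ∈ (∅ : Finset Cell), Dc G Q := by
    intro R 𝒜 h
    have h1 : 𝒜 ⊆ {R} := fun P hP => Finset.mem_singleton.2 (h P hP)
    have h2 := Finset.sum_le_sum_of_subset_of_nonneg (f := fun P => Phi v (V G P)) h1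
      (fun P _ _ => Phi_nonneg hv _)
    simpa using h2
  induction n with
  | zero =>
    intro R 𝒜 hn hsub _
    refine ⟨∅, by simp, base R 𝒜 fun P hP => eq_of_subset (hsub P hP) ?_⟩
    have h1 := hn P hP
    have h2 := level_le_of_subset (hsub P hP)
    omega
  | succ n ih =>
    intro R 𝒜 hn hsub hdis
    by_cases hR : R ∈ 𝒜
    · refine ⟨∅, by simp, base R 𝒜 fun P hP => ?_⟩
      by_contra hne
      exact Set.disjoint_left.1 (hdis P hP R hR hne) (cn_mem_cell P) (hsub P hP (cn_mem_cell P))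
    rcases 𝒜.eq_empty_or_nonempty with rfl | ⟨P0, hP0⟩
    · exact ⟨∅, by simp, base R ∅ (by simp)⟩
    have hlt : ∀ P ∈ 𝒜, P.1 < R.1 := fun P hP =>
      lt_of_le_of_ne (level_le_of_subset (hsub P hP))
        fun e => hR (eq_of_subset (hsub P hP) e ▸ hP)
    let g : Cell → Cell := fun P => cellOf (R.1 - (1 : ℕ)) (cn P)
    have hg : ∀ P ∈ 𝒜, g P ∈ sub R 0 1 1 := fun P hP =>
      cellOf_mem_sub 1 (by rw [box_zero_one]; exact hsub P hP (cn_mem_cell P))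
    have hgs : ∀ P ∈ 𝒜, cell P ⊆ cell (g P) := fun P hP =>
      cell_subset_of_mem (by have := hlt P hP; simp only [g, cellOf]; omega) (cn_mem_cell P)
        (mem_cell_cellOf _ _)
    have hc : ∀ c ∈ sub R 0 1 1, c.1 = R.1 - 1 ∧ cell c ⊆ cell R := fun c hc => by
      have := mem_sub_iff.1 hc
      rwa [box_zero_one] at this
    have key : ∀ c : Cell, ∃ 𝒮 : Finset Cell, c ∈ sub R 0 1 1 →
        (∀ Q ∈ 𝒮, cell Q ⊆ cell c ∧ ∃ P ∈ 𝒜.filter (fun P => g P = c),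
          P.1 < Q.1 ∧ cell P ⊆ cell Q) ∧
        ∑ P ∈ 𝒜.filter (fun P => g P = c), Phi v (V G P) ≤
          Phi v (V G c) + ∑ Q ∈ 𝒮, Dc G Q := by
      intro c
      by_cases hcm : c ∈ sub R 0 1 1
      · obtain ⟨𝒮, h⟩ := ih c (𝒜.filter fun P => g P = c)
          (fun P hP => by
            have h1 := hn P (Finset.mem_filter.1 hP).1
            have h2 := (hc c hcm).1
            push_cast at h1
            omega)
          (fun P hP => (Finset.mem_filter.1 hP).2 ▸ hgs P (Finset.mem_filter.1 hP).1)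
          (fun P hP P' hP' => hdis P (Finset.mem_filter.1 hP).1 P' (Finset.mem_filter.1 hP').1)
        exact ⟨𝒮, fun _ => h⟩
      · exact ⟨∅, fun h => absurd h hcm⟩
    choose 𝒮 h𝒮 using key
    have hnot : R ∉ (sub R 0 1 1).biUnion 𝒮 := by
      intro h
      obtain ⟨c, hcm, hRc⟩ := Finset.mem_biUnion.1 h
      have h1 := level_le_of_subset ((h𝒮 c hcm).1 R hRc).1
      have h2 := (hc c hcm).1
      omega
    have hpd : ((sub R 0 1 1 : Finset Cell) : Set Cell).PairwiseDisjoint 𝒮 := by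
      intro c hcm c' hcm' hne
      refine Finset.disjoint_left.2 fun Q hQ hQ' => ?_
      exact Set.disjoint_left.1 (disjoint_cell ((hc c hcm).1.trans (hc c' hcm').1.symm) hne)
        (((h𝒮 c hcm).1 Q hQ).1 (cn_mem_cell Q)) (((h𝒮 c' hcm').1 Q hQ').1 (cn_mem_cell Q))
    refine ⟨insert R ((sub R 0 1 1).biUnion 𝒮), fun Q hQ => ?_, ?_⟩
    · rcases Finset.mem_insert.1 hQ with rfl | hQ
      · exact ⟨Subset.rfl, P0, hP0, hlt P0 hP0, hsub P0 hP0⟩
      · obtain ⟨c, hcm, hQc⟩ := Finset.mem_biUnion.1 hQ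
        obtain ⟨h1, P, hP, h2⟩ := (h𝒮 c hcm).1 Q hQc
        exact ⟨h1.trans (hc c hcm).2, P, (Finset.mem_filter.1 hP).1, h2⟩
    · rw [Finset.sum_insert hnot, Finset.sum_biUnion hpd, ← add_assoc, ← anti_sum_Phi hG,
        ← Finset.sum_add_distrib, ← Finset.sum_fiberwise_of_maps_to hg]
      exact Finset.sum_le_sum fun c hcm => (h𝒮 c hcm).2

/-- antichain inequality.  Induction on `(R.1 - min level).toNat`: if `𝒜` is empty use
`Phi_nonneg`; if `R ∈ 𝒜` then `𝒜 = {R}`; otherwise split `𝒜` among the four children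
`c ∈ sub R 0 1 1` and use `∑ c, Phi v (V G c) = Phi v (V G R) + Dc G R`
(`integral_box_eq_sum`, `box_zero_one`); the sets `𝒮` of different children are disjoint and do
not contain `R` (levels), so take `insert R (biUnion …)`. -/
theorem antichain_ineq {G : ℂ → ℂ} (hG : Integrable G) {v : ℂ} (hv : ‖v‖ = 1) (R : Cell)
    (𝒜 : Finset Cell) (hsub : ∀ P ∈ 𝒜, cell P ⊆ cell R)
    (hdis : ∀ P ∈ 𝒜, ∀ P' ∈ 𝒜, P ≠ P' → Disjoint (cell P) (cell P')) :
    ∃ 𝒮 : Finset Cell,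
      (∀ Q ∈ 𝒮, cell Q ⊆ cell R ∧ ∃ P ∈ 𝒜, P.1 < Q.1 ∧ cell P ⊆ cell Q) ∧
      ∑ P ∈ 𝒜, Phi v (V G P) ≤ Phi v (V G R) + ∑ Q ∈ 𝒮, Dc G Q := by
  refine anti_aux hG hv (𝒜.sup fun P => (R.1 - P.1).toNat) R 𝒜 (fun P hP => ?_) hsub hdis
  have := Finset.le_sup (f := fun P : Cell => (R.1 - P.1).toNat) hP
  omega

end Crest.Agent.R112
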