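import Crest.Agent.R112.Affine

set_option autoImplicit false

namespace Crest.Agent.R112

open MeasureTheory Metric Set Filter Topology

/-! # Consequences of `Hyp` : Lipschitz bounds, the maximal functions, scaling -/

variable {F : ℂ → ℝ} {G : ℂ → ℂ}

theorem abs_av_le (hF : Integrable F) (x : ℂ) {r : ℝ} (hr : 0 < r) :
    |av F x r| ≤ (∫ y, |F y|) / (Real.pi * r ^ 2) := by
  unfold av
  have hp : 0 < Real.pi * r ^ 2 := by positivity
  rw [abs_div, abs_of_pos hp]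
  refine div_le_div_of_nonneg_right ?_ hp.le
  refine (abs_integral_le_integral_abs).trans ?_
  exact setIntegral_le_integral hF.abs (Eventually.of_forall fun y => abs_nonneg _)

theorem av_nonneg (hF0 : ∀ x, 0 ≤ F x) (x : ℂ) (r : ℝ) : 0 ≤ av F x r := by
  unfold av
  exact div_nonneg (integral_nonneg fun y => hF0 y) (by positivity)

/-- `∫ ip (ker …) G` is a genuine integral -/
theorem integrable_ip_ker (hG : Integrable G) {x a ζ : ℂ} {r T : ℝ} (hr : 0 < r) (hT0 : 0 ≤ T)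
    (hT : T * ‖ζ‖ ≤ r / 2) : Integrable (fun w => ip (ker x a ζ r T w) (G w)) := by
  have hm : AEStronglyMeasurable (fun w => ip (ker x a ζ r T w) (G w)) volume := by
    have h1 := (measurable_ker x a ζ r T).aestronglyMeasurable (μ := volume)
    have h2 := hG.aestronglyMeasurable
    unfold ip
    exact ((Complex.continuous_re.comp_aestronglyMeasurable h1).mul
      (Complex.continuous_re.comp_aestronglyMeasurable h2)).add
      ((Complex.continuous_im.comp_aestronglyMeasurable h1).mul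
      (Complex.continuous_im.comp_aestronglyMeasurable h2))
  refine (hG.norm.const_mul (2 * (‖a‖ + ‖ζ‖) * T / r ^ 2)).mono' hm
    (Eventually.of_forall fun w => ?_)
  exact (abs_ip_le _ _).trans
    (mul_le_mul_of_nonneg_right (norm_ker_le_gen hr hT0 hT w) (norm_nonneg _))

/-- path with `a = y - x`, `ζ = 0`, `T = 1`, `norm_ker_le_gen` -/
theorem Hyp.av_lip (h : Hyp F G) (x y : ℂ) {r : ℝ} (hr : 0 < r) :
    |av F x r - av F y r| ≤ 2 * (∫ w, ‖G w‖) / r ^ 2 * ‖x - y‖ := by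
  have h0 : (1 : ℝ) * ‖(0 : ℂ)‖ ≤ r / 2 := by simp; linarith
  have h1 := h.path x (y - x) 0 r 1 hr zero_le_one h0
  have e1 : x + ((1 : ℝ) : ℂ) * (y - x) = y := by simp
  have e2 : ‖(r : ℂ) + ((1 : ℝ) : ℂ) * 0‖ = r := by simp [abs_of_pos hr]
  rw [e1, e2] at h1
  rw [abs_sub_comm, h1]
  have h2 : ‖∫ w, ip (ker x (y - x) 0 r 1 w) (G w)‖ ≤
      ∫ w, 2 * (‖y - x‖ + ‖(0 : ℂ)‖) * 1 / r ^ 2 * ‖G w‖ :=
    norm_integral_le_of_norm_le (h.intG.norm.const_mul _) (Eventually.of_forall fun w =>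
      (abs_ip_le _ _).trans
        (mul_le_mul_of_nonneg_right (norm_ker_le_gen hr zero_le_one h0 w) (norm_nonneg _)))
  rw [integral_const_mul, norm_zero, norm_sub_rev] at h2
  refine h2.trans (le_of_eq ?_)
  ring

/-- path from the radius `R` with `a = 0`, `ζ = -1`, `T = R - r`; the kernel vanishes outside
`ball x R` (`ker_eq_zero_of`) -/
theorem Hyp.av_rad (h : Hyp F G) (x : ℂ) {r R : ℝ} (hR : 0 < R) (h1 : R / 2 ≤ r) (h2 : r ≤ R) :
    |av F x r - av F x R| ≤ 2 * (R - r) / R ^ 2 * ∫ w in ball x R, ‖G w‖ := by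
  have hT0 : 0 ≤ R - r := by linarith
  have h0 : (R - r) * ‖(-1 : ℂ)‖ ≤ R / 2 := by simp; linarith
  have h3 := h.path x 0 (-1) R (R - r) hR hT0 h0
  have e1 : x + ((R - r : ℝ) : ℂ) * 0 = x := by simp
  have e2 : ‖(R : ℂ) + ((R - r : ℝ) : ℂ) * (-1)‖ = r := by
    have : (R : ℂ) + ((R - r : ℝ) : ℂ) * (-1) = (r : ℂ) := by push_cast; ring
    rw [this, Complex.norm_real, Real.norm_eq_abs, abs_of_pos (by linarith)]
  rw [e1, e2] at h3
  rw [h3]
  have h4 : ‖∫ w, ip (ker x 0 (-1) R (R - r) w) (G w)‖ ≤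
      ∫ w, (ball x R).indicator (fun w => 2 * (R - r) / R ^ 2 * ‖G w‖) w := by
    refine norm_integral_le_of_norm_le
      ((h.intG.norm.const_mul _).indicator measurableSet_ball) (Eventually.of_forall fun w => ?_)
    by_cases hw : w ∈ ball x R
    · rw [indicator_of_mem hw]
      refine (abs_ip_le _ _).trans (mul_le_mul_of_nonneg_right ?_ (norm_nonneg _))
      refine (norm_ker_le_gen hR hT0 h0 w).trans (le_of_eq ?_)
      simp
    · rw [indicator_of_notMem hw, ker_eq_zero_of hT0]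
      · simp
      · intro t ht0 ht
        have : (R : ℂ) + (t : ℂ) * (-1) = ((R - t : ℝ) : ℂ) := by push_cast; ring
        rw [this, Complex.norm_real, Real.norm_eq_abs, abs_of_nonneg (by linarith), mul_zero,
          sub_zero]
        rw [mem_ball, dist_eq_norm, not_lt] at hw
        linarith
  rw [integral_indicator measurableSet_ball, integral_const_mul] at h4
  exact h4

theorem Hyp.continuousOn_av (h : Hyp F G) (x : ℂ) : ContinuousOn (av F x) (Ioi 0) := by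
  intro r₀ hr₀
  have hr₀ : 0 < r₀ := hr₀
  set M := ∫ w, ‖G w‖ with hM
  have hM0 : 0 ≤ M := integral_nonneg fun w => norm_nonneg _
  have hb : ∀ R, ∫ w in ball x R, ‖G w‖ ≤ M := fun R =>
    setIntegral_le_integral h.intG.norm (Eventually.of_forall fun y => norm_nonneg _)
  have key : ∀ r R : ℝ, r₀ ≤ R → R / 2 ≤ r → r ≤ R →
      |av F x r - av F x R| ≤ 2 * M / r₀ ^ 2 * (R - r) := by
    intro r R h1 h2 h3
    refine (h.av_rad x (by linarith) h2 h3).trans ?_
    have h4 : 2 * (R - r) / R ^ 2 ≤ 2 * (R - r) / r₀ ^ 2 :=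
      div_le_div_of_nonneg_left (by linarith) (by positivity) (by gcongr)
    calc _ ≤ 2 * (R - r) / r₀ ^ 2 * M :=
          mul_le_mul h4 (hb R) (integral_nonneg fun w => norm_nonneg _)
            (div_nonneg (by linarith) (by positivity))
      _ = _ := by ring
  refine ContinuousAt.continuousWithinAt ?_
  rw [ContinuousAt, tendsto_iff_dist_tendsto_zero]
  have hlim : Tendsto (fun r : ℝ => 2 * M / r₀ ^ 2 * |r - r₀|) (𝓝 r₀) (𝓝 0) := by
    have : Continuous fun r : ℝ => 2 * M / r₀ ^ 2 * |r - r₀| := by fun_prop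
    simpa using this.tendsto r₀
  refine squeeze_zero' (Eventually.of_forall fun _ => dist_nonneg) ?_ hlim
  filter_upwards [Ioo_mem_nhds (show r₀ / 2 < r₀ by linarith) (show r₀ < 2 * r₀ by linarith)]
    with r hr
  rw [Real.dist_eq]
  rcases le_total r r₀ with h1 | h1
  · rw [abs_sub_comm r r₀, abs_of_nonneg (sub_nonneg.2 h1)]
    exact key r r₀ le_rfl hr.1.le h1
  · rw [abs_sub_comm, abs_of_nonneg (sub_nonneg.2 h1)]
    exact key r₀ r h1 (by linarith [hr.2]) h1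

theorem bddAbove_av (hF : Integrable F) (x : ℂ) {R : Set ℝ} {s : ℝ} (hs : 0 < s)
    (hR : R ⊆ Ici s) : BddAbove (av F x '' R) := by
  refine ⟨(∫ y, |F y|) / (Real.pi * s ^ 2), ?_⟩
  rintro _ ⟨r, hr, rfl⟩
  have h1 : s ≤ r := hR hr
  refine (le_abs_self _).trans ((abs_av_le hF x (by linarith)).trans ?_)
  exact div_le_div_of_nonneg_left (integral_nonneg fun y => abs_nonneg _) (by positivity)
    (by gcongr)

theorem av_le_mx (hF : Integrable F) (x : ℂ) {R : Set ℝ} {s : ℝ} (hs : 0 < s) (hR : R ⊆ Ici s)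
    {r : ℝ} (hr : r ∈ R) : av F x r ≤ mx F R x := by
  exact le_csSup (bddAbove_av hF x hs hR) (mem_image_of_mem _ hr)

theorem mx_le (F : ℂ → ℝ) (x : ℂ) {R : Set ℝ} (hne : R.Nonempty) {c : ℝ}
    (h : ∀ r ∈ R, av F x r ≤ c) : mx F R x ≤ c := by
  refine csSup_le (hne.image _) ?_
  rintro _ ⟨r, hr, rfl⟩
  exact h r hr

theorem mx_mono (hF : Integrable F) (x : ℂ) {R R' : Set ℝ} {s : ℝ} (hs : 0 < s) (hR : R' ⊆ Ici s)
    (hne : R.Nonempty) (hsub : R ⊆ R') : mx F R x ≤ mx F R' x := by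
  exact mx_le F x hne fun r hr => av_le_mx hF x hs hR (hsub hr)

theorem mx_union (hF : Integrable F) (x : ℂ) {R R' : Set ℝ} {s : ℝ} (hs : 0 < s) (hR : R ⊆ Ici s)
    (hR' : R' ⊆ Ici s) (hne : R.Nonempty) (hne' : R'.Nonempty) :
    mx F (R ∪ R') x = max (mx F R x) (mx F R' x) := by
  unfold mx
  rw [image_union]
  exact csSup_union (bddAbove_av hF x hs hR) (hne.image _) (bddAbove_av hF x hs hR') (hne'.image _)

theorem Hyp.mx_lip (h : Hyp F G) {R : Set ℝ} {s : ℝ} (hs : 0 < s) (hR : R ⊆ Ici s)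
    (hne : R.Nonempty) : ∃ K, LipschitzWith K (mx F R) := by
  have hM0 : 0 ≤ ∫ w, ‖G w‖ := integral_nonneg fun w => norm_nonneg _
  refine ⟨⟨2 * (∫ w, ‖G w‖) / s ^ 2, by positivity⟩, LipschitzWith.of_le_add_mul _ fun x y => ?_⟩
  refine mx_le F x hne fun r hr => ?_
  have h1 : s ≤ r := hR hr
  have h2 := h.av_lip x y (show 0 < r by linarith)
  have h3 := av_le_mx h.intF y hs hR hr
  have h4 : 2 * (∫ w, ‖G w‖) / r ^ 2 ≤ 2 * (∫ w, ‖G w‖) / s ^ 2 :=
    div_le_div_of_nonneg_left (by positivity) (by positivity) (by gcongr)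
  have h5 := mul_le_mul_of_nonneg_right h4 (norm_nonneg (x - y))
  rw [dist_eq_norm]
  have h6 := le_abs_self (av F x r - av F y r)
  change _ ≤ _ + 2 * (∫ w, ‖G w‖) / s ^ 2 * ‖x - y‖
  linarith

theorem Hyp.bb_lip (h : Hyp F G) (n : ℤ) : ∃ K, LipschitzWith K (bb F n) := by
  exact h.mx_lip (s := 2 ^ n) (by positivity) Icc_subset_Ici_self
    (nonempty_Icc.2 (zpow_le_zpow_right₀ one_le_two (by omega)))

theorem Hyp.aa_lip (h : Hyp F G) {n k : ℤ} (hnk : n ≤ k) : ∃ K, LipschitzWith K (aa F n k) := by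
  exact h.mx_lip (s := 2 ^ n) (by positivity) Icc_subset_Ici_self
    (nonempty_Icc.2 (zpow_le_zpow_right₀ one_le_two (by omega)))

theorem Hyp.av_le_bb (h : Hyp F G) (n : ℤ) (x : ℂ) {r : ℝ} (h1 : (2 : ℝ) ^ n ≤ r)
    (h2 : r ≤ 2 ^ (n + 1)) : av F x r ≤ bb F n x := by
  exact av_le_mx h.intF x (s := 2 ^ n) (by positivity) Icc_subset_Ici_self ⟨h1, h2⟩

theorem Hyp.exists_bb_eq (h : Hyp F G) (n : ℤ) (x : ℂ) :
    ∃ r : ℝ, (2 : ℝ) ^ n ≤ r ∧ r ≤ 2 ^ (n + 1) ∧ bb F n x = av F x r := by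
  have hne : (Icc ((2 : ℝ) ^ n) (2 ^ (n + 1))).Nonempty :=
    nonempty_Icc.2 (zpow_le_zpow_right₀ one_le_two (by omega))
  have hc : ContinuousOn (av F x) (Icc ((2 : ℝ) ^ n) (2 ^ (n + 1))) :=
    (h.continuousOn_av x).mono fun r hr => lt_of_lt_of_le (by positivity) hr.1
  obtain ⟨r, hr, e⟩ := isCompact_Icc.exists_sSup_image_eq hne hc
  exact ⟨r, hr.1, hr.2, e⟩

theorem Hyp.aa_eq_max (h : Hyp F G) {m k : ℤ} (hmk : m < k) (x : ℂ) :
    aa F m k x = max (bb F m x) (aa F (m + 1) k x) := by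
  have h1 : (2 : ℝ) ^ m ≤ 2 ^ (m + 1) := zpow_le_zpow_right₀ one_le_two (by omega)
  have h2 : (2 : ℝ) ^ (m + 1) ≤ 2 ^ (k + 1) := zpow_le_zpow_right₀ one_le_two (by omega)
  unfold aa bb
  rw [← Icc_union_Icc_eq_Icc h1 h2]
  exact mx_union h.intF x (s := 2 ^ m) (by positivity) Icc_subset_Ici_self
    (fun r hr => h1.trans hr.1) (nonempty_Icc.2 h1) (nonempty_Icc.2 h2)

theorem Hyp.aa_mono (h : Hyp F G) {n k n' k' : ℤ} (h1 : n' ≤ n) (h2 : n ≤ k) (h3 : k ≤ k')
    (x : ℂ) : aa F n k x ≤ aa F n' k' x := by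
  exact mx_mono h.intF x (s := 2 ^ n') (by positivity) Icc_subset_Ici_self
    (nonempty_Icc.2 (zpow_le_zpow_right₀ one_le_two (by omega)))
    (Icc_subset_Icc (zpow_le_zpow_right₀ one_le_two h1)
      (zpow_le_zpow_right₀ one_le_two (by omega)))

theorem Hyp.av_le_aa (h : Hyp F G) {n k : ℤ} (x : ℂ) {r : ℝ} (h1 : (2 : ℝ) ^ n ≤ r)
    (h2 : r ≤ 2 ^ (k + 1)) : av F x r ≤ aa F n k x := by
  exact av_le_mx h.intF x (s := 2 ^ n) (by positivity) Icc_subset_Ici_self ⟨h1, h2⟩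

theorem Hyp.exists_aa_eq_bb (h : Hyp F G) {n0 k : ℤ} (hk : n0 ≤ k) (x : ℂ) :
    ∃ n, n0 ≤ n ∧ n ≤ k ∧ aa F n0 k x = bb F n x := by
  induction n0, hk using Int.leInductionDown with
  | base => exact ⟨k, le_rfl, le_rfl, rfl⟩
  | pred n hn ih =>
    obtain ⟨j, j1, j2, j3⟩ := ih
    have h1 := h.aa_eq_max (show n - 1 < k by omega) x
    rw [sub_add_cancel] at h1
    rcases le_total (bb F (n - 1) x) (aa F n k x) with h2 | h2
    · exact ⟨j, by omega, j2, by rw [h1, max_eq_right h2, j3]⟩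
    · exact ⟨n - 1, le_rfl, by omega, by rw [h1, max_eq_left h2]⟩

/-- two functions that touch have the same derivative (`IsLocalMin.fderiv_eq_zero`) -/
theorem fderiv_eq_of_touch {u v : ℂ → ℝ} {x : ℂ} (hle : ∀ y, u y ≤ v y) (hx : u x = v x)
    (hu : DifferentiableAt ℝ u x) (hv : DifferentiableAt ℝ v x) : fderiv ℝ u x = fderiv ℝ v x := by
  have h1 : IsLocalMin (fun y => v y - u y) x :=
    Eventually.of_forall fun y => by
      have := hle y
      simp only
      linarith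
  have h2 := h1.fderiv_eq_zero
  rw [fderiv_fun_sub hv hu, sub_eq_zero] at h2
  exact h2.symm

theorem integrableOn_norm_fderiv {u : ℂ → ℝ} {K : NNReal} (hu : LipschitzWith K u) {U : Set ℂ}
    (hU : Bornology.IsBounded U) : IntegrableOn (fun x => ‖fderiv ℝ u x‖) U := by
  refine Measure.integrableOn_of_bounded (M := K) hU.measure_lt_top.ne
    (measurable_fderiv ℝ u).norm.aestronglyMeasurable (Eventually.of_forall fun x => ?_)
  rw [norm_norm]
  exact norm_fderiv_le_of_lipschitz ℝ hu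

theorem integrableOn_fderiv_apply {u : ℂ → ℝ} {K : NNReal} (hu : LipschitzWith K u) {U : Set ℂ}
    (hU : Bornology.IsBounded U) (e : ℂ) : IntegrableOn (fun x => fderiv ℝ u x e) U := by
  refine Measure.integrableOn_of_bounded (M := K * ‖e‖) hU.measure_lt_top.ne
    (measurable_fderiv_apply_const ℝ u e).aestronglyMeasurable (Eventually.of_forall fun x => ?_)
  exact ((fderiv ℝ u x).le_opNorm e).trans
    (mul_le_mul_of_nonneg_right (norm_fderiv_le_of_lipschitz ℝ hu) (norm_nonneg e))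

end Crest.Agent.R112
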