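import Crest.Agent.R112.Star

set_option autoImplicit false

namespace Crest.Agent.R112

open MeasureTheory Metric Set Filter Topology

/-! # Ceilings: elementary properties -/

variable {G : ℂ → ℂ} {n0 n1 : ℤ} {d : ℂ → ℝ}

theorem tent_nonneg (T : Cell) (x : ℂ) : 0 ≤ tent T x := le_max_left _ _

theorem tent_le (T : Cell) (x : ℂ) : tent T x ≤ 2 * 2 ^ T.1 := by
  have := cel_pos T.1
  have := norm_nonneg (x - cn T)
  exact max_le (by linarith) (by linarith)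

theorem tent_lip (T : Cell) (x y : ℂ) : tent T x ≤ tent T y + ‖x - y‖ / 32 := by
  have h1 := norm_sub_le_norm_sub_add_norm_sub y x (cn T)
  rw [norm_sub_rev y x] at h1
  have h2 : 2 * 2 ^ T.1 - ‖y - cn T‖ / 32 ≤ tent T y := le_max_right _ _
  have h3 := tent_nonneg T y
  have h4 := norm_nonneg (x - y)
  exact max_le (by linarith) (by linarith)

theorem norm_lt_of_tent_pos {T : Cell} {x : ℂ} (h : 0 < tent T x) :
    ‖x - cn T‖ < 64 * 2 ^ T.1 := by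
  rcases lt_max_iff.1 h with h | h
  · exact absurd h (lt_irrefl _)
  · linarith

theorem ceil_lip (hd : Ceil n1 d) : LipschitzWith (1 / 32) d := by
  refine LipschitzWith.of_le_add_mul _ fun x y => ?_
  have := hd.lip x y
  rw [dist_eq_norm]
  push_cast
  linarith

theorem ceil_pow_le {a b : ℤ} (h : a ≤ b) : (2 : ℝ) ^ a ≤ 2 ^ b :=
  zpow_le_zpow_right₀ one_le_two h

theorem ceil_lt_of_pow {a b : ℤ} (h : (2 : ℝ) ^ a < 2 ^ b) : a < b :=
  (zpow_lt_zpow_iff_right₀ one_lt_two).1 h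

theorem ceil_pow_add (a : ℤ) (n : ℕ) : (2 : ℝ) ^ (a + n) = 2 ^ n * 2 ^ a := by
  rw [zpow_add₀ two_ne_zero, zpow_natCast, mul_comm]

theorem ceil_pow_succ (a : ℤ) : (2 : ℝ) ^ (a + 1) = 2 * 2 ^ a := by
  rw [zpow_add_one₀ two_ne_zero, mul_comm]

theorem ceil_six {a b : ℤ} (h : a + 6 ≤ b) : 64 * (2 : ℝ) ^ a ≤ 2 ^ b := by
  have h1 := ceil_pow_add a 6
  have h2 := ceil_pow_le h
  push_cast at h1
  linarith

theorem Ceil.continuous (hd : Ceil n1 d) : Continuous d := by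
  exact (ceil_lip hd).continuous

theorem Ceil.lipschitz (hd : Ceil n1 d) : LipschitzWith (1 / 32) d := by
  exact ceil_lip hd

theorem Top.level_le (hd : Ceil n1 d) {W : Cell} (hW : Top d W) : W.1 ≤ n1 := by
  obtain ⟨x, -, h, -⟩ := hW
  exact (zpow_le_zpow_iff_right₀ one_lt_two).1 (h.trans (hd.le x))

/-- `‖x - x0‖ ≤ 15.5 * 2^k` for the witness `x0 ∈ cell W` -/
theorem top_ball (hd : Ceil n1 d) {W : Cell} (hW : Top d W) {x : ℂ}
    (hx : ‖x - cn W‖ ≤ 14 * 2 ^ W.1) : (2 : ℝ) ^ W.1 / 2 ≤ d x ∧ d x ≤ 5 / 2 * 2 ^ W.1 := by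
  obtain ⟨y, hy, h1, h2⟩ := hW
  have h3 := norm_sub_cn_le hy
  have h4 := norm_sub_le_norm_sub_add_norm_sub x (cn W) y
  rw [norm_sub_rev (cn W)] at h4
  have h5 := hd.lip x y
  have h6 := hd.lip y x
  rw [norm_sub_rev] at h6
  rw [ceil_pow_succ] at h2
  have := cel_pos W.1
  constructor <;> linarith

/-- at most three levels (`top_ball`), at most `29²` cells of each level (`card_near`) -/
theorem top_count (hd : Ceil n1 d) (y : ℂ) (𝒲 : Finset Cell)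
    (h : ∀ W ∈ 𝒲, Top d W ∧ ‖y - cn W‖ ≤ 14 * 2 ^ W.1) : 𝒲.card ≤ 2523 := by
  classical
  rcases 𝒲.eq_empty_or_nonempty with rfl | hne
  · simp
  obtain ⟨W0, hW0, hmax⟩ := 𝒲.exists_max_image Prod.fst hne
  have h1 := Finset.card_le_mul_card_image_of_maps_to (s := 𝒲) (f := Prod.fst)
    (t := Finset.Icc (W0.1 - 2) W0.1) (fun W hW => ?_) ((2 * 14 + 1) ^ 2) fun k _ =>
      card_near k y 14 _ fun W hW => ?_
  · rw [Int.card_Icc] at h1
    have h2 : (W0.1 + 1 - (W0.1 - 2)).toNat = 3 := by omega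
    rw [h2] at h1
    exact h1
  · have a := (top_ball hd (h W0 hW0).1 (h W0 hW0).2).1
    have b := (top_ball hd (h W hW).1 (h W hW).2).2
    have c := ceil_pow_add W.1 3
    have e := cel_pos W.1
    have f : W0.1 < W.1 + (3 : ℕ) := ceil_lt_of_pow (by linarith)
    have g := hmax W hW
    rw [Finset.mem_Icc]
    omega
  · obtain ⟨a, rfl⟩ := Finset.mem_filter.1 hW
    exact ⟨rfl, by exact_mod_cast (h W a).2⟩

/-- where the tent is positive, `‖x - cn W‖ ≤ 6 * 2^k`, `d x ≥ 2^k/2`, tent `≤ 2^k/32` -/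
theorem tent_le_half (hd : Ceil n1 d) {T : Cell} (hT : Sel G n0 d T) (x : ℂ) :
    tent T x ≤ d x / 2 := by
  obtain ⟨W, hW, ⟨-, h1, h2⟩, -⟩ := hT
  rcases (tent_nonneg T x).eq_or_lt with h | h
  · linarith [hd.nonneg x]
  have h3 := norm_lt_of_tent_pos h
  have h4 := ceil_six h1
  have h5 := norm_sub_le_norm_sub_add_norm_sub x (cn T) (cn W)
  have := cel_pos W.1
  have h6 := (top_ball hd hW (x := x) (by linarith)).1
  have h7 := tent_le T x
  linarith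

theorem ceil_ub (hd : Ceil n1 d) (G : ℂ → ℂ) (n0 : ℤ) (x : ℂ) :
    ∀ a ∈ insert 0 {s | ∃ T, Sel G n0 d T ∧ s = tent T x}, a ≤ d x / 2 := by
  rintro a (rfl | ⟨T, hT, rfl⟩)
  · linarith [hd.nonneg x]
  · exact tent_le_half hd hT x

theorem ceil_bdd (hd : Ceil n1 d) (G : ℂ → ℂ) (n0 : ℤ) (x : ℂ) :
    BddAbove (insert 0 {s | ∃ T, Sel G n0 d T ∧ s = tent T x}) :=
  ⟨_, ceil_ub hd G n0 x⟩

theorem ceil_next_nonneg (hd : Ceil n1 d) (G : ℂ → ℂ) (n0 : ℤ) (x : ℂ) : 0 ≤ next G n0 d x :=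
  le_csSup (ceil_bdd hd G n0 x) (mem_insert _ _)

theorem tent_le_next (hd : Ceil n1 d) {T : Cell} (hT : Sel G n0 d T) (x : ℂ) :
    tent T x ≤ next G n0 d x := by
  exact le_csSup (ceil_bdd hd G n0 x) (mem_insert_of_mem _ ⟨T, hT, rfl⟩)

theorem exists_tent_of_lt_next (hd : Ceil n1 d) {x : ℂ} {s : ℝ} (hs : 0 ≤ s)
    (h : s < next G n0 d x) : ∃ T, Sel G n0 d T ∧ s < tent T x := by
  obtain ⟨a, rfl | ⟨T, hT, rfl⟩, ha⟩ := exists_lt_of_lt_csSup (insert_nonempty _ _) h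
  · exact absurd ha hs.not_gt
  · exact ⟨T, hT, ha⟩

theorem next_le_half (hd : Ceil n1 d) (G : ℂ → ℂ) (n0 : ℤ) (x : ℂ) :
    next G n0 d x ≤ d x / 2 := by
  exact csSup_le (insert_nonempty _ _) (ceil_ub hd G n0 x)

theorem Ceil.next (hd : Ceil n1 d) (G : ℂ → ℂ) (n0 : ℤ) : Ceil n1 (next G n0 d) := by
  refine ⟨fun x y => csSup_le (insert_nonempty _ _) ?_, ceil_next_nonneg hd G n0, fun x => ?_⟩
  · rintro a (rfl | ⟨T, hT, rfl⟩)
    · linarith [ceil_next_nonneg hd G n0 y, norm_nonneg (x - y)]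
    · linarith [tent_lip T x y, tent_le_next hd hT y]
  · linarith [next_le_half hd G n0 x, hd.le x, hd.nonneg x]

theorem ceil_dseq (G : ℂ → ℂ) (n0 n1 : ℤ) (l : ℕ) : Ceil n1 (dseq G n0 n1 l) := by
  induction l with
  | zero =>
    refine ⟨fun x y => ?_, fun x => (cel_pos n1).le, fun x => le_rfl⟩
    exact le_add_of_nonneg_right (by positivity)
  | succ l ih => exact ih.next G n0

theorem dseq_add_le (G : ℂ → ℂ) (n0 n1 : ℤ) (l s : ℕ) (x : ℂ) :
    dseq G n0 n1 (l + s) x ≤ (1 / 2) ^ s * dseq G n0 n1 l x := by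
  induction s with
  | zero => simp
  | succ s ih =>
    have h : dseq G n0 n1 (l + (s + 1)) x ≤ dseq G n0 n1 (l + s) x / 2 :=
      next_le_half (ceil_dseq G n0 n1 (l + s)) G n0 x
    rw [pow_succ]
    linarith

/-- if `l0` is the least element then every `l ∈ L` has `l ≤ l0 + 4` -/
theorem lay_count (G : ℂ → ℂ) (n0 n1 : ℤ) (Q : Cell) (L : Finset ℕ)
    (h : ∀ l ∈ L, Lay (dseq G n0 n1 l) (dseq G n0 n1 (l + 1)) Q) : L.card ≤ 5 := by
  rcases L.eq_empty_or_nonempty with rfl | hne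
  · simp
  have h1 : L ⊆ Finset.Icc (L.min' hne) (L.min' hne + 4) := fun l hl => by
    refine Finset.mem_Icc.2 ⟨L.min'_le l hl, ?_⟩
    by_contra hc
    obtain ⟨s, rfl⟩ : ∃ s, l = L.min' hne + 1 + 4 + s := ⟨l - (L.min' hne + 5), by omega⟩
    obtain ⟨x, hx, h2⟩ := (h _ (L.min'_mem hne)).1
    obtain ⟨y, hy, h3⟩ := (h _ hl).2
    have h4 := dseq_add_le G n0 n1 (L.min' hne + 1 + 4) s y
    have h5 := dseq_add_le G n0 n1 (L.min' hne + 1) 4 y
    have h6 := (ceil_dseq G n0 n1 (L.min' hne + 1)).lip y x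
    have h7 := norm_sub_le_of_mem_cell hy hx
    have h8 := mul_le_of_le_one_left ((ceil_dseq G n0 n1 (L.min' hne + 1 + 4)).nonneg y)
      (pow_le_one₀ (by norm_num) (by norm_num) : (1 / 2 : ℝ) ^ s ≤ 1)
    have := cel_pos Q.1
    linarith
  have h2 := Finset.card_le_card h1
  rw [Nat.card_Icc] at h2
  omega

/-- every pair (point, scale) is caught by a top: take the least `l` with `d (l+1) x ≤ 2^n`;
if `l = 0` use `cellOf n1 x`, otherwise `cellOf (Int.log 2 (d l x)) x` -/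
theorem exists_stage (G : ℂ → ℂ) {n0 n1 n : ℤ} (h0 : n0 ≤ n) (h1 : n ≤ n1) (x : ℂ) :
    ∃ l : ℕ, l ≤ (n1 - n0).toNat ∧ ∃ W : Cell, x ∈ cell W ∧ Top (dseq G n0 n1 l) W ∧ n ≤ W.1 ∧
      dseq G n0 n1 (l + 1) x ≤ 2 ^ n := by
  classical
  have hex : dseq G n0 n1 ((n1 - n).toNat + 1) x ≤ 2 ^ n := by
    obtain ⟨k, rfl⟩ := Int.le.dest h1
    have h2 := dseq_add_le G n0 (n + k) 0 (k + 1) x
    have h3 : dseq G n0 (n + k) 0 x = 2 ^ k * 2 ^ n := ceil_pow_add n k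
    have h4 : (1 / 2 : ℝ) ^ k * 2 ^ k = 1 := by rw [← mul_pow]; norm_num
    have h5 : (1 / 2 : ℝ) ^ (k + 1) * (2 ^ k * 2 ^ n) = 2 ^ n / 2 := by
      rw [pow_succ]
      linear_combination (2 : ℝ) ^ n / 2 * h4
    rw [zero_add, h3, h5] at h2
    rw [add_sub_cancel_left, Int.toNat_natCast]
    linarith [cel_pos n]
  have hex' : ∃ l, dseq G n0 n1 (l + 1) x ≤ 2 ^ n := ⟨_, hex⟩
  have h2 := Nat.find_min' hex' hex
  have h3 := Nat.find_spec hex'
  refine ⟨Nat.find hex', by omega, ?_⟩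
  rcases hl : Nat.find hex' with _ | l
  · rw [hl] at h3
    refine ⟨cellOf n1 x, mem_cell_cellOf _ _, ⟨x, mem_cell_cellOf _ _, le_rfl, ?_⟩, h1, h3⟩
    exact zpow_lt_zpow_right₀ one_lt_two (lt_add_one n1)
  · have h4 := not_le.1 (Nat.find_min hex' (m := l) (by omega))
    obtain ⟨k, h5, h6⟩ := exists_mem_Ico_zpow ((cel_pos n).trans h4) one_lt_two
    rw [hl] at h3
    exact ⟨cellOf k x, mem_cell_cellOf _ _, ⟨x, mem_cell_cellOf _ _, h5, h6⟩,
      Int.lt_add_one_iff.1 (ceil_lt_of_pow (h4.trans h6)), h3⟩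

theorem top_dseq_zero (G : ℂ → ℂ) (n0 n1 : ℤ) (W : Cell) :
    Top (dseq G n0 n1 0) W ↔ W.1 = n1 := by
  constructor
  · rintro ⟨x, -, h1, h2⟩
    have h3 : W.1 ≤ n1 := (zpow_le_zpow_iff_right₀ one_lt_two).1 h1
    have h4 : n1 < W.1 + 1 := ceil_lt_of_pow h2
    omega
  · rintro rfl
    exact ⟨cn W, cn_mem_cell W, le_rfl, zpow_lt_zpow_right₀ one_lt_two (lt_add_one _)⟩

theorem norm_cn_sub_le_of_mem_fam {W Q : Cell} (h : n0 ≤ W.1) (hQ : Q ∈ fam W n0) :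
    ‖cn Q - cn W‖ ≤ 5 * 2 ^ W.1 := by
  have h1 := norm_sub_cn_le_of_mem_box (ρ := 3) (by norm_num) (by norm_num)
    (((mem_fam_iff h).1 hQ).2.2 (cn_mem_cell Q))
  linarith [cel_pos W.1]

/-- a low cell is not bad: otherwise it is `Sel` and its tent, `> 3/2 * 2^m` on the cell, is below
`next`; then `estar_le_Dstar` -/
theorem low_good (hG : Integrable G) (hd : Ceil n1 d) {W Q : Cell} (hW : Top d W) (h0 : n0 ≤ W.1)
    (hQ : Q ∈ lowsIn (next G n0 d) W n0) :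
    estar (eps (dir G W)) G Q ≤ 20 * Dstar G Q ∧ Lay d (next G n0 d) Q ∧ n0 ≤ Q.1 ∧ Q.1 ≤ n1 := by
  obtain ⟨h1, h2, x, hx, h3⟩ := mem_lowsIn.1 hQ
  have h4 := norm_cn_sub_le_of_mem_fam h0 h1
  have h5 := ((mem_fam_iff h0).1 h1).1
  have h6 := hW.level_le hd
  have p1 := cel_pos Q.1
  have p2 := cel_pos W.1
  refine ⟨estar_le_Dstar hG (norm_dir G W) (not_lt.1 fun hb => ?_),
    ⟨⟨x, hx, by linarith⟩, cn Q, cn_mem_cell Q, ?_⟩, h5, by omega⟩
  · have h7 := tent_le_next hd (G := G) (n0 := n0) ⟨W, hW, ⟨h5, h2, h4⟩, hb⟩ x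
    have h8 : 2 * 2 ^ Q.1 - ‖x - cn Q‖ / 32 ≤ tent Q x := le_max_right _ _
    linarith [norm_sub_cn_le hx]
  · linarith [(top_ball hd hW (x := cn Q) (by linarith)).1, ceil_six h2]

theorem top_next_lay (hd : Ceil n1 d) {W : Cell} (hW : Top (next G n0 d) W) :
    Lay d (next G n0 d) W := by
  obtain ⟨x, hx, h1, h2⟩ := hW
  rw [ceil_pow_succ] at h2
  have := cel_pos W.1
  exact ⟨⟨x, hx, by linarith⟩, x, hx, by linarith [next_le_half hd G n0 x]⟩

end Crest.Agent.R112
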