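import Crest.Agent.R112.Defs

set_option autoImplicit false
set_option linter.unusedVariables false

namespace Crest.Agent.R112

open MeasureTheory Metric Set Filter Topology

/-! # Dyadic cells: geometry and partitions -/

theorem cel_pos (n : ℤ) : (0 : ℝ) < 2 ^ n := zpow_pos two_pos n

theorem cel_le_iff (n a : ℤ) (t : ℝ) : (a : ℝ) * 2 ^ n ≤ t ↔ a ≤ ⌊t / 2 ^ n⌋ := by
  rw [Int.le_floor, le_div_iff₀ (cel_pos n)]

theorem cel_lt_iff (n a : ℤ) (t : ℝ) : t < (a : ℝ) * 2 ^ n ↔ ⌊t / 2 ^ n⌋ < a := by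
  rw [Int.floor_lt, div_lt_iff₀ (cel_pos n)]

theorem cel_mem_box_iff {Q : Cell} {o s : ℕ} {x : ℂ} :
    x ∈ box Q o s ↔ Q.2.1 - o ≤ ⌊x.re / 2 ^ Q.1⌋ ∧ ⌊x.re / 2 ^ Q.1⌋ < Q.2.1 - o + s ∧
      Q.2.2 - o ≤ ⌊x.im / 2 ^ Q.1⌋ ∧ ⌊x.im / 2 ^ Q.1⌋ < Q.2.2 - o + s := by
  simp only [← cel_le_iff, ← cel_lt_iff]
  push_cast
  rfl

theorem cel_mem_iff {P : Cell} {x : ℂ} :
    x ∈ cell P ↔ ⌊x.re / 2 ^ P.1⌋ = P.2.1 ∧ ⌊x.im / 2 ^ P.1⌋ = P.2.2 := by
  have h : x ∈ cell P ↔ P.2.1 ≤ ⌊x.re / 2 ^ P.1⌋ ∧ ⌊x.re / 2 ^ P.1⌋ < P.2.1 + 1 ∧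
      P.2.2 ≤ ⌊x.im / 2 ^ P.1⌋ ∧ ⌊x.im / 2 ^ P.1⌋ < P.2.2 + 1 := by
    simp only [← cel_le_iff, ← cel_lt_iff]
    push_cast
    rfl
  rw [h]
  omega

theorem mem_cell_cellOf (n : ℤ) (x : ℂ) : x ∈ cell (cellOf n x) := by
  exact cel_mem_iff.2 ⟨rfl, rfl⟩

theorem cellOf_eq_of_mem {P : Cell} {x : ℂ} (hx : x ∈ cell P) : cellOf P.1 x = P := by
  obtain ⟨h1, h2⟩ := cel_mem_iff.1 hx
  unfold cellOf
  rw [h1, h2]

theorem cn_mem_cell (P : Cell) : cn P ∈ cell P := by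
  have := cel_pos P.1
  refine ⟨le_rfl, ?_, le_rfl, ?_⟩ <;> simp only [cn] <;> linarith

theorem box_zero_one (Q : Cell) : box Q 0 1 = cell Q := by
  simp [box, cell]

theorem measurableSet_box (Q : Cell) (o s : ℕ) : MeasurableSet (box Q o s) := by
  unfold box
  exact (measurableSet_le measurable_const Complex.measurable_re).inter
    ((measurableSet_lt Complex.measurable_re measurable_const).inter
      ((measurableSet_le measurable_const Complex.measurable_im).inter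
        (measurableSet_lt Complex.measurable_im measurable_const)))

theorem measurableSet_cell (P : Cell) : MeasurableSet (cell P) := by
  rw [← box_zero_one]; exact measurableSet_box P 0 1

/-- use `Complex.volume_preserving_equiv_real_prod` -/
theorem volume_box (Q : Cell) (o s : ℕ) :
    volume (box Q o s) = ENNReal.ofReal ((s : ℝ) ^ 2 * 4 ^ Q.1) := by
  have h : box Q o s = Complex.measurableEquivRealProd ⁻¹'
      (Ico (((Q.2.1 : ℝ) - o) * 2 ^ Q.1) (((Q.2.1 : ℝ) - o + s) * 2 ^ Q.1) ×ˢ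
        Ico (((Q.2.2 : ℝ) - o) * 2 ^ Q.1) (((Q.2.2 : ℝ) - o + s) * 2 ^ Q.1)) := by
    ext w
    simp [box, and_assoc]
  rw [h, Complex.volume_preserving_equiv_real_prod.measure_preimage_equiv, Measure.volume_eq_prod,
    Measure.prod_prod, Real.volume_Ico, Real.volume_Ico, ← ENNReal.ofReal_mul]
  · congr 1
    have : (4 : ℝ) ^ Q.1 = 2 ^ Q.1 * 2 ^ Q.1 := by rw [← mul_zpow]; norm_num
    rw [this]; ring
  · have := cel_pos Q.1
    nlinarith [mul_nonneg (Nat.cast_nonneg (α := ℝ) s) this.le]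

theorem volume_cell (P : Cell) : volume (cell P) = ENNReal.ofReal ((4 : ℝ) ^ P.1) := by
  rw [← box_zero_one, volume_box]; simp

theorem mem_box_iff {Q : Cell} {o s : ℕ} {x : ℂ} :
    x ∈ box Q o s ↔ -(o : ℝ) * 2 ^ Q.1 ≤ (x - cn Q).re ∧ (x - cn Q).re < ((s : ℝ) - o) * 2 ^ Q.1 ∧
      -(o : ℝ) * 2 ^ Q.1 ≤ (x - cn Q).im ∧ (x - cn Q).im < ((s : ℝ) - o) * 2 ^ Q.1 := by
  simp only [box, mem_ofPred_eq, cn, Complex.sub_re, Complex.sub_im]
  constructor <;> rintro ⟨h1, h2, h3, h4⟩ <;> exact ⟨by linarith, by linarith, by linarith, by linarith⟩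

theorem mem_box_of_norm_lt {Q : Cell} {o s : ℕ} {x : ℂ} {ρ : ℝ} (ho : ρ ≤ o) (hs : ρ ≤ (s : ℝ) - o)
    (hx : ‖x - cn Q‖ < ρ * 2 ^ Q.1) : x ∈ box Q o s := by
  have a := abs_lt.1 ((Complex.abs_re_le_norm (x - cn Q)).trans_lt hx)
  have b := abs_lt.1 ((Complex.abs_im_le_norm (x - cn Q)).trans_lt hx)
  have h1 := mul_le_mul_of_nonneg_right ho (cel_pos Q.1).le
  have h2 := mul_le_mul_of_nonneg_right hs (cel_pos Q.1).le
  exact mem_box_iff.2 ⟨by linarith [a.1], by linarith [a.2], by linarith [b.1], by linarith [b.2]⟩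

theorem cel_norm_le {z : ℂ} {t : ℝ} (h1 : |z.re| ≤ t) (h2 : |z.im| ≤ t) : ‖z‖ ≤ 3 / 2 * t := by
  have ht : 0 ≤ t := (abs_nonneg _).trans h1
  refine abs_le_of_sq_le_sq' ?_ (by positivity) |>.2
  rw [Complex.sq_norm, Complex.normSq_apply]
  have a := sq_le_sq' (abs_le.1 h1).1 (abs_le.1 h1).2
  have b := sq_le_sq' (abs_le.1 h2).1 (abs_le.1 h2).2
  nlinarith

theorem norm_sub_cn_le_of_mem_box {Q : Cell} {o s : ℕ} {x : ℂ} {ρ : ℝ} (ho : (o : ℝ) ≤ ρ)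
    (hs : (s : ℝ) - o ≤ ρ) (hx : x ∈ box Q o s) : ‖x - cn Q‖ ≤ 3 / 2 * ρ * 2 ^ Q.1 := by
  obtain ⟨a1, a2, a3, a4⟩ := mem_box_iff.1 hx
  have h1 := mul_le_mul_of_nonneg_right ho (cel_pos Q.1).le
  have h2 := mul_le_mul_of_nonneg_right hs (cel_pos Q.1).le
  rw [mul_assoc]
  exact cel_norm_le (abs_le.2 ⟨by linarith, by linarith⟩) (abs_le.2 ⟨by linarith, by linarith⟩)

theorem norm_sub_cn_le {P : Cell} {x : ℂ} (hx : x ∈ cell P) : ‖x - cn P‖ ≤ 3 / 2 * 2 ^ P.1 := by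
  rw [← box_zero_one] at hx
  simpa using norm_sub_cn_le_of_mem_box (ρ := 1) (by simp) (by simp) hx

theorem norm_sub_le_of_mem_cell {P : Cell} {x y : ℂ} (hx : x ∈ cell P) (hy : y ∈ cell P) :
    ‖x - y‖ ≤ 3 / 2 * 2 ^ P.1 := by
  obtain ⟨a1, a2, a3, a4⟩ := hx
  obtain ⟨b1, b2, b3, b4⟩ := hy
  refine cel_norm_le (abs_le.2 ?_) (abs_le.2 ?_)
  · rw [Complex.sub_re]; exact ⟨by linarith, by linarith⟩
  · rw [Complex.sub_im]; exact ⟨by linarith, by linarith⟩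

theorem isBounded_box (Q : Cell) (o s : ℕ) : Bornology.IsBounded (box Q o s) := by
  refine (isBounded_closedBall (x := cn Q) (r := 3 / 2 * (o + s : ℝ) * 2 ^ Q.1)).subset
    fun x hx => ?_
  have h1 := Nat.cast_nonneg (α := ℝ) o
  have h2 := Nat.cast_nonneg (α := ℝ) s
  exact mem_closedBall_iff_norm.2 (norm_sub_cn_le_of_mem_box (by linarith) (by linarith) hx)

theorem cell_subset_box (Q : Cell) {o s : ℕ} (h : o < s) : cell Q ⊆ box Q o s := by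
  intro x hx
  obtain ⟨h1, h2⟩ := cel_mem_iff.1 hx
  rw [cel_mem_box_iff]
  omega

theorem cel_nest {m n a b c : ℤ} (h : m ≤ n) {x y : ℝ} (hx : ⌊x / 2 ^ m⌋ = a)
    (hy : ⌊y / 2 ^ m⌋ = a) (h1 : b ≤ ⌊x / 2 ^ n⌋) (h2 : ⌊x / 2 ^ n⌋ < c) :
    b ≤ ⌊y / 2 ^ n⌋ ∧ ⌊y / 2 ^ n⌋ < c := by
  obtain ⟨k, rfl⟩ := Int.le.dest h
  have e : ∀ d : ℤ, (d : ℝ) * 2 ^ (m + k) = ((d * 2 ^ k : ℤ) : ℝ) * 2 ^ m := fun d => by
    rw [zpow_add₀ two_ne_zero, zpow_natCast]; push_cast; ring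
  rw [← cel_le_iff, e, cel_le_iff] at h1 ⊢
  rw [← cel_lt_iff, e, cel_lt_iff] at h2
  rw [← cel_lt_iff (m + k), e, cel_lt_iff]
  rw [hx] at h1 h2
  rw [hy]
  exact ⟨h1, h2⟩

theorem cel_subset_box {P Q : Cell} {o s : ℕ} (h : P.1 ≤ Q.1) {x : ℂ} (hP : x ∈ cell P)
    (hQ : x ∈ box Q o s) : cell P ⊆ box Q o s := by
  intro y hy
  obtain ⟨a1, a2⟩ := cel_mem_iff.1 hP
  obtain ⟨b1, b2⟩ := cel_mem_iff.1 hy
  obtain ⟨c1, c2, c3, c4⟩ := cel_mem_box_iff.1 hQ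
  have d1 := cel_nest h a1 b1 c1 c2
  have d2 := cel_nest h a2 b2 c3 c4
  exact cel_mem_box_iff.2 ⟨d1.1, d1.2, d2.1, d2.2⟩

theorem mem_sub_iff {Q P : Cell} {o s j : ℕ} :
    P ∈ sub Q o s j ↔ P.1 = Q.1 - j ∧ cell P ⊆ box Q o s := by
  obtain ⟨n, a, b⟩ := P
  have key : n = Q.1 - j → (cn (n, a, b) ∈ box Q o s ↔
      ((Q.2.1 - o) * 2 ^ j ≤ a ∧ a < (Q.2.1 - o + s) * 2 ^ j) ∧
        (Q.2.2 - o) * 2 ^ j ≤ b ∧ b < (Q.2.2 - o + s) * 2 ^ j) := by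
    intro hn
    have h2 : (2 : ℝ) ^ Q.1 = 2 ^ j * 2 ^ n := by
      rw [hn, ← zpow_natCast, ← zpow_add₀ two_ne_zero]; congr 1; ring
    simp only [box, cn, mem_ofPred_eq, h2, ← mul_assoc, mul_le_mul_iff_left₀ (cel_pos n),
      mul_lt_mul_iff_left₀ (cel_pos n), and_assoc]
    norm_cast
  simp only [sub, Finset.mem_image, Finset.mem_product, Finset.mem_Ico, Prod.mk.injEq]
  constructor
  · rintro ⟨p, hp, rfl, rfl⟩
    exact ⟨rfl, cel_subset_box (by simp) (cn_mem_cell _) ((key rfl).2 hp)⟩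
  · rintro ⟨h1, h2⟩
    exact ⟨(a, b), (key h1).1 (h2 (cn_mem_cell _)), h1.symm, rfl⟩

theorem cellOf_mem_sub {Q : Cell} {o s : ℕ} (j : ℕ) {x : ℂ} (hx : x ∈ box Q o s) :
    cellOf (Q.1 - j) x ∈ sub Q o s j := by
  exact mem_sub_iff.2 ⟨rfl, cel_subset_box (by simp [cellOf]) (mem_cell_cellOf _ x) hx⟩

theorem card_sub (Q : Cell) (o s j : ℕ) : (sub Q o s j).card = s ^ 2 * 4 ^ j := by
  have e : ∀ a : ℤ, ((a + s) * 2 ^ j - a * 2 ^ j).toNat = s * 2 ^ j := fun a => by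
    rw [show (a + s) * 2 ^ j - a * 2 ^ j = ((s * 2 ^ j : ℕ) : ℤ) by push_cast; ring,
      Int.toNat_natCast]
  unfold sub
  rw [Finset.card_image_of_injective _ (fun p q h => (Prod.mk.inj h).2), Finset.card_product,
    Int.card_Ico, Int.card_Ico, e, e, show (4 : ℕ) = 2 * 2 by rfl, mul_pow]
  ring

theorem disjoint_cell {P P' : Cell} (h : P.1 = P'.1) (hne : P ≠ P') :
    Disjoint (cell P) (cell P') := by
  refine Set.disjoint_left.2 fun x hx hx' => hne ?_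
  rw [← cellOf_eq_of_mem hx, ← cellOf_eq_of_mem hx', h]

/-- two cells that meet are nested -/
theorem cell_subset_of_mem {P R : Cell} (h : P.1 ≤ R.1) {x : ℂ} (hP : x ∈ cell P)
    (hR : x ∈ cell R) : cell P ⊆ cell R := by
  rw [← box_zero_one R] at hR ⊢
  exact cel_subset_box h hP hR

/-- a cell that meets a block of a higher level lies inside it -/
theorem cell_subset_box_of_mem {P Q : Cell} {o s : ℕ} (h : P.1 ≤ Q.1) {x : ℂ} (hP : x ∈ cell P)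
    (hQ : x ∈ box Q o s) : cell P ⊆ box Q o s := by
  exact cel_subset_box h hP hQ

theorem level_le_of_subset {P R : Cell} (h : cell P ⊆ cell R) : P.1 ≤ R.1 := by
  have := measure_mono (μ := volume) h
  rw [volume_cell, volume_cell, ENNReal.ofReal_le_ofReal_iff (by positivity)] at this
  exact (zpow_le_zpow_iff_right₀ (by norm_num)).1 this

theorem eq_of_subset {P R : Cell} (h : cell P ⊆ cell R) (h1 : P.1 = R.1) : P = R := by
  rw [← cellOf_eq_of_mem (cn_mem_cell P), h1, cellOf_eq_of_mem (h (cn_mem_cell P))]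

/-- the cells of depth `j` partition the block -/
theorem integral_box_eq_sum {E : Type*} [NormedAddCommGroup E] [NormedSpace ℝ E] {f : ℂ → E}
    {Q : Cell} {o s : ℕ} (j : ℕ) (hf : IntegrableOn f (box Q o s)) :
    ∫ w in box Q o s, f w = ∑ P ∈ sub Q o s j, ∫ w in cell P, f w := by
  have hU : box Q o s = ⋃ P ∈ sub Q o s j, cell P := by
    refine Subset.antisymm (fun x hx => ?_) (iUnion₂_subset fun P hP => (mem_sub_iff.1 hP).2)
    exact mem_biUnion (cellOf_mem_sub j hx) (mem_cell_cellOf _ x)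
  rw [← integral_biUnion_finset _ (fun P _ => measurableSet_cell P)
    (fun P hP P' hP' hne => disjoint_cell
      ((mem_sub_iff.1 hP).1.trans (mem_sub_iff.1 hP').1.symm) hne)
    fun P hP => hf.mono_set (mem_sub_iff.1 hP).2, ← hU]

/-- a finite family of distinct cells of one level: the integrals add up to at most the integral
over any measurable set containing them -/
theorem sum_integral_cell_le {f : ℂ → ℝ} {U : Set ℂ} (hU : MeasurableSet U) (hf : IntegrableOn f U)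
    (hf0 : ∀ w, 0 ≤ f w) {n : ℤ} (𝒬 : Finset Cell) (h : ∀ Q ∈ 𝒬, Q.1 = n ∧ cell Q ⊆ U) :
    ∑ Q ∈ 𝒬, ∫ w in cell Q, f w ≤ ∫ w in U, f w := by
  rw [← integral_biUnion_finset _ (fun P _ => measurableSet_cell P)
    (fun P hP P' hP' hne => disjoint_cell ((h P hP).1.trans (h P' hP').1.symm) hne)
    fun P hP => hf.mono_set (h P hP).2]
  exact setIntegral_mono_set hf (Eventually.of_forall hf0)
    (LE.le.eventuallyLE (iUnion₂_subset fun P hP => (h P hP).2))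

/-- a nonnegative function supported in a finite union of cells -/
theorem integral_le_sum_cell {f : ℂ → ℝ} (hf : Integrable f) (hf0 : ∀ w, 0 ≤ f w)
    (𝒬 : Finset Cell) (h : ∀ w, f w ≠ 0 → ∃ Q ∈ 𝒬, w ∈ cell Q) :
    ∫ w, f w ≤ ∑ Q ∈ 𝒬, ∫ w in cell Q, f w := by
  simp only [← integral_indicator (measurableSet_cell _)]
  have hi : ∀ Q ∈ 𝒬, Integrable ((cell Q).indicator f) := fun Q _ =>
    hf.indicator (measurableSet_cell Q)
  rw [← integral_finsetSum _ hi]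
  refine integral_mono hf (integrable_finsetSum _ hi) fun w => ?_
  have h0 : ∀ Q ∈ 𝒬, 0 ≤ (cell Q).indicator f w := fun Q _ =>
    indicator_nonneg (fun w _ => hf0 w) w
  by_cases hw : f w = 0
  · exact hw.le.trans (Finset.sum_nonneg h0)
  · obtain ⟨Q, hQ, hwQ⟩ := h w hw
    have := Finset.single_le_sum h0 hQ
    rwa [indicator_of_mem hwQ] at this

theorem cel_card (k a b : ℤ) (s : ℕ) (𝒲 : Finset Cell)
    (h : ∀ W ∈ 𝒲, W.1 = k ∧ W.2.1 ∈ Finset.Ioc (a - s) a ∧ W.2.2 ∈ Finset.Ioc (b - s) b) :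
    𝒲.card ≤ s ^ 2 := by
  have := Finset.card_le_card_of_injOn (s := 𝒲) (t := Finset.Ioc (a - s) a ×ˢ Finset.Ioc (b - s) b)
    Prod.snd (fun W hW => Finset.mem_coe.2 (Finset.mem_product.2 (h W hW).2))
    fun W hW W' hW' e => Prod.ext ((h W hW).1.trans (h W' hW').1.symm) e
  simpa [sq] using this

/-- few cells of one level have their corner near a given point -/
theorem card_near (k : ℤ) (y : ℂ) (ρ : ℕ) (𝒲 : Finset Cell)
    (h : ∀ W ∈ 𝒲, W.1 = k ∧ ‖y - cn W‖ ≤ ρ * 2 ^ k) : 𝒲.card ≤ (2 * ρ + 1) ^ 2 := by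
  have key : ∀ (t : ℝ) (i : ℤ), |t - i * 2 ^ k| ≤ ρ * 2 ^ k →
      i ∈ Finset.Ioc (⌊t / 2 ^ k⌋ + ρ - (2 * ρ + 1 : ℕ)) (⌊t / 2 ^ k⌋ + ρ) := by
    intro t i hi
    obtain ⟨h1, h2⟩ := abs_le.1 hi
    have a1 : i - ρ ≤ ⌊t / 2 ^ k⌋ := (cel_le_iff k _ t).1 (by push_cast; linarith)
    have a2 : ⌊t / 2 ^ k⌋ < i + ρ + 1 :=
      (cel_lt_iff k _ t).1 (by push_cast; linarith [cel_pos k])
    rw [Finset.mem_Ioc]
    push_cast
    omega
  refine cel_card k _ _ _ 𝒲 fun W hW => ⟨(h W hW).1, key y.re _ ?_, key y.im _ ?_⟩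
  · have := (Complex.abs_re_le_norm _).trans (h W hW).2
    rwa [Complex.sub_re, cn, (h W hW).1] at this
  · have := (Complex.abs_im_le_norm _).trans (h W hW).2
    rwa [Complex.sub_im, cn, (h W hW).1] at this

/-- a point lies in at most `s ^ 2` blocks of cells of one level -/
theorem card_box_mem (k : ℤ) (y : ℂ) (o s : ℕ) (𝒲 : Finset Cell)
    (h : ∀ W ∈ 𝒲, W.1 = k ∧ y ∈ box W o s) : 𝒲.card ≤ s ^ 2 := by
  refine cel_card k (⌊y.re / 2 ^ k⌋ + o) (⌊y.im / 2 ^ k⌋ + o) s 𝒲 fun W hW => ?_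
  obtain ⟨h1, h2⟩ := h W hW
  rw [cel_mem_box_iff, h1] at h2
  simp only [Finset.mem_Ioc]
  omega

theorem mem_fam_iff {W Q : Cell} {n0 : ℤ} (h : n0 ≤ W.1) :
    Q ∈ fam W n0 ↔ n0 ≤ Q.1 ∧ Q.1 ≤ W.1 ∧ cell Q ⊆ box W 3 6 := by
  simp only [fam, Finset.mem_biUnion, Finset.mem_range, mem_sub_iff]
  constructor
  · rintro ⟨j, h1, h2, h3⟩
    exact ⟨by omega, by omega, h3⟩
  · rintro ⟨h1, h2, h3⟩
    exact ⟨(W.1 - Q.1).toNat, by omega, by omega, h3⟩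

end Crest.Agent.R112
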