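import Crest.Agent.R112.Basic
import Crest.Agent.R112.Ceil

set_option autoImplicit false

namespace Crest.Agent.R112

open MeasureTheory Metric Set Filter Topology

/-! # The cutoff functions of a tree -/

/-- cutoff for the tree with top `W`, at the scale `m` -/
noncomputable def chi (W : Cell) (d' : ℂ → ℝ) (m : ℤ) (x : ℂ) : ℝ :=
  max 0 (min 1 (3 - ‖x - cn W‖ / 2 ^ W.1)) * max 0 (min 1 (3 - 2 * (d' x / 2 ^ m)))

variable {W : Cell} {d' : ℂ → ℝ} {n1 : ℤ}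

theorem Chi_cl_nonneg (t : ℝ) : 0 ≤ max 0 (min 1 t) := le_max_left _ _

theorem Chi_cl_le_one (t : ℝ) : max 0 (min 1 t) ≤ 1 := max_le zero_le_one (min_le_left _ _)

theorem Chi_cl_lip (s t : ℝ) : |max 0 (min 1 s) - max 0 (min 1 t)| ≤ |s - t| := by
  have h1 : |max 0 (min 1 s) - max 0 (min 1 t)| ≤ |min 1 s - min 1 t| := by
    rw [max_comm 0, max_comm 0]; exact abs_max_sub_max_le_abs _ _ _
  refine h1.trans ?_
  rcases le_total 1 s with h | h <;> rcases le_total 1 t with h' | h' <;>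
    simp only [min_eq_left, min_eq_right, h, h'] <;> rw [abs_le] <;> constructor <;>
    cases abs_cases (s - t) <;> linarith

theorem Chi_cl_one {t : ℝ} (h : 1 ≤ t) : max 0 (min 1 t) = 1 := by
  rw [min_eq_left h, max_eq_right zero_le_one]

theorem Chi_cl_zero {t : ℝ} (h : t ≤ 0) : max 0 (min 1 t) = 0 :=
  max_eq_left ((min_le_right _ _).trans h)

theorem Chi_A_lip (W : Cell) (x y : ℂ) :
    |max 0 (min 1 (3 - ‖x - cn W‖ / 2 ^ W.1)) - max 0 (min 1 (3 - ‖y - cn W‖ / 2 ^ W.1))| ≤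
      ((2 : ℝ) ^ W.1)⁻¹ * ‖x - y‖ := by
  refine (Chi_cl_lip _ _).trans ?_
  have hp : (0 : ℝ) < 2 ^ W.1 := by positivity
  have e : 3 - ‖x - cn W‖ / 2 ^ W.1 - (3 - ‖y - cn W‖ / 2 ^ W.1) =
      ((2 : ℝ) ^ W.1)⁻¹ * (‖y - cn W‖ - ‖x - cn W‖) := by field_simp; ring
  rw [e, abs_mul, abs_of_pos (inv_pos.2 hp)]
  refine mul_le_mul_of_nonneg_left ?_ (inv_pos.2 hp).le
  have := abs_norm_sub_norm_le (y - cn W) (x - cn W)
  rwa [sub_sub_sub_cancel_right, norm_sub_rev y x] at this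

theorem Chi_B_lip (hd : Ceil n1 d') (m : ℤ) (x y : ℂ) :
    |max 0 (min 1 (3 - 2 * (d' x / 2 ^ m))) - max 0 (min 1 (3 - 2 * (d' y / 2 ^ m)))| ≤
      ((2 : ℝ) ^ m)⁻¹ * ‖x - y‖ := by
  refine (Chi_cl_lip _ _).trans ?_
  have hp : (0 : ℝ) < 2 ^ m := by positivity
  have e : 3 - 2 * (d' x / 2 ^ m) - (3 - 2 * (d' y / 2 ^ m)) =
      ((2 : ℝ) ^ m)⁻¹ * (2 * (d' y - d' x)) := by field_simp; ring
  rw [e, abs_mul, abs_of_pos (inv_pos.2 hp)]
  refine mul_le_mul_of_nonneg_left ?_ (inv_pos.2 hp).le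
  have h1 := hd.lip x y
  have h2 := hd.lip y x
  rw [norm_sub_rev y x] at h2
  have := norm_nonneg (x - y)
  rw [abs_le]; constructor <;> linarith

theorem Chi_mul_lip {a a' b b' : ℝ} (ha : 0 ≤ a') (ha1 : a' ≤ 1) (hb : 0 ≤ b) (hb1 : b ≤ 1) :
    |a * b - a' * b'| ≤ |a - a'| + |b - b'| := by
  have e : a * b - a' * b' = (a - a') * b + a' * (b - b') := by ring
  rw [e]
  refine (abs_add_le _ _).trans (add_le_add ?_ ?_)
  · rw [abs_mul, abs_of_nonneg hb]; exact mul_le_of_le_one_right (abs_nonneg _) hb1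
  · rw [abs_mul, abs_of_nonneg ha]; exact mul_le_of_le_one_left (abs_nonneg _) ha1

theorem Chi_lip (hd : Ceil n1 d') (W : Cell) (m : ℤ) (x y : ℂ) :
    |chi W d' m x - chi W d' m y| ≤ (((2 : ℝ) ^ W.1)⁻¹ + ((2 : ℝ) ^ m)⁻¹) * ‖x - y‖ := by
  unfold chi
  refine (Chi_mul_lip (Chi_cl_nonneg _) (Chi_cl_le_one _) (Chi_cl_nonneg _)
    (Chi_cl_le_one _)).trans ?_
  rw [add_mul]
  exact add_le_add (Chi_A_lip W x y) (Chi_B_lip hd m x y)

theorem chi_nonneg (W : Cell) (d' : ℂ → ℝ) (m : ℤ) (x : ℂ) : 0 ≤ chi W d' m x := mul_nonneg (Chi_cl_nonneg _) (Chi_cl_nonneg _)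

theorem chi_le_one (W : Cell) (d' : ℂ → ℝ) (m : ℤ) (x : ℂ) : chi W d' m x ≤ 1 := mul_le_one₀ (Chi_cl_le_one _) (Chi_cl_nonneg _) (Chi_cl_le_one _)

theorem chi_mono (hd : Ceil n1 d') (W : Cell) (m : ℤ) (x : ℂ) :
    chi W d' m x ≤ chi W d' (m + 1) x := by
  unfold chi
  refine mul_le_mul_of_nonneg_left (max_le_max le_rfl (min_le_min le_rfl ?_)) (Chi_cl_nonneg _)
  have hp : (0 : ℝ) < 2 ^ m := by positivity
  have h1 : (2 : ℝ) ^ m ≤ 2 ^ (m + 1) := zpow_le_zpow_right₀ (by norm_num) (by omega)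
  have := div_le_div_of_nonneg_left (hd.nonneg x) hp h1
  linarith

theorem chi_eq_one {m : ℤ} {x : ℂ} (hx : x ∈ cell W) (h : d' x ≤ 2 ^ m) : chi W d' m x = 1 := by
  unfold chi
  have hp : (0 : ℝ) < 2 ^ m := by positivity
  have hk : (0 : ℝ) < 2 ^ W.1 := by positivity
  obtain ⟨h1, h2, h3, h4⟩ := hx
  have hn : ‖x - cn W‖ ≤ 2 * 2 ^ W.1 := by
    refine (Complex.norm_le_abs_re_add_abs_im _).trans ?_
    have e1 : (x - cn W).re = x.re - (W.2.1 : ℝ) * 2 ^ W.1 := by simp [cn]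
    have e2 : (x - cn W).im = x.im - (W.2.2 : ℝ) * 2 ^ W.1 := by simp [cn]
    rw [e1, e2, abs_of_nonneg (by linarith), abs_of_nonneg (by linarith)]
    linarith
  have a1 : ‖x - cn W‖ / 2 ^ W.1 ≤ 2 := by rwa [div_le_iff₀ hk]
  have a2 : d' x / 2 ^ m ≤ 1 := by rwa [div_le_one hp]
  rw [Chi_cl_one (by linarith), Chi_cl_one (by linarith), one_mul]

theorem of_chi_ne_zero {m : ℤ} {x : ℂ} (h : chi W d' m x ≠ 0) :
    ‖x - cn W‖ < 3 * 2 ^ W.1 ∧ d' x < 3 / 2 * 2 ^ m := by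
  unfold chi at h
  have hp : (0 : ℝ) < 2 ^ m := by positivity
  have hk : (0 : ℝ) < 2 ^ W.1 := by positivity
  constructor
  · by_contra h1
    push Not at h1
    have : 3 ≤ ‖x - cn W‖ / 2 ^ W.1 := by rwa [le_div_iff₀ hk]
    exact h (by rw [Chi_cl_zero (t := 3 - ‖x - cn W‖ / 2 ^ W.1) (by linarith), zero_mul])
  · by_contra h1
    push Not at h1
    have : 3 / 2 ≤ d' x / 2 ^ m := by rwa [le_div_iff₀ hp]
    exact h (by rw [Chi_cl_zero (t := 3 - 2 * (d' x / 2 ^ m)) (by linarith), mul_zero])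

theorem chi_lip (hd : Ceil n1 d') (W : Cell) (m : ℤ) : ∃ K, LipschitzWith K (chi W d' m) := by
  have hp : (0 : ℝ) ≤ ((2 : ℝ) ^ W.1)⁻¹ + ((2 : ℝ) ^ m)⁻¹ := by positivity
  refine ⟨⟨_, hp⟩, LipschitzWith.of_dist_le_mul fun x y => ?_⟩
  rw [Real.dist_eq, dist_eq_norm]
  exact Chi_lip hd W m x y

theorem chi_compact (W : Cell) (d' : ℂ → ℝ) (m : ℤ) : HasCompactSupport (chi W d' m) := by
  refine HasCompactSupport.intro (isCompact_closedBall (cn W) (3 * 2 ^ W.1)) fun x hx => ?_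
  by_contra h
  exact hx (mem_closedBall_iff_norm.2 (of_chi_ne_zero h).1.le)

/-- Recipe: bound `‖fderiv‖` by a local Lipschitz constant (`norm_fderiv_le_of_lip'`).  Globally
`|chi x - chi y| ≤ (2^(-k) + 2^(-m)/16) ‖x - y‖` (both factors are in `[0,1]`); near a point with
`d' < 2^m` the second factor is `1`; near a point with `3/2 * 2^m < d'` it is `0`.  Outside the open
ball `chi x = 0` is a minimum, so the derivative is `0` (`IsLocalMin.fderiv_eq_zero`). -/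
theorem norm_fderiv_chi_le (hd : Ceil n1 d') (W : Cell) (m : ℤ) (x : ℂ) :
    ‖fderiv ℝ (chi W d' m) x‖ ≤
      if ‖x - cn W‖ < 3 * 2 ^ W.1 then
        ((2 : ℝ) ^ W.1)⁻¹ + (if (2 : ℝ) ^ m ≤ d' x ∧ d' x ≤ 3 / 2 * 2 ^ m then ((2 : ℝ) ^ m)⁻¹ else 0)
      else 0 := by
  have hp : (0 : ℝ) < 2 ^ m := by positivity
  have hk : (0 : ℝ) < 2 ^ W.1 := by positivity
  split_ifs with h1 h2
  · exact norm_fderiv_le_of_lip' ℝ (by positivity)
      (Eventually.of_forall fun y => Chi_lip hd W m y x)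
  · rw [add_zero]
    refine norm_fderiv_le_of_lip' ℝ (by positivity) ?_
    rw [not_and_or, not_le, not_le] at h2
    rcases h2 with h2 | h2
    · have hev : ∀ᶠ y in 𝓝 x, d' y < 2 ^ m :=
        hd.continuous.continuousAt.eventually_lt continuousAt_const h2
      filter_upwards [hev] with y hy
      have a1 : d' x / 2 ^ m ≤ 1 := by rw [div_le_one hp]; exact h2.le
      have a2 : d' y / 2 ^ m ≤ 1 := by rw [div_le_one hp]; exact hy.le
      unfold chi
      rw [Chi_cl_one (t := 3 - 2 * (d' x / 2 ^ m)) (by linarith),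
        Chi_cl_one (t := 3 - 2 * (d' y / 2 ^ m)) (by linarith), mul_one, mul_one]
      exact Chi_A_lip W y x
    · have hev : ∀ᶠ y in 𝓝 x, 3 / 2 * 2 ^ m < d' y :=
        continuousAt_const.eventually_lt hd.continuous.continuousAt h2
      filter_upwards [hev] with y hy
      have a1 : 3 / 2 ≤ d' x / 2 ^ m := by rw [le_div_iff₀ hp]; exact h2.le
      have a2 : 3 / 2 ≤ d' y / 2 ^ m := by rw [le_div_iff₀ hp]; exact hy.le
      unfold chi
      rw [Chi_cl_zero (t := 3 - 2 * (d' x / 2 ^ m)) (by linarith),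
        Chi_cl_zero (t := 3 - 2 * (d' y / 2 ^ m)) (by linarith), mul_zero, mul_zero, sub_zero,
        norm_zero]
      positivity
  · have h0 : chi W d' m x = 0 := by
      by_contra h
      exact h1 (of_chi_ne_zero h).1
    have hmin : IsLocalMin (chi W d' m) x :=
      Eventually.of_forall fun y => by rw [h0]; exact chi_nonneg W d' m y
    rw [hmin.fderiv_eq_zero, norm_zero]

end Crest.Agent.R112
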