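import Crest.Agent.R112.PackSel
import Crest.Agent.R112.Anti

set_option autoImplicit false

namespace Crest.Agent.R112

open MeasureTheory Metric Set Filter Topology

/-! # Packing: the tops of the next ceiling are paid by the defect -/

theorem sum_comp_le_mul {ι κ : Type*} [DecidableEq κ] (I : Finset ι) (f : ι → κ) {g : κ → ℝ}
    (hg : ∀ k, 0 ≤ g k) {N : ℕ} (hN : ∀ k, (I.filter (fun i => f i = k)).card ≤ N) :
    ∑ i ∈ I, g (f i) ≤ N * ∑ k ∈ I.image f, g k := by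
  rw [Finset.sum_comp g f, Finset.mul_sum]
  refine Finset.sum_le_sum fun k _ => ?_
  rw [nsmul_eq_mul]
  exact mul_le_mul_of_nonneg_right (by exact_mod_cast hN k) (hg k)

theorem sum_sum_le_mul {ι κ : Type*} [DecidableEq κ] (I : Finset ι) (𝒮 : ι → Finset κ) {g : κ → ℝ}
    (hg : ∀ k, 0 ≤ g k) {N : ℕ} (hN : ∀ k, (I.filter (fun i => k ∈ 𝒮 i)).card ≤ N) :
    ∑ i ∈ I, ∑ k ∈ 𝒮 i, g k ≤ N * ∑ k ∈ I.biUnion 𝒮, g k := by
  rw [Finset.sum_comm' (t' := I.biUnion 𝒮) (s' := fun k => I.filter (fun i => k ∈ 𝒮 i)),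
    Finset.mul_sum]
  · refine Finset.sum_le_sum fun k _ => ?_
    rw [Finset.sum_const, nsmul_eq_mul]
    exact mul_le_mul_of_nonneg_right (by exact_mod_cast hN k) (hg k)
  · intro i k
    simp only [Finset.mem_filter, Finset.mem_biUnion]
    exact ⟨fun h => ⟨h, i, h.1, h.2⟩, fun h => h.1⟩

open Classical in
/-- grouping an antichain by keys `(U, R)` : `R` is an ancestor, `U` gives the direction -/
theorem group_ineq {G : ℂ → ℂ} (hG : Integrable G) (𝒜 : Finset Cell)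
    (hdis : ∀ P ∈ 𝒜, ∀ P' ∈ 𝒜, P ≠ P' → Disjoint (cell P) (cell P')) (κ : Cell → Cell × Cell)
    (hκ : ∀ P ∈ 𝒜, cell P ⊆ cell (κ P).2 ∧ (κ P).1.1 ≤ (κ P).2.1 ∧
      cell (κ P).2 ⊆ box (κ P).1 128 256) {N1 N2 : ℕ}
    (h1 : ∀ U, ((𝒜.image κ).filter (fun k => k.1 = U)).card ≤ N1)
    (h2 : ∀ y : ℂ, ((𝒜.image κ).filter (fun k => y ∈ cell k.2)).card ≤ N2) :
    ∃ 𝒮 : Finset Cell, (∀ Q ∈ 𝒮, ∃ P ∈ 𝒜, Q = (κ P).1 ∨
        (P.1 < Q.1 ∧ cell P ⊆ cell Q ∧ cell Q ⊆ cell (κ P).2)) ∧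
      ∑ P ∈ 𝒜, Phi (dir G (κ P).1) (V G P) ≤ (N1 + 2 * N2) * ∑ Q ∈ 𝒮, Dstar G Q := by
  have hk : ∀ k : Cell × Cell, ∃ 𝒮 : Finset Cell,
      (∀ Q ∈ 𝒮, cell Q ⊆ cell k.2 ∧ ∃ P ∈ 𝒜.filter (fun P => κ P = k), P.1 < Q.1 ∧ cell P ⊆ cell Q) ∧
      ∑ P ∈ 𝒜.filter (fun P => κ P = k), Phi (dir G k.1) (V G P) ≤
        Phi (dir G k.1) (V G k.2) + ∑ Q ∈ 𝒮, Dc G Q := by
    intro k
    refine antichain_ineq hG (norm_dir G k.1) k.2 _ (fun P hP => ?_) (fun P hP P' hP' => ?_)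
    · obtain ⟨a, b⟩ := Finset.mem_filter.1 hP
      rw [← b]; exact (hκ P a).1
    · exact hdis P (Finset.mem_filter.1 hP).1 P' (Finset.mem_filter.1 hP').1
  choose 𝒮 h𝒮 hsum using hk
  set K := 𝒜.image κ with hK
  refine ⟨K.image Prod.fst ∪ K.biUnion 𝒮, fun Q hQ => ?_, ?_⟩
  · rcases Finset.mem_union.1 hQ with h | h
    · obtain ⟨k, hk, rfl⟩ := Finset.mem_image.1 h
      obtain ⟨P, hP, rfl⟩ := Finset.mem_image.1 hk
      exact ⟨P, hP, Or.inl rfl⟩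
    · obtain ⟨k, -, hQk⟩ := Finset.mem_biUnion.1 h
      obtain ⟨a, P, hP, b, c⟩ := h𝒮 k Q hQk
      obtain ⟨hP1, hP2⟩ := Finset.mem_filter.1 hP
      exact ⟨P, hP1, Or.inr ⟨b, c, by rw [hP2]; exact a⟩⟩
  · have e1 : ∑ P ∈ 𝒜, Phi (dir G (κ P).1) (V G P) =
        ∑ k ∈ K, ∑ P ∈ 𝒜.filter (fun P => κ P = k), Phi (dir G k.1) (V G P) := by
      rw [← Finset.sum_fiberwise_of_maps_to (s := 𝒜) (t := K) (g := κ)
        (fun P hP => Finset.mem_image_of_mem κ hP)]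
      refine Finset.sum_congr rfl fun k _ => Finset.sum_congr rfl fun P hP => ?_
      rw [(Finset.mem_filter.1 hP).2]
    have e2 : ∑ k ∈ K, ∑ P ∈ 𝒜.filter (fun P => κ P = k), Phi (dir G k.1) (V G P) ≤
        ∑ k ∈ K, Dstar G k.1 + 2 * ∑ k ∈ K, ∑ Q ∈ 𝒮 k, Dstar G Q := by
      rw [Finset.mul_sum, ← Finset.sum_add_distrib]
      refine Finset.sum_le_sum fun k hk => (hsum k).trans (add_le_add ?_ ?_)
      · obtain ⟨P, hP, rfl⟩ := Finset.mem_image.1 hk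
        exact Phi_le_Dstar hG (hκ P hP).2.1 (hκ P hP).2.2
      · rw [Finset.mul_sum]
        exact Finset.sum_le_sum fun Q _ => Dc_le_Dstar hG Q
    have e3 := sum_comp_le_mul K Prod.fst (Dstar_nonneg hG) h1
    have e4 := sum_sum_le_mul K 𝒮 (Dstar_nonneg hG) (N := N2) fun Q => by
      refine le_trans (Finset.card_le_card fun k hk => ?_) (h2 (cn Q))
      obtain ⟨a, b⟩ := Finset.mem_filter.1 hk
      exact Finset.mem_filter.2 ⟨a, (h𝒮 k Q b).1 (cn_mem_cell Q)⟩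
    have e5 : ∑ k ∈ K.image Prod.fst, Dstar G k ≤
        ∑ Q ∈ K.image Prod.fst ∪ K.biUnion 𝒮, Dstar G Q :=
      Finset.sum_le_sum_of_subset_of_nonneg Finset.subset_union_left
        fun Q _ _ => Dstar_nonneg hG Q
    have e6 : ∑ k ∈ K.biUnion 𝒮, Dstar G k ≤ ∑ Q ∈ K.image Prod.fst ∪ K.biUnion 𝒮, Dstar G Q :=
      Finset.sum_le_sum_of_subset_of_nonneg Finset.subset_union_right
        fun Q _ _ => Dstar_nonneg hG Q
    have e7 := mul_le_mul_of_nonneg_left e5 (Nat.cast_nonneg (α := ℝ) N1)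
    have e8 := mul_le_mul_of_nonneg_left e6 (Nat.cast_nonneg (α := ℝ) N2)
    rw [e1]
    linarith

open Classical in
/-- packing for one antichain of Whitney type cells -/
theorem pack_antichain {G : ℂ → ℂ} (hG : Integrable G) {n0 n1 : ℤ} {d : ℂ → ℝ} (hd : Ceil n1 d)
    (𝒜 : Finset Cell) (hdis : ∀ P ∈ 𝒜, ∀ P' ∈ 𝒜, P ≠ P' → Disjoint (cell P) (cell P'))
    (h𝒜 : ∀ P ∈ 𝒜, n0 ≤ P.1 ∧ ∀ y ∈ cell P, (2 : ℝ) ^ P.1 / 2 ≤ next G n0 d y ∧
      next G n0 d y ≤ 5 / 2 * 2 ^ P.1) :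
    ∃ 𝒮 : Finset Cell, (∀ Q ∈ 𝒮, Lay d (next G n0 d) Q ∧ n0 ≤ Q.1 ∧ Q.1 ≤ n1) ∧
      ∑ P ∈ 𝒜, ‖V G P‖ ≤ 64 * 6706 * ∑ Q ∈ 𝒮, Dstar G Q := by
  obtain ⟨q0, t0, w0, hsel, hq⟩ := pack_select (G := G) (n0 := n0) hd
  have hP : ∀ P ∈ 𝒜, ∃ y ∈ cell P, (2 : ℝ) ^ P.1 / 2 ≤ next G n0 d y := fun P hP =>
    ⟨cn P, cn_mem_cell P, ((h𝒜 P hP).2 _ (cn_mem_cell P)).1⟩
  set r0 : Cell → Cell := fun P => cellOf (w0 (q0 P)).1 (cn (q0 P)) with hr0
  -- geometry of `r0`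
  have hr : ∀ P ∈ 𝒜, cell (q0 P) ⊆ cell (r0 P) ∧
      ∀ w ∈ cell (r0 P), ‖w - cn (w0 (q0 P))‖ ≤ 8 * 2 ^ (w0 (q0 P)).1 := by
    intro P hPA
    obtain ⟨-, a2, a3, -, a5, -⟩ := hsel P (hP P hPA)
    refine ⟨cell_subset_of_mem (by have := a5.2.1; simp only [hr0, cellOf]; omega)
      (cn_mem_cell _) (mem_cell_cellOf _ _), fun w hw => ?_⟩
    have b1 := norm_sub_le_of_mem_cell (P := r0 P) hw (mem_cell_cellOf (w0 (q0 P)).1 (cn (q0 P)))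
    have b2 := a3 _ (cn_mem_cell _)
    have b3 := a5.2.2
    have b4 : (2 : ℝ) ^ ((t0 (q0 P)).1 + (6 : ℕ)) ≤ 2 ^ (w0 (q0 P)).1 :=
      zpow_le_iff.2 (by have := a5.2.1; push_cast; omega)
    rw [two_zpow_add_nat] at b4
    have b5 : ‖w - cn (w0 (q0 P))‖ ≤ ‖w - cn (q0 P)‖ + ‖cn (q0 P) - cn (w0 (q0 P))‖ :=
      norm_sub_le_norm_sub_add_norm_sub _ _ _
    have b6 : ‖cn (q0 P) - cn (w0 (q0 P))‖ ≤ ‖cn (q0 P) - cn (t0 (q0 P))‖ +
        ‖cn (t0 (q0 P)) - cn (w0 (q0 P))‖ := norm_sub_le_norm_sub_add_norm_sub _ _ _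
    have b1' : ‖w - cn (q0 P)‖ ≤ 3 / 2 * 2 ^ (w0 (q0 P)).1 := b1
    have c3 : (0 : ℝ) < 2 ^ (w0 (q0 P)).1 := by positivity
    norm_num at b4
    linarith
  -- strict ancestors below `r0` are in the layer
  have hlay : ∀ P ∈ 𝒜, ∀ Q : Cell, P.1 < Q.1 → cell P ⊆ cell Q → cell Q ⊆ cell (r0 P) →
      Lay d (next G n0 d) Q ∧ n0 ≤ Q.1 ∧ Q.1 ≤ n1 := by
    intro P hPA Q h1 h2 h3
    obtain ⟨-, -, -, a4, -⟩ := hsel P (hP P hPA)
    have b1 : Q.1 ≤ (w0 (q0 P)).1 := level_le_of_subset (R := r0 P) h3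
    have b2 := Top.level_le hd a4
    have b3 := (h𝒜 P hPA).1
    refine ⟨⟨⟨cn P, h2 (cn_mem_cell P), ?_⟩, cn Q, cn_mem_cell Q, ?_⟩, by omega, by omega⟩
    · have c1 := ((h𝒜 P hPA).2 _ (cn_mem_cell P)).2
      have c2 : (2 : ℝ) ^ P.1 ≤ 2 ^ Q.1 := zpow_le_iff.2 h1.le
      have c3 : (0 : ℝ) < 2 ^ Q.1 := by positivity
      linarith
    · have c1 := (hr P hPA).2 _ (h3 (cn_mem_cell Q))
      have c3 : (0 : ℝ) < 2 ^ (w0 (q0 P)).1 := by positivity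
      have c2 := (top_ball hd a4 (x := cn Q) (by linarith)).1
      have c4 : (2 : ℝ) ^ Q.1 ≤ 2 ^ (w0 (q0 P)).1 := zpow_le_iff.2 b1
      linarith
  obtain ⟨𝒮1, hS1, hs1⟩ := group_ineq hG 𝒜 hdis (fun P => (t0 (q0 P), q0 P)) (N1 := 1369) (N2 := 1)
    (fun P hPA => by
      obtain ⟨a1, a2, a3, -⟩ := hsel P (hP P hPA)
      refine ⟨a1, by simp only; omega, fun w hw => ?_⟩
      have c3 : (0 : ℝ) < 2 ^ (t0 (q0 P)).1 := by positivity
      exact mem_box_of_norm_lt (ρ := 128) (by norm_num) (by norm_num)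
        (by have := a3 w hw; simp only; linarith))
    (fun U => by
      rw [← Finset.card_image_of_injOn (f := Prod.snd) (fun k hk k' hk' h =>
        Prod.ext ((Finset.mem_filter.1 hk).2.trans (Finset.mem_filter.1 hk').2.symm) h)]
      refine card_near (U.1 + 2) (cn U) 18 _ fun Q hQ => ?_
      obtain ⟨k, hk, rfl⟩ := Finset.mem_image.1 hQ
      obtain ⟨hk1, hk2⟩ := Finset.mem_filter.1 hk
      obtain ⟨P, hPA, rfl⟩ := Finset.mem_image.1 hk1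
      obtain ⟨a1, a2, a3, -⟩ := hsel P (hP P hPA)
      simp only at hk2 ⊢
      rw [hk2] at a2 a3
      refine ⟨a2, ?_⟩
      have b1 := a3 _ (cn_mem_cell _)
      have b2 := two_zpow_add_nat U.1 2
      have c3 : (0 : ℝ) < 2 ^ U.1 := by positivity
      push_cast at b2 ⊢
      rw [norm_sub_rev, b2]
      linarith)
    (fun y => by
      refine Finset.card_le_one.2 fun k hk k' hk' => ?_
      obtain ⟨hk1, hk2⟩ := Finset.mem_filter.1 hk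
      obtain ⟨hk1', hk2'⟩ := Finset.mem_filter.1 hk'
      obtain ⟨P, hPA, rfl⟩ := Finset.mem_image.1 hk1
      obtain ⟨P', hPA', rfl⟩ := Finset.mem_image.1 hk1'
      have : q0 P = q0 P' := by
        by_contra hne
        exact Set.disjoint_left.1 (hq P P' (hP P hPA) (hP P' hPA') hne) hk2 hk2'
      simp only [this])
  obtain ⟨𝒮2, hS2, hs2⟩ := group_ineq hG 𝒜 hdis (fun P => (w0 (q0 P), r0 P)) (N1 := 289)
    (N2 := 2523)
    (fun P hPA => by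
      obtain ⟨a1, -⟩ := hsel P (hP P hPA)
      refine ⟨a1.trans (hr P hPA).1, le_rfl, fun w hw => ?_⟩
      have c3 : (0 : ℝ) < 2 ^ (w0 (q0 P)).1 := by positivity
      exact mem_box_of_norm_lt (ρ := 128) (by norm_num) (by norm_num)
        (by have := (hr P hPA).2 w hw; simp only; linarith))
    (fun U => by
      rw [← Finset.card_image_of_injOn (f := Prod.snd) (fun k hk k' hk' h =>
        Prod.ext ((Finset.mem_filter.1 hk).2.trans (Finset.mem_filter.1 hk').2.symm) h)]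
      refine card_near U.1 (cn U) 8 _ fun Q hQ => ?_
      obtain ⟨k, hk, rfl⟩ := Finset.mem_image.1 hQ
      obtain ⟨hk1, hk2⟩ := Finset.mem_filter.1 hk
      obtain ⟨P, hPA, rfl⟩ := Finset.mem_image.1 hk1
      have b1 := (hr P hPA).2 _ (cn_mem_cell _)
      simp only at hk2 ⊢
      refine ⟨by rw [← hk2]; rfl, ?_⟩
      rw [hk2] at b1
      push_cast
      rw [norm_sub_rev]
      exact b1)
    (fun y => by
      rw [← Finset.card_image_of_injOn (f := Prod.fst) (fun k hk k' hk' h => by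
        obtain ⟨hk1, hk2⟩ := Finset.mem_filter.1 hk
        obtain ⟨hk1', hk2'⟩ := Finset.mem_filter.1 hk'
        obtain ⟨P, hPA, rfl⟩ := Finset.mem_image.1 hk1
        obtain ⟨P', hPA', rfl⟩ := Finset.mem_image.1 hk1'
        refine Prod.ext h ?_
        simp only at h hk2 hk2' ⊢
        rw [← cellOf_eq_of_mem hk2, ← cellOf_eq_of_mem hk2']
        simp only [hr0, cellOf, h])]
      refine top_count hd y _ fun W hW => ?_
      obtain ⟨k, hk, rfl⟩ := Finset.mem_image.1 hW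
      obtain ⟨hk1, hk2⟩ := Finset.mem_filter.1 hk
      obtain ⟨P, hPA, rfl⟩ := Finset.mem_image.1 hk1
      obtain ⟨-, -, -, a4, -⟩ := hsel P (hP P hPA)
      refine ⟨a4, ?_⟩
      have b1 := (hr P hPA).2 _ hk2
      have c3 : (0 : ℝ) < 2 ^ (w0 (q0 P)).1 := by positivity
      simp only
      linarith)
  refine ⟨𝒮1 ∪ 𝒮2, fun Q hQ => ?_, ?_⟩
  · rcases Finset.mem_union.1 hQ with h | h
    · obtain ⟨P, hPA, h | ⟨b1, b2, b3⟩⟩ := hS1 Q h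
      · obtain ⟨-, -, -, a4, a5, -, a7⟩ := hsel P (hP P hPA)
        have := Top.level_le hd a4
        have := a5.2.1
        simp only at h
        rw [h]
        exact ⟨a7, a5.1, by omega⟩
      · exact hlay P hPA Q b1 b2 (b3.trans (hr P hPA).1)
    · obtain ⟨P, hPA, h | ⟨b1, b2, b3⟩⟩ := hS2 Q h
      · obtain ⟨-, -, -, a4, a5, -, a7⟩ := hsel P (hP P hPA)
        have c1 := Top.level_le hd a4
        have c2 := a5.2.1
        have c3 := a5.1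
        simp only at h
        rw [h]
        refine ⟨?_, by omega, c1⟩
        obtain ⟨x, hx, d1, d2⟩ := a4
        have d3 := next_le_half hd G n0 x
        have d4 : (0 : ℝ) < 2 ^ (w0 (q0 P)).1 := by positivity
        rw [two_zpow_succ] at d2
        exact ⟨⟨x, hx, by linarith⟩, x, hx, by linarith⟩
      · exact hlay P hPA Q b1 b2 b3
  · have e1 : ∑ P ∈ 𝒜, ‖V G P‖ ≤ 64 * (∑ P ∈ 𝒜, Phi (dir G (t0 (q0 P))) (V G P) +
        ∑ P ∈ 𝒜, Phi (dir G (w0 (q0 P))) (V G P)) := by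
      rw [← Finset.sum_add_distrib, Finset.mul_sum]
      refine Finset.sum_le_sum fun P hPA => ?_
      obtain ⟨-, -, -, -, -, a6, -⟩ := hsel P (hP P hPA)
      exact norm_le_Phi (norm_dir _ _) (norm_dir _ _) a6 _
    have e5 : ∑ Q ∈ 𝒮1, Dstar G Q ≤ ∑ Q ∈ 𝒮1 ∪ 𝒮2, Dstar G Q :=
      Finset.sum_le_sum_of_subset_of_nonneg Finset.subset_union_left
        fun Q _ _ => Dstar_nonneg hG Q
    have e6 : ∑ Q ∈ 𝒮2, Dstar G Q ≤ ∑ Q ∈ 𝒮1 ∪ 𝒮2, Dstar G Q :=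
      Finset.sum_le_sum_of_subset_of_nonneg Finset.subset_union_right
        fun Q _ _ => Dstar_nonneg hG Q
    push_cast at hs1 hs2
    linarith

/-- Recipe.  `d' = next G n0 d`.  By `cost_split` and `top_next_lay` it is enough to bound
`∑_{W' ∈ 𝒯} S ‖·‖ G W' 8 17 0 ≤ 289 ∑_{P ∈ 𝒫} ‖V G P‖`, `𝒫 = 𝒯.biUnion (sub · 8 17 0)` (same level;
`card_box_mem` / `S_overlap`-type multiplicity `17²`).  On `P ∈ 𝒫` (level `k' ≥ n0`) we have
`2^k'/2 ≤ d' ≤ 5/2 * 2^k'` (`top_ball` for `d'`, `norm_sub_cn_le_of_mem_box`), so nested cells of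
`𝒫` differ by at most 2 levels: split `𝒫` in three ANTICHAINS `𝒜` by the level mod 3.
`pack_select` gives for `P ∈ 𝒜` cells `Q0 = q0 P`, `T0 = t0 Q0`, `W0 = w0 Q0`; `k = W0.1 ≥ T0.1 + 6`.
`cell Q0 ⊆ box T0 128 256` (distance `≤ 70 * 2^T0.1`).  `R0 = cellOf k (cn Q0)` has
`cell R0 ⊆ closedBall (cn W0) (8 * 2^k) ⊆ box W0 128 256`.  `Lay d d' W0` holds (`next_le_half`).
`‖V P‖ ≤ 64 (Phi (dir T0) (V P) + Phi (dir W0) (V P))` (`norm_le_Phi`).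
* group `𝒜` by `Q0`: `antichain_ineq` with `R = Q0`, `v = dir T0`; `Phi_le_Dstar`; each `T` is `T0`
  of at most `(2 * 18 + 1)²` cells `Q0` (`card_near`); the `𝒮`-sets of different `Q0` are disjoint;
* group `𝒜` by the pair `(W0, R0)`: `antichain_ineq` with `R = R0`, `v = dir W0`; each `W` occurs
  with at most `17²` cells `R0`; a cell `Q` is in the `𝒮`-set of at most `2523` pairs (`top_count` at
  `y = cn Q`; `R0` is determined by `W0.1` and `Q`).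
Every `Q` of an `𝒮`-set contains a `P` of lower level and lies in some `R0`, hence is in
`Lay d d'` with `n0 ≤ Q.1 ≤ n1`; `Dc_le_Dstar`.  Take for `𝒮` the union of everything used. -/
theorem packing : ∃ C : ℝ, 0 < C ∧ ∀ (G : ℂ → ℂ), Integrable G → ∀ (n0 n1 : ℤ) (d : ℂ → ℝ),
    Ceil n1 d → ∀ 𝒯 : Finset Cell, (∀ W ∈ 𝒯, Top (next G n0 d) W ∧ n0 ≤ W.1) →
    ∃ 𝒮 : Finset Cell, (∀ Q ∈ 𝒮, Lay d (next G n0 d) Q ∧ n0 ≤ Q.1 ∧ Q.1 ≤ n1) ∧
      ∑ W ∈ 𝒯, cost G W ≤ C * ∑ Q ∈ 𝒮, Dstar G Q := by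
  refine ⟨65 * 289 * (3 * (64 * 6706)) + 1, by norm_num, fun G hG n0 n1 d hd 𝒯 h𝒯 => ?_⟩
  have hd' := hd.next G n0
  set PP := 𝒯.biUnion (fun W => sub W 8 17 0) with hPP
  have hP : ∀ P ∈ PP, n0 ≤ P.1 ∧ ∀ y ∈ cell P, (2 : ℝ) ^ P.1 / 2 ≤ next G n0 d y ∧
      next G n0 d y ≤ 5 / 2 * 2 ^ P.1 := by
    intro P hP
    obtain ⟨W, hW, hPW⟩ := Finset.mem_biUnion.1 hP
    obtain ⟨a1, a2⟩ := mem_sub_iff.1 hPW
    have a3 : P.1 = W.1 := by simpa using a1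
    refine ⟨a3 ▸ (h𝒯 W hW).2, fun y hy => ?_⟩
    have b1 := norm_sub_cn_le_of_mem_box (ρ := 9) (by norm_num) (by norm_num) (a2 hy)
    have c3 : (0 : ℝ) < 2 ^ W.1 := by positivity
    rw [a3]
    exact top_ball hd' (h𝒯 W hW).1 (by linarith)
  have hA : ∀ c : ℤ, ∃ 𝒮 : Finset Cell, (∀ Q ∈ 𝒮, Lay d (next G n0 d) Q ∧ n0 ≤ Q.1 ∧ Q.1 ≤ n1) ∧
      ∑ P ∈ PP.filter (fun P => P.1 % 3 = c), ‖V G P‖ ≤ 64 * 6706 * ∑ Q ∈ 𝒮, Dstar G Q := by
    intro c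
    refine pack_antichain hG hd _ ?_ fun P hPA => hP P (Finset.mem_filter.1 hPA).1
    have aux : ∀ P ∈ PP, ∀ P' ∈ PP, ∀ x ∈ cell P, x ∈ cell P' → P'.1 < P.1 + 3 := by
      intro P h1 P' h2 x hx hx'
      have b1 := ((hP P h1).2 x hx).2
      have b2 := ((hP P' h2).2 x hx').1
      have c3 : (0 : ℝ) < 2 ^ P.1 := by positivity
      have b3 : (2 : ℝ) ^ P'.1 < 2 ^ (P.1 + (3 : ℕ)) := by
        rw [two_zpow_add_nat]; norm_num; linarith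
      simpa using zpow_lt_iff.1 b3
    intro P h1 P' h2 hne
    obtain ⟨a1, a2⟩ := Finset.mem_filter.1 h1
    obtain ⟨a3, a4⟩ := Finset.mem_filter.1 h2
    rw [Set.disjoint_left]
    intro x hx hx'
    have b1 := aux P a1 P' a3 x hx hx'
    have b2 := aux P' a3 P a1 x hx' hx
    exact Set.disjoint_left.1 (disjoint_cell (by omega) hne) hx hx'
  choose 𝒮 h𝒮 hs using hA
  refine ⟨𝒯 ∪ (𝒮 0 ∪ (𝒮 1 ∪ 𝒮 2)), fun Q hQ => ?_, ?_⟩
  · simp only [Finset.mem_union] at hQ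
    rcases hQ with h | h | h | h
    · exact ⟨top_next_lay hd (h𝒯 Q h).1, (h𝒯 Q h).2, Top.level_le hd' (h𝒯 Q h).1⟩
    · exact h𝒮 _ Q h
    · exact h𝒮 _ Q h
    · exact h𝒮 _ Q h
  · have e1 : ∑ W ∈ 𝒯, cost G W ≤
        65 * ∑ W ∈ 𝒯, ∑ P ∈ sub W 8 17 0, ‖V G P‖ + ∑ W ∈ 𝒯, Dstar G W := by
      rw [Finset.mul_sum, ← Finset.sum_add_distrib]
      exact Finset.sum_le_sum fun W _ => cost_split hG W
    have e2 := sum_sum_le_mul 𝒯 (fun W => sub W 8 17 0) (g := fun P => ‖V G P‖)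
      (fun _ => norm_nonneg _) (N := 289) fun P => by
        refine card_box_mem P.1 (cn P) 8 17 _ fun W hW => ?_
        obtain ⟨a1, a2⟩ := mem_sub_iff.1 (Finset.mem_filter.1 hW).2
        exact ⟨by simpa using a1.symm, a2 (cn_mem_cell P)⟩
    have e3 : ∑ P ∈ PP, ‖V G P‖ = ∑ c ∈ ({0, 1, 2} : Finset ℤ),
        ∑ P ∈ PP.filter (fun P => P.1 % 3 = c), ‖V G P‖ :=
      (Finset.sum_fiberwise_of_maps_to (fun P _ => by
        simp only [Finset.mem_insert, Finset.mem_singleton]; omega) _).symm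
    rw [Finset.sum_insert (by decide), Finset.sum_insert (by decide), Finset.sum_singleton] at e3
    have sub_le : ∀ A : Finset Cell, A ⊆ 𝒯 ∪ (𝒮 0 ∪ (𝒮 1 ∪ 𝒮 2)) →
        ∑ Q ∈ A, Dstar G Q ≤ ∑ Q ∈ 𝒯 ∪ (𝒮 0 ∪ (𝒮 1 ∪ 𝒮 2)), Dstar G Q := fun A hA =>
      Finset.sum_le_sum_of_subset_of_nonneg hA fun Q _ _ => Dstar_nonneg hG Q
    have f0 := sub_le 𝒯 Finset.subset_union_left
    have f1 := sub_le (𝒮 0) (fun Q h => by simp [h])
    have f2 := sub_le (𝒮 1) (fun Q h => by simp [h])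
    have f3 := sub_le (𝒮 2) (fun Q h => by simp [h])
    have g0 := hs 0
    have g1 := hs 1
    have g2 := hs 2
    push_cast at e2
    linarith

end Crest.Agent.R112
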