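import Crest.Agent.R112.Tree
import Crest.Agent.R112.Pack

set_option autoImplicit false

namespace Crest.Agent.R112

open MeasureTheory Metric Set Filter Topology

/-! # Summation over all trees -/

theorem core_dc {α β : Type} [DecidableEq β] (𝒯 : Finset α) (N : α → Finset β) {c : β → ℝ}
    (hc : ∀ q, 0 ≤ c q) (M : ℕ)
    (h : ∀ (q : β) (𝒲 : Finset α), (∀ W ∈ 𝒲, W ∈ 𝒯 ∧ q ∈ N W) → 𝒲.card ≤ M) :
    ∑ W ∈ 𝒯, ∑ q ∈ N W, c q ≤ M * ∑ q ∈ 𝒯.biUnion N, c q := by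
  rw [Finset.sum_comm' (t' := 𝒯.biUnion N) (s' := fun q => 𝒯.filter fun W => q ∈ N W),
    Finset.mul_sum]
  · refine Finset.sum_le_sum fun q _ => ?_
    rw [Finset.sum_const, nsmul_eq_mul]
    refine mul_le_mul_of_nonneg_right ?_ (hc q)
    exact_mod_cast h q _ fun W hW => Finset.mem_filter.1 hW
  · intro W q
    simp only [Finset.mem_filter, Finset.mem_biUnion]
    exact ⟨fun h => ⟨h, W, h.1, h.2⟩, fun h => h.1⟩

theorem core_isBounded_cell (W : Cell) : Bornology.IsBounded (cell W) := by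
  rw [← box_zero_one]
  exact isBounded_box W 0 1

theorem core_isBounded_Zs (F : ℂ → ℝ) (n0 n1 : ℤ) (W : Cell) (d' : ℂ → ℝ) :
    Bornology.IsBounded (Zs F n0 n1 W d') :=
  (core_isBounded_cell W).subset fun _ hx => hx.1

/-- Recipe.  For `W ∈ 𝒯` use `tree_lemma` with `ε = eps (dir G W)` and the two directions of
`cone_eps`, `cone_eps'`, and `norm_le_two_dir`.  With `d' = next G n0 d`:
`∑_W ∑_{Q ∈ topsIn d' W n0} cost Q ≤ 2523 ∑_{Q ∈ ⋃} cost Q` (`top_count` at `y = cn Q`,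
`norm_cn_sub_le_of_mem_fam`, `Finset.sum_comm'`-type double counting), then `packing`;
`∑_W ∑_{Q ∈ lowsIn d' W n0} estar ≤ 20 * 2523 ∑_{Q ∈ ⋃} Dstar Q` (`low_good`). -/
theorem stage_lemma : ∃ C : ℝ, 0 < C ∧ ∀ (F : ℂ → ℝ) (G : ℂ → ℂ), Hyp F G →
    ∀ (n0 n1 : ℤ) (d : ℂ → ℝ), Ceil n1 d → ∀ (𝒯 : Finset Cell) (ω : Cell → ℝ),
    (∀ W ∈ 𝒯, Top d W ∧ n0 ≤ W.1) → (∀ W, 0 ≤ ω W ∧ ω W ≤ 1) →
    ∃ 𝒮 : Finset Cell, (∀ Q ∈ 𝒮, Lay d (next G n0 d) Q ∧ n0 ≤ Q.1 ∧ Q.1 ≤ n1) ∧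
      ∑ W ∈ 𝒯, ω W * ∫ x in Zs F n0 n1 W (next G n0 d), ‖fderiv ℝ (aa F n0 n1) x‖ ≤
        C * (∑ W ∈ 𝒯, ω W * cost G W + ∑ Q ∈ 𝒮, Dstar G Q) := by
  classical
  obtain ⟨C₁, hC₁, h₁⟩ := tree_lemma
  obtain ⟨C₂, hC₂, h₂⟩ := packing
  refine ⟨20 * C₁ * (1 + 2523 * C₂ + 50460), by positivity, ?_⟩
  intro F G h n0 n1 d hd 𝒯 ω h𝒯 hω
  have hG := h.intG
  have hd' := hd.next G n0
  obtain ⟨ℛ, hP1, hP2⟩ := h₂ G hG n0 n1 d hd (𝒯.biUnion fun W => topsIn (next G n0 d) W n0) (by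
    intro Q hQ
    obtain ⟨W, hW, hQ⟩ := Finset.mem_biUnion.1 hQ
    rw [mem_topsIn] at hQ
    exact ⟨hQ.2, ((mem_fam_iff (h𝒯 W hW).2).1 hQ.1).1⟩)
  have hcount : ∀ (Q : Cell) (𝒲 : Finset Cell), (∀ W ∈ 𝒲, W ∈ 𝒯 ∧ Q ∈ fam W n0) →
      𝒲.card ≤ 2523 := by
    intro Q 𝒲 hW
    refine top_count hd (cn Q) 𝒲 fun W hW' => ⟨(h𝒯 W (hW W hW').1).1, ?_⟩
    refine (norm_cn_sub_le_of_mem_fam (h𝒯 W (hW W hW').1).2 (hW W hW').2).trans ?_
    have : (0 : ℝ) < 2 ^ W.1 := by positivity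
    linarith
  have hT := core_dc 𝒯 (fun W => topsIn (next G n0 d) W n0) (cost_nonneg G) 2523
    fun Q 𝒲 hW => hcount Q 𝒲 fun W hW' => ⟨(hW W hW').1, (mem_topsIn.1 (hW W hW').2).1⟩
  have hL := core_dc 𝒯 (fun W => lowsIn (next G n0 d) W n0) (Dstar_nonneg hG) 2523
    fun Q 𝒲 hW => hcount Q 𝒲 fun W hW' => ⟨(hW W hW').1, (mem_lowsIn.1 (hW W hW').2).1⟩
  refine ⟨ℛ ∪ 𝒯.biUnion fun W => lowsIn (next G n0 d) W n0, ?_, ?_⟩
  · intro Q hQ
    rcases Finset.mem_union.1 hQ with hQ | hQ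
    · exact hP1 Q hQ
    · obtain ⟨W, hW, hQ⟩ := Finset.mem_biUnion.1 hQ
      exact (low_good hG hd (h𝒯 W hW).1 (h𝒯 W hW).2 hQ).2
  have hone : ∀ W ∈ 𝒯, ω W * ∫ x in Zs F n0 n1 W (next G n0 d), ‖fderiv ℝ (aa F n0 n1) x‖ ≤
      20 * C₁ * (ω W * cost G W + ∑ Q ∈ topsIn (next G n0 d) W n0, cost G Q +
        20 * ∑ Q ∈ lowsIn (next G n0 d) W n0, Dstar G Q) := by
    intro W hW
    obtain ⟨hW1, hW2⟩ := h𝒯 W hW
    have hW3 := Top.level_le hd hW1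
    obtain ⟨K, hK⟩ := h.aa_lip (hW2.trans hW3)
    have hv := norm_dir G W
    have a1 := h₁ F G h _ _ (cone_eps hv) n0 n1 W hW2 hW3 _ hd'
    have a2 := h₁ F G h _ _ (cone_eps' hv) n0 n1 W hW2 hW3 _ hd'
    have hb := core_isBounded_Zs F n0 n1 W (next G n0 d)
    have i1 : IntegrableOn (fun x => |fderiv ℝ (aa F n0 n1) x (dir G W)|)
      (Zs F n0 n1 W (next G n0 d)) := (integrableOn_fderiv_apply hK hb _).abs
    have i2 : IntegrableOn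
      (fun x => |fderiv ℝ (aa F n0 n1) x (dir G W * (24 - 7 * Complex.I) / 25)|)
      (Zs F n0 n1 W (next G n0 d)) := (integrableOn_fderiv_apply hK hb _).abs
    have a3 : ∫ x in Zs F n0 n1 W (next G n0 d), ‖fderiv ℝ (aa F n0 n1) x‖ ≤
        ∫ x in Zs F n0 n1 W (next G n0 d), 10 * (|fderiv ℝ (aa F n0 n1) x (dir G W)| +
          |fderiv ℝ (aa F n0 n1) x (dir G W * (24 - 7 * Complex.I) / 25)|) :=
      integral_mono (integrableOn_norm_fderiv hK hb) ((i1.add i2).const_mul 10)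
        fun x => norm_le_two_dir hv _
    rw [integral_const_mul, integral_add i1 i2] at a3
    have a4 : ∑ Q ∈ lowsIn (next G n0 d) W n0, estar (eps (dir G W)) G Q ≤
        20 * ∑ Q ∈ lowsIn (next G n0 d) W n0, Dstar G Q := by
      rw [Finset.mul_sum]
      exact Finset.sum_le_sum fun Q hQ => (low_good hG hd hW1 hW2 hQ).1
    have a5 : 0 ≤ ∑ Q ∈ topsIn (next G n0 d) W n0, cost G Q :=
      Finset.sum_nonneg fun Q _ => cost_nonneg G Q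
    have a6 : 0 ≤ ∑ Q ∈ lowsIn (next G n0 d) W n0, Dstar G Q :=
      Finset.sum_nonneg fun Q _ => Dstar_nonneg hG Q
    generalize ∑ Q ∈ topsIn (next G n0 d) W n0, cost G Q = t at *
    generalize ∑ Q ∈ lowsIn (next G n0 d) W n0, Dstar G Q = u at *
    have a7 : ∫ x in Zs F n0 n1 W (next G n0 d), ‖fderiv ℝ (aa F n0 n1) x‖ ≤
        20 * C₁ * (cost G W + t + 20 * u) := by
      have := mul_le_mul_of_nonneg_left a4 hC₁.le
      linarith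
    refine (mul_le_mul_of_nonneg_left a7 (hω W).1).trans ?_
    have a8 : ω W * (t + 20 * u) ≤ t + 20 * u := mul_le_of_le_one_left (by positivity) (hω W).2
    have a9 := mul_le_mul_of_nonneg_left a8 (show 0 ≤ 20 * C₁ by positivity)
    linarith
  refine (Finset.sum_le_sum hone).trans ?_
  rw [← Finset.mul_sum, Finset.sum_add_distrib, Finset.sum_add_distrib, ← Finset.mul_sum]
  have b1 : ∑ Q ∈ ℛ, Dstar G Q ≤
      ∑ Q ∈ ℛ ∪ 𝒯.biUnion fun W => lowsIn (next G n0 d) W n0, Dstar G Q :=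
    Finset.sum_le_sum_of_subset_of_nonneg Finset.subset_union_left fun Q _ _ => Dstar_nonneg hG Q
  have b2 : ∑ Q ∈ 𝒯.biUnion fun W => lowsIn (next G n0 d) W n0, Dstar G Q ≤
      ∑ Q ∈ ℛ ∪ 𝒯.biUnion fun W => lowsIn (next G n0 d) W n0, Dstar G Q :=
    Finset.sum_le_sum_of_subset_of_nonneg Finset.subset_union_right fun Q _ _ => Dstar_nonneg hG Q
  have b3 : 0 ≤ ∑ Q ∈ ℛ ∪ 𝒯.biUnion fun W => lowsIn (next G n0 d) W n0, Dstar G Q :=
    Finset.sum_nonneg fun Q _ => Dstar_nonneg hG Q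
  have b4 : 0 ≤ ∑ W ∈ 𝒯, ω W * cost G W :=
    Finset.sum_nonneg fun W _ => mul_nonneg (hω W).1 (cost_nonneg G W)
  rw [mul_assoc (20 * C₁)]
  refine mul_le_mul_of_nonneg_left ?_ (by positivity)
  have b5 := mul_le_mul_of_nonneg_left b1 hC₂.le
  have b6 := mul_nonneg hC₂.le b4
  push_cast at hT hL
  nlinarith

/-- Recipe.  `d l = dseq G n0 n1 l`, `L = (n1 - n0).toNat`.  For `1 ≤ l ≤ L` let `𝒯 l` be the cells
of `𝒲.biUnion (fam · n0)` that are tops of `d l`.  For `x ∈ cell W0`, `W0 ∈ 𝒲`,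
`Hyp.exists_aa_eq_bb` and `exists_stage` put `x` in `Zs … W0 (d 1)` (if `l = 0`, `top_dseq_zero`,
`cellOf_eq_of_mem`) or in `Zs … W (d (l+1))` with `W ∈ 𝒯 l`, `1 ≤ l ≤ L`.  Pointwise
`∑_{W0} ω W0 1_{cell W0} g ≤ ∑_{W0} ω W0 1_{Zs W0} g + ∑_{l ≥ 1} ∑_{W ∈ 𝒯 l} 1_{Zs W} g`
(the cells of `𝒲` are disjoint and `ω ≤ 1`).  `stage_lemma` at every stage (`ω = 1` for `l ≥ 1`),
`mstar_le_integral` at stage `0`, `packing` for `∑_{𝒯 l} cost` (`d l = next (d (l-1))`), and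
`∑_l ∑_{𝒮 l} Dstar ≤ 5 ∑_{⋃ 𝒮 l} Dstar ≤ 5 𝔇` by `lay_count`. -/
theorem core_lemma : ∃ C : ℝ, 0 < C ∧ ∀ (F : ℂ → ℝ) (G : ℂ → ℂ), Hyp F G →
    ∀ (n0 n1 : ℤ), n0 ≤ n1 → ∀ 𝔇 : ℝ,
    (∀ 𝒮 : Finset Cell, (∀ Q ∈ 𝒮, n0 ≤ Q.1 ∧ Q.1 ≤ n1) → ∑ Q ∈ 𝒮, Dstar G Q ≤ 𝔇) →
    ∀ (𝒲 : Finset Cell) (ω : Cell → ℝ), (∀ W ∈ 𝒲, W.1 = n1) → (∀ W, 0 ≤ ω W ∧ ω W ≤ 1) →
    ∑ W ∈ 𝒲, ω W * ∫ x in cell W, ‖fderiv ℝ (aa F n0 n1) x‖ ≤
      C * (∑ W ∈ 𝒲, ω W * (∫ w in box W 8 17, ‖G w‖) + 𝔇) := by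
  classical
  obtain ⟨C₁, hC₁, h₁⟩ := stage_lemma
  obtain ⟨C₂, hC₂, h₂⟩ := packing
  refine ⟨C₁ * (71 + 5 * C₂), by positivity, ?_⟩
  intro F G h n0 n1 hn 𝔇 h𝔇 𝒲 ω h𝒲 hω
  have hG := h.intG
  obtain ⟨K, hK⟩ := h.aa_lip hn
  have h𝔇0 : 0 ≤ 𝔇 := by simpa using h𝔇 ∅ (by simp)
  set g : ℂ → ℝ := fun x => ‖fderiv ℝ (aa F n0 n1) x‖ with hg
  have hg0 : ∀ x, 0 ≤ g x := fun x => norm_nonneg _
  set L := (n1 - n0).toNat with hL
  set 𝒯 : ℕ → Finset Cell := fun l =>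
    (𝒲.biUnion fun W => fam W n0).filter (Top (dseq G n0 n1 l)) with h𝒯
  have h𝒯' : ∀ l, ∀ W ∈ 𝒯 l, Top (dseq G n0 n1 l) W ∧ n0 ≤ W.1 := by
    intro l W hW
    obtain ⟨h1, h2⟩ := Finset.mem_filter.1 hW
    obtain ⟨W0, h3, h4⟩ := Finset.mem_biUnion.1 h1
    exact ⟨h2, ((mem_fam_iff (by rw [h𝒲 W0 h3]; exact hn)).1 h4).1⟩
  -- the stages
  obtain ⟨𝒮₀, hS0, hS0'⟩ := h₁ F G h n0 n1 _ (ceil_dseq G n0 n1 0) 𝒲 ω
    (fun W hW => ⟨(top_dseq_zero G n0 n1 W).2 (h𝒲 W hW), by rw [h𝒲 W hW]; exact hn⟩) hω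
  choose 𝒮 hS hS' using fun l => h₁ F G h n0 n1 _ (ceil_dseq G n0 n1 l) (𝒯 l) (fun _ => 1)
    (h𝒯' l) (fun _ => ⟨zero_le_one, le_rfl⟩)
  choose ℛ hP hP' using fun l => h₂ G hG n0 n1 _ (ceil_dseq G n0 n1 l) (𝒯 (l + 1)) (h𝒯' (l + 1))
  have hsum : ∀ (N : ℕ → Finset Cell) (I : Finset ℕ),
      (∀ l, ∀ Q ∈ N l, Lay (dseq G n0 n1 l) (dseq G n0 n1 (l + 1)) Q ∧ n0 ≤ Q.1 ∧ Q.1 ≤ n1) →
      ∑ l ∈ I, ∑ Q ∈ N l, Dstar G Q ≤ 5 * 𝔇 := by
    intro N I hN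
    have h1 := core_dc I N (Dstar_nonneg hG) 5
      fun Q J hJ => lay_count G n0 n1 Q J fun l hl => (hN l Q (hJ l hl).2).1
    have h2 := h𝔇 (I.biUnion N) fun Q hQ => by
      obtain ⟨l, -, hl⟩ := Finset.mem_biUnion.1 hQ
      exact (hN l Q hl).2
    push_cast at h1
    linarith
  have s1 := hsum ℛ (Finset.range L) hP
  have s2 : ∑ l ∈ Finset.range L, ∑ Q ∈ 𝒮 (l + 1), Dstar G Q ≤ 5 * 𝔇 := by
    have := hsum 𝒮 (Finset.range (L + 1)) hS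
    rw [Finset.sum_range_succ'] at this
    have h0 : 0 ≤ ∑ Q ∈ 𝒮 0, Dstar G Q := Finset.sum_nonneg fun Q _ => Dstar_nonneg hG Q
    linarith
  have s3 := h𝔇 𝒮₀ fun Q hQ => (hS0 Q hQ).2
  -- the pointwise inequality
  have mZ : ∀ l W, MeasurableSet (Zs F n0 n1 W (dseq G n0 n1 l)) := fun l W =>
    measurableSet_Zs h hn W (ceil_dseq G n0 n1 l)
  have iC : ∀ W, Integrable ((cell W).indicator g) := fun W =>
    (integrable_indicator_iff (measurableSet_cell W)).2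
      (integrableOn_norm_fderiv hK (core_isBounded_cell W))
  have iZ : ∀ l W, Integrable ((Zs F n0 n1 W (dseq G n0 n1 l)).indicator g) := fun l W =>
    (integrable_indicator_iff (mZ l W)).2
      (integrableOn_norm_fderiv hK (core_isBounded_Zs F n0 n1 W _))
  have pZ : ∀ l W x, 0 ≤ (Zs F n0 n1 W (dseq G n0 n1 l)).indicator g x := fun l W x =>
    indicator_nonneg (fun y _ => hg0 y) x
  have point : ∀ x, ∑ W ∈ 𝒲, ω W * (cell W).indicator g x ≤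
      ∑ W ∈ 𝒲, ω W * (Zs F n0 n1 W (dseq G n0 n1 1)).indicator g x +
        ∑ l ∈ Finset.range L, ∑ W ∈ 𝒯 (l + 1),
          (Zs F n0 n1 W (dseq G n0 n1 (l + 1 + 1))).indicator g x := by
    intro x
    have r1 : 0 ≤ ∑ W ∈ 𝒲, ω W * (Zs F n0 n1 W (dseq G n0 n1 1)).indicator g x :=
      Finset.sum_nonneg fun W _ => mul_nonneg (hω W).1 (pZ _ _ _)
    have r2 : 0 ≤ ∑ l ∈ Finset.range L, ∑ W ∈ 𝒯 (l + 1),
        (Zs F n0 n1 W (dseq G n0 n1 (l + 1 + 1))).indicator g x :=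
      Finset.sum_nonneg fun l _ => Finset.sum_nonneg fun W _ => pZ _ _ _
    by_cases hx : ∃ W0 ∈ 𝒲, x ∈ cell W0
    · obtain ⟨W0, hW0, hx⟩ := hx
      have e0 : cellOf n1 x = W0 := by rw [← h𝒲 W0 hW0]; exact cellOf_eq_of_mem hx
      rw [Finset.sum_eq_single_of_mem W0 hW0 (fun W hW hne => by
        rw [indicator_of_notMem, mul_zero]
        intro hxW
        apply hne
        rw [← e0, ← h𝒲 W hW]
        exact (cellOf_eq_of_mem hxW).symm), indicator_of_mem hx]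
      obtain ⟨n, j1, j2, j3⟩ := h.exists_aa_eq_bb hn x
      obtain ⟨l, l1, W, l2, l3, l4, l5⟩ := exists_stage G j1 j2 x
      have hxZ : x ∈ Zs F n0 n1 W (dseq G n0 n1 (l + 1)) := ⟨l2, n, j1, l4, j3, l5⟩
      rcases l with _ | l
      · have e1 : W = W0 := by
          rw [← e0, ← (top_dseq_zero G n0 n1 W).1 l3]
          exact (cellOf_eq_of_mem l2).symm
        subst e1
        have := Finset.single_le_sum
          (f := fun W => ω W * (Zs F n0 n1 W (dseq G n0 n1 1)).indicator g x)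
          (fun W _ => mul_nonneg (hω W).1 (pZ _ _ _)) hW0
        rw [indicator_of_mem hxZ] at this
        linarith
      · have hlev : W.1 ≤ W0.1 := by
          rw [h𝒲 W0 hW0]; exact Top.level_le (ceil_dseq G n0 n1 _) l3
        have hW : W ∈ 𝒯 (l + 1) := by
          refine Finset.mem_filter.2 ⟨Finset.mem_biUnion.2 ⟨W0, hW0, ?_⟩, l3⟩
          exact (mem_fam_iff (by rw [h𝒲 W0 hW0]; exact hn)).2 ⟨j1.trans l4, hlev,
            cell_subset_box_of_mem hlev l2 (cell_subset_box W0 (by norm_num) hx)⟩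
        have t1 := Finset.single_le_sum
          (f := fun W => (Zs F n0 n1 W (dseq G n0 n1 (l + 1 + 1))).indicator g x)
          (fun W _ => pZ _ _ _) hW
        have t2 := Finset.single_le_sum
          (f := fun l => ∑ W ∈ 𝒯 (l + 1), (Zs F n0 n1 W (dseq G n0 n1 (l + 1 + 1))).indicator g x)
          (fun l _ => Finset.sum_nonneg fun W _ => pZ _ _ _)
          (Finset.mem_range.2 (show l < L by omega))
        rw [indicator_of_mem hxZ] at t1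
        have t3 : ω W0 * g x ≤ g x := mul_le_of_le_one_left (hg0 x) (hω W0).2
        linarith
    · push Not at hx
      rw [Finset.sum_eq_zero fun W hW => by rw [indicator_of_notMem (hx W hW), mul_zero]]
      linarith
  have i1 : Integrable fun x => ∑ W ∈ 𝒲, ω W * (cell W).indicator g x :=
    integrable_finsetSum _ fun W _ => (iC W).const_mul _
  have i2 : Integrable fun x => ∑ W ∈ 𝒲, ω W * (Zs F n0 n1 W (dseq G n0 n1 1)).indicator g x :=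
    integrable_finsetSum _ fun W _ => (iZ _ W).const_mul _
  have i3 : ∀ l, Integrable fun x => ∑ W ∈ 𝒯 (l + 1),
      (Zs F n0 n1 W (dseq G n0 n1 (l + 1 + 1))).indicator g x := fun l =>
    integrable_finsetSum _ fun W _ => iZ _ W
  have key := integral_mono i1 (i2.add (integrable_finsetSum (Finset.range L) fun l _ => i3 l))
    point
  simp only [Pi.add_apply] at key
  rw [integral_add i2 (integrable_finsetSum (Finset.range L) fun l _ => i3 l),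
    integral_finsetSum _ fun W _ => (iC W).const_mul _,
    integral_finsetSum _ fun W _ => (iZ _ W).const_mul _,
    integral_finsetSum _ fun l _ => i3 l] at key
  simp only [integral_const_mul, integral_indicator (measurableSet_cell _),
    integral_indicator (mZ _ _)] at key
  have k2 : ∑ l ∈ Finset.range L, ∫ x, ∑ W ∈ 𝒯 (l + 1),
      (Zs F n0 n1 W (dseq G n0 n1 (l + 1 + 1))).indicator g x ≤
      ∑ l ∈ Finset.range L, C₁ * (C₂ * ∑ Q ∈ ℛ l, Dstar G Q + ∑ Q ∈ 𝒮 (l + 1), Dstar G Q) := by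
    refine Finset.sum_le_sum fun l _ => ?_
    rw [integral_finsetSum _ fun W _ => iZ _ W]
    simp only [integral_indicator (mZ _ _)]
    have t1 := hS' (l + 1)
    simp only [one_mul] at t1
    refine le_trans t1 (mul_le_mul_of_nonneg_left ?_ hC₁.le)
    linarith [hP' l]
  rw [← Finset.mul_sum, Finset.sum_add_distrib, ← Finset.mul_sum] at k2
  have k3 : ∑ W ∈ 𝒲, ω W * cost G W ≤ 65 * ∑ W ∈ 𝒲, ω W * ∫ w in box W 8 17, ‖G w‖ := by
    rw [Finset.mul_sum]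
    refine Finset.sum_le_sum fun W _ => ?_
    have := mul_le_mul_of_nonneg_left (mstar_le_integral hG W 8 17) (hω W).1
    unfold cost
    linarith
  have k4 : 0 ≤ ∑ W ∈ 𝒲, ω W * ∫ w in box W 8 17, ‖G w‖ :=
    Finset.sum_nonneg fun W _ => mul_nonneg (hω W).1 (integral_nonneg fun _ => norm_nonneg _)
  refine key.trans ((add_le_add hS0' k2).trans ?_)
  rw [← mul_add, mul_assoc]
  refine mul_le_mul_of_nonneg_left ?_ hC₁.le
  have k5 := mul_le_mul_of_nonneg_left s1 hC₂.le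
  have k6 := mul_nonneg hC₂.le k4
  nlinarith

end Crest.Agent.R112
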