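import Crest.Agent.R112.Star

set_option autoImplicit false

namespace Crest.Agent.R112

open MeasureTheory Metric Set Filter Topology

/-! # The average defect `defi G m` -/

variable {G : ℂ → ℂ}

theorem measurableSet_sqr (y : ℂ) (s : ℝ) : MeasurableSet (sqr y s) := by
  unfold sqr
  exact (measurableSet_le measurable_const Complex.measurable_re).inter
    ((measurableSet_lt Complex.measurable_re measurable_const).inter
      ((measurableSet_le measurable_const Complex.measurable_im).inter
        (measurableSet_lt Complex.measurable_im measurable_const)))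

theorem defi_volume_sqr (y : ℂ) (s : ℝ) :
    volume (sqr y s) = ENNReal.ofReal s * ENNReal.ofReal s := by
  have h : sqr y s = Complex.measurableEquivRealProd ⁻¹'
      (Ico y.re (y.re + s) ×ˢ Ico y.im (y.im + s)) := by
    ext w
    simp [sqr, and_assoc]
  rw [h, Complex.volume_preserving_equiv_real_prod.measure_preimage_equiv, Measure.volume_eq_prod,
    Measure.prod_prod, Real.volume_Ico, Real.volume_Ico]
  simp

instance defi_finite (y : ℂ) (s : ℝ) : IsFiniteMeasure (volume.restrict (sqr y s)) :=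
  isFiniteMeasure_restrict.2 (by
    rw [defi_volume_sqr]
    exact ENNReal.mul_ne_top ENNReal.ofReal_ne_top ENNReal.ofReal_ne_top)

theorem volume_sqr (y : ℂ) {s : ℝ} (hs : 0 ≤ s) : volume (sqr y s) = ENNReal.ofReal (s ^ 2) := by
  rw [defi_volume_sqr, ← ENNReal.ofReal_mul hs, sq]

theorem cell_eq_sqr (P : Cell) : cell P = sqr (cn P) (2 ^ P.1) := by
  ext w
  simp only [cell, sqr, cn, mem_ofPred_eq, add_mul, one_mul]

/-- `∫_{sqr y s} G = ∫_{sqr 0 s} G (y + ·)` -/
theorem integral_sqr_shift {E : Type*} [NormedAddCommGroup E] [NormedSpace ℝ E] (f : ℂ → E)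
    (y t : ℂ) (s : ℝ) : ∫ w in sqr y s, f (w + t) = ∫ w in sqr (y + t) s, f w := by
  rw [← integral_indicator (measurableSet_sqr _ _), ← integral_indicator (measurableSet_sqr _ _),
    ← integral_add_right_eq_self (fun w => (sqr (y + t) s).indicator f w) t]
  congr 1
  funext w
  have : w + t ∈ sqr (y + t) s ↔ w ∈ sqr y s := by
    simp only [sqr, mem_ofPred_eq, Complex.add_re, Complex.add_im]
    constructor <;> rintro ⟨h1, h2, h3, h4⟩ <;>
      exact ⟨by linarith, by linarith, by linarith, by linarith⟩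
  by_cases h : w ∈ sqr y s
  · rw [indicator_of_mem h, indicator_of_mem (this.2 h)]
  · rw [indicator_of_notMem h, indicator_of_notMem (fun h' => h (this.1 h'))]

theorem defi_shift0 {E : Type*} [NormedAddCommGroup E] [NormedSpace ℝ E] (f : ℂ → E)
    (y : ℂ) (s : ℝ) : ∫ w in sqr y s, f w = ∫ w in sqr 0 s, f (w + y) := by
  rw [integral_sqr_shift, zero_add]

theorem defi_int_prod {E : Type*} [NormedAddCommGroup E] {f : ℂ → E} (hf : Integrable f) (s : ℝ) :
    Integrable (fun z : ℂ × ℂ => f (z.1 + z.2)) ((volume.restrict (sqr 0 s)).prod volume) :=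
  (measurePreserving_prod_add (volume.restrict (sqr 0 s)) (volume : Measure ℂ)).integrable_comp_of_integrable
    (hf.comp_snd (volume.restrict (sqr 0 s)))

theorem defi_real_sqr (y : ℂ) {s : ℝ} (hs : 0 ≤ s) : volume.real (sqr y s) = s ^ 2 := by
  rw [Measure.real, volume_sqr y hs, ENNReal.toReal_ofReal (sq_nonneg s)]

theorem defi_four (m : ℤ) : ((2 : ℝ) ^ m) ^ 2 = 4 ^ m := by
  rw [sq, ← mul_zpow]; norm_num

/-- Fubini: `y ↦ ∫_{sqr y s} f` is integrable with integral `s² ∫ f` -/
theorem integrable_integral_sqr {E : Type*} [NormedAddCommGroup E] [NormedSpace ℝ E]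
    [CompleteSpace E] {f : ℂ → E} (hf : Integrable f) (s : ℝ) :
    Integrable (fun y => ∫ w in sqr y s, f w) := by
  simp only [defi_shift0 f]
  exact (defi_int_prod hf s).integral_prod_right

theorem integral_integral_sqr {f : ℂ → ℝ} (hf : Integrable f) {s : ℝ} (hs : 0 ≤ s) :
    ∫ y, ∫ w in sqr y s, f w = s ^ 2 * ∫ w, f w := by
  simp only [defi_shift0 f]
  rw [← integral_integral_swap (f := fun w y => f (w + y)) (defi_int_prod hf s)]
  simp only [integral_add_left_eq_self]
  rw [setIntegral_const, defi_real_sqr 0 hs, smul_eq_mul]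

theorem Nm_nonneg (G : ℂ → ℂ) (m : ℤ) : 0 ≤ Nm G m := by
  exact div_nonneg (integral_nonneg fun _ => norm_nonneg _) (by positivity)

theorem defi_nonneg (hG : Integrable G) (m : ℤ) : 0 ≤ defi G m := by
  have h4 : (0 : ℝ) < 4 ^ m := by positivity
  rw [defi, Nm, sub_nonneg, div_le_iff₀ h4, ← defi_four, mul_comm,
    ← integral_integral_sqr hG.norm (cel_pos m).le]
  exact integral_mono (integrable_integral_sqr hG _).norm (integrable_integral_sqr hG.norm _)
    fun y => norm_integral_le_integral_norm _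

theorem defi_le (G : ℂ → ℂ) (m : ℤ) : defi G m ≤ ∫ w, ‖G w‖ := by
  have := Nm_nonneg G m
  unfold defi
  linarith

theorem defi_split (hG : Integrable G) (y : ℂ) {s : ℝ} (hs : 0 ≤ s) :
    ∫ w in sqr y (2 * s), G w = (∫ w in sqr y s, G w) + (∫ w in sqr (y + s) s, G w) +
      (∫ w in sqr (y + s * Complex.I) s, G w) + ∫ w in sqr (y + (s + s * Complex.I)) s, G w := by
  have hU : sqr y (2 * s) =
      sqr y s ∪ sqr (y + s) s ∪ sqr (y + s * Complex.I) s ∪ sqr (y + (s + s * Complex.I)) s := by
    ext w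
    simp only [sqr, mem_ofPred_eq, mem_union, Complex.add_re, Complex.add_im, Complex.mul_re,
      Complex.mul_im, Complex.ofReal_re, Complex.ofReal_im, Complex.I_re, Complex.I_im]
    constructor
    · rintro ⟨h1, h2, h3, h4⟩
      rcases lt_or_ge w.re (y.re + s) with a | a <;> rcases lt_or_ge w.im (y.im + s) with b | b
      · exact Or.inl (Or.inl (Or.inl ⟨h1, a, h3, b⟩))
      · exact Or.inl (Or.inr ⟨by linarith, by linarith, by linarith, by linarith⟩)
      · exact Or.inl (Or.inl (Or.inr ⟨by linarith, by linarith, by linarith, by linarith⟩))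
      · exact Or.inr ⟨by linarith, by linarith, by linarith, by linarith⟩
    · rintro (((⟨h1, h2, h3, h4⟩ | ⟨h1, h2, h3, h4⟩) | ⟨h1, h2, h3, h4⟩) | ⟨h1, h2, h3, h4⟩) <;>
        exact ⟨by linarith, by linarith, by linarith, by linarith⟩
  rw [hU, setIntegral_union, setIntegral_union, setIntegral_union]
  all_goals first
    | exact measurableSet_sqr _ _
    | exact hG.integrableOn
    | (refine Set.disjoint_left.2 fun w hw hw' => ?_
       simp only [sqr, mem_ofPred_eq, mem_union, Complex.add_re, Complex.add_im, Complex.mul_re,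
         Complex.mul_im, Complex.ofReal_re, Complex.ofReal_im, Complex.I_re, Complex.I_im]
         at hw hw'
       obtain ⟨k1, k2, k3, k4⟩ := hw'
       first
        | (rcases hw with (⟨h1, h2, h3, h4⟩ | ⟨h1, h2, h3, h4⟩) | ⟨h1, h2, h3, h4⟩ <;> linarith)
        | (rcases hw with ⟨h1, h2, h3, h4⟩ | ⟨h1, h2, h3, h4⟩ <;> linarith)
        | (obtain ⟨h1, h2, h3, h4⟩ := hw; linarith))

theorem defi_Nm_succ (hG : Integrable G) (m : ℤ) : Nm G (m + 1) ≤ Nm G m := by
  have hs := cel_pos m
  set N : ℂ → ℝ := fun y => ‖∫ w in sqr y (2 ^ m), G w‖ with hN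
  have hi : Integrable N := (integrable_integral_sqr hG _).norm
  have hi' : ∀ t : ℂ, Integrable fun y => N (y + t) := fun t => hi.comp_add_right t
  have h1 : ∫ y, ‖∫ w in sqr y (2 ^ (m + 1)), G w‖ ≤ 4 * ∫ y, N y := by
    calc ∫ y, ‖∫ w in sqr y (2 ^ (m + 1)), G w‖
        ≤ ∫ y, (N y + N (y + ((2 ^ m : ℝ) : ℂ)) + N (y + ((2 ^ m : ℝ) : ℂ) * Complex.I) +
            N (y + (((2 ^ m : ℝ) : ℂ) + ((2 ^ m : ℝ) : ℂ) * Complex.I))) := by
          refine integral_mono (integrable_integral_sqr hG _).norm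
            (((hi.add (hi' _)).add (hi' _)).add (hi' _)) fun y => ?_
          have e : (2 : ℝ) ^ (m + 1) = 2 * 2 ^ m := by rw [zpow_add_one₀ two_ne_zero, mul_comm]
          simp only [e, defi_split hG y hs.le]
          exact (norm_add_le _ _).trans (add_le_add ((norm_add_le _ _).trans
            (add_le_add (norm_add_le _ _) le_rfl)) le_rfl)
      _ = 4 * ∫ y, N y := by
          rw [integral_add, integral_add, integral_add hi (hi' _)]
          · simp only [integral_add_right_eq_self]
            ring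
          · exact hi.add (hi' _)
          · exact hi' _
          · exact (hi.add (hi' _)).add (hi' _)
          · exact hi' _
  have h4 : (0 : ℝ) < 4 ^ m := by positivity
  rw [Nm, Nm, zpow_add_one₀ (by norm_num : (4 : ℝ) ≠ 0), div_le_div_iff₀ (by positivity) h4]
  nlinarith

/-- a square of side `2^(m+1)` is the disjoint union of four translated squares of side `2^m` -/
theorem defi_mono (hG : Integrable G) : Monotone (defi G) := by
  refine monotone_int_of_le_succ fun m => ?_
  have := defi_Nm_succ hG m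
  unfold defi
  linarith

/-- continuity of translation in `L¹` -/
theorem defi_transl (hG : Integrable G) :
    Tendsto (fun w : ℂ => ∫ y, ‖G (w + y) - G y‖) (𝓝 0) (𝓝 0) := by
  let g : C(ℂ × ℂ, ℂ) := ⟨fun z => z.1 + z.2, by fun_prop⟩
  have hm : ∀ w, MeasurePreserving (g.curry w) volume volume := fun w =>
    measurePreserving_add_left volume w
  have hc : Continuous fun w => Lp.compMeasurePreserving (g.curry w) (hm w) (hG.toL1 G) :=
    Continuous.compMeasurePreservingLp continuous_const g.curry.continuous hm ENNReal.one_ne_top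
  have h1 : ∀ w, ‖Lp.compMeasurePreserving (g.curry w) (hm w) (hG.toL1 G) - hG.toL1 G‖ =
      ∫ y, ‖G (w + y) - G y‖ := by
    intro w
    rw [L1.norm_eq_integral_norm]
    refine integral_congr_ae ?_
    filter_upwards [Lp.coeFn_sub (Lp.compMeasurePreserving (g.curry w) (hm w) (hG.toL1 G))
      (hG.toL1 G), Lp.coeFn_compMeasurePreserving (hG.toL1 G) (hm w), hG.coeFn_toL1,
      (hm w).quasiMeasurePreserving.ae hG.coeFn_toL1] with y a b c d
    rw [a, Pi.sub_apply, b, c, Function.comp_apply, d]
    rfl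
  have h2 : Continuous fun w : ℂ => ∫ y, ‖G (w + y) - G y‖ :=
    ((hc.sub (continuous_const (y := hG.toL1 G))).norm).congr h1
  simpa using h2.tendsto 0

theorem defi_bound (hG : Integrable G) (m : ℤ) {ε : ℝ}
    (h : ∀ w ∈ sqr 0 (2 ^ m), ∫ y, ‖G (w + y) - G y‖ ≤ ε) : defi G m ≤ ε := by
  have hs := cel_pos m
  have h4 : (0 : ℝ) < 4 ^ m := by positivity
  have hp : Integrable (fun z : ℂ × ℂ => ‖G (z.1 + z.2) - G z.2‖)
      ((volume.restrict (sqr 0 (2 ^ m))).prod volume) :=
    ((defi_int_prod hG _).sub (hG.comp_snd _)).norm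
  have h1 : ∀ y, 4 ^ m * ‖G y‖ - ‖∫ w in sqr y (2 ^ m), G w‖ ≤
      ∫ w in sqr 0 (2 ^ m), ‖G (w + y) - G y‖ := by
    intro y
    have e1 : 4 ^ m * ‖G y‖ = ‖∫ _ in sqr 0 (2 ^ m), G y‖ := by
      rw [setIntegral_const, defi_real_sqr 0 hs.le, defi_four, norm_smul, Real.norm_of_nonneg h4.le]
    rw [e1, defi_shift0 G y]
    refine (norm_sub_norm_le _ _).trans ?_
    rw [norm_sub_rev, ← integral_sub (hG.comp_add_right y).integrableOn (integrable_const _)]
    exact norm_integral_le_integral_norm _
  have h2 := integral_mono ((hG.norm.const_mul _).sub (integrable_integral_sqr hG _).norm)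
    hp.integral_prod_right h1
  rw [← integral_integral_swap (f := fun w y => ‖G (w + y) - G y‖) hp] at h2
  have h3 : ∫ w in sqr 0 (2 ^ m), ∫ y, ‖G (w + y) - G y‖ ≤ ∫ _ in sqr 0 (2 ^ m), ε :=
    setIntegral_mono_on hp.integral_prod_left (integrable_const _) (measurableSet_sqr _ _) h
  rw [setIntegral_const, defi_real_sqr 0 hs.le, defi_four, smul_eq_mul] at h3
  simp only [Pi.sub_apply] at h2
  rw [integral_sub (hG.norm.const_mul _) (integrable_integral_sqr hG _).norm,
    integral_const_mul] at h2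
  rw [defi, Nm, sub_le_comm, le_div_iff₀ h4]
  linarith

/-- Recipe.  `|defi G m - defi G' m| ≤ 2 ∫ ‖G - G'‖`.  Approximate by a continuous compactly
supported `G'` (`Integrable.exists_hasCompactSupport_integral_sub_le`); for such `G'`, uniform
continuity gives `∫_{sqr y s} ‖G'‖ - ‖∫_{sqr y s} G'‖ ≤ 2 ω s²` with `ω` the oscillation at
distance `2 s`, and it vanishes unless `y` is in a fixed bounded set (`s ≤ 1`). -/
theorem tendsto_defi (hG : Integrable G) : Tendsto (defi G) atBot (𝓝 0) := by
  refine tendsto_order.2 ⟨fun a ha => Eventually.of_forall fun m => ha.trans_le (defi_nonneg hG m),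
    fun ε hε => ?_⟩
  obtain ⟨δ, hδ, h⟩ := Metric.eventually_nhds_iff.1
    ((tendsto_order.1 (defi_transl hG)).2 (ε / 2) (half_pos hε))
  have ht : Tendsto (fun m : ℤ => (2 : ℝ) ^ m) atBot (𝓝 0) := by
    have := (tendsto_rpow_atBot_of_base_gt_one 2 one_lt_two).comp
      (tendsto_intCast_atBot_iff.2 (tendsto_id (α := ℤ)))
    simpa [Function.comp_def] using this
  filter_upwards [(tendsto_order.1 ht).2 (δ / 2) (half_pos hδ)] with m hm
  refine (defi_bound hG m fun w hw => (h ?_).le).trans_lt (half_lt_self hε)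
  obtain ⟨h1, h2, h3, h4⟩ := hw
  simp only [Complex.zero_re, Complex.zero_im, zero_add] at h1 h2 h3 h4
  rw [dist_zero_right]
  have := cel_norm_le (z := w) (t := 2 ^ m) (abs_le.2 ⟨by linarith [cel_pos m], h2.le⟩)
    (abs_le.2 ⟨by linarith [cel_pos m], h4.le⟩)
  linarith [cel_pos m]

end Crest.Agent.R112
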