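import Mathlib

/-!
# R112 (S0147): definitions

Endpoint Sobolev bound for the centred disc maximal function in the plane.  Everything is done
on `ℂ` (the plane); `F : ℂ → ℝ` is the function (`|f|`), `G : ℂ → ℂ` its gradient.

Overview of the proof (files in `Crest/Agent/R112/`):
* `Hyp F G` : the only way `G` is tied to `F` (change of the disc average along a path of discs,
  with a free rotation).  `HypC1`, `HypWeak` prove it from the weak gradient.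
* `Ker`, `KL`, `Drop`, `Narrow`, `Rarity`, `Peak`, `Run`, `Single`, `Scale` : the ONE-SIDED single
  scale bound `∫_Q (∂_e b_n)₋ ≤ C · (negative part of the dyadic averages of G near Q)`.
* `Tele`, `Tree`, `Ceil`, `Pack`, `Core` : stopping time (corona) summation over scales.
* `Defi`, `Shift`, `Loc`, `Final`, `Weak` : limits and the weak gradient.
-/

set_option autoImplicit false

namespace Crest.Agent.R112

open MeasureTheory Metric Set

/-- the real inner product of two complex numbers -/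
def ip (a b : ℂ) : ℝ := a.re * b.re + a.im * b.im

/-- average of `F` over the disc of centre `x` and radius `r` -/
noncomputable def av (F : ℂ → ℝ) (x : ℂ) (r : ℝ) : ℝ :=
  (∫ y in ball x r, F y) / (Real.pi * r ^ 2)

/-- velocity at time `t` of the point `w` carried by the similarity `y ↦ x + t a + (r + t ζ) y` -/
noncomputable def Zv (x a ζ : ℂ) (r t : ℝ) (w : ℂ) : ℂ :=
  a + ζ * (w - x - t * a) / ((r : ℂ) + t * ζ)

/-- the kernel of the path of discs `t ↦ ball (x + t a) ‖r + t ζ‖`, `0 ≤ t ≤ T` -/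
noncomputable def ker (x a ζ : ℂ) (r T : ℝ) (w : ℂ) : ℂ :=
  ∫ t in (0 : ℝ)..T, if ‖w - x - t * a‖ < ‖(r : ℂ) + t * ζ‖ then
    Zv x a ζ r t w / ((Real.pi * ‖(r : ℂ) + t * ζ‖ ^ 2 : ℝ) : ℂ) else 0

/-- `G` is the gradient of `F`, in the only form that is used -/
structure Hyp (F : ℂ → ℝ) (G : ℂ → ℂ) : Prop where
  intF : Integrable F
  intG : Integrable G
  path : ∀ (x a ζ : ℂ) (r T : ℝ), 0 < r → 0 ≤ T → T * ‖ζ‖ ≤ r / 2 →
    av F (x + T * a) ‖(r : ℂ) + T * ζ‖ - av F x r = ∫ w, ip (ker x a ζ r T w) (G w)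

/-- maximal function over the set of radii `R` -/
noncomputable def mx (F : ℂ → ℝ) (R : Set ℝ) (x : ℂ) : ℝ := sSup (av F x '' R)

/-- single scale maximal function, radii in `[2^n, 2^(n+1)]` -/
noncomputable def bb (F : ℂ → ℝ) (n : ℤ) : ℂ → ℝ := mx F (Icc ((2 : ℝ) ^ n) (2 ^ (n + 1)))

/-- maximal function over the scales `n, …, k` -/
noncomputable def aa (F : ℂ → ℝ) (n k : ℤ) : ℂ → ℝ := mx F (Icc ((2 : ℝ) ^ n) (2 ^ (k + 1)))

/-! ## Dyadic cells -/

/-- a dyadic cell: `(level n, index i, index j)` is `[i 2^n, (i+1) 2^n) × [j 2^n, (j+1) 2^n)` -/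
abbrev Cell := ℤ × ℤ × ℤ

/-- the unit cell -/
def O : Cell := (0, 0, 0)

/-- lower left corner -/
noncomputable def cn (P : Cell) : ℂ := ⟨(P.2.1 : ℝ) * 2 ^ P.1, (P.2.2 : ℝ) * 2 ^ P.1⟩

/-- the half open square of a cell -/
def cell (P : Cell) : Set ℂ :=
  {w | (P.2.1 : ℝ) * 2 ^ P.1 ≤ w.re ∧ w.re < ((P.2.1 : ℝ) + 1) * 2 ^ P.1 ∧
       (P.2.2 : ℝ) * 2 ^ P.1 ≤ w.im ∧ w.im < ((P.2.2 : ℝ) + 1) * 2 ^ P.1}

/-- the cell of level `n` that contains `x` -/
noncomputable def cellOf (n : ℤ) (x : ℂ) : Cell := (n, ⌊x.re / 2 ^ n⌋, ⌊x.im / 2 ^ n⌋)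

/-- the block of `s × s` cells of the level of `Q` whose lower left cell is `Q - (o, o)` -/
def box (Q : Cell) (o s : ℕ) : Set ℂ :=
  {w | ((Q.2.1 : ℝ) - o) * 2 ^ Q.1 ≤ w.re ∧ w.re < ((Q.2.1 : ℝ) - o + s) * 2 ^ Q.1 ∧
       ((Q.2.2 : ℝ) - o) * 2 ^ Q.1 ≤ w.im ∧ w.im < ((Q.2.2 : ℝ) - o + s) * 2 ^ Q.1}

/-- the cells of level `Q.1 - j` inside `box Q o s` -/
noncomputable def sub (Q : Cell) (o s j : ℕ) : Finset Cell :=
  ((Finset.Ico ((Q.2.1 - o) * 2 ^ j) ((Q.2.1 - o + s) * 2 ^ j)) ×ˢ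
    (Finset.Ico ((Q.2.2 - o) * 2 ^ j) ((Q.2.2 - o + s) * 2 ^ j))).image
      (fun p => ((Q.1 - j, p) : Cell))

/-- all cells of level in `[n0, W.1]` inside `box W 3 6` -/
noncomputable def fam (W : Cell) (n0 : ℤ) : Finset Cell :=
  (Finset.range ((W.1 - n0).toNat + 1)).biUnion (fun j => sub W 3 6 j)

/-- integral of `G` over a cell -/
noncomputable def V (G : ℂ → ℂ) (P : Cell) : ℂ := ∫ w in cell P, G w

/-- integral of `G` over a block -/
noncomputable def Vb (G : ℂ → ℂ) (Q : Cell) (o s : ℕ) : ℂ := ∫ w in box Q o s, G w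

/-- sum of `φ (V G P)` over the cells of depth `j` in a block -/
noncomputable def S (φ : ℂ → ℝ) (G : ℂ → ℂ) (Q : Cell) (o s j : ℕ) : ℝ :=
  ∑ P ∈ sub Q o s j, φ (V G P)

/-- positive parts of the two coordinates in the frame `ε, I ε` -/
noncomputable def pos (ε w : ℂ) : ℝ := max (ip ε w) 0 + max (ip (Complex.I * ε) w) 0

/-- negative parts of the two coordinates in the frame `ε, I ε` -/
noncomputable def nu (ε w : ℂ) : ℝ := max (-ip ε w) 0 + max (-ip (Complex.I * ε) w) 0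

/-- `e` is a unit vector well inside the quadrant spanned by the unit vectors `ε, I ε` -/
def Cone (ε e : ℂ) : Prop :=
  ‖ε‖ = 1 ∧ ‖e‖ = 1 ∧ 1 / 2 ≤ ip e ε ∧ 1 / 2 ≤ ip e (Complex.I * ε)

/-- the region of centres used at unit scale -/
def Reg : Set ℂ := {x | -1 ≤ x.re ∧ x.re ≤ 2 ∧ -1 ≤ x.im ∧ x.im ≤ 2}

/-- damped mass of a block -/
noncomputable def mstar (G : ℂ → ℂ) (Q : Cell) (o s : ℕ) : ℝ :=
  ∑' j : ℕ, (64 / 65 : ℝ) ^ j * S (fun w => ‖w‖) G Q o s j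

/-- cost of a top cell -/
noncomputable def cost (G : ℂ → ℂ) (W : Cell) : ℝ := mstar G W 8 17

/-- damped negative mass near a cell -/
noncomputable def estar (ε : ℂ) (G : ℂ → ℂ) (Q : Cell) : ℝ :=
  ∑' j : ℕ, (64 / 65 : ℝ) ^ j * S (nu ε) G Q 4 9 j

/-- damped defect (cancellation) near a cell -/
noncomputable def Dstar (G : ℂ → ℂ) (Q : Cell) : ℝ :=
  ∑' j : ℕ, (64 / 65 : ℝ) ^ j * (S (fun w => ‖w‖) G Q 128 256 j - ‖Vb G Q 128 256‖)

/-- one step defect of a cell -/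
noncomputable def Dc (G : ℂ → ℂ) (Q : Cell) : ℝ := S (fun w => ‖w‖) G Q 0 1 1 - ‖V G Q‖

/-- the direction of `G` near a cell -/
noncomputable def dir (G : ℂ → ℂ) (Q : Cell) : ℂ :=
  if Vb G Q 128 256 = 0 then 1 else Vb G Q 128 256 / (‖Vb G Q 128 256‖ : ℂ)

/-- deviation of `w` from the ray of the unit vector `v` -/
noncomputable def Phi (v w : ℂ) : ℝ := ‖w‖ - ip v w

/-- the frame attached to a direction `v` (so that `v` is inside the quadrant) -/
noncomputable def eps (v : ℂ) : ℂ := v * (3 - 4 * Complex.I) / 5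

/-! ## Stopping time -/

/-- tent over a cell -/
noncomputable def tent (T : Cell) (x : ℂ) : ℝ := max 0 (2 * 2 ^ T.1 - ‖x - cn T‖ / 32)

/-- `W` is a top cell of the ceiling `d` -/
def Top (d : ℂ → ℝ) (W : Cell) : Prop := ∃ x ∈ cell W, (2 : ℝ) ^ W.1 ≤ d x ∧ d x < 2 ^ (W.1 + 1)

/-- `T` is a small cell near `W` -/
def Elig (n0 : ℤ) (W T : Cell) : Prop :=
  n0 ≤ T.1 ∧ T.1 + 6 ≤ W.1 ∧ ‖cn T - cn W‖ ≤ 5 * 2 ^ W.1

/-- the direction has turned -/
def Bad (G : ℂ → ℂ) (W T : Cell) : Prop := 1 / 4 < ‖dir G T - dir G W‖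

/-- `T` is a stopping cell below the ceiling `d` -/
def Sel (G : ℂ → ℂ) (n0 : ℤ) (d : ℂ → ℝ) (T : Cell) : Prop :=
  ∃ W, Top d W ∧ Elig n0 W T ∧ Bad G W T

/-- the next ceiling -/
noncomputable def next (G : ℂ → ℂ) (n0 : ℤ) (d : ℂ → ℝ) (x : ℂ) : ℝ :=
  sSup (insert 0 {s | ∃ T, Sel G n0 d T ∧ s = tent T x})

/-- an admissible ceiling -/
structure Ceil (n1 : ℤ) (d : ℂ → ℝ) : Prop where
  lip : ∀ x y, d x ≤ d y + ‖x - y‖ / 32
  nonneg : ∀ x, 0 ≤ d x
  le : ∀ x, d x ≤ 2 ^ n1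

/-- `Q` lies (roughly) between the ceilings `d' ≤ d` -/
def Lay (d d' : ℂ → ℝ) (Q : Cell) : Prop :=
  (∃ x ∈ cell Q, d' x ≤ 4 * 2 ^ Q.1) ∧ ∃ y ∈ cell Q, (2 : ℝ) ^ Q.1 / 2 ≤ d y

/-- the sequence of ceilings -/
noncomputable def dseq (G : ℂ → ℂ) (n0 n1 : ℤ) : ℕ → ℂ → ℝ
  | 0 => fun _ => 2 ^ n1
  | l + 1 => next G n0 (dseq G n0 n1 l)

/-- `Q` is a small cell that reaches above the next ceiling -/
def Low (W : Cell) (d' : ℂ → ℝ) (Q : Cell) : Prop :=
  Q.1 + 6 ≤ W.1 ∧ ∃ x ∈ cell Q, d' x < 3 / 2 * 2 ^ Q.1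

open Classical in
/-- the tops of `d'` near `W` -/
noncomputable def topsIn (d' : ℂ → ℝ) (W : Cell) (n0 : ℤ) : Finset Cell :=
  (fam W n0).filter (Top d')

open Classical in
/-- the small cells near `W` above `d'` -/
noncomputable def lowsIn (d' : ℂ → ℝ) (W : Cell) (n0 : ℤ) : Finset Cell :=
  (fam W n0).filter (Low W d')

theorem mem_topsIn {d' : ℂ → ℝ} {W Q : Cell} {n0 : ℤ} :
    Q ∈ topsIn d' W n0 ↔ Q ∈ fam W n0 ∧ Top d' Q := by
  simp [topsIn]

theorem mem_lowsIn {d' : ℂ → ℝ} {W Q : Cell} {n0 : ℤ} :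
    Q ∈ lowsIn d' W n0 ↔ Q ∈ fam W n0 ∧ Low W d' Q := by
  simp [lowsIn]

/-- the points of `W` whose winning scale is between `d'` and the level of `W` -/
def Zs (F : ℂ → ℝ) (n0 n1 : ℤ) (W : Cell) (d' : ℂ → ℝ) : Set ℂ :=
  {x | x ∈ cell W ∧ ∃ n, n0 ≤ n ∧ n ≤ W.1 ∧ aa F n0 n1 x = bb F n x ∧ d' x ≤ 2 ^ n}

/-! ## Average defect -/

/-- the half open square with lower left corner `y` and side `s` -/
def sqr (y : ℂ) (s : ℝ) : Set ℂ :=
  {w | y.re ≤ w.re ∧ w.re < y.re + s ∧ y.im ≤ w.im ∧ w.im < y.im + s}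

/-- average over all grids of mesh `2^m` of the sum of the norms of the cell integrals -/
noncomputable def Nm (G : ℂ → ℂ) (m : ℤ) : ℝ :=
  (∫ y, ‖∫ w in sqr y (2 ^ m), G w‖) / 4 ^ m

/-- average total defect below the scale `2^m` -/
noncomputable def defi (G : ℂ → ℂ) (m : ℤ) : ℝ := (∫ w, ‖G w‖) - Nm G m

/-! ## Elementary facts on `ip` -/

theorem ip_comm (a b : ℂ) : ip a b = ip b a := by unfold ip; ring

theorem ip_eq_inner (a b : ℂ) : ip a b = inner ℝ a b := by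
  simp [ip, Complex.inner]; ring

theorem abs_ip_le (a b : ℂ) : |ip a b| ≤ ‖a‖ * ‖b‖ := by
  rw [ip_eq_inner]; exact abs_real_inner_le_norm a b

theorem ip_le (a b : ℂ) : ip a b ≤ ‖a‖ * ‖b‖ := (le_abs_self _).trans (abs_ip_le a b)

theorem ip_self (a : ℂ) : ip a a = ‖a‖ ^ 2 := by
  rw [ip_eq_inner]; exact real_inner_self_eq_norm_sq a

theorem ip_add_left (a b c : ℂ) : ip (a + b) c = ip a c + ip b c := by simp [ip]; ring
theorem ip_add_right (a b c : ℂ) : ip a (b + c) = ip a b + ip a c := by simp [ip]; ring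
theorem ip_sub_left (a b c : ℂ) : ip (a - b) c = ip a c - ip b c := by simp [ip]; ring
theorem ip_sub_right (a b c : ℂ) : ip a (b - c) = ip a b - ip a c := by simp [ip]; ring
theorem ip_neg_left (a c : ℂ) : ip (-a) c = -ip a c := by simp [ip]; ring
theorem ip_neg_right (a c : ℂ) : ip a (-c) = -ip a c := by simp [ip]; ring
theorem ip_real_mul_left (t : ℝ) (a c : ℂ) : ip (t * a) c = t * ip a c := by simp [ip]; ring
theorem ip_real_mul_right (t : ℝ) (a c : ℂ) : ip a (t * c) = t * ip a c := by simp [ip]; ring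
@[simp] theorem ip_zero_left (c : ℂ) : ip 0 c = 0 := by simp [ip]
@[simp] theorem ip_zero_right (c : ℂ) : ip c 0 = 0 := by simp [ip]

theorem pos_nonneg (ε w : ℂ) : 0 ≤ pos ε w := add_nonneg (le_max_right _ _) (le_max_right _ _)
theorem nu_nonneg (ε w : ℂ) : 0 ≤ nu ε w := add_nonneg (le_max_right _ _) (le_max_right _ _)

theorem nu_le {ε : ℂ} (hε : ‖ε‖ = 1) (w : ℂ) : nu ε w ≤ 2 * ‖w‖ := by
  have h1 := abs_ip_le ε w
  have h2 := abs_ip_le (Complex.I * ε) w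
  rw [norm_mul, Complex.norm_I, hε] at h2
  rw [hε] at h1
  have := neg_abs_le (ip ε w)
  have := neg_abs_le (ip (Complex.I * ε) w)
  have := norm_nonneg w
  unfold nu
  have a1 : max (-ip ε w) 0 ≤ ‖w‖ := max_le (by linarith) (by linarith)
  have a2 : max (-ip (Complex.I * ε) w) 0 ≤ ‖w‖ := max_le (by linarith) (by linarith)
  linarith

theorem pos_le {ε : ℂ} (hε : ‖ε‖ = 1) (w : ℂ) : pos ε w ≤ 2 * ‖w‖ := by
  have h1 := abs_ip_le ε w
  have h2 := abs_ip_le (Complex.I * ε) w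
  rw [norm_mul, Complex.norm_I, hε] at h2
  rw [hε] at h1
  have := le_abs_self (ip ε w)
  have := le_abs_self (ip (Complex.I * ε) w)
  have := norm_nonneg w
  unfold pos
  have a1 : max (ip ε w) 0 ≤ ‖w‖ := max_le (by linarith) (by linarith)
  have a2 : max (ip (Complex.I * ε) w) 0 ≤ ‖w‖ := max_le (by linarith) (by linarith)
  linarith

theorem Phi_nonneg {v : ℂ} (hv : ‖v‖ = 1) (w : ℂ) : 0 ≤ Phi v w := by
  have := ip_le v w
  rw [hv] at this
  unfold Phi; linarith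

theorem bb_zero (F : ℂ → ℝ) : bb F 0 = mx F (Icc 1 2) := by
  simp [bb]

theorem aa_self (F : ℂ → ℝ) (k : ℤ) : aa F k k = bb F k := rfl

end Crest.Agent.R112
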