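import Crest.Agent.R112.Defs

set_option autoImplicit false

namespace Crest.Agent.R112

open MeasureTheory Metric Set Filter Topology

/-! # Plane geometry of directions -/

theorem Dirs_sq {v : ℂ} (hv : ‖v‖ = 1) : v.re * v.re + v.im * v.im = 1 := by
  have := ip_self v
  rw [hv] at this
  unfold ip at this
  linarith

theorem Dirs_half {ε a : ℂ} (hε : ‖ε‖ = 1) (ha : ‖a‖ = 1) (h : 7 / 20 ≤ ip ε a) (w : ℂ) :
    max (-ip ε w) 0 ≤ 10 * Phi a w := by
  have hΦ := Phi_nonneg ha w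
  refine max_le ?_ (by linarith)
  rcases (norm_nonneg w).eq_or_lt with h0 | h0
  · have : w = 0 := norm_eq_zero.1 h0.symm
    subst this
    simp only [ip_zero_right, neg_zero]
    linarith
  · set N := ‖w‖ with hN
    have h1 : ip ε w = ip ε (w - N * a) + N * ip ε a := by
      rw [ip_sub_right, ip_real_mul_right]; ring
    have h2 := abs_ip_le ε (w - N * a)
    rw [hε, one_mul] at h2
    have h3 := neg_abs_le (ip ε (w - N * a))
    set D := ‖w - N * a‖ with hD
    have h4 : D ^ 2 = 2 * N * Phi a w := by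
      rw [hD, ← ip_self, ip_sub_left, ip_sub_right, ip_sub_right, ip_real_mul_right,
        ip_real_mul_left, ip_real_mul_left, ip_real_mul_right, ip_self, ip_self, ha, ip_comm w a]
      unfold Phi
      ring
    have h5 : D ≤ 7 / 20 * N + 10 * Phi a w := by
      by_contra hc
      push Not at hc
      nlinarith [sq_nonneg (D - 7 / 10 * N), mul_nonneg h0.le hΦ, mul_pos h0 (sub_pos.2 hc)]
    nlinarith [mul_le_mul_of_nonneg_left h h0.le]

/-- for unit `u`: `Phi a u = ‖u - a‖ ^ 2 / 2` -/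
theorem norm_le_Phi {a v : ℂ} (ha : ‖a‖ = 1) (hv : ‖v‖ = 1) (h : 1 / 4 < ‖a - v‖) (w : ℂ) :
    ‖w‖ ≤ 64 * (Phi a w + Phi v w) := by
  have h1 : ‖a + v‖ ^ 2 + ‖a - v‖ ^ 2 = 4 := by
    rw [← ip_self, ← ip_self]
    have := Dirs_sq ha
    have := Dirs_sq hv
    simp only [ip, Complex.add_re, Complex.add_im, Complex.sub_re, Complex.sub_im]
    linarith
  have h2 : ‖a + v‖ ≤ 127 / 64 := by
    by_contra hc
    push Not at hc
    nlinarith
  have h3 := ip_le (a + v) w
  rw [ip_add_left] at h3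
  have h4 := mul_le_mul_of_nonneg_right h2 (norm_nonneg w)
  unfold Phi
  linarith

theorem norm_eps {v : ℂ} (hv : ‖v‖ = 1) : ‖eps v‖ = 1 := by
  have h := Dirs_sq hv
  have h1 : ‖eps v‖ ^ 2 = 1 := by
    rw [← ip_self]
    simp [ip, eps]
    linarith
  have := norm_nonneg (eps v)
  nlinarith

theorem cone_eps {v : ℂ} (hv : ‖v‖ = 1) : Cone (eps v) v := by
  have h := Dirs_sq hv
  refine ⟨norm_eps hv, hv, ?_, ?_⟩
  · simp [ip, eps]
    linarith
  · simp [ip, eps]
    linarith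

theorem cone_eps' {v : ℂ} (hv : ‖v‖ = 1) : Cone (eps v) (v * (24 - 7 * Complex.I) / 25) := by
  have h := Dirs_sq hv
  refine ⟨norm_eps hv, ?_, ?_, ?_⟩
  · have h1 : ‖v * (24 - 7 * Complex.I) / 25‖ ^ 2 = 1 := by
      rw [← ip_self]
      simp [ip]
      linarith
    have := norm_nonneg (v * (24 - 7 * Complex.I) / 25)
    nlinarith
  · simp [ip, eps]
    linarith
  · simp [ip, eps]
    linarith

theorem Cone.neg {ε e : ℂ} (h : Cone ε e) : Cone (-ε) (-e) := by
  obtain ⟨h1, h2, h3, h4⟩ := h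
  refine ⟨by rwa [norm_neg], by rwa [norm_neg], ?_, ?_⟩
  · rwa [ip_neg_left, ip_neg_right, neg_neg]
  · rwa [mul_neg, ip_neg_left, ip_neg_right, neg_neg]

/-- the two directions `v` and `v (24 - 7 I) / 25` control the operator norm -/
theorem norm_le_two_dir {v : ℂ} (hv : ‖v‖ = 1) (L : ℂ →L[ℝ] ℝ) :
    ‖L‖ ≤ 10 * (|L v| + |L (v * (24 - 7 * Complex.I) / 25)|) := by
  have h := Dirs_sq hv
  refine L.opNorm_le_bound (by positivity) fun z => ?_
  set v' := v * (24 - 7 * Complex.I) / 25 with hv'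
  set x := ip v z with hx
  set y := ip (Complex.I * v) z with hy
  have hz : z = (x + 24 / 7 * y) • v - (25 / 7 * y) • v' := by
    apply Complex.ext
    · simp [hx, hy, hv', ip]
      linear_combination (-z.re) * h
    · simp [hx, hy, hv', ip]
      linear_combination (-z.im) * h
  have h1 : |x| ≤ ‖z‖ := by
    have := abs_ip_le v z
    rwa [hv, one_mul] at this
  have h2 : |y| ≤ ‖z‖ := by
    have := abs_ip_le (Complex.I * v) z
    rwa [norm_mul, Complex.norm_I, hv, one_mul, one_mul] at this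
  have h3 : L z = (x + 24 / 7 * y) * L v - (25 / 7 * y) * L v' := by
    conv_lhs => rw [hz]
    rw [map_sub, map_smul, map_smul, smul_eq_mul, smul_eq_mul]
  have h4 : |x + 24 / 7 * y| ≤ 10 * ‖z‖ := by
    have := norm_nonneg z
    obtain ⟨a1, a2⟩ := abs_le.1 h1
    obtain ⟨a3, a4⟩ := abs_le.1 h2
    exact abs_le.2 ⟨by linarith, by linarith⟩
  have h5 : |25 / 7 * y| ≤ 10 * ‖z‖ := by
    have := norm_nonneg z
    obtain ⟨a3, a4⟩ := abs_le.1 h2
    exact abs_le.2 ⟨by linarith, by linarith⟩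
  rw [Real.norm_eq_abs, h3]
  refine (abs_sub _ _).trans ?_
  rw [abs_mul, abs_mul (25 / 7 * y)]
  have h6 := mul_le_mul_of_nonneg_right h4 (abs_nonneg (L v))
  have h7 := mul_le_mul_of_nonneg_right h5 (abs_nonneg (L v'))
  linarith

/-- if `c ≤ ip ε a` (here `c = 0.35`), `‖a‖ = ‖ε‖ = ‖u‖ = 1` then `-ip ε u ≤ ‖u - a‖ - c`, which is
`≤ 0` or `≤ ‖u - a‖ ^ 2 / c = (2 / c) Phi a u` -/
theorem nu_le_Phi {a v : ℂ} (ha : ‖a‖ = 1) (hv : ‖v‖ = 1) (h : ‖a - v‖ ≤ 1 / 4) (w : ℂ) :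
    nu (eps v) w ≤ 20 * Phi a w := by
  have hq := Dirs_sq hv
  have he := norm_eps hv
  have hI : ‖Complex.I * eps v‖ = 1 := by rw [norm_mul, Complex.norm_I, he, one_mul]
  have key : ∀ ε : ℂ, ‖ε‖ = 1 → 3 / 5 ≤ ip ε v → 7 / 20 ≤ ip ε a := by
    intro ε hε h1
    have h2 := abs_ip_le ε (a - v)
    rw [hε, one_mul, ip_sub_right] at h2
    have := neg_abs_le (ip ε a - ip ε v)
    linarith
  have h1 := Dirs_half he ha (key _ he (by simp [ip, eps]; linarith)) w
  have h2 := Dirs_half hI ha (key _ hI (by simp [ip, eps]; linarith)) w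
  unfold nu
  linarith

end Crest.Agent.R112
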