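import Crest.Agent.R112.Ker

set_option autoImplicit false

namespace Crest.Agent.R112

open MeasureTheory Metric Set Filter Topology

/-! # Oscillation of the path kernel -/

/-- sublevel sets of a real quadratic are covered by two short intervals -/
theorem kerosc_sublevel {c b d h : ℝ} (hc : c ≠ 0) :
    ∃ p q : ℝ, ∀ t : ℝ, |c * t ^ 2 + b * t + d| ≤ h →
      t ∈ Icc p (p + √(2 * (h / |c|))) ∨ t ∈ Icc q (q + √(2 * (h / |c|))) := by
  have hc0 : 0 < |c| := abs_pos.2 hc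
  set h' := h / |c| with hh'
  set t0 := -b / (2 * c) with ht0
  set D := t0 ^ 2 - d / c with hD
  set α := √(D - h') with hα
  set l := √(2 * h') with hl
  refine ⟨t0 + α, t0 - α - l, fun t ht => ?_⟩
  have e : c * t ^ 2 + b * t + d = c * ((t - t0) ^ 2 - D) := by
    rw [hD, ht0]; field_simp; ring
  rw [e, abs_mul, mul_comm, ← le_div_iff₀ hc0, ← hh', abs_le] at ht
  have hh0 : 0 ≤ h' := by linarith [ht.1, ht.2]
  have h1 : α ≤ |t - t0| := Real.sqrt_le_iff.2 ⟨abs_nonneg _, by rw [sq_abs]; linarith [ht.1]⟩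
  have hα0 : 0 ≤ α := Real.sqrt_nonneg _
  have hl0 : 0 ≤ l := Real.sqrt_nonneg _
  have hα2 : D - h' ≤ α ^ 2 := by
    rw [hα, Real.sq_sqrt']; exact le_max_left _ _
  have hl2 : l ^ 2 = 2 * h' := Real.sq_sqrt (by linarith)
  have h2 : |t - t0| ≤ α + l := by
    refine abs_le_of_sq_le_sq' ?_ (by linarith) |> abs_le.2
    nlinarith [mul_nonneg hα0 hl0, ht.2]
  rcases le_total 0 (t - t0) with h3 | h3
  · rw [abs_of_nonneg h3] at h1 h2
    exact Or.inl ⟨by linarith, by linarith⟩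
  · rw [abs_of_nonpos h3] at h1 h2
    exact Or.inr ⟨by linarith, by linarith⟩

theorem kerosc_ind_int (p q : ℝ) :
    Integrable ((Icc p q).indicator fun _ : ℝ => (4 : ℝ)) :=
  (integrable_indicator_iff measurableSet_Icc).2 (integrableOn_const measure_Icc_lt_top.ne)

theorem kerosc_ind {p l T : ℝ} (hl : 0 ≤ l) (hT : 0 ≤ T) :
    ∫ t in (0 : ℝ)..T, (Icc p (p + l)).indicator (fun _ : ℝ => (4 : ℝ)) t ≤ 4 * l := by
  rw [intervalIntegral.integral_of_le hT]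
  refine (setIntegral_le_integral (kerosc_ind_int _ _) (Eventually.of_forall fun t =>
    indicator_nonneg (fun _ _ => by norm_num) t)).trans ?_
  rw [integral_indicator_const _ measurableSet_Icc, Real.volume_real_Icc_of_le (by linarith)]
  simp [mul_comm]

theorem kerosc_quad (y a ζ : ℂ) (r t : ℝ) :
    ‖y - t * a‖ ^ 2 - ‖(r : ℂ) + t * ζ‖ ^ 2 =
      (‖a‖ ^ 2 - ‖ζ‖ ^ 2) * t ^ 2 + (-2 * (y.re * a.re + y.im * a.im) - 2 * r * ζ.re) * t +
        (‖y‖ ^ 2 - r ^ 2) := by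
  simp only [Complex.sq_norm, Complex.normSq_apply, Complex.sub_re, Complex.sub_im, Complex.add_re,
    Complex.add_im, Complex.mul_re, Complex.mul_im, Complex.ofReal_re, Complex.ofReal_im]
  ring

theorem kerosc_div {ρ B : ℝ} (hρ : 1 / 2 ≤ ρ) {z : ℂ} (hz : ‖z‖ ≤ B) :
    ‖z / ((Real.pi * ρ ^ 2 : ℝ) : ℂ)‖ ≤ 4 / 3 * B := by
  have hπ := Real.pi_gt_three
  have h1 : 3 / 4 ≤ Real.pi * ρ ^ 2 := by nlinarith
  have hB : 0 ≤ B := (norm_nonneg _).trans hz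
  rw [norm_div, Complex.norm_real, Real.norm_eq_abs, abs_of_pos (by linarith),
    div_le_iff₀ (by linarith)]
  nlinarith

theorem kerosc_Zv {x a ζ w : ℂ} {r t : ℝ} (ha : ‖a‖ ≤ 1) (hζ : ‖ζ‖ ≤ 2)
    (h : ‖w - x - t * a‖ < ‖(r : ℂ) + t * ζ‖) : ‖Zv x a ζ r t w‖ ≤ 3 := by
  have h0 : 0 < ‖(r : ℂ) + t * ζ‖ := (norm_nonneg _).trans_lt h
  refine (norm_add_le _ _).trans ?_
  have : ‖ζ * (w - x - t * a) / ((r : ℂ) + t * ζ)‖ ≤ 2 := by
    rw [norm_div, norm_mul, div_le_iff₀ h0]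
    have := norm_nonneg (w - x - t * a)
    nlinarith [norm_nonneg ζ]
  linarith

theorem kerosc_point {x a ζ w w' : ℂ} {r t η : ℝ} (ha : ‖a‖ ≤ 1) (hζ : ‖ζ‖ ≤ 2)
    (h1 : 1 / 2 ≤ ‖(r : ℂ) + t * ζ‖) (h3 : ‖(r : ℂ) + t * ζ‖ ≤ 3) (hη : η ≤ 2)
    (hw : ‖w - w'‖ ≤ η) {J : ℝ} (hJ0 : 0 ≤ J)
    (hJ : |‖w - x - t * a‖ ^ 2 - ‖(r : ℂ) + t * ζ‖ ^ 2| ≤ 8 * η → 4 ≤ J) :
    ‖(if ‖w - x - t * a‖ < ‖(r : ℂ) + t * ζ‖ then
        Zv x a ζ r t w / ((Real.pi * ‖(r : ℂ) + t * ζ‖ ^ 2 : ℝ) : ℂ) else 0) -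
      (if ‖w' - x - t * a‖ < ‖(r : ℂ) + t * ζ‖ then
        Zv x a ζ r t w' / ((Real.pi * ‖(r : ℂ) + t * ζ‖ ^ 2 : ℝ) : ℂ) else 0)‖ ≤ 6 * η + J := by
  have hη0 : 0 ≤ η := (norm_nonneg _).trans hw
  have hd : |‖w - x - t * a‖ - ‖w' - x - t * a‖| ≤ η := by
    refine (abs_norm_sub_norm_le _ _).trans ?_
    have : w - x - t * a - (w' - x - t * a) = w - w' := by ring
    rwa [this]
  rw [abs_le] at hd
  have hp := norm_nonneg (w - x - t * a)
  split_ifs with c1 c2 c2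
  · rw [← sub_div]
    have : ‖Zv x a ζ r t w - Zv x a ζ r t w'‖ ≤ 4 * η := by
      have e : Zv x a ζ r t w - Zv x a ζ r t w' = ζ * (w - w') / ((r : ℂ) + t * ζ) := by
        unfold Zv; ring
      rw [e, norm_div, norm_mul, div_le_iff₀ (by linarith)]
      have := mul_le_mul hζ hw (norm_nonneg _) (by norm_num)
      nlinarith
    have := kerosc_div h1 this
    linarith
  · rw [sub_zero]
    have := kerosc_div h1 (kerosc_Zv ha hζ c1)
    have := hJ (abs_le.2 ⟨by nlinarith, by nlinarith⟩)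
    linarith
  · rw [zero_sub, norm_neg]
    have := kerosc_div h1 (kerosc_Zv ha hζ c2)
    have := hJ (abs_le.2 ⟨by nlinarith, by nlinarith⟩)
    linarith
  · rw [sub_zero, norm_zero]; linarith

/-- Hölder-1/2 oscillation.  Let `η = 2 (1/2)^i ≤ 2`, `φ t = ‖w - x - t a‖² - ‖r + t ζ‖²`, a real
quadratic in `t` with leading coefficient `c = ‖a‖² - ‖ζ‖²`.  If exactly one of `w, w'` is inside
the disc at time `t` then `|φ t| ≤ 8 η` (`‖r + t ζ‖ ≤ 3`).  The set `{t | |φ t| ≤ h}` has measure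
`≤ 4 √(h / |c|)` (complete the square, `φ = c ((t - t₀)² - D)`: `|u² - D| ≤ h'` puts `|u|` in an
interval of length `≤ √(2 h')`).  There the integrands differ by `≤ 4`; when both are inside they
differ by `≤ 6 η`.  Finally `√(η / κ) ≤ √2 (3/4)^i / κ` since `κ ≤ 1`, `1/2 ≤ (3/4)²`. -/
theorem ker_osc : ∃ C : ℝ, 0 < C ∧ ∀ (x a ζ : ℂ) (r T κ : ℝ), 1 ≤ r → r ≤ 2 → 0 ≤ T → T ≤ 1 →
    T * ‖ζ‖ ≤ r / 2 → ‖a‖ ≤ 1 → ‖ζ‖ ≤ 2 → 0 < κ → κ ≤ 1 → κ ≤ |‖a‖ ^ 2 - ‖ζ‖ ^ 2| →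
    ∀ (i : ℕ) (w w' : ℂ), ‖w - w'‖ ≤ 2 * (1 / 2) ^ i →
      ‖ker x a ζ r T w - ker x a ζ r T w'‖ ≤ C / κ * (3 / 4) ^ i := by
  refine ⟨60, by norm_num, fun x a ζ r T κ hr1 hr2 hT0 hT1 hT ha hζ hκ0 hκ1 hκ i w w' hw => ?_⟩
  set η : ℝ := 2 * (1 / 2) ^ i with hη
  set s : ℝ := (3 / 4) ^ i with hs
  have hs0 : 0 < s := by positivity
  have hs1 : s ≤ 1 := pow_le_one₀ (by norm_num) (by norm_num)
  have hηs : η ≤ 2 * s ^ 2 := by
    rw [hη, hs, ← pow_mul, mul_comm i 2, pow_mul]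
    gcongr; norm_num
  have hη0 : 0 ≤ η := by positivity
  have hη2 : η ≤ 2 := by nlinarith
  have hc : ‖a‖ ^ 2 - ‖ζ‖ ^ 2 ≠ 0 := abs_pos.1 (hκ0.trans_le hκ)
  obtain ⟨p, q, hpq⟩ := kerosc_sublevel (b := -2 * ((w - x).re * a.re + (w - x).im * a.im) -
    2 * r * ζ.re) (d := ‖w - x‖ ^ 2 - r ^ 2) (h := 8 * η) hc
  set l := √(2 * (8 * η / |‖a‖ ^ 2 - ‖ζ‖ ^ 2|)) with hl
  have hl0 : 0 ≤ l := Real.sqrt_nonneg _
  have hl1 : l ≤ 6 * s / κ := by
    refine Real.sqrt_le_iff.2 ⟨by positivity, ?_⟩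
    have b1 : 8 * η / |‖a‖ ^ 2 - ‖ζ‖ ^ 2| ≤ 8 * (2 * s ^ 2) / κ ^ 2 := by
      have : κ ^ 2 ≤ |‖a‖ ^ 2 - ‖ζ‖ ^ 2| := by nlinarith
      gcongr
    have b2 : (6 * s / κ) ^ 2 = 36 * (s ^ 2 / κ ^ 2) := by ring
    have b3 : 8 * (2 * s ^ 2) / κ ^ 2 = 16 * (s ^ 2 / κ ^ 2) := by ring
    have b4 : 0 ≤ s ^ 2 / κ ^ 2 := by positivity
    linarith
  have hr0 : 0 < r := by linarith
  have i1 := (kerosc_ind_int p (p + l)).intervalIntegrable (a := 0) (b := T)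
  have i2 := (kerosc_ind_int q (q + l)).intervalIntegrable (a := 0) (b := T)
  have i0 : IntervalIntegrable (fun _ : ℝ => 6 * η) volume 0 T := intervalIntegrable_const
  unfold ker
  rw [← intervalIntegral.integral_sub (intervalIntegrable_ker hr0 hT0 hT w)
    (intervalIntegrable_ker hr0 hT0 hT w')]
  refine (intervalIntegral.norm_integral_le_of_norm_le hT0 (Eventually.of_forall fun t ht => ?_)
    (i0.add (i1.add i2))).trans ?_
  · have n1 : 0 ≤ (Icc p (p + l)).indicator (fun _ : ℝ => (4 : ℝ)) t :=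
      indicator_nonneg (fun _ _ => by norm_num) t
    have n2 : 0 ≤ (Icc q (q + l)).indicator (fun _ : ℝ => (4 : ℝ)) t :=
      indicator_nonneg (fun _ _ => by norm_num) t
    refine kerosc_point ha hζ ?_ ?_ hη2 hw (add_nonneg n1 n2) fun h => ?_
    · have := half_le_norm hT ht.1.le ht.2
      linarith
    · refine (norm_add_le _ _).trans ?_
      rw [norm_mul, Complex.norm_real, Complex.norm_real, Real.norm_eq_abs, Real.norm_eq_abs,
        abs_of_pos hr0, abs_of_pos ht.1]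
      have := mul_le_mul_of_nonneg_right ht.2 (norm_nonneg ζ)
      linarith
    · rw [kerosc_quad] at h
      rcases hpq t h with h' | h'
      · rw [indicator_of_mem h']; linarith
      · rw [indicator_of_mem h']; linarith
  · rw [intervalIntegral.integral_add i0 (i1.add i2), intervalIntegral.integral_add i1 i2,
      intervalIntegral.integral_const, sub_zero, smul_eq_mul]
    have b1 := kerosc_ind (p := p) hl0 hT0
    have b2 := kerosc_ind (p := q) hl0 hT0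
    have b3 : T * (6 * η) ≤ 12 * s := by nlinarith
    have b4 : s ≤ s / κ := by rw [le_div_iff₀ hκ0]; nlinarith
    have b5 : 60 / κ * s = 60 * (s / κ) := by ring
    have b6 : 6 * s / κ = 6 * (s / κ) := by ring
    linarith

end Crest.Agent.R112
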