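import Crest.Agent.R112.KL
import Crest.Agent.R112.Basic
import Crest.Agent.R112.KerOsc

set_option autoImplicit false

namespace Crest.Agent.R112

open MeasureTheory Metric Set Filter Topology

/-! # Moving a disc in a direction of the cone; shrinking a disc (unit scale) -/

theorem drop_far {x w : ℂ} (hx : x ∈ Reg) (hw : w ∉ box O 4 9) : 3 ≤ ‖w - x‖ := by
  obtain ⟨h1, h2, h3, h4⟩ := hx
  by_contra hlt
  push Not at hlt
  have a := abs_lt.1 ((Complex.abs_re_le_norm (w - x)).trans_lt hlt)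
  have b := abs_lt.1 ((Complex.abs_im_le_norm (w - x)).trans_lt hlt)
  rw [Complex.sub_re] at a
  rw [Complex.sub_im] at b
  refine hw ?_
  simp only [box, O, mem_ofPred_eq]
  norm_num
  exact ⟨by linarith [a.1], by linarith [a.2], by linarith [b.1], by linarith [b.2]⟩

/-- Recipe.  `Hyp.path` with `a = e`, `ζ = 0`; apply `kernel_lemma` to `Y = - ker x e 0 r T`
(`ker_osc` with `κ = 1`; `Y = 0` off the box by `ker_eq_zero`: `r + T ≤ 3` and a point outside
`box O 4 9 = [-4,5)²` is at distance `≥ 3` from `x ∈ Reg`).  Take `dn = 6 T` (`norm_ker_le`),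
`up P = -T/30` for the cells in the filter (there `ker_interior_zero` applies since
`‖w - cn P‖ ≤ 3/2 * 2^(-j) < 2 (1/2)^j`, and `1/(2 π r²) ≥ 1/30`), `up P = 0` for the others
(`ip_ker_nonneg`). -/
theorem drop_lemma : ∃ C : ℝ, 0 < C ∧ ∀ (F : ℂ → ℝ) (G : ℂ → ℂ), Hyp F G → ∀ (ε e : ℂ), Cone ε e →
    ∀ (Es : ℝ), (∀ i : ℕ, S (nu ε) G O 4 9 i ≤ (65 / 64 : ℝ) ^ i * Es) →
    ∀ x ∈ Reg, ∀ (r T : ℝ), 1 ≤ r → r ≤ 2 → 0 ≤ T → T ≤ 1 / 4 → ∀ j : ℕ,
      av F x r - av F (x + T * e) r +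
        T / 30 * ∑ P ∈ sub O 4 9 j with ‖cn P - x‖ + 2 * (1 / 2) ^ j + T ≤ r, pos ε (V G P) ≤
      6 * T * S (nu ε) G O 4 9 j + C * (4 / 5) ^ j * Es := by
  classical
  obtain ⟨C₁, hC₁, hK⟩ := kernel_lemma
  obtain ⟨C₂, hC₂, hO⟩ := ker_osc
  refine ⟨C₁ * C₂, by positivity, fun F G h ε e hc Es hE x hx r T hr1 hr2 hT0 hT j => ?_⟩
  obtain ⟨hε, he, hc1, hc2⟩ := hc
  have hr : 0 < r := by linarith
  have hT' : T * ‖(0 : ℂ)‖ ≤ r / 2 := by simp; linarith
  have hp := h.path x e 0 r T hr hT0 hT'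
  rw [mul_zero, add_zero, Complex.norm_real, Real.norm_of_nonneg hr.le] at hp
  have key := hK G h.intG ε hε Es hE (fun w => -ker x e 0 r T w) C₂ hC₂.le
    (fun w hw => by
      rw [ker_eq_zero hr hT0 (le_trans (by rw [he, norm_zero]; linarith) (drop_far hx hw)),
        neg_zero])
    (fun i w w' hw => by
      have := hO x e 0 r T 1 hr1 hr2 hT0 (by linarith) hT' he.le (by simp) one_pos le_rfl
        (by simp [he]) i w w' hw
      rw [div_one] at this
      rwa [neg_sub_neg, norm_sub_rev])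
    j (fun P => if ‖cn P - x‖ + 2 * (1 / 2) ^ j + T ≤ r then -(T / 30) else 0) (fun _ => 6 * T)
    (fun P hP w hw => by
      have hn : ‖-ker x e 0 r T w‖ ≤ 6 * T := by
        rw [norm_neg]; exact norm_ker_le hr1 hT0 hT' he.le (by simp) w
      have hu : ∀ u : ℂ, 1 / 2 ≤ ip e u → ip (-ker x e 0 r T w) u ≤
          if ‖cn P - x‖ + 2 * (1 / 2) ^ j + T ≤ r then -(T / 30) else 0 := by
        intro u hu
        rw [ip_neg_left]
        split_ifs with hin
        · have h1 := norm_sub_cn_le hw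
          rw [(mem_sub_iff.1 hP).1] at h1
          have h2 : (2 : ℝ) ^ (O.1 - (j : ℤ)) = (1 / 2) ^ j := by simp [O]
          rw [h2] at h1
          have h3 : ‖w - x‖ ≤ ‖w - cn P‖ + ‖cn P - x‖ := norm_sub_le_norm_sub_add_norm_sub _ _ _
          have h4 : (0 : ℝ) < (1 / 2) ^ j := by positivity
          rw [ker_interior_zero hr hT0 (by rw [he]; linarith), ip_real_mul_left]
          have h5 : Real.pi * r ^ 2 ≤ 15 := by nlinarith [Real.pi_lt_d2, Real.pi_pos]
          have h6 : T / 15 ≤ T / (Real.pi * r ^ 2) :=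
            div_le_div_of_nonneg_left hT0 (by positivity) h5
          have h7 := mul_le_mul h6 hu (by norm_num) (by positivity)
          linarith
        · rw [neg_nonpos]
          exact ip_ker_nonneg hr hT0 hT' fun t _ _ _ => by
            simp only [Zv, zero_mul, zero_div, add_zero]; linarith
      exact ⟨hu _ hc1, hu _ hc2, hn⟩)
  simp only [ip_neg_left, integral_neg, ← hp, Finset.sum_add_distrib, ite_mul, zero_mul,
    ← Finset.mul_sum] at key
  rw [← Finset.sum_filter, ← Finset.mul_sum] at key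
  unfold S
  linarith

/-- Recipe.  `Hyp.path` from the radius `2` with `a = 0`, `ζ = -1`, `T = 2 - r`; `kernel_lemma`
with `ε = 1`, `Es = 2 M` (`nu_le`, `S_mono_fun`), `j = 0`, `up = dn = 6`, `κ = 1`, `pos_le`. -/
theorem radial_lemma : ∃ C : ℝ, 0 < C ∧ ∀ (F : ℂ → ℝ) (G : ℂ → ℂ), Hyp F G →
    ∀ (M : ℝ), (∀ i : ℕ, S (fun w => ‖w‖) G O 4 9 i ≤ (65 / 64 : ℝ) ^ i * M) →
    ∀ x ∈ Reg, ∀ r : ℝ, 1 ≤ r → r ≤ 2 → av F x r - av F x 2 ≤ C * M := by
  obtain ⟨C₁, hC₁, hK⟩ := kernel_lemma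
  obtain ⟨C₂, hC₂, hO⟩ := ker_osc
  refine ⟨24 + 2 * (C₁ * C₂), by positivity, fun F G h M hM x hx r hr1 hr2 => ?_⟩
  have hT0 : 0 ≤ 2 - r := by linarith
  have hT' : (2 - r) * ‖(-1 : ℂ)‖ ≤ 2 / 2 := by simp; linarith
  have hp := h.path x 0 (-1) 2 (2 - r) two_pos hT0 hT'
  have e1 : ((2 : ℝ) : ℂ) + ((2 - r : ℝ) : ℂ) * (-1) = (r : ℂ) := by push_cast; ring
  rw [mul_zero, add_zero, e1, Complex.norm_real, Real.norm_of_nonneg (by linarith)] at hp
  have hS : ∀ i : ℕ, S (fun w => 2 * ‖w‖) G O 4 9 i = 2 * S (fun w => ‖w‖) G O 4 9 i :=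
    fun i => by unfold S; rw [Finset.mul_sum]
  have key := hK G h.intG 1 norm_one (2 * M)
    (fun i => (S_mono_fun (nu_le norm_one) G O 4 9 i).trans (by rw [hS]; linarith [hM i]))
    (ker x 0 (-1) 2 (2 - r)) C₂ hC₂.le
    (fun w hw => ker_eq_zero two_pos hT0 (le_trans (by simp; linarith) (drop_far hx hw)))
    (fun i w w' hw => by
      have := hO x 0 (-1) 2 (2 - r) 1 one_le_two le_rfl hT0 (by linarith) hT' (by simp) (by simp)
        one_pos le_rfl (by simp) i w w' hw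
      rwa [div_one] at this)
    0 (fun _ => 6) (fun _ => 6)
    (fun P _ w _ => by
      have hn : ‖ker x 0 (-1) 2 (2 - r) w‖ ≤ 6 :=
        (norm_ker_le one_le_two hT0 hT' (by simp) (by simp) w).trans (by linarith)
      refine ⟨(ip_le _ _).trans ?_, (ip_le _ _).trans ?_, hn⟩ <;> simpa using hn)
  have h1 : ∑ P ∈ sub O 4 9 0, (6 * pos 1 (V G P) + 6 * nu 1 (V G P)) ≤
      24 * S (fun w => ‖w‖) G O 4 9 0 := by
    unfold S
    rw [Finset.mul_sum]
    exact Finset.sum_le_sum fun P _ => by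
      linarith [pos_le norm_one (V G P), nu_le norm_one (V G P)]
  have h2 := hM 0
  rw [pow_zero, one_mul] at h2
  rw [← hp, pow_zero] at key
  linarith

end Crest.Agent.R112
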