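import Crest.Agent.R112.FinalA

set_option autoImplicit false

namespace Crest.Agent.R112

open MeasureTheory Metric Set Filter Topology

/-! # The full maximal function on `ℂ` -/

section Aux

variable {F : ℂ → ℝ} {G : ℂ → ℂ}

theorem fin_Mge_lip (h : Hyp F G) (n : ℤ) : ∃ K, LipschitzWith K (Mge F n) :=
  h.mx_lip (s := 2 ^ n) (by positivity) Subset.rfl nonempty_Ici

theorem fin_Mge_anti (h : Hyp F G) {m n : ℤ} (hmn : m ≤ n) (x : ℂ) : Mge F n x ≤ Mge F m x :=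
  mx_mono h.intF x (s := 2 ^ m) (by positivity) Subset.rfl nonempty_Ici
    (Ici_subset_Ici.2 (zpow_le_zpow_right₀ one_le_two hmn))

theorem fin_Mge_le {x : ℂ} (hx : BddAbove (av F x '' Ioi 0)) (n : ℤ) :
    Mge F n x ≤ mx F (Ioi 0) x :=
  mx_le F x nonempty_Ici fun r hr =>
    le_csSup hx (mem_image_of_mem _ (lt_of_lt_of_le (by positivity) (mem_Ici.1 hr)))

theorem fin_Mge_nonneg (h : Hyp F G) (hF0 : ∀ x, 0 ≤ F x) (n : ℤ) (x : ℂ) : 0 ≤ Mge F n x :=
  (av_nonneg hF0 x (2 ^ n)).trans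
    (av_le_mx h.intF x (s := 2 ^ n) (by positivity) Subset.rfl self_mem_Ici)

theorem fin_Mge_diff (h : Hyp F G) : ∀ᵐ x : ℂ, ∀ n : ℤ, DifferentiableAt ℝ (Mge F n) x :=
  ae_all_iff.2 fun n => (fin_Mge_lip h n).choose_spec.ae_differentiableAt

theorem fin_Mge_eq_max (h : Hyp F G) {n k : ℤ} (hnk : n ≤ k) (x : ℂ) :
    Mge F n x = max (aa F n k x) (Mge F (k + 1) x) := by
  have h1 : (2 : ℝ) ^ n ≤ 2 ^ (k + 1) := zpow_le_zpow_right₀ one_le_two (by omega)
  unfold Mge aa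
  rw [← Icc_union_Ici_eq_Ici h1]
  exact mx_union h.intF x (s := 2 ^ n) (by positivity) Icc_subset_Ici_self
    (Ici_subset_Ici.2 h1) (nonempty_Icc.2 h1) nonempty_Ici

theorem fin_int_fderiv {u φ : ℂ → ℝ} {K : NNReal} (hu : LipschitzWith K u) (hφ : Continuous φ)
    (hc : HasCompactSupport φ) : Integrable fun x => |φ x| * ‖fderiv ℝ u x‖ := by
  refine (hφ.integrable_of_hasCompactSupport hc).abs.mul_bdd (c := K)
    (measurable_fderiv ℝ u).norm.aestronglyMeasurable (Eventually.of_forall fun x => ?_)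
  rw [norm_norm]
  exact norm_fderiv_le_of_lipschitz ℝ hu

theorem fin_ibp_le {u φ : ℂ → ℝ} {K L : NNReal} (hu : LipschitzWith K u) (hφ : LipschitzWith L φ)
    (hc : HasCompactSupport φ) (v : ℂ) :
    |∫ x, u x * fderiv ℝ φ x v| ≤ ‖v‖ * ∫ x, |φ x| * ‖fderiv ℝ u x‖ := by
  rw [← abs_neg, ← ibp hu hφ hc v, ← integral_const_mul, ← Real.norm_eq_abs]
  refine norm_integral_le_of_norm_le ((fin_int_fderiv hu hφ.continuous hc).const_mul _)
    (Eventually.of_forall fun x => ?_)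
  rw [norm_mul, Real.norm_eq_abs]
  have := mul_le_mul_of_nonneg_left ((fderiv ℝ u x).le_opNorm v) (abs_nonneg (φ x))
  linarith

theorem fin_loc : ∃ C : ℝ, 0 < C ∧ ∀ (F : ℂ → ℝ) (G : ℂ → ℂ), Hyp F G →
    ∀ (n0 n1 : ℤ), n0 ≤ n1 → ∀ (φ : ℂ → ℝ) (L : NNReal) (B : ℝ), LipschitzWith L φ →
    HasCompactSupport φ → 0 < B → (∀ x, |φ x| ≤ B) →
    ∫ x, |φ x| * ‖fderiv ℝ (aa F n0 n1) x‖ ≤
      C * ((∫ w, |φ w| * ‖G w‖) + 14 * 2 ^ n1 * L * (∫ w, ‖G w‖) + B * defi G (n1 + 8)) := by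
  obtain ⟨C, hC, hloc⟩ := loc_lemma
  refine ⟨C, hC, fun F G h n0 n1 hn φ L B hL hc hB hφ => ?_⟩
  have h1 := hloc F G h n0 n1 hn (fun x => B⁻¹ * |φ x|) (B⁻¹ * (14 * 2 ^ n1 * L))
    (continuous_const.mul hL.continuous.abs) (hc.abs.mul_left)
    (fun x => ⟨by positivity, by
      rw [inv_mul_le_iff₀ hB, mul_one]; exact hφ x⟩) (by positivity) fun x y hxy => by
      rw [← mul_add]
      refine mul_le_mul_of_nonneg_left ?_ (by positivity)
      have h2 := hL.dist_le_mul x y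
      rw [Real.dist_eq, dist_eq_norm] at h2
      have h3 := abs_sub_abs_le_abs_sub (φ x) (φ y)
      have h4 := mul_le_mul_of_nonneg_left hxy L.2
      change (L : ℝ) * _ ≤ (L : ℝ) * _ at h4
      linarith
  simp only [mul_assoc, integral_const_mul] at h1
  rw [inv_mul_le_iff₀ hB] at h1
  refine h1.trans (le_of_eq ?_)
  field_simp

theorem fin_split (h : Hyp F G) {n k : ℤ} (hnk : n ≤ k) {φ : ℂ → ℝ} (hφ : Continuous φ)
    (hc : HasCompactSupport φ) :
    ∫ x, |φ x| * ‖fderiv ℝ (Mge F n) x‖ ≤ (∫ x, |φ x| * ‖fderiv ℝ (aa F n k) x‖) +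
      ∫ x, {x | Mge F n x = Mge F (k + 1) x}.indicator
        (fun x => |φ x| * ‖fderiv ℝ (Mge F (k + 1)) x‖) x := by
  obtain ⟨K1, h1⟩ := fin_Mge_lip h n
  obtain ⟨K2, h2⟩ := h.aa_lip hnk
  obtain ⟨K3, h3⟩ := fin_Mge_lip h (k + 1)
  have i2 := fin_int_fderiv h2 hφ hc
  have i3 := (fin_int_fderiv h3 hφ hc).indicator
    (isClosed_eq h1.continuous h3.continuous).measurableSet
  rw [← integral_add i2 i3]
  refine integral_mono_ae (fin_int_fderiv h1 hφ hc) (i2.add i3) ?_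
  filter_upwards [h1.ae_differentiableAt (μ := volume), h2.ae_differentiableAt (μ := volume),
    h3.ae_differentiableAt (μ := volume)] with x d1 d2 d3
  by_cases hx : Mge F n x = Mge F (k + 1) x
  · rw [indicator_of_mem (show x ∈ {x | Mge F n x = Mge F (k + 1) x} from hx),
      fderiv_eq_of_touch (fun y => fin_Mge_anti h (by omega) y) hx.symm d3 d1]
    exact le_add_of_nonneg_left (by positivity)
  · rw [indicator_of_notMem (show x ∉ {x | Mge F n x = Mge F (k + 1) x} from hx), add_zero]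
    have h4 : aa F n k x = Mge F n x := by
      have := fin_Mge_eq_max h hnk x
      rcases max_choice (aa F n k x) (Mge F (k + 1) x) with h5 | h5
      · rw [this, h5]
      · exact absurd (this.trans h5) hx
    rw [fderiv_eq_of_touch (fun y => by rw [fin_Mge_eq_max h hnk y]; exact le_max_left _ _) h4
      d2 d1]

theorem fin_tendsto_ind (h : Hyp F G) (l : ℕ) {φ : ℂ → ℝ} (hφ : Continuous φ)
    (hc : HasCompactSupport φ) :
    Tendsto (fun i : ℕ => ∫ x, {x | Mge F (-(i : ℤ)) x = Mge F (-(l : ℤ)) x}.indicator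
        (fun x => |φ x| * ‖fderiv ℝ (Mge F (-(l : ℤ))) x‖) x) atTop
      (𝓝 (∫ x, {x | mx F (Ioi 0) x = Mge F (-(l : ℤ)) x}.indicator
        (fun x => |φ x| * ‖fderiv ℝ (Mge F (-(l : ℤ))) x‖) x)) := by
  obtain ⟨K3, h3⟩ := fin_Mge_lip h (-(l : ℤ))
  have i3 := fin_int_fderiv h3 hφ hc
  refine tendsto_integral_of_dominated_convergence _ (fun i => ?_) i3 (fun i => ?_) ?_
  · exact (i3.indicator (isClosed_eq (fin_Mge_lip h _).choose_spec.continuous
      h3.continuous).measurableSet).aestronglyMeasurable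
  · refine Eventually.of_forall fun x => (norm_indicator_le_norm_self _ _).trans ?_
    rw [Real.norm_eq_abs, abs_of_nonneg (by positivity)]
  · filter_upwards [ae_bddAbove h] with x hx
    refine tendsto_const_nhds.congr' ?_
    by_cases hM : mx F (Ioi 0) x = Mge F (-(l : ℤ)) x
    · filter_upwards [eventually_ge_atTop l] with i hi
      have h4 : Mge F (-(i : ℤ)) x = Mge F (-(l : ℤ)) x :=
        le_antisymm (hM ▸ fin_Mge_le hx _) (fin_Mge_anti h (by omega) x)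
      rw [indicator_of_mem (show x ∈ {x | mx F (Ioi 0) x = Mge F (-(l : ℤ)) x} from hM),
        indicator_of_mem (show x ∈ {x | Mge F (-(i : ℤ)) x = Mge F (-(l : ℤ)) x} from h4)]
    · filter_upwards [(tendsto_Mge h hx).eventually_ne hM] with i hi
      rw [indicator_of_notMem (show x ∉ {x | mx F (Ioi 0) x = Mge F (-(l : ℤ)) x} from hM),
        indicator_of_notMem (show x ∉ {x | Mge F (-(i : ℤ)) x = Mge F (-(l : ℤ)) x} from hi)]

theorem fin_tendsto_M (h : Hyp F G) (hF0 : ∀ x, 0 ≤ F x) {ψ : ℂ → ℝ} (hψ : Continuous ψ)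
    (hc : HasCompactSupport ψ) :
    Tendsto (fun i : ℕ => ∫ x, Mge F (-(i : ℤ)) x * ψ x) atTop
      (𝓝 (∫ x, mx F (Ioi 0) x * ψ x)) := by
  have i1 : Integrable fun x => mx F (Ioi 0) x * ψ x :=
    (locallyIntegrable_mx h hF0).integrable_smul_right_of_hasCompactSupport hψ hc
  refine tendsto_integral_of_dominated_convergence _ (fun i => ?_) i1.norm (fun i => ?_) ?_
  · exact ((fin_Mge_lip h _).choose_spec.continuous.mul hψ).aestronglyMeasurable
  · filter_upwards [ae_bddAbove h] with x hx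
    rw [norm_mul, norm_mul]
    refine mul_le_mul_of_nonneg_right ?_ (norm_nonneg _)
    rw [Real.norm_eq_abs, abs_of_nonneg (fin_Mge_nonneg h hF0 _ x)]
    exact (fin_Mge_le hx _).trans (le_abs_self _)
  · filter_upwards [ae_bddAbove h] with x hx
    exact (tendsto_Mge h hx).mul_const _

end Aux

/-- Recipe.  `M = mx F (Ioi 0)`.  `g i x = ‖fderiv (Mge F (-i)) x‖ₑ * 1[M x = Mge F (-i) x]` is a.e.
increasing in `i` (touching), so `H1 = ⨆ i, g i` has `∫⁻ H1 ≤ C τ` (`lintegral_iSup_ae`); take the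
real version. -/
theorem exists_H1 : ∃ C : ℝ, 0 < C ∧ ∀ (F : ℂ → ℝ) (G : ℂ → ℂ), Hyp F G → (∀ x, 0 ≤ F x) →
    ∃ H1 : ℂ → ℝ, Integrable H1 ∧ (∀ x, 0 ≤ H1 x) ∧ ∫ x, H1 x ≤ C * ∫ w, ‖G w‖ ∧
      ∀ i : ℕ, ∀ᵐ x, mx F (Ioi 0) x = Mge F (-(i : ℤ)) x →
        ‖fderiv ℝ (Mge F (-(i : ℤ))) x‖ ≤ H1 x := by
  obtain ⟨C, hC, hint⟩ := integral_fderiv_Mge
  refine ⟨C, hC, fun F G h hF0 => ?_⟩
  set g : ℕ → ℂ → ENNReal := fun i => {x | mx F (Ioi 0) x = Mge F (-(i : ℤ)) x}.indicator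
    fun x => ‖fderiv ℝ (Mge F (-(i : ℤ))) x‖ₑ with hg
  have hgm : ∀ i, AEMeasurable (g i) := fun i =>
    (measurable_fderiv ℝ _).enorm.aemeasurable.indicator₀
      ((locallyIntegrable_mx h hF0).aestronglyMeasurable.nullMeasurableSet_eq_fun
        (fin_Mge_lip h _).choose_spec.continuous.aestronglyMeasurable)
  have hmono : ∀ᵐ x : ℂ, Monotone fun i => g i x := by
    filter_upwards [ae_bddAbove h, fin_Mge_diff h] with x hx hd
    intro i j hij
    simp only [hg]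
    by_cases hM : mx F (Ioi 0) x = Mge F (-(i : ℤ)) x
    · have h4 : Mge F (-(i : ℤ)) x = Mge F (-(j : ℤ)) x :=
        le_antisymm (fin_Mge_anti h (by omega) x) (hM ▸ fin_Mge_le hx _)
      rw [indicator_of_mem (show x ∈ {x | mx F (Ioi 0) x = Mge F (-(i : ℤ)) x} from hM),
        indicator_of_mem (show x ∈ {x | mx F (Ioi 0) x = Mge F (-(j : ℤ)) x} from hM.trans h4),
        fderiv_eq_of_touch (fun y => fin_Mge_anti h (by omega) y) h4 (hd _) (hd _)]
    · rw [indicator_of_notMem (show x ∉ {x | mx F (Ioi 0) x = Mge F (-(i : ℤ)) x} from hM)]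
      exact zero_le
  have hH : ∫⁻ x, ⨆ i, g i x ≤ ENNReal.ofReal (C * ∫ w, ‖G w‖) := by
    rw [lintegral_iSup' hgm hmono]
    exact iSup_le fun i => (lintegral_mono fun x => indicator_le_self _ _ x).trans
      (hint F G h hF0 _)
  have hHm : AEMeasurable fun x => ⨆ i, g i x := AEMeasurable.iSup hgm
  have hne : ∫⁻ x, ⨆ i, g i x ≠ ⊤ := ne_top_of_le_ne_top ENNReal.ofReal_ne_top hH
  have hlt := ae_lt_top' hHm hne
  refine ⟨fun x => (⨆ i, g i x).toReal, integrable_toReal_of_lintegral_ne_top hHm hne,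
    fun x => ENNReal.toReal_nonneg, ?_, fun i => ?_⟩
  · rw [integral_toReal hHm hlt]
    exact ENNReal.toReal_le_of_le_ofReal
      (mul_nonneg hC.le (integral_nonneg fun w => norm_nonneg _)) hH
  · filter_upwards [hlt] with x hx hM
    have h1 : g i x ≤ ⨆ i, g i x := le_iSup (fun i => g i x) i
    have h2 := ENNReal.toReal_mono hx.ne h1
    simp only [hg] at h2
    rwa [indicator_of_mem (show x ∈ {x | mx F (Ioi 0) x = Mge F (-(i : ℤ)) x} from hM),
      toReal_enorm] at h2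

/-- Recipe.  `H = H1 + C ‖G‖`.  Normalise `|φ| ≤ 1`.  `∫ M ∂_v φ = lim_i ∫ Mge F (-i) ∂_v φ`
(dominated by `M`), `|∫ Mge F (-i) ∂_v φ| ≤ ‖v‖ ∫ |φ| ‖fderiv (Mge F (-i))‖` (`ibp`).  Fix `l : ℕ`,
`n1 = -l - 1`.  For `i > l`, `Mge F (-i) = max (aa F (-i) n1) (Mge F (-l))`, so a.e.
`‖fderiv (Mge F (-i))‖ ≤ ‖fderiv (aa F (-i) n1)‖ + ‖fderiv (Mge F (-l))‖ 1[Mge F (-i) = Mge F (-l)]`.
First part: `loc_lemma` with `|φ|`, `η = 14 * 2^n1 * Lip φ`.  Second part: as `i → ∞` it tends to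
`∫ |φ| ‖fderiv (Mge F (-l))‖ 1[M = Mge F (-l)] ≤ ∫ |φ| H1` (dominated convergence; the indicator is
eventually constant where `BddAbove`).  Finally `l → ∞` (`tendsto_defi`). -/
theorem final_complex : ∃ C : ℝ, 0 < C ∧ ∀ (F : ℂ → ℝ) (G : ℂ → ℂ), Hyp F G → (∀ x, 0 ≤ F x) →
    ∃ H : ℂ → ℝ, Integrable H ∧ (∀ x, 0 ≤ H x) ∧ ∫ x, H x ≤ C * ∫ w, ‖G w‖ ∧
      ∀ φ : ℂ → ℝ, ContDiff ℝ 1 φ → HasCompactSupport φ → ∀ v : ℂ,
        |∫ x, mx F (Ioi 0) x * fderiv ℝ φ x v| ≤ ‖v‖ * ∫ x, |φ x| * H x := by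
  obtain ⟨C₁, hC₁, hH1⟩ := exists_H1
  obtain ⟨C₂, hC₂, hloc⟩ := fin_loc
  refine ⟨C₁ + C₂, by positivity, fun F G h hF0 => ?_⟩
  obtain ⟨H1, iH1, hH10, hH1le, hH1d⟩ := hH1 F G h hF0
  have iG : Integrable fun x => C₂ * ‖G x‖ := h.intG.norm.const_mul C₂
  refine ⟨fun x => H1 x + C₂ * ‖G x‖, iH1.add iG, fun x => by have := hH10 x; positivity, ?_,
    fun φ hφ hc v => ?_⟩
  · rw [integral_add iH1 iG, integral_const_mul]
    linarith
  obtain ⟨L, hL⟩ := ContDiff.lipschitzWith_of_hasCompactSupport hc hφ one_ne_zero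
  obtain ⟨B0, hB0⟩ := hc.exists_bound_of_continuous hL.continuous
  have hB : ∀ x, |φ x| ≤ max B0 1 := fun x => (hB0 x).trans (le_max_left _ _)
  have hBpos : 0 < max B0 1 := lt_max_of_lt_right one_pos
  set B := max B0 1
  have hφm : AEStronglyMeasurable (fun x => |φ x|) volume := hL.continuous.abs.aestronglyMeasurable
  have hφb : ∀ᵐ x : ℂ, ‖|φ x|‖ ≤ B := Eventually.of_forall fun x => by
    rw [Real.norm_eq_abs, abs_abs]; exact hB x
  have j1 : Integrable fun x => |φ x| * H1 x := iH1.bdd_mul hφm hφb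
  have j2 : Integrable fun x => |φ x| * ‖G x‖ := h.intG.norm.bdd_mul hφm hφb
  have hψ : Continuous fun x => fderiv ℝ φ x v :=
    (hφ.continuous_fderiv one_ne_zero).clm_apply continuous_const
  have hψc : HasCompactSupport fun x => fderiv ℝ φ x v := hc.fderiv_apply ℝ v
  have hM := (fin_tendsto_M h hF0 hψ hψc).abs
  have key : ∀ l : ℕ, |∫ x, mx F (Ioi 0) x * fderiv ℝ φ x v| ≤
      ‖v‖ * (C₂ * ((∫ w, |φ w| * ‖G w‖) + 14 * 2 ^ (-(l : ℤ) - 1) * L * (∫ w, ‖G w‖) +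
        B * defi G (-(l : ℤ) - 1 + 8)) + ∫ x, |φ x| * H1 x) := by
    intro l
    have hT := ((fin_tendsto_ind h l hL.continuous hc).const_add
      (C₂ * ((∫ w, |φ w| * ‖G w‖) + 14 * 2 ^ (-(l : ℤ) - 1) * L * (∫ w, ‖G w‖) +
        B * defi G (-(l : ℤ) - 1 + 8)))).const_mul ‖v‖
    refine (le_of_tendsto_of_tendsto hM hT ?_).trans ?_
    · filter_upwards [eventually_ge_atTop (l + 1)] with i hi
      have hil : -(i : ℤ) ≤ -(l : ℤ) - 1 := by omega
      refine (fin_ibp_le (fin_Mge_lip h _).choose_spec hL hc v).trans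
        (mul_le_mul_of_nonneg_left ?_ (norm_nonneg v))
      have h1 := fin_split h hil hL.continuous hc
      rw [sub_add_cancel] at h1
      exact h1.trans (add_le_add (hloc F G h _ _ hil φ L B hL hc hBpos hB) le_rfl)
    · refine mul_le_mul_of_nonneg_left (add_le_add le_rfl ?_) (norm_nonneg v)
      refine integral_mono_of_nonneg (Eventually.of_forall fun x =>
        indicator_nonneg (fun y _ => by positivity) x) j1 ?_
      filter_upwards [hH1d l] with x hx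
      by_cases hM : mx F (Ioi 0) x = Mge F (-(l : ℤ)) x
      · rw [indicator_of_mem (show x ∈ {x | mx F (Ioi 0) x = Mge F (-(l : ℤ)) x} from hM)]
        exact mul_le_mul_of_nonneg_left (hx hM) (abs_nonneg _)
      · rw [indicator_of_notMem (show x ∉ {x | mx F (Ioi 0) x = Mge F (-(l : ℤ)) x} from hM)]
        exact mul_nonneg (abs_nonneg _) (hH10 x)
  have t0 : ∀ c : ℤ, Tendsto (fun l : ℕ => -(l : ℤ) + c) atTop atBot := fun c =>
    tendsto_atBot_add_const_right _ c (tendsto_neg_atTop_atBot.comp tendsto_natCast_atTop_atTop)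
  have t1 : Tendsto (fun l : ℕ => (2 : ℝ) ^ (-(l : ℤ) - 1)) atTop (𝓝 0) := by
    have := (tendsto_pow_atTop_nhds_zero_of_lt_one (r := (2 : ℝ)⁻¹) (by norm_num)
      (by norm_num)).mul_const (2 : ℝ)⁻¹
    rw [zero_mul] at this
    refine this.congr fun l => ?_
    rw [zpow_sub_one₀ two_ne_zero, zpow_neg, zpow_natCast, inv_pow]
  have t2 : Tendsto (fun l : ℕ => defi G (-(l : ℤ) - 1 + 8)) atTop (𝓝 0) := by
    refine ((tendsto_defi h.intG).comp (t0 7)).congr fun l => ?_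
    simp only [Function.comp_apply]
    congr 1
    ring
  have t3 := (((((((t1.const_mul 14).mul_const (L : ℝ)).mul_const (∫ w, ‖G w‖)).const_add
    (∫ w, |φ w| * ‖G w‖)).add (t2.const_mul B)).const_mul C₂).add_const
      (∫ x, |φ x| * H1 x)).const_mul ‖v‖
  refine (ge_of_tendsto' t3 key).trans (le_of_eq ?_)
  have e : ∀ x, |φ x| * (H1 x + C₂ * ‖G x‖) = |φ x| * H1 x + C₂ * (|φ x| * ‖G x‖) :=
    fun x => by ring
  simp only [e]
  rw [integral_add j1 (j2.const_mul C₂), integral_const_mul]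
  ring

end Crest.Agent.R112
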