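import Crest.Agent.R112.Loc

set_option autoImplicit false

namespace Crest.Agent.R112

open MeasureTheory Metric Set Filter Topology

/-! # The maximal functions `Mge F n` and their limit -/

variable {F : ℂ → ℝ} {G : ℂ → ℂ}

/-- maximal function over the radii `≥ 2^n` -/
noncomputable def Mge (F : ℂ → ℝ) (n : ℤ) : ℂ → ℝ := mx F (Ici ((2 : ℝ) ^ n))

theorem finA_meas (μ : Measure ℂ) [SFinite μ] (R : ℝ) : Measurable fun x : ℂ => μ (ball x R) := by
  have hs : MeasurableSet {p : ℂ × ℂ | dist p.2 p.1 < R} :=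
    (isOpen_lt (by fun_prop) continuous_const).measurableSet
  exact measurable_measure_prodMk_left hs

theorem finA_lintegral (μ : Measure ℂ) [SFinite μ] (R : ℝ) :
    ∫⁻ x : ℂ, μ (ball x R) = ENNReal.ofReal R ^ 2 * NNReal.pi * μ univ := by
  have hs : MeasurableSet {p : ℂ × ℂ | dist p.2 p.1 < R} :=
    (isOpen_lt (by fun_prop) continuous_const).measurableSet
  have h1 := Measure.prod_apply (μ := volume) (ν := μ) hs
  have h2 := Measure.prod_apply_symm (μ := volume) (ν := μ) hs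
  have h3 : ∀ w : ℂ, (fun x : ℂ => (x, w)) ⁻¹' {p : ℂ × ℂ | dist p.2 p.1 < R} = ball w R := by
    intro w
    ext x
    simp [dist_comm]
  simp only [h3, Complex.volume_ball, lintegral_const] at h2
  rw [← h2, h1]
  rfl

theorem finA_chain (h : Hyp F G) (x : ℂ) (i : ℕ) : ∀ r : ℝ, (1 / 2 : ℝ) ^ i ≤ r → r ≤ 1 →
    av F x r ≤ av F x 1 + ∑ j ∈ Finset.range i, 2 ^ j * ∫ w in ball x ((1 / 2 : ℝ) ^ j), ‖G w‖ := by
  induction i with
  | zero =>
    intro r h1 h2
    obtain rfl : r = 1 := le_antisymm h2 (by simpa using h1)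
    simp
  | succ i ih =>
    intro r h1 h2
    have h0 : 0 ≤ ∫ w in ball x ((1 / 2 : ℝ) ^ i), ‖G w‖ := integral_nonneg fun w => norm_nonneg _
    rw [Finset.sum_range_succ]
    rcases le_total ((1 / 2 : ℝ) ^ i) r with h3 | h3
    · have := ih r h3 h2
      have : 0 ≤ 2 ^ i * ∫ w in ball x ((1 / 2 : ℝ) ^ i), ‖G w‖ := by positivity
      linarith
    · have hR : (0 : ℝ) < (1 / 2) ^ i := by positivity
      have h4 := ih _ le_rfl (pow_le_one₀ (by norm_num) (by norm_num))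
      rw [pow_succ] at h1
      have h5 := h.av_rad x hR (by linarith) h3
      have h6 : 2 * ((1 / 2 : ℝ) ^ i - r) / ((1 / 2) ^ i) ^ 2 ≤ 2 ^ i := by
        rw [div_le_iff₀ (by positivity)]
        have : (2 : ℝ) ^ i * ((1 / 2) ^ i) ^ 2 = (1 / 2) ^ i := by
          rw [sq, ← mul_assoc, ← mul_pow]; norm_num
        linarith
      have h7 := mul_le_mul_of_nonneg_right h6 h0
      have h8 := le_abs_self (av F x r - av F x ((1 / 2) ^ i))
      linarith

/-- Recipe.  `h n x = 2 / 2^(n+1) * ∫_{ball x 2^(n+1)} ‖G‖ ≥ av F x r - av F x 2^(n+1)` for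
`2^n ≤ r ≤ 2^(n+1)` (`Hyp.av_rad`), `∫ h n ≤ C 2^n τ` (Fubini), so `H0 = ∑_{n < 0} h n` is
integrable (`hasSum_integral_of_summable_norm` / `lintegral_tsum`), and wherever the series
converges every average with `r ≤ 1` is `≤ av F x 1 + H0 x ≤ ‖F‖₁/π + H0 x`. -/
theorem exists_majorant (h : Hyp F G) : ∃ (c : ℝ) (H0 : ℂ → ℝ), Integrable H0 ∧
    ∀ᵐ x, ∀ r : ℝ, 0 < r → av F x r ≤ c + H0 x := by
  set μ : Measure ℂ := volume.withDensity fun w => ‖G w‖ₑ with hμ
  have : IsFiniteMeasure μ := isFiniteMeasure_withDensity h.intG.2.ne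
  have hb : ∀ x R, ∫ w in ball x R, ‖G w‖ = (μ (ball x R)).toReal := fun x R => by
    rw [hμ, withDensity_apply _ measurableSet_ball,
      integral_norm_eq_lintegral_enorm h.intG.1.restrict]
  set K : ℂ → ENNReal := fun x => ∑' j : ℕ, 2 ^ j * μ (ball x ((1 / 2 : ℝ) ^ j)) with hK
  have hm : ∀ j : ℕ, Measurable fun x : ℂ => 2 ^ j * μ (ball x ((1 / 2 : ℝ) ^ j)) := fun j =>
    (finA_meas μ _).const_mul _
  have hKm : Measurable K := Measurable.tsum hm
  have hKi : ∫⁻ x, K x ≠ ⊤ := by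
    rw [hK, lintegral_tsum fun j => (hm j).aemeasurable]
    have : ∀ j : ℕ, ∫⁻ x : ℂ, 2 ^ j * μ (ball x ((1 / 2 : ℝ) ^ j)) =
        (2⁻¹ : ENNReal) ^ j * (NNReal.pi * μ univ) := fun j => by
      rw [lintegral_const_mul _ (finA_meas μ _), finA_lintegral,
        ENNReal.ofReal_pow (by norm_num), one_div, ENNReal.ofReal_inv_of_pos two_pos,
        ENNReal.ofReal_ofNat, sq, ← mul_assoc, ← mul_assoc, ← mul_assoc, ← mul_pow,
        ENNReal.mul_inv_cancel (by norm_num) (by norm_num), one_pow, one_mul, mul_assoc]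
    simp only [this]
    rw [ENNReal.tsum_mul_right, ENNReal.tsum_geometric_two]
    exact ENNReal.mul_ne_top (by norm_num)
      (ENNReal.mul_ne_top ENNReal.coe_ne_top (measure_ne_top _ _))
  refine ⟨(∫ y, |F y|) / (Real.pi * 1 ^ 2), fun x => (K x).toReal,
    integrable_toReal_of_lintegral_ne_top hKm.aemeasurable hKi, ?_⟩
  filter_upwards [ae_lt_top hKm hKi] with x hx r hr
  have h0 : 0 ≤ ∫ y, |F y| := integral_nonneg fun y => abs_nonneg _
  rcases le_total r 1 with h1 | h1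
  · obtain ⟨i, hi⟩ := exists_pow_lt_of_lt_one hr (show (1 / 2 : ℝ) < 1 by norm_num)
    have h2 := finA_chain h x i r hi.le h1
    have h3 := (le_abs_self _).trans (abs_av_le h.intF x one_pos)
    have h4 : ∑ j ∈ Finset.range i, 2 ^ j * ∫ w in ball x ((1 / 2 : ℝ) ^ j), ‖G w‖ ≤
        (K x).toReal := by
      refine le_trans (le_of_eq ?_) (ENNReal.toReal_mono hx.ne (ENNReal.sum_le_tsum (Finset.range i)))
      rw [ENNReal.toReal_sum fun j _ => ENNReal.mul_ne_top (by simp) (measure_ne_top _ _)]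
      refine Finset.sum_congr rfl fun j _ => ?_
      rw [hb, ENNReal.toReal_mul]
      simp
    linarith
  · have h3 := (le_abs_self _).trans (abs_av_le h.intF x hr)
    have h4 : (∫ y, |F y|) / (Real.pi * r ^ 2) ≤ (∫ y, |F y|) / (Real.pi * 1 ^ 2) :=
      div_le_div_of_nonneg_left h0 (by positivity) (by gcongr)
    have := ENNReal.toReal_nonneg (a := K x)
    linarith

theorem ae_bddAbove (h : Hyp F G) : ∀ᵐ x, BddAbove (av F x '' Ioi 0) := by
  obtain ⟨c, H0, -, h1⟩ := exists_majorant h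
  filter_upwards [h1] with x hx
  refine ⟨c + H0 x, ?_⟩
  rintro _ ⟨r, hr, rfl⟩
  exact hx r hr

theorem tendsto_Mge (h : Hyp F G) {x : ℂ} (hx : BddAbove (av F x '' Ioi 0)) :
    Tendsto (fun i : ℕ => Mge F (-(i : ℤ)) x) atTop (𝓝 (mx F (Ioi 0) x)) := by
  refine tendsto_order.2 ⟨fun a ha => ?_, fun a ha => Eventually.of_forall fun i => ?_⟩
  · obtain ⟨_, ⟨r, hr, rfl⟩, h1⟩ := exists_lt_of_lt_csSup (nonempty_Ioi.image _) ha
    obtain ⟨i, hi⟩ := exists_pow_lt_of_lt_one hr (show (1 / 2 : ℝ) < 1 by norm_num)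
    filter_upwards [eventually_ge_atTop i] with j hj
    refine h1.trans_le (av_le_mx h.intF x (s := 2 ^ (-(j : ℤ))) (by positivity) subset_rfl ?_)
    have : (1 / 2 : ℝ) ^ j ≤ (1 / 2) ^ i := pow_le_pow_of_le_one (by norm_num) (by norm_num) hj
    rw [mem_Ici, zpow_neg, zpow_natCast, ← inv_pow, ← one_div]
    linarith
  · refine lt_of_le_of_lt (mx_le F x nonempty_Ici fun r hr => le_csSup hx ⟨r, ?_, rfl⟩) ha
    exact lt_of_lt_of_le (show (0 : ℝ) < 2 ^ (-(i : ℤ)) by positivity) hr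

theorem Hyp.Mge_lip (h : Hyp F G) (n : ℤ) : ∃ K, LipschitzWith K (Mge F n) :=
  h.mx_lip (s := 2 ^ n) (by positivity) subset_rfl nonempty_Ici

theorem locallyIntegrable_mx (h : Hyp F G) (hF0 : ∀ x, 0 ≤ F x) :
    LocallyIntegrable (mx F (Ioi 0)) := by
  obtain ⟨c, H0, hH, h1⟩ := exists_majorant h
  have hm : AEStronglyMeasurable (mx F (Ioi 0)) volume := by
    refine aestronglyMeasurable_of_tendsto_ae atTop (f := fun i : ℕ => Mge F (-(i : ℤ)))
      (fun i => ?_) ?_
    · obtain ⟨K, hK⟩ := h.Mge_lip (-(i : ℤ))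
      exact hK.continuous.aestronglyMeasurable
    · filter_upwards [ae_bddAbove h] with x hx using tendsto_Mge h hx
  have h2 : LocallyIntegrable (fun x => c + H0 x) volume :=
    (locallyIntegrable_const c).add hH.locallyIntegrable
  refine h2.mono hm ?_
  filter_upwards [h1, ae_bddAbove h] with x hx hb
  have h3 : 0 ≤ mx F (Ioi 0) x :=
    (av_nonneg hF0 x 1).trans (le_csSup hb ⟨1, mem_Ioi.2 one_pos, rfl⟩)
  rw [Real.norm_eq_abs, Real.norm_eq_abs, abs_of_nonneg h3]
  exact (mx_le F x nonempty_Ioi hx).trans (le_abs_self _)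

theorem Hyp.Mge_eq_max (h : Hyp F G) {n k : ℤ} (hnk : n ≤ k) (x : ℂ) :
    Mge F n x = max (aa F n k x) (Mge F (k + 1) x) := by
  have h1 : (2 : ℝ) ^ n ≤ 2 ^ (k + 1) := zpow_le_zpow_right₀ one_le_two (by omega)
  unfold Mge aa
  rw [← Icc_union_Ici_eq_Ici h1]
  exact mx_union h.intF x (s := 2 ^ n) (by positivity) Icc_subset_Ici_self
    (fun r hr => h1.trans hr) (nonempty_Icc.2 h1) nonempty_Ici

theorem Hyp.Mge_le (h : Hyp F G) (n : ℤ) (x : ℂ) :
    Mge F n x ≤ (∫ y, |F y|) / (Real.pi * (2 ^ n) ^ 2) := by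
  refine mx_le F x nonempty_Ici fun r hr => ?_
  have h1 : (2 : ℝ) ^ n ≤ r := hr
  have h2 : (0 : ℝ) < 2 ^ n := by positivity
  refine (le_abs_self _).trans ((abs_av_le h.intF x (by linarith)).trans ?_)
  exact div_le_div_of_nonneg_left (integral_nonneg fun y => abs_nonneg _) (by positivity)
    (by gcongr)

theorem Hyp.Mge_nonneg (h : Hyp F G) (hF0 : ∀ x, 0 ≤ F x) (n : ℤ) (x : ℂ) : 0 ≤ Mge F n x :=
  (av_nonneg hF0 x (2 ^ n)).trans
    (av_le_mx h.intF x (s := 2 ^ n) (by positivity) subset_rfl self_mem_Ici)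

theorem Hyp.ev_Mge_eq (h : Hyp F G) (n : ℤ) {x : ℂ} (hx : 0 < Mge F n x) :
    ∀ᶠ m : ℕ in atTop, aa F n (n + m) x = Mge F n x := by
  have h1 : Tendsto (fun m : ℕ => (2 : ℝ) ^ (n + m + 1)) atTop atTop := by
    have : ∀ m : ℕ, (2 : ℝ) ^ (n + m + 1) = 2 ^ (n + 1) * 2 ^ m := fun m => by
      rw [← zpow_natCast, ← zpow_add₀ two_ne_zero]; congr 1; ring
    simp only [this]
    exact (tendsto_pow_atTop_atTop_of_one_lt one_lt_two).const_mul_atTop (by positivity)
  have h2 : Tendsto (fun m : ℕ => (∫ y, |F y|) / (Real.pi * ((2 : ℝ) ^ (n + m + 1)) ^ 2)) atTop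
      (𝓝 0) :=
    tendsto_const_nhds.div_atTop
      (((tendsto_pow_atTop two_ne_zero).comp h1).const_mul_atTop Real.pi_pos)
  filter_upwards [h2.eventually (gt_mem_nhds hx)] with m hm
  have h3 := h.Mge_eq_max (show n ≤ n + m by omega) x
  have h4 := h.Mge_le (n + m + 1) x
  rcases max_choice (aa F n (n + m) x) (Mge F (n + m + 1) x) with h5 | h5
  · rw [h3, h5]
  · rw [h5] at h3; linarith

/-- cutoff -/
noncomputable def finA_cut (m : ℕ) (x : ℂ) : ℝ := max 0 (min 1 (m + 1 - ‖x‖))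

theorem finA_cut_cont (m : ℕ) : Continuous (finA_cut m) := by unfold finA_cut; fun_prop

theorem finA_cut_supp (m : ℕ) : HasCompactSupport (finA_cut m) := by
  refine HasCompactSupport.intro (isCompact_closedBall (0 : ℂ) (m + 1)) fun x hx => ?_
  rw [mem_closedBall_zero_iff, not_le] at hx
  exact max_eq_left (min_le_of_right_le (by linarith))

theorem finA_cut_bd (m : ℕ) (x : ℂ) : 0 ≤ finA_cut m x ∧ finA_cut m x ≤ 1 :=
  ⟨le_max_left _ _, max_le zero_le_one (min_le_left _ _)⟩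

theorem finA_cut_ev (x : ℂ) : ∀ᶠ m : ℕ in atTop, finA_cut m x = 1 := by
  obtain ⟨N, hN⟩ := exists_nat_ge ‖x‖
  filter_upwards [eventually_ge_atTop N] with m hm
  have : (N : ℝ) ≤ m := by exact_mod_cast hm
  rw [finA_cut, min_eq_left (by linarith), max_eq_right zero_le_one]

/-- Recipe.  `Mge F n = max (aa F n k) (Mge F (k+1))` (`mx_union`) and
`Mge F (k+1) ≤ ‖F‖₁ / (π 4^(k+1)) → 0`.  So at a point with `0 < Mge F n x` we have
`Mge F n x = aa F n k x` for all large `k` and the derivatives agree a.e. (`fderiv_eq_of_touch`);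
at a point with `Mge F n x = 0` the derivative vanishes (minimum).  Hence a.e.
`‖fderiv (Mge F n) x‖ ≤ liminf_k ‖fderiv (aa F n k) x‖`; Fatou, `loc_lemma` with `η = 1`,
`defi_le`, and cutoffs `φ ↑ 1`. -/
theorem integral_fderiv_Mge : ∃ C : ℝ, 0 < C ∧ ∀ (F : ℂ → ℝ) (G : ℂ → ℂ), Hyp F G →
    (∀ x, 0 ≤ F x) → ∀ n : ℤ,
    ∫⁻ x, ‖fderiv ℝ (Mge F n) x‖ₑ ≤ ENNReal.ofReal (C * ∫ w, ‖G w‖) := by
  obtain ⟨C, hC, hloc⟩ := loc_lemma
  refine ⟨3 * C, by positivity, fun F G h hF0 n => ?_⟩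
  obtain ⟨K, hK⟩ := h.Mge_lip n
  have hA := fun m : ℕ => h.aa_lip (show n ≤ n + m by omega)
  choose K' hK' using hA
  set f : ℕ → ℂ → ENNReal := fun m x =>
    ENNReal.ofReal (finA_cut m x * ‖fderiv ℝ (aa F n (n + m)) x‖) with hf
  have hi : ∀ m : ℕ, Integrable fun x => finA_cut m x * ‖fderiv ℝ (aa F n (n + m)) x‖ := fun m =>
    ((finA_cut_cont m).integrable_of_hasCompactSupport (finA_cut_supp m)).mul_bdd (c := K' m)
      (measurable_fderiv ℝ _).norm.aestronglyMeasurable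
      (Eventually.of_forall fun x => by
        rw [norm_norm]; exact norm_fderiv_le_of_lipschitz ℝ (hK' m))
  have h1 : ∀ m, ∫⁻ x, f m x ≤ ENNReal.ofReal (3 * C * ∫ w, ‖G w‖) := fun m => by
    rw [hf]
    dsimp only
    rw [← ofReal_integral_eq_lintegral_ofReal (hi m)
      (Eventually.of_forall fun x => mul_nonneg (finA_cut_bd m x).1 (norm_nonneg _))]
    refine ENNReal.ofReal_le_ofReal ((hloc F G h n (n + m) (by omega) (finA_cut m) 1
      (finA_cut_cont m) (finA_cut_supp m) (finA_cut_bd m) zero_le_one fun x y _ => by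
        linarith [(finA_cut_bd m x).2, (finA_cut_bd m y).1]).trans ?_)
    have e1 : ∫ w, finA_cut m w * ‖G w‖ ≤ ∫ w, ‖G w‖ :=
      integral_mono_of_nonneg
        (Eventually.of_forall fun w => mul_nonneg (finA_cut_bd m w).1 (norm_nonneg _)) h.intG.norm
        (Eventually.of_forall fun w => mul_le_of_le_one_left (norm_nonneg _) (finA_cut_bd m w).2)
    have e2 := defi_le G (n + m + 8)
    nlinarith
  have h2 : ∀ᵐ x, ‖fderiv ℝ (Mge F n) x‖ₑ ≤ liminf (fun m => f m x) atTop := by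
    filter_upwards [hK.ae_differentiableAt (μ := volume),
      ae_all_iff.2 fun m => (hK' m).ae_differentiableAt (μ := volume)] with x d1 d2
    rcases (h.Mge_nonneg hF0 n x).eq_or_lt with h0 | h0
    · have : IsLocalMin (Mge F n) x :=
        Eventually.of_forall fun y => h0 ▸ h.Mge_nonneg hF0 n y
      rw [this.fderiv_eq_zero, ← ofReal_norm, norm_zero, ENNReal.ofReal_zero]
      exact zero_le
    · refine le_liminf_of_le (by isBoundedDefault) ?_
      filter_upwards [h.ev_Mge_eq n h0, finA_cut_ev x] with m e1 e2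
      have e3 := fderiv_eq_of_touch (fun y => by
        rw [h.Mge_eq_max (show n ≤ n + m by omega) y]; exact le_max_left _ _) e1 (d2 m) d1
      simp only [hf]
      rw [e2, one_mul, e3, ofReal_norm]
  refine (lintegral_mono_ae h2).trans ((lintegral_liminf_le' fun m => ?_).trans ?_)
  · exact (hi m).1.aemeasurable.ennreal_ofReal
  · exact liminf_le_of_frequently_le' (Frequently.of_forall h1)

end Crest.Agent.R112
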