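import Crest.Agent.R112.Basic

set_option autoImplicit false

namespace Crest.Agent.R112

open MeasureTheory Metric Set Filter Topology

/-! # `Hyp` for `C¹` functions and its stability under `L¹` limits -/

/-- change of variables by a complex similarity: `ball x ‖ρ‖` is the image of the unit disc under
`y ↦ x + ρ y`, whose determinant is `‖ρ‖²` (write `ρ = ‖ρ‖ * u`, `rotation`/`Circle` isometry is
measure preserving, and `setIntegral_affine`; or `integral_image_eq_integral_abs_det_fderiv_smul`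
with `Complex.det_mul`-type lemma `Algebra.norm`) -/
theorem integral_ball_similarity {E : Type*} [NormedAddCommGroup E] [NormedSpace ℝ E] (f : ℂ → E)
    (x : ℂ) {ρ : ℂ} (hρ : ρ ≠ 0) :
    ∫ w in ball x ‖ρ‖, f w = (‖ρ‖ ^ 2) • ∫ y in ball (0 : ℂ) 1, f (x + ρ * y) := by
  have hd : (ContinuousLinearMap.mul ℝ ℂ ρ).det = ‖ρ‖ ^ 2 := by
    have h1 := Algebra.norm_complex_apply ρ
    rw [Algebra.norm_apply, Complex.normSq_eq_norm_sq] at h1
    rw [← h1]
    rfl
  have himg : (fun y => x + ρ * y) '' ball (0 : ℂ) 1 = ball x ‖ρ‖ := by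
    have hn : 0 < ‖ρ‖ := norm_pos_iff.2 hρ
    ext w
    simp only [mem_image, mem_ball, dist_eq_norm, sub_zero]
    constructor
    · rintro ⟨y, hy, rfl⟩
      rw [add_sub_cancel_left, norm_mul]
      exact mul_lt_of_lt_one_right hn hy
    · intro hw
      refine ⟨(w - x) / ρ, by rwa [norm_div, div_lt_one hn], ?_⟩
      field_simp
      ring
  have h := integral_image_eq_integral_abs_det_fderiv_smul volume (s := ball (0 : ℂ) 1)
    (f := fun y => x + ρ * y) (f' := fun _ => ContinuousLinearMap.mul ℝ ℂ ρ) measurableSet_ball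
    (fun y _ => ((ContinuousLinearMap.mul ℝ ℂ ρ).hasFDerivAt.const_add x).hasFDerivWithinAt)
    (fun y _ z _ hyz => mul_left_cancel₀ hρ (add_left_cancel hyz)) f
  rw [himg, hd, abs_of_nonneg (by positivity), integral_smul] at h
  exact h

theorem hyp_av_eq (F : ℂ → ℝ) (x : ℂ) {ρ : ℂ} (hρ : ρ ≠ 0) :
    av F x ‖ρ‖ = Real.pi⁻¹ * ∫ y in ball (0 : ℂ) 1, F (x + ρ * y) := by
  have hn : 0 < ‖ρ‖ := norm_pos_iff.2 hρ
  rw [av, integral_ball_similarity F x hρ, smul_eq_mul]
  field_simp

theorem hyp_continuous_ip {X : Type} [TopologicalSpace X] {u v : X → ℂ} (hu : Continuous u)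
    (hv : Continuous v) : Continuous fun p => ip (u p) (v p) := by
  unfold ip
  fun_prop

theorem hyp_ip_div (u g : ℂ) (c : ℝ) : ip (u / (c : ℂ)) g = c⁻¹ * ip u g := by
  rw [div_eq_inv_mul, ← Complex.ofReal_inv, ip_real_mul_left]

/-- Recipe.  `av F (x + t a) ‖r + t ζ‖ = π⁻¹ ∫_{ball 0 1} F (x + t a + (r + t ζ) y) dy`.  For each
`y`, FTC on `[0, T]`: the difference is `∫ t in 0..T, ip (a + ζ y) (G (x + t a + (r + t ζ) y))`.
Fubini on `ball 0 1 × Ioc 0 T` (continuous bounded integrand), undo the change of variables for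
each `t`, write the ball as an indicator, and Fubini again in `(t, w)` (bounded measurable kernel
times the integrable `G`); `ip (∫ k t) g = ∫ ip (k t) g` (a continuous linear map commutes with
the integral, `intervalIntegrable_ker`). -/
theorem hyp_of_C1 {F : ℂ → ℝ} {G : ℂ → ℂ} (hF : Integrable F) (hG : Integrable G)
    (hGc : Continuous G) (hd : Differentiable ℝ F) (hfd : ∀ x v, fderiv ℝ F x v = ip v (G x)) :
    Hyp F G := by
  refine ⟨hF, hG, fun x a ζ r T hr hT0 hT => ?_⟩
  have hρ : ∀ t : ℝ, 0 ≤ t → t ≤ T → (r : ℂ) + t * ζ ≠ 0 := fun t h0 h1 => by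
    have := half_le_norm hT h0 h1
    exact norm_pos_iff.1 (by linarith)
  have hFc : Continuous F := hd.continuous
  have e0 : av F x r = av F (x + ((0 : ℝ) : ℂ) * a) ‖(r : ℂ) + ((0 : ℝ) : ℂ) * ζ‖ := by
    simp [abs_of_pos hr]
  rw [e0, hyp_av_eq F _ (hρ T hT0 le_rfl), hyp_av_eq F _ (hρ 0 le_rfl hT0), ← mul_sub]
  have iF : ∀ t : ℝ, IntegrableOn (fun y => F (x + t * a + ((r : ℂ) + t * ζ) * y))
      (ball (0 : ℂ) 1) := fun t =>
    (ContinuousOn.integrableOn_compact (isCompact_closedBall (0 : ℂ) 1)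
      (Continuous.continuousOn (by fun_prop))).mono_set ball_subset_closedBall
  rw [← integral_sub (iF T) (iF 0)]
  set φ : ℂ → ℝ → ℝ := fun y t => ip (a + ζ * y) (G (x + t * a + ((r : ℂ) + t * ζ) * y)) with hφ
  have hφc : Continuous (Function.uncurry φ) :=
    hyp_continuous_ip (by fun_prop) (hGc.comp (by fun_prop))
  have ftc : ∀ y, F (x + T * a + ((r : ℂ) + T * ζ) * y) -
      F (x + ((0 : ℝ) : ℂ) * a + ((r : ℂ) + ((0 : ℝ) : ℂ) * ζ) * y) = ∫ t in Ioc 0 T, φ y t := by
    intro y
    rw [← intervalIntegral.integral_of_le hT0]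
    symm
    refine intervalIntegral.integral_eq_sub_of_hasDerivAt
      (f := fun t : ℝ => F (x + t * a + ((r : ℂ) + t * ζ) * y)) (fun t _ => ?_)
      ((hφc.comp (Continuous.prodMk_right y)).intervalIntegrable _ _)
    have h1 : HasDerivAt (fun t : ℝ => x + t * a + ((r : ℂ) + t * ζ) * y) (a + ζ * y) t := by
      have h0 : HasDerivAt (fun t : ℝ => (t : ℂ)) 1 t := Complex.ofRealCLM.hasDerivAt
      have := ((h0.mul_const a).const_add x).add (((h0.mul_const ζ).const_add (r : ℂ)).mul_const y)
      rw [one_mul, one_mul] at this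
      exact this
    have h2 := (hd _).hasFDerivAt.comp_hasDerivAt t h1
    rw [hfd] at h2
    exact h2
  simp_rw [ftc]
  have i1 : Integrable (Function.uncurry φ)
      ((volume.restrict (ball (0 : ℂ) 1)).prod (volume.restrict (Ioc 0 T))) := by
    rw [Measure.prod_restrict]
    exact (ContinuousOn.integrableOn_compact ((isCompact_closedBall (0 : ℂ) 1).prod
      (isCompact_Icc (a := (0 : ℝ)) (b := T))) hφc.continuousOn).mono_set
      (prod_mono ball_subset_closedBall Ioc_subset_Icc_self)
  rw [integral_integral_swap i1, ← integral_const_mul]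
  set k : ℝ → ℂ → ℂ := fun t w => if ‖w - x - t * a‖ < ‖(r : ℂ) + t * ζ‖ then
    Zv x a ζ r t w / ((Real.pi * ‖(r : ℂ) + t * ζ‖ ^ 2 : ℝ) : ℂ) else 0 with hk
  have back : ∀ t ∈ Ioc 0 T, Real.pi⁻¹ * ∫ y in ball (0 : ℂ) 1, φ y t =
      ∫ w, ip (k t w) (G w) := by
    intro t ht
    have h0 := hρ t ht.1.le ht.2
    have hn : 0 < ‖(r : ℂ) + t * ζ‖ := norm_pos_iff.2 h0
    have h1 := integral_ball_similarity (fun w => ip (Zv x a ζ r t w) (G w)) (x + t * a) h0
    have h2 : ∀ y, ip (Zv x a ζ r t (x + t * a + ((r : ℂ) + t * ζ) * y))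
        (G (x + t * a + ((r : ℂ) + t * ζ) * y)) = φ y t := by
      intro y
      have : Zv x a ζ r t (x + t * a + ((r : ℂ) + t * ζ) * y) = a + ζ * y := by
        unfold Zv
        rw [show x + t * a + ((r : ℂ) + t * ζ) * y - x - t * a = y * ((r : ℂ) + t * ζ) by ring,
          ← mul_assoc, mul_div_assoc, div_self h0, mul_one]
      rw [this]
    simp_rw [h2] at h1
    have h3 : (fun w => ip (k t w) (G w)) = (ball (x + t * a) ‖(r : ℂ) + t * ζ‖).indicator
        fun w => (Real.pi * ‖(r : ℂ) + t * ζ‖ ^ 2)⁻¹ * ip (Zv x a ζ r t w) (G w) := by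
      funext w
      have h4 : w ∈ ball (x + t * a) ‖(r : ℂ) + t * ζ‖ ↔ ‖w - x - t * a‖ < ‖(r : ℂ) + t * ζ‖ := by
        rw [mem_ball, dist_eq_norm, sub_add_eq_sub_sub]
      by_cases hw : ‖w - x - t * a‖ < ‖(r : ℂ) + t * ζ‖
      · rw [indicator_of_mem (h4.2 hw), hk]
        simp only [if_pos hw]
        exact hyp_ip_div _ _ _
      · rw [indicator_of_notMem (fun h => hw (h4.1 h)), hk]
        simp only [if_neg hw, ip_zero_left]
    rw [h3, integral_indicator measurableSet_ball, integral_const_mul, h1, smul_eq_mul]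
    field_simp
  rw [setIntegral_congr_fun measurableSet_Ioc back]
  have mk : Measurable (Function.uncurry k) := by
    refine Measurable.ite (measurableSet_lt (by fun_prop) (by fun_prop)) ?_ measurable_const
    unfold Zv
    fun_prop
  have i2 : Integrable (Function.uncurry fun t w => ip (k t w) (G w))
      ((volume.restrict (Ioc 0 T)).prod volume) := by
    have j1 : Integrable (fun p : ℝ × ℂ => G p.2) ((volume.restrict (Ioc 0 T)).prod volume) :=
      hG.comp_snd _
    refine (j1.norm.const_mul ((‖a‖ + ‖ζ‖) / (Real.pi * (r / 2) ^ 2))).mono' ?_ ?_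
    · have m1 : Measurable fun p : ℝ × ℂ => G p.2 := hGc.measurable.comp measurable_snd
      have : Measurable (Function.uncurry fun t w => ip (k t w) (G w)) := by
        unfold ip
        exact ((Complex.measurable_re.comp mk).mul (Complex.measurable_re.comp m1)).add
          ((Complex.measurable_im.comp mk).mul (Complex.measurable_im.comp m1))
      exact this.aestronglyMeasurable
    · filter_upwards [Measure.quasiMeasurePreserving_fst.ae (ae_restrict_mem measurableSet_Ioc)]
        with p hp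
      refine (abs_ip_le _ _).trans (mul_le_mul_of_nonneg_right ?_ (norm_nonneg _))
      have h0 := half_le_norm hT hp.1.le hp.2
      have hn : 0 < ‖(r : ℂ) + p.1 * ζ‖ := by linarith
      rw [hk]
      simp only
      split_ifs with hw
      · rw [norm_div, Complex.norm_real, Real.norm_of_nonneg (by positivity)]
        refine div_le_div₀ (by positivity) ?_ (by positivity) (by gcongr)
        refine (norm_add_le _ _).trans (add_le_add le_rfl ?_)
        rw [norm_div, norm_mul, div_le_iff₀ hn]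
        exact mul_le_mul_of_nonneg_left hw.le (norm_nonneg _)
      · rw [norm_zero]
        positivity
  rw [integral_integral_swap i2]
  refine integral_congr_ae (Eventually.of_forall fun w => ?_)
  have h5 := (innerSL ℝ (G w)).intervalIntegral_comp_comm (intervalIntegrable_ker hr hT0 hT w
    (x := x) (a := a))
  simp only [innerSL_apply_apply, ← ip_eq_inner] at h5
  simp only
  rw [← intervalIntegral.integral_of_le hT0, ip_comm, ker, ← h5]
  exact intervalIntegral.integral_congr fun t _ => ip_comm _ _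

/-- both sides of `Hyp.path` are `L¹`-continuous (`norm_ker_le_gen`, `integrable_ip_ker`) -/
theorem hyp_of_limit {F : ℂ → ℝ} {G : ℂ → ℂ} (hF : Integrable F) (hG : Integrable G)
    (Fs : ℕ → ℂ → ℝ) (Gs : ℕ → ℂ → ℂ) (h : ∀ i, Hyp (Fs i) (Gs i))
    (hFs : Tendsto (fun i => ∫ x, |Fs i x - F x|) atTop (𝓝 0))
    (hGs : Tendsto (fun i => ∫ x, ‖Gs i x - G x‖) atTop (𝓝 0)) : Hyp F G := by
  refine ⟨hF, hG, fun x a ζ r T hr hT0 hT => ?_⟩
  have hav : ∀ (y : ℂ) (s : ℝ), 0 < s → Tendsto (fun i => av (Fs i) y s) atTop (𝓝 (av F y s)) := by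
    intro y s hs
    rw [tendsto_iff_norm_sub_tendsto_zero]
    have h1 := hFs.div_const (Real.pi * s ^ 2)
    rw [zero_div] at h1
    refine squeeze_zero (fun _ => norm_nonneg _) (fun i => ?_) h1
    have h2 := abs_av_le ((h i).intF.sub hF) y hs
    have h3 : av (Fs i - F) y s = av (Fs i) y s - av F y s := by
      unfold av
      rw [← sub_div, ← integral_sub (h i).intF.integrableOn hF.integrableOn]
      rfl
    rw [h3] at h2
    exact h2
  have h1 := (hav (x + T * a) ‖(r : ℂ) + T * ζ‖
    (by linarith [half_le_norm hT hT0 le_rfl])).sub (hav x r hr)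
  have h2 : Tendsto (fun i => ∫ w, ip (ker x a ζ r T w) (Gs i w)) atTop
      (𝓝 (∫ w, ip (ker x a ζ r T w) (G w))) := by
    rw [tendsto_iff_norm_sub_tendsto_zero]
    have h3 := hGs.const_mul (2 * (‖a‖ + ‖ζ‖) * T / r ^ 2)
    rw [mul_zero] at h3
    refine squeeze_zero (fun _ => norm_nonneg _) (fun i => ?_) h3
    rw [← integral_sub (integrable_ip_ker (h i).intG hr hT0 hT) (integrable_ip_ker hG hr hT0 hT),
      ← integral_const_mul]
    refine norm_integral_le_of_norm_le (((h i).intG.sub hG).norm.const_mul _)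
      (Eventually.of_forall fun w => ?_)
    rw [← ip_sub_right]
    exact (abs_ip_le _ _).trans
      (mul_le_mul_of_nonneg_right (norm_ker_le_gen hr hT0 hT w) (norm_nonneg _))
  refine tendsto_nhds_unique h1 (h2.congr fun i => ?_)
  exact ((h i).path x a ζ r T hr hT0 hT).symm

end Crest.Agent.R112
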