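import Crest.Agent.R112.HypC1

set_option autoImplicit false

namespace Crest.Agent.R112

open MeasureTheory Metric Set Filter Topology

open scoped ContDiff

/-! # `Hyp` for `|f|` from the weak gradient -/

/-- Scheffé's lemma -/
theorem hw_scheffe {E : Type*} [NormedAddCommGroup E] {u : ℂ → E} {us : ℕ → ℂ → E}
    (hu : Integrable u) (hus : ∀ i, Integrable (us i))
    (hle : ∀ i, ∫ x, ‖us i x‖ ≤ ∫ x, ‖u x‖)
    (hae : ∀ᵐ x, Tendsto (fun i => us i x) atTop (𝓝 (u x))) :
    Tendsto (fun i => ∫ x, ‖us i x - u x‖) atTop (𝓝 0) := by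
  have hd : Tendsto (fun i => ∫ x, (‖us i x‖ - ‖us i x - u x‖)) atTop (𝓝 (∫ x, ‖u x‖)) := by
    refine tendsto_integral_of_dominated_convergence (fun x => ‖u x‖) (fun i => ?_) hu.norm
      (fun i => ?_) ?_
    · exact ((hus i).norm.sub ((hus i).sub hu).norm).aestronglyMeasurable
    · refine Eventually.of_forall fun x => ?_
      rw [Real.norm_eq_abs]
      have := abs_norm_sub_norm_le (us i x) (us i x - u x)
      rwa [sub_sub_cancel] at this
    · filter_upwards [hae] with x hx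
      have h1 : Tendsto (fun i => ‖us i x - u x‖) atTop (𝓝 0) := by
        have := (hx.sub_const (u x)).norm
        simpa using this
      simpa using hx.norm.sub h1
  have hd2 : Tendsto (fun i => (∫ x, ‖u x‖) - ∫ x, (‖us i x‖ - ‖us i x - u x‖)) atTop (𝓝 0) := by
    have := hd.const_sub (∫ x, ‖u x‖)
    simpa using this
  refine squeeze_zero (fun i => integral_nonneg fun x => norm_nonneg _) (fun i => ?_) hd2
  have e : ∫ x, (‖us i x‖ - ‖us i x - u x‖) = (∫ x, ‖us i x‖) - ∫ x, ‖us i x - u x‖ :=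
    integral_sub (hus i).norm ((hus i).sub hu).norm
  rw [e]
  have := hle i
  linarith

/-- the `L¹` norm does not increase under mollification -/
theorem hw_conv_norm_le {E : Type*} [NormedAddCommGroup E] [NormedSpace ℝ E] {u : ℂ → E}
    (hu : Integrable u) (φ : ContDiffBump (0 : ℂ)) :
    ∫ x, ‖convolution (φ.normed volume) u (ContinuousLinearMap.lsmul ℝ ℝ) volume x‖ ≤
      ∫ x, ‖u x‖ := by
  have h1 : ∫ x, convolution (φ.normed volume) (fun y => ‖u y‖)
      (ContinuousLinearMap.lsmul ℝ ℝ) volume x = ∫ x, ‖u x‖ := by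
    rw [integral_convolution (ContinuousLinearMap.lsmul ℝ ℝ) φ.integrable_normed hu.norm,
      φ.integral_normed]
    simp
  rw [← h1]
  refine integral_mono_of_nonneg (Eventually.of_forall fun x => norm_nonneg _)
    (φ.integrable_normed.integrable_convolution _ hu.norm) (Eventually.of_forall fun x => ?_)
  simp only [convolution_lsmul]
  refine (norm_integral_le_integral_norm _).trans (le_of_eq ?_)
  refine integral_congr_ae (Eventually.of_forall fun t => ?_)
  simp only [norm_smul, Real.norm_eq_abs, abs_of_nonneg (φ.nonneg_normed t), smul_eq_mul]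

/-- `ip v` as a continuous linear map -/
noncomputable def hw_ipL (v : ℂ) : ℂ →L[ℝ] ℝ := v.re • Complex.reCLM + v.im • Complex.imCLM

theorem hw_ipL_apply (v w : ℂ) : hw_ipL v w = ip v w := by
  simp [hw_ipL, ip]

theorem hw_fderiv_conv {f : ℂ → ℝ} {g : ℂ → ℂ} (hf : Integrable f) (hg : Integrable g)
    (hw : ∀ φ : ℂ → ℝ, ContDiff ℝ ∞ φ → HasCompactSupport φ → ∀ v : ℂ,
      ∫ x, f x * fderiv ℝ φ x v = -∫ x, ip (g x) v * φ x)
    {ρ : ℂ → ℝ} (hρ : ContDiff ℝ ∞ ρ) (hc : HasCompactSupport ρ) (x v : ℂ) :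
    fderiv ℝ (convolution ρ f (ContinuousLinearMap.lsmul ℝ ℝ) volume) x v =
      ip v (convolution ρ g (ContinuousLinearMap.lsmul ℝ ℝ) volume x) := by
  have hρ1 : ContDiff ℝ 1 ρ := hρ.of_le (by exact_mod_cast le_top)
  rw [← convolution_flip]
  rw [(hc.hasFDerivAt_convolution_right (ContinuousLinearMap.lsmul ℝ ℝ).flip
    hf.locallyIntegrable hρ1 x).fderiv]
  rw [convolution_precompR_apply _ hf.locallyIntegrable (hc.fderiv ℝ)
    (hρ1.continuous_fderiv one_ne_zero)]
  have hψ : ContDiff ℝ ∞ (fun t => ρ (x - t)) := hρ.comp (contDiff_const.sub contDiff_id)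
  have hψc : HasCompactSupport (fun t => ρ (x - t)) := by
    have := hc.comp_homeomorph (Homeomorph.subLeft x)
    exact this
  have hd : ∀ t, fderiv ℝ (fun t => ρ (x - t)) t v = -fderiv ℝ ρ (x - t) v := by
    intro t
    have h1 : HasFDerivAt ρ (fderiv ℝ ρ (x - t)) (x - t) :=
      (hρ1.differentiable one_ne_zero).differentiableAt.hasFDerivAt
    have h2 : HasFDerivAt (fun t : ℂ => x - t) (-ContinuousLinearMap.id ℝ ℂ) t := by
      exact (hasFDerivAt_id t).const_sub x
    have h3 := (h1.comp t h2).fderiv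
    have h4 : (fun t => ρ (x - t)) = ρ ∘ fun t : ℂ => x - t := rfl
    rw [h4, h3]
    simp
  have key := hw _ hψ hψc v
  simp only [hd, mul_neg, integral_neg, neg_inj] at key
  rw [convolution_def]
  simp only [ContinuousLinearMap.flip_apply, ContinuousLinearMap.lsmul_apply, smul_eq_mul]
  have e1 : ∫ t, fderiv ℝ ρ (x - t) v * f t = ∫ t, f t * fderiv ℝ ρ (x - t) v :=
    integral_congr_ae (Eventually.of_forall fun t => mul_comm _ _)
  rw [e1, key, convolution_lsmul_swap, ← hw_ipL_apply]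
  have hex : Integrable (fun t => ρ (x - t) • g t) := by
    have := (hc.convolutionExists_left (ContinuousLinearMap.lsmul ℝ ℝ) hρ.continuous
      hg.locallyIntegrable x).integrable_swap
    simpa using this
  rw [← (hw_ipL v).integral_comp_comm hex]
  refine integral_congr_ae (Eventually.of_forall fun t => ?_)
  simp only [map_smul, hw_ipL_apply, smul_eq_mul]
  rw [ip_comm, mul_comm]

/-- Mollification.  Recipe: `ρ i = (φ i).normed volume` for `ContDiffBump`s `φ i` with
`rOut → 0`, `rOut ≤ 2 rIn`; `fs i = ρ i ⋆ f`, `gs i = ρ i ⋆ g` (`MeasureTheory.convolution`,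
`lsmul ℝ ℝ`).  `HasCompactSupport.contDiff_convolution_left`,
`HasCompactSupport.hasFDerivAt_convolution_left`; the derivative
`∫ fderiv ρ (x - y) v * f y dy` equals `ip v (gs i x)` by the weak identity for the test function
`y ↦ ρ (x - y)`.  A.e. convergence:
`ContDiffBump.ae_convolution_tendsto_right_of_locallyIntegrable`.  `L¹` convergence: Scheffé
(`∫ ‖ρ ⋆ g‖ ≤ ∫ ‖g‖`, a.e. convergence, Fatou applied to `‖gs‖ + ‖g‖ - ‖gs - g‖ ≥ 0`). -/
theorem exists_smooth_approx {f : ℂ → ℝ} {g : ℂ → ℂ} (hf : Integrable f) (hg : Integrable g)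
    (hw : ∀ φ : ℂ → ℝ, ContDiff ℝ ∞ φ → HasCompactSupport φ → ∀ v : ℂ,
      ∫ x, f x * fderiv ℝ φ x v = -∫ x, ip (g x) v * φ x) :
    ∃ (fs : ℕ → ℂ → ℝ) (gs : ℕ → ℂ → ℂ), (∀ i, Integrable (fs i)) ∧ (∀ i, Integrable (gs i)) ∧
      (∀ i, Continuous (gs i)) ∧ (∀ i, Differentiable ℝ (fs i)) ∧
      (∀ i x v, fderiv ℝ (fs i) x v = ip v (gs i x)) ∧
      (∀ᵐ x, Tendsto (fun i => fs i x) atTop (𝓝 (f x))) ∧
      Tendsto (fun i => ∫ x, |fs i x - f x|) atTop (𝓝 0) ∧
      Tendsto (fun i => ∫ x, ‖gs i x - g x‖) atTop (𝓝 0) := by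
  let φ : ℕ → ContDiffBump (0 : ℂ) := fun i =>
    ⟨1 / ((i : ℝ) + 1), 2 * (1 / ((i : ℝ) + 1)), by positivity, by
      have : (0 : ℝ) < 1 / ((i : ℝ) + 1) := by positivity
      linarith⟩
  have hφ : Tendsto (fun i => (φ i).rOut) atTop (𝓝 0) := by
    have := (tendsto_one_div_add_atTop_nhds_zero_nat (𝕜 := ℝ)).const_mul 2
    simpa [φ] using this
  have hφ' : ∀ᶠ i in atTop, (φ i).rOut ≤ 2 * (φ i).rIn := Eventually.of_forall fun i => le_rfl
  have a1 := ContDiffBump.ae_convolution_tendsto_right_of_locallyIntegrable (μ := volume) hφ hφ'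
    hf.locallyIntegrable
  have a2 := ContDiffBump.ae_convolution_tendsto_right_of_locallyIntegrable (μ := volume) hφ hφ'
    hg.locallyIntegrable
  have i1 : ∀ i, Integrable (convolution ((φ i).normed volume) f
      (ContinuousLinearMap.lsmul ℝ ℝ) volume) :=
    fun i => (φ i).integrable_normed.integrable_convolution _ hf
  have i2 : ∀ i, Integrable (convolution ((φ i).normed volume) g
      (ContinuousLinearMap.lsmul ℝ ℝ) volume) :=
    fun i => (φ i).integrable_normed.integrable_convolution _ hg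
  refine ⟨fun i => convolution ((φ i).normed volume) f (ContinuousLinearMap.lsmul ℝ ℝ) volume,
    fun i => convolution ((φ i).normed volume) g (ContinuousLinearMap.lsmul ℝ ℝ) volume,
    i1, i2, fun i => ?_, fun i => ?_, fun i x v => ?_, a1, ?_, ?_⟩
  · exact (φ i).hasCompactSupport_normed.continuous_convolution_left _ (φ i).continuous_normed
      hg.locallyIntegrable
  · intro x
    exact ((φ i).hasCompactSupport_normed.hasFDerivAt_convolution_left
      (ContinuousLinearMap.lsmul ℝ ℝ) (φ i).contDiff_normed hf.locallyIntegrable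
      x).differentiableAt
  · exact hw_fderiv_conv hf hg hw (φ i).contDiff_normed (φ i).hasCompactSupport_normed x v
  · exact hw_scheffe hf i1 (fun i => hw_conv_norm_le hf (φ i)) a1
  · exact hw_scheffe hg i2 (fun i => hw_conv_norm_le hg (φ i)) a2

/-- smoothed absolute value -/
noncomputable def hw_Th (κ s : ℝ) : ℝ := √(s ^ 2 + κ ^ 2) - κ

/-- its derivative -/
noncomputable def hw_dTh (κ s : ℝ) : ℝ := s / √(s ^ 2 + κ ^ 2)

theorem hw_hasDerivAt {κ : ℝ} (hκ : 0 < κ) (s : ℝ) : HasDerivAt (hw_Th κ) (hw_dTh κ s) s := by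
  have hpos : s ^ 2 + κ ^ 2 ≠ 0 := by positivity
  have h1 : HasDerivAt (fun s : ℝ => s ^ 2 + κ ^ 2) (2 * s) s := by
    simpa using (hasDerivAt_pow 2 s).add_const (κ ^ 2)
  have h2 := (h1.sqrt hpos).sub_const κ
  have hs : 0 < √(s ^ 2 + κ ^ 2) := Real.sqrt_pos.2 (by positivity)
  have e : hw_dTh κ s = 2 * s / (2 * √(s ^ 2 + κ ^ 2)) := by
    unfold hw_dTh
    field_simp
  rw [e]
  exact h2

theorem hw_abs_le_sqrt (κ s : ℝ) : |s| ≤ √(s ^ 2 + κ ^ 2) :=
  Real.abs_le_sqrt (by nlinarith [sq_nonneg κ])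

theorem hw_dTh_le (κ s : ℝ) : |hw_dTh κ s| ≤ 1 := by
  unfold hw_dTh
  rw [abs_div, abs_of_nonneg (Real.sqrt_nonneg _)]
  exact div_le_one_of_le₀ (hw_abs_le_sqrt κ s) (Real.sqrt_nonneg _)

theorem hw_dTh_cont {κ : ℝ} (hκ : 0 < κ) : Continuous (hw_dTh κ) := by
  unfold hw_dTh
  refine continuous_id.div (by fun_prop) fun s => ?_
  exact (Real.sqrt_pos.2 (by positivity)).ne'

theorem hw_Th_cont (κ : ℝ) : Continuous (hw_Th κ) := by
  unfold hw_Th
  fun_prop

theorem hw_Th_lip {κ : ℝ} (hκ : 0 < κ) (s t : ℝ) : |hw_Th κ s - hw_Th κ t| ≤ |s - t| := by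
  have := Convex.norm_image_sub_le_of_norm_hasDerivWithin_le (f := hw_Th κ) (f' := hw_dTh κ)
    (C := 1) (s := univ) (fun x _ => (hw_hasDerivAt hκ x).hasDerivWithinAt)
    (fun x _ => by rw [Real.norm_eq_abs]; exact hw_dTh_le κ x) convex_univ (mem_univ t)
    (mem_univ s)
  simpa using this

theorem hw_Th_zero {κ : ℝ} (hκ : 0 < κ) : hw_Th κ 0 = 0 := by
  simp [hw_Th, Real.sqrt_sq hκ.le]

theorem hw_Th_le {κ : ℝ} (hκ : 0 < κ) (s : ℝ) : |hw_Th κ s| ≤ |s| := by
  have := hw_Th_lip hκ s 0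
  simpa [hw_Th_zero hκ] using this

theorem hw_int_Th {κ : ℝ} (hκ : 0 < κ) {f : ℂ → ℝ} (hf : Integrable f) :
    Integrable (fun x => hw_Th κ (f x)) := by
  refine hf.norm.mono' ((hw_Th_cont κ).comp_aestronglyMeasurable hf.aestronglyMeasurable)
    (Eventually.of_forall fun x => ?_)
  simpa using hw_Th_le hκ (f x)

theorem hw_norm_smul_le {c : ℝ} (hc : |c| ≤ 1) (w : ℂ) : ‖c • w‖ ≤ ‖w‖ := by
  rw [norm_smul, Real.norm_eq_abs]
  nlinarith [norm_nonneg w, abs_nonneg c]

theorem hw_int_dTh {κ : ℝ} (hκ : 0 < κ) {f : ℂ → ℝ} {g : ℂ → ℂ} (hf : Integrable f)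
    (hg : Integrable g) : Integrable (fun x => hw_dTh κ (f x) • g x) := by
  refine hg.norm.mono' (((hw_dTh_cont hκ).comp_aestronglyMeasurable
    hf.aestronglyMeasurable).smul hg.aestronglyMeasurable) (Eventually.of_forall fun x => ?_)
  exact hw_norm_smul_le (hw_dTh_le κ _) _

/-- dominated convergence for bounded coefficients -/
theorem hw_coef_tendsto {g : ℂ → ℂ} (hg : Integrable g) {c : ℂ → ℝ} {cs : ℕ → ℂ → ℝ}
    (hc : AEStronglyMeasurable c) (hcs : ∀ i, AEStronglyMeasurable (cs i))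
    (b : ∀ x, |c x| ≤ 1) (bs : ∀ i x, |cs i x| ≤ 1)
    (hae : ∀ᵐ x, Tendsto (fun i => cs i x) atTop (𝓝 (c x))) :
    Tendsto (fun i => ∫ x, ‖cs i x • g x - c x • g x‖) atTop (𝓝 0) := by
  have := tendsto_integral_of_dominated_convergence (μ := (volume : Measure ℂ))
    (F := fun i x => ‖cs i x • g x - c x • g x‖) (f := fun _ => (0 : ℝ))
    (fun x => 2 * ‖g x‖) (fun i => ?_) (hg.norm.const_mul 2) (fun i => ?_) ?_
  · simpa using this
  · exact (((hcs i).smul hg.aestronglyMeasurable).sub (hc.smul hg.aestronglyMeasurable)).norm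
  · refine Eventually.of_forall fun x => ?_
    rw [norm_norm]
    have h1 := hw_norm_smul_le (bs i x) (g x)
    have h2 := hw_norm_smul_le (b x) (g x)
    have := norm_sub_le (cs i x • g x) (c x • g x)
    linarith
  · filter_upwards [hae] with x hx
    have := ((hx.smul_const (g x)).sub_const (c x • g x)).norm
    simpa using this

theorem hw_hyp_Th {f : ℂ → ℝ} {g : ℂ → ℂ} (hf : Integrable f) (hg : Integrable g)
    (hw : ∀ φ : ℂ → ℝ, ContDiff ℝ ∞ φ → HasCompactSupport φ → ∀ v : ℂ,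
      ∫ x, f x * fderiv ℝ φ x v = -∫ x, ip (g x) v * φ x) {κ : ℝ} (hκ : 0 < κ) :
    Hyp (fun x => hw_Th κ (f x)) (fun x => hw_dTh κ (f x) • g x) := by
  obtain ⟨fs, gs, i1, i2, c2, d1, hd, hae, t1, t2⟩ := exists_smooth_approx hf hg hw
  refine hyp_of_limit (hw_int_Th hκ hf) (hw_int_dTh hκ hf hg) (fun i x => hw_Th κ (fs i x))
    (fun i x => hw_dTh κ (fs i x) • gs i x) (fun i => ?_) ?_ ?_
  · have hD : ∀ x, HasFDerivAt (fun x => hw_Th κ (fs i x))
        (hw_dTh κ (fs i x) • fderiv ℝ (fs i) x) x := fun x =>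
      (hw_hasDerivAt hκ (fs i x)).comp_hasFDerivAt x (d1 i x).hasFDerivAt
    refine hyp_of_C1 (hw_int_Th hκ (i1 i)) (hw_int_dTh hκ (i1 i) (i2 i))
      (((hw_dTh_cont hκ).comp (d1 i).continuous).smul (c2 i))
      (fun x => (hD x).differentiableAt) (fun x v => ?_)
    rw [(hD x).fderiv, smul_apply, hd, smul_eq_mul, Complex.real_smul,
      ip_real_mul_right]
  · refine squeeze_zero (fun i => integral_nonneg fun x => abs_nonneg _) (fun i => ?_) t1
    refine integral_mono_of_nonneg (Eventually.of_forall fun x => abs_nonneg _)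
      ((i1 i).sub hf).abs (Eventually.of_forall fun x => hw_Th_lip hκ _ _)
  · have t3 := hw_coef_tendsto hg (c := fun x => hw_dTh κ (f x))
      (cs := fun i x => hw_dTh κ (fs i x))
      ((hw_dTh_cont hκ).comp_aestronglyMeasurable hf.aestronglyMeasurable)
      (fun i => (hw_dTh_cont hκ).comp_aestronglyMeasurable (i1 i).aestronglyMeasurable)
      (fun x => hw_dTh_le κ _) (fun i x => hw_dTh_le κ _)
      (by
        filter_upwards [hae] with x hx
        exact ((hw_dTh_cont hκ).tendsto _).comp hx)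
    have t4 := t2.add t3
    rw [add_zero] at t4
    refine squeeze_zero (fun i => integral_nonneg fun x => norm_nonneg _) (fun i => ?_) t4
    have j1 : Integrable (fun x => ‖gs i x - g x‖) := ((i2 i).sub hg).norm
    have j2 : Integrable (fun x => ‖hw_dTh κ (fs i x) • g x - hw_dTh κ (f x) • g x‖) :=
      ((hw_int_dTh hκ (i1 i) hg).sub (hw_int_dTh hκ hf hg)).norm
    rw [← integral_add j1 j2]
    refine integral_mono_of_nonneg (Eventually.of_forall fun x => norm_nonneg _) (j1.add j2)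
      (Eventually.of_forall fun x => ?_)
    have e : hw_dTh κ (fs i x) • gs i x - hw_dTh κ (f x) • g x =
        hw_dTh κ (fs i x) • (gs i x - g x) +
          (hw_dTh κ (fs i x) • g x - hw_dTh κ (f x) • g x) := by
      rw [smul_sub]; abel
    have h1 := hw_norm_smul_le (hw_dTh_le κ (fs i x)) (gs i x - g x)
    show ‖hw_dTh κ (fs i x) • gs i x - hw_dTh κ (f x) • g x‖ ≤ _
    rw [e]
    exact (norm_add_le _ _).trans (by linarith)

theorem hw_sqrt_tendsto (s : ℝ) :
    Tendsto (fun i : ℕ => √(s ^ 2 + (1 / ((i : ℝ) + 1)) ^ 2)) atTop (𝓝 |s|) := by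
  have h0 := tendsto_one_div_add_atTop_nhds_zero_nat (𝕜 := ℝ)
  have h1 := ((h0.pow 2).const_add (s ^ 2)).sqrt
  simpa [Real.sqrt_sq_eq_abs] using h1

/-- Recipe.  For `κ > 0`, `Θ s = √(s² + κ²) - κ` is `C¹`, `1`-Lipschitz, `|Θ s| ≤ |s|`,
`Θ' s = s / √(s² + κ²)`.  `hyp_of_C1` for `(Θ ∘ fs i, Θ' (fs i) • gs i)`; `hyp_of_limit` in `i`
(`‖Θ'(fs) gs - Θ'(f) g‖ ≤ ‖gs - g‖ + |Θ'(fs) - Θ'(f)| ‖g‖`, dominated convergence) gives
`Hyp (Θ ∘ f) (Θ' f • g)`; `hyp_of_limit` for `κ = 1/(i+1)` gives `G = sign f • g`. -/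
theorem hyp_of_weak {f : ℂ → ℝ} {g : ℂ → ℂ} (hf : Integrable f) (hg : Integrable g)
    (hw : ∀ φ : ℂ → ℝ, ContDiff ℝ ∞ φ → HasCompactSupport φ → ∀ v : ℂ,
      ∫ x, f x * fderiv ℝ φ x v = -∫ x, ip (g x) v * φ x) :
    ∃ G : ℂ → ℂ, Hyp (fun x => |f x|) G ∧ ∀ x, ‖G x‖ ≤ ‖g x‖ := by
  have h0 := tendsto_one_div_add_atTop_nhds_zero_nat (𝕜 := ℝ)
  have hκ : ∀ i : ℕ, (0 : ℝ) < 1 / ((i : ℝ) + 1) := fun i => by positivity
  have hb : ∀ s : ℝ, |s / (|s|)| ≤ 1 := fun s => by
    rw [abs_div, abs_abs]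
    exact div_self_le_one _
  have hm : AEStronglyMeasurable (fun x => f x / |f x|) :=
    (hf.aemeasurable.div hf.abs.aemeasurable).aestronglyMeasurable
  have hG : Integrable (fun x => (f x / |f x|) • g x) :=
    hg.norm.mono' (hm.smul hg.aestronglyMeasurable)
      (Eventually.of_forall fun x => hw_norm_smul_le (hb _) _)
  refine ⟨fun x => (f x / |f x|) • g x, ?_, fun x => hw_norm_smul_le (hb _) _⟩
  refine hyp_of_limit hf.abs hG (fun i x => hw_Th (1 / ((i : ℝ) + 1)) (f x))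
    (fun i x => hw_dTh (1 / ((i : ℝ) + 1)) (f x) • g x) (fun i => hw_hyp_Th hf hg hw (hκ i)) ?_ ?_
  · have := tendsto_integral_of_dominated_convergence (μ := (volume : Measure ℂ))
      (F := fun (i : ℕ) x => |hw_Th (1 / ((i : ℝ) + 1)) (f x) - (|f x|)|) (f := fun _ => (0 : ℝ))
      (fun x => 2 * |f x|) (fun i => ?_) (hf.abs.const_mul 2) (fun i => ?_) ?_
    · simpa using this
    · exact ((hw_int_Th (hκ i) hf).sub hf.abs).abs.aestronglyMeasurable
    · refine Eventually.of_forall fun x => ?_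
      rw [Real.norm_eq_abs, abs_abs]
      have h1 := hw_Th_le (hκ i) (f x)
      have h2 := abs_sub (hw_Th (1 / ((i : ℝ) + 1)) (f x)) |f x|
      rw [abs_abs] at h2
      linarith
    · refine Eventually.of_forall fun x => ?_
      have := (((hw_sqrt_tendsto (f x)).sub h0).sub_const |f x|).abs
      simpa [hw_Th] using this
  · refine hw_coef_tendsto hg hm
      (fun i => (hw_dTh_cont (hκ i)).comp_aestronglyMeasurable hf.aestronglyMeasurable)
      (fun x => hb _) (fun i x => hw_dTh_le _ _) (Eventually.of_forall fun x => ?_)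
    by_cases hx : f x = 0
    · simp [hw_dTh, hx]
    · exact tendsto_const_nhds.div (hw_sqrt_tendsto (f x)) (abs_ne_zero.2 hx)

end Crest.Agent.R112
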