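import Crest.Agent.R112.Star

set_option autoImplicit false

namespace Crest.Agent.R112

open MeasureTheory Metric Set Filter Topology

/-! # The kernel lemma: only the NEGATIVE parts of fine cell integrals are charged -/

theorem kl_measurable_cellOf (n : ℤ) : Measurable (cellOf n) := by
  unfold cellOf
  exact measurable_const.prodMk
    ((Complex.measurable_re.div_const _).floor.prodMk (Complex.measurable_im.div_const _).floor)

/-- the supremum of `y` over the cell of depth `i` that contains `w` -/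
noncomputable def klY (y : ℂ → ℝ) (i : ℕ) (w : ℂ) : ℝ := sSup (y '' cell (cellOf (-(i : ℤ)) w))

theorem kl_measurable (y : ℂ → ℝ) (i : ℕ) : Measurable (klY y i) :=
  (measurable_of_countable fun P : Cell => sSup (y '' cell P)).comp (kl_measurable_cellOf _)

section scalar
variable {y g : ℂ → ℝ} {A : ℝ}

theorem kl_osc
    (hosc : ∀ (i : ℕ) (w w' : ℂ), ‖w - w'‖ ≤ 2 * (1 / 2) ^ i → |y w - y w'| ≤ A * (3 / 4) ^ i)
    (i : ℕ) {w w' : ℂ} (h : w' ∈ cell (cellOf (-(i : ℤ)) w)) : y w' ≤ y w + A * (3 / 4) ^ i := by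
  have h1 := norm_sub_le_of_mem_cell h (mem_cell_cellOf (-(i : ℤ)) w)
  have h2 : (2 : ℝ) ^ (cellOf (-(i : ℤ)) w).1 = (1 / 2) ^ i := by
    simp [cellOf]
  rw [h2] at h1
  have h3 : (0 : ℝ) ≤ (1 / 2) ^ i := by positivity
  have := (abs_le.1 (hosc i w' w (by linarith))).2
  linarith

theorem kl_bdd
    (hosc : ∀ (i : ℕ) (w w' : ℂ), ‖w - w'‖ ≤ 2 * (1 / 2) ^ i → |y w - y w'| ≤ A * (3 / 4) ^ i)
    (i : ℕ) (w : ℂ) : BddAbove (y '' cell (cellOf (-(i : ℤ)) w)) :=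
  ⟨y w + A * (3 / 4) ^ i, by rintro _ ⟨w', h, rfl⟩; exact kl_osc hosc i h⟩

theorem kl_le
    (hosc : ∀ (i : ℕ) (w w' : ℂ), ‖w - w'‖ ≤ 2 * (1 / 2) ^ i → |y w - y w'| ≤ A * (3 / 4) ^ i)
    (i : ℕ) (w : ℂ) : y w ≤ klY y i w :=
  le_csSup (kl_bdd hosc i w) ⟨w, mem_cell_cellOf _ w, rfl⟩

theorem kl_le_of (i : ℕ) (w : ℂ) {c : ℝ} (h : ∀ w' ∈ cell (cellOf (-(i : ℤ)) w), y w' ≤ c) :
    klY y i w ≤ c :=
  csSup_le ⟨y w, w, mem_cell_cellOf _ w, rfl⟩ (by rintro _ ⟨w', h', rfl⟩; exact h w' h')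

theorem kl_ge
    (hosc : ∀ (i : ℕ) (w w' : ℂ), ‖w - w'‖ ≤ 2 * (1 / 2) ^ i → |y w - y w'| ≤ A * (3 / 4) ^ i)
    (i : ℕ) (w : ℂ) : klY y i w ≤ y w + A * (3 / 4) ^ i :=
  kl_le_of i w fun _ h => kl_osc hosc i h

theorem kl_anti
    (hosc : ∀ (i : ℕ) (w w' : ℂ), ‖w - w'‖ ≤ 2 * (1 / 2) ^ i → |y w - y w'| ≤ A * (3 / 4) ^ i)
    (i : ℕ) (w : ℂ) : klY y (i + 1) w ≤ klY y i w := by
  refine kl_le_of (i + 1) w fun w' h => le_csSup (kl_bdd hosc i w) ⟨w', ?_, rfl⟩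
  refine cell_subset_of_mem ?_ (mem_cell_cellOf _ w) (mem_cell_cellOf _ w) h
  simp [cellOf]

theorem kl_const {i : ℕ} {P : Cell} (hP : P.1 ≤ -(i : ℤ)) {w : ℂ} (hw : w ∈ cell P) :
    klY y i w = klY y i (cn P) := by
  have h : w ∈ cell (cellOf (-(i : ℤ)) (cn P)) :=
    cell_subset_of_mem (by simpa [cellOf] using hP) (cn_mem_cell P) (mem_cell_cellOf _ _) hw
  have h2 : cellOf (-(i : ℤ)) w = cellOf (-(i : ℤ)) (cn P) := cellOf_eq_of_mem h
  unfold klY
  rw [h2]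

theorem kl_continuous
    (hosc : ∀ (i : ℕ) (w w' : ℂ), ‖w - w'‖ ≤ 2 * (1 / 2) ^ i → |y w - y w'| ≤ A * (3 / 4) ^ i) :
    Continuous y := by
  refine Metric.continuous_iff.2 fun w e he => ?_
  have ht : Tendsto (fun i : ℕ => A * (3 / 4 : ℝ) ^ i) atTop (𝓝 (A * 0)) :=
    (tendsto_pow_atTop_nhds_zero_of_lt_one (by norm_num) (by norm_num)).const_mul A
  rw [mul_zero] at ht
  obtain ⟨i, hi⟩ := (ht.eventually (gt_mem_nhds he)).exists
  refine ⟨2 * (1 / 2) ^ i, by positivity, fun a ha => ?_⟩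
  rw [dist_eq_norm] at ha
  rw [Real.dist_eq]
  exact (hosc i a w ha.le).trans_lt hi

theorem kl_bounded (hy0 : ∀ w, w ∉ box O 4 9 → y w = 0)
    (hosc : ∀ (i : ℕ) (w w' : ℂ), ‖w - w'‖ ≤ 2 * (1 / 2) ^ i → |y w - y w'| ≤ A * (3 / 4) ^ i) :
    ∃ M, ∀ w, ‖y w‖ ≤ M := by
  refine (kl_continuous hosc).bounded_above_of_compact_support ?_
  exact HasCompactSupport.intro (isBounded_box O 4 9).isCompact_closure
    fun w hw => hy0 w fun h => hw (subset_closure h)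

theorem kl_integrable (hg : Integrable g) (hy0 : ∀ w, w ∉ box O 4 9 → y w = 0)
    (hosc : ∀ (i : ℕ) (w w' : ℂ), ‖w - w'‖ ≤ 2 * (1 / 2) ^ i → |y w - y w'| ≤ A * (3 / 4) ^ i) :
    Integrable fun w => y w * g w := by
  obtain ⟨M, hM⟩ := kl_bounded hy0 hosc
  exact hg.bdd_mul (kl_continuous hosc).aestronglyMeasurable (Eventually.of_forall hM)

theorem kl_integrable' (hg : Integrable g) (hy0 : ∀ w, w ∉ box O 4 9 → y w = 0)
    (hosc : ∀ (i : ℕ) (w w' : ℂ), ‖w - w'‖ ≤ 2 * (1 / 2) ^ i → |y w - y w'| ≤ A * (3 / 4) ^ i)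
    (i : ℕ) : Integrable fun w => klY y i w * g w := by
  obtain ⟨M, hM⟩ := kl_bounded hy0 hosc
  refine hg.bdd_mul (c := M + |A * (3 / 4) ^ i|) (kl_measurable y i).aestronglyMeasurable
    (Eventually.of_forall fun w => ?_)
  have h1 := kl_le hosc i w
  have h2 := kl_ge hosc i w
  have h3 := abs_le.1 (hM w)
  have h4 := le_abs_self (A * (3 / 4) ^ i)
  have h5 := abs_nonneg (A * (3 / 4) ^ i)
  rw [Real.norm_eq_abs, abs_le]
  constructor <;> linarith [h3.1, h3.2]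

theorem kl_sum (hg : Integrable g) (hy0 : ∀ w, w ∉ box O 4 9 → y w = 0)
    (hosc : ∀ (i : ℕ) (w w' : ℂ), ‖w - w'‖ ≤ 2 * (1 / 2) ^ i → |y w - y w'| ≤ A * (3 / 4) ^ i)
    {i k : ℕ} (hik : i ≤ k) :
    ∫ w in box O 4 9, klY y i w * g w =
      ∑ P ∈ sub O 4 9 k, klY y i (cn P) * ∫ w in cell P, g w := by
  rw [integral_box_eq_sum k (kl_integrable' hg hy0 hosc i).integrableOn]
  refine Finset.sum_congr rfl fun P hP => ?_
  have h1 : P.1 ≤ -(i : ℤ) := by
    rw [(mem_sub_iff.1 hP).1]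
    simp only [O]
    omega
  rw [← integral_const_mul]
  exact setIntegral_congr_fun (measurableSet_cell P) fun w hw => by
    simp only [kl_const h1 hw]

theorem kl_scalar (hg : Integrable g) (hA : 0 ≤ A) (hy0 : ∀ w, w ∉ box O 4 9 → y w = 0)
    (hosc : ∀ (i : ℕ) (w w' : ℂ), ‖w - w'‖ ≤ 2 * (1 / 2) ^ i → |y w - y w'| ≤ A * (3 / 4) ^ i)
    {Es : ℝ} (hE : ∀ i : ℕ, ∑ P ∈ sub O 4 9 i, max (-∫ w in cell P, g w) 0 ≤ (65 / 64 : ℝ) ^ i * Es)
    (j : ℕ) (up dn : Cell → ℝ)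
    (h : ∀ P ∈ sub O 4 9 j, ∀ w ∈ cell P, y w ≤ up P ∧ -dn P ≤ y w) :
    ∫ w, y w * g w ≤ ∑ P ∈ sub O 4 9 j,
      (up P * max (∫ w in cell P, g w) 0 + dn P * max (-∫ w in cell P, g w) 0) +
        6 * A * (4 / 5) ^ j * Es := by
  have hEs : 0 ≤ Es := by
    have := (Finset.sum_nonneg fun P _ => le_max_right _ _).trans (hE 0)
    simpa using this
  set σ : ℕ → ℝ := fun i => ∫ w in box O 4 9, klY y i w * g w with hσ
  have h0 : σ j ≤ ∑ P ∈ sub O 4 9 j,
      (up P * max (∫ w in cell P, g w) 0 + dn P * max (-∫ w in cell P, g w) 0) := by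
    simp only [hσ]
    rw [kl_sum hg hy0 hosc le_rfl]
    refine Finset.sum_le_sum fun P hP => ?_
    have h1 : P.1 = -(j : ℤ) := by rw [(mem_sub_iff.1 hP).1]; simp [O]
    have h2 : cellOf (-(j : ℤ)) (cn P) = P := by rw [← h1]; exact cellOf_eq_of_mem (cn_mem_cell P)
    have h3 : klY y j (cn P) ≤ up P := kl_le_of j _ fun w' hw' => (h P hP w' (h2 ▸ hw')).1
    have h4 : -dn P ≤ klY y j (cn P) := (h P hP _ (cn_mem_cell P)).2.trans (kl_le hosc j _)
    rcases le_total 0 (∫ w in cell P, g w) with h5 | h5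
    · rw [max_eq_left h5, max_eq_right (by linarith)]
      nlinarith
    · rw [max_eq_right h5, max_eq_left (by linarith)]
      nlinarith
  have hstep : ∀ i, σ (i + 1) ≤ σ i + 6 / 5 * A * (4 / 5) ^ i * Es := by
    intro i
    simp only [hσ]
    rw [kl_sum hg hy0 hosc (le_refl (i + 1)), kl_sum hg hy0 hosc (Nat.le_succ i)]
    have h1 : ∑ P ∈ sub O 4 9 (i + 1), klY y (i + 1) (cn P) * ∫ w in cell P, g w ≤
        ∑ P ∈ sub O 4 9 (i + 1), (klY y i (cn P) * (∫ w in cell P, g w) +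
          A * (3 / 4) ^ i * max (-∫ w in cell P, g w) 0) := by
      refine Finset.sum_le_sum fun P _ => ?_
      have a1 := kl_anti hosc i (cn P)
      have a2 := kl_le hosc (i + 1) (cn P)
      have a3 := kl_ge hosc i (cn P)
      rcases le_total 0 (∫ w in cell P, g w) with h5 | h5
      · rw [max_eq_right (by linarith)]
        nlinarith
      · rw [max_eq_left (by linarith)]
        nlinarith
    rw [Finset.sum_add_distrib, ← Finset.mul_sum] at h1
    have h2 : A * (3 / 4) ^ i * ∑ P ∈ sub O 4 9 (i + 1), max (-∫ w in cell P, g w) 0 ≤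
        A * (3 / 4) ^ i * ((65 / 64 : ℝ) ^ (i + 1) * Es) :=
      mul_le_mul_of_nonneg_left (hE (i + 1)) (by positivity)
    have h3 : ((3 / 4 : ℝ) * (65 / 64)) ^ i ≤ (4 / 5) ^ i :=
      pow_le_pow_left₀ (by norm_num) (by norm_num) i
    have h4 : A * (3 / 4) ^ i * ((65 / 64 : ℝ) ^ (i + 1) * Es) =
        65 / 64 * (A * Es) * ((3 / 4 : ℝ) * (65 / 64)) ^ i := by
      rw [mul_pow]; ring
    have h5 : 65 / 64 * (A * Es) * ((3 / 4 : ℝ) * (65 / 64)) ^ i ≤ 6 / 5 * (A * Es) * (4 / 5) ^ i :=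
      mul_le_mul (mul_le_mul_of_nonneg_right (by norm_num) (mul_nonneg hA hEs)) h3 (by positivity)
        (by positivity)
    simp only [Nat.succ_eq_add_one] at *
    nlinarith
  have hind : ∀ m, σ (j + m) + 6 * A * (4 / 5) ^ (j + m) * Es ≤ σ j + 6 * A * (4 / 5) ^ j * Es := by
    intro m
    induction m with
    | zero => exact le_rfl
    | succ m ih =>
      have := hstep (j + m)
      rw [← add_assoc, pow_succ]
      linarith
  have happ : ∀ i, ∫ w, y w * g w ≤ σ i + A * (3 / 4) ^ i * ∫ w, |g w| := by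
    intro i
    rw [← setIntegral_eq_integral_of_forall_compl_eq_zero (s := box O 4 9)
      (fun w hw => by rw [hy0 w hw, zero_mul])]
    have h1 : ∫ w in box O 4 9, |g w| ≤ ∫ w, |g w| :=
      setIntegral_le_integral hg.abs (Eventually.of_forall fun w => abs_nonneg _)
    have h2 : ∫ w in box O 4 9, y w * g w ≤
        ∫ w in box O 4 9, (klY y i w * g w + A * (3 / 4) ^ i * |g w|) := by
      refine integral_mono (kl_integrable hg hy0 hosc).integrableOn
        ((kl_integrable' hg hy0 hosc i).integrableOn.add (hg.abs.const_mul _).integrableOn)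
        fun w => ?_
      have a1 := kl_le hosc i w
      have a2 := kl_ge hosc i w
      rcases le_total 0 (g w) with h5 | h5
      · simp only [abs_of_nonneg h5]
        nlinarith
      · simp only [abs_of_nonpos h5]
        nlinarith
    rw [integral_add (kl_integrable' hg hy0 hosc i).integrableOn
      (hg.abs.const_mul _).integrableOn, integral_const_mul] at h2
    have h3 := mul_le_mul_of_nonneg_left h1 (show 0 ≤ A * (3 / 4) ^ i by positivity)
    simp only [hσ]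
    linarith
  have ht : Tendsto (fun m : ℕ => σ j + 6 * A * (4 / 5) ^ j * Es +
      A * ((3 / 4) ^ j * (3 / 4 : ℝ) ^ m) * ∫ w, |g w|) atTop
      (𝓝 (σ j + 6 * A * (4 / 5) ^ j * Es + A * ((3 / 4) ^ j * 0) * ∫ w, |g w|)) :=
    ((((tendsto_pow_atTop_nhds_zero_of_lt_one (by norm_num) (by norm_num)).const_mul _).const_mul
      A).mul_const _).const_add _
  have hfin := ge_of_tendsto' ht fun m => show ∫ w, y w * g w ≤ _ by
    have a1 := happ (j + m)
    have a2 := hind m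
    have a3 : 0 ≤ 6 * A * (4 / 5) ^ (j + m) * Es := by positivity
    rw [← pow_add]
    linarith
  simp only [mul_zero, zero_mul, add_zero] at hfin
  linarith

end scalar

theorem kl_integral_ip {G : ℂ → ℂ} (hG : Integrable G) (u : ℂ) (P : Cell) :
    ∫ w in cell P, ip u (G w) = ip u (V G P) := by
  simp only [ip_eq_inner, V]
  exact integral_inner hG.integrableOn u

theorem kl_integrable_ip {G : ℂ → ℂ} (hG : Integrable G) (u : ℂ) :
    Integrable fun w => ip u (G w) := by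
  simp only [ip_eq_inner]
  exact hG.const_inner u

theorem kl_split {ε : ℂ} (hε : ‖ε‖ = 1) (a b : ℂ) :
    ip a b = ip a ε * ip ε b + ip a (Complex.I * ε) * ip (Complex.I * ε) b := by
  have h : ε.re * ε.re + ε.im * ε.im = 1 := by
    have := ip_self ε
    rw [hε] at this
    simpa [ip] using this
  simp only [ip, Complex.mul_re, Complex.mul_im, Complex.I_re, Complex.I_im]
  linear_combination (-(a.re * b.re + a.im * b.im)) * h

/-- Recipe.  `Y` is uniformly continuous (oscillation hypothesis) with support in the bounded box,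
hence bounded.  `ip (Y w) (G w) = ip (Y w) ε * ip ε (G w) + ip (Y w) (I ε) * ip (I ε) (G w)`
(`‖ε‖ = 1`), so it is enough to treat one scalar pair `y w = ip (Y w) u`, `g w = ip u (G w)`
(`u = ε` or `I ε`; `∫_{cell P} g = ip u (V G P)`).  For `i ≥ j` put
`s P = sSup (y '' cell P)` and `σ i = ∑ P ∈ sub O 4 9 i, s P * ∫_{cell P} g`.
* `σ j ≤ ∑ (up P * (ip u (V P))₊ + dn P * (ip u (V P))₋)` since `-dn P ≤ s P ≤ up P`;
* `σ (i+1) - σ i = ∑ P' ∈ sub O 4 9 (i+1), (s P' - s (parent P')) * ∫_{P'} g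
   ≤ A (3/4)^i * ∑ (∫_{P'} g)₋` because `-A (3/4)^i ≤ s P' - s (parent) ≤ 0`.
   (A way that avoids parents: `σ i = ∫_{box} y_i * g` with `y_i w = s (cellOf (-i) w)`, and
   `∫_{box} (y_{i+1} - y_i) g` is computed on the cells of depth `i+1`, where both are constant.)
* `|∫ y g - σ i| ≤ A (3/4)^i ∫ |g| → 0`.
Summing, the tail is `≤ A ∑_{i ≥ j} (3/4)^i (65/64)^(i+1) Es ≤ C A (4/5)^j Es`
since `(3/4)(65/64) ≤ 4/5` and `0 ≤ Es` (case `i = 0` of `hE`). -/
theorem kernel_lemma : ∃ C : ℝ, 0 < C ∧ ∀ (G : ℂ → ℂ), Integrable G → ∀ (ε : ℂ), ‖ε‖ = 1 →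
    ∀ (Es : ℝ), (∀ i : ℕ, S (nu ε) G O 4 9 i ≤ (65 / 64 : ℝ) ^ i * Es) →
    ∀ (Y : ℂ → ℂ) (A : ℝ), 0 ≤ A → (∀ w, w ∉ box O 4 9 → Y w = 0) →
      (∀ (i : ℕ) (w w' : ℂ), ‖w - w'‖ ≤ 2 * (1 / 2) ^ i → ‖Y w - Y w'‖ ≤ A * (3 / 4) ^ i) →
    ∀ (j : ℕ) (up dn : Cell → ℝ),
      (∀ P ∈ sub O 4 9 j, ∀ w ∈ cell P,
        ip (Y w) ε ≤ up P ∧ ip (Y w) (Complex.I * ε) ≤ up P ∧ ‖Y w‖ ≤ dn P) →
      ∫ w, ip (Y w) (G w) ≤
        ∑ P ∈ sub O 4 9 j, (up P * pos ε (V G P) + dn P * nu ε (V G P)) +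
          C * A * (4 / 5) ^ j * Es := by
  refine ⟨12, by norm_num, fun G hG ε hε Es hE Y A hA hY0 hosc j up dn h => ?_⟩
  have hε' : ‖Complex.I * ε‖ = 1 := by rw [norm_mul, Complex.norm_I, hε, one_mul]
  have hy0 : ∀ u : ℂ, ∀ w, w ∉ box O 4 9 → ip (Y w) u = 0 := fun u w hw => by
    rw [hY0 w hw, ip_zero_left]
  have hos : ∀ u : ℂ, ‖u‖ = 1 → ∀ (i : ℕ) (w w' : ℂ), ‖w - w'‖ ≤ 2 * (1 / 2) ^ i →
      |ip (Y w) u - ip (Y w') u| ≤ A * (3 / 4) ^ i := fun u hu i w w' hw => by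
    rw [← ip_sub_left]
    refine (abs_ip_le _ _).trans ?_
    rw [hu, mul_one]
    exact hosc i w w' hw
  have hdn : ∀ u : ℂ, ‖u‖ = 1 → ∀ P ∈ sub O 4 9 j, ∀ w ∈ cell P, -dn P ≤ ip (Y w) u :=
    fun u hu P hP w hw => by
      have a1 := abs_ip_le (Y w) u
      rw [hu, mul_one] at a1
      have a2 := (h P hP w hw).2.2
      have a3 := neg_abs_le (ip (Y w) u)
      linarith
  have h1 := kl_scalar (y := fun w => ip (Y w) ε) (kl_integrable_ip hG ε) hA (hy0 ε) (hos ε hε)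
    (Es := Es) (fun i => le_trans (Finset.sum_le_sum fun P _ => by
      rw [kl_integral_ip hG]; exact le_add_of_nonneg_right (le_max_right _ _)) (hE i))
    j up dn fun P hP w hw => ⟨(h P hP w hw).1, hdn ε hε P hP w hw⟩
  have h2 := kl_scalar (y := fun w => ip (Y w) (Complex.I * ε))
    (kl_integrable_ip hG (Complex.I * ε)) hA (hy0 _) (hos _ hε')
    (Es := Es) (fun i => le_trans (Finset.sum_le_sum fun P _ => by
      rw [kl_integral_ip hG]; exact le_add_of_nonneg_left (le_max_right _ _)) (hE i))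
    j up dn fun P hP w hw => ⟨(h P hP w hw).2.1, hdn _ hε' P hP w hw⟩
  simp only [kl_integral_ip hG] at h1 h2
  have e1 : ∫ w, ip (Y w) (G w) = (∫ w, ip (Y w) ε * ip ε (G w)) +
      ∫ w, ip (Y w) (Complex.I * ε) * ip (Complex.I * ε) (G w) := by
    rw [← integral_add (kl_integrable (kl_integrable_ip hG ε) (hy0 ε) (hos ε hε))
      (kl_integrable (kl_integrable_ip hG _) (hy0 _) (hos _ hε'))]
    exact integral_congr_ae (Eventually.of_forall fun w => kl_split hε _ _)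
  have e2 : ∑ P ∈ sub O 4 9 j, (up P * pos ε (V G P) + dn P * nu ε (V G P)) =
      ∑ P ∈ sub O 4 9 j, (up P * max (ip ε (V G P)) 0 + dn P * max (-ip ε (V G P)) 0) +
      ∑ P ∈ sub O 4 9 j, (up P * max (ip (Complex.I * ε) (V G P)) 0 +
        dn P * max (-ip (Complex.I * ε) (V G P)) 0) := by
    rw [← Finset.sum_add_distrib]
    refine Finset.sum_congr rfl fun P _ => ?_
    simp only [pos, nu]
    ring
  rw [e1, e2]
  linarith

end Crest.Agent.R112
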