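import Crest.Agent.R112.Defs

set_option autoImplicit false

namespace Crest.Agent.R112

open MeasureTheory Metric Set Filter Topology

/-! # Bounds for the path kernel `ker` -/

/-- the integrand of `ker` -/
noncomputable def kin (x a ζ : ℂ) (r : ℝ) (w : ℂ) (t : ℝ) : ℂ :=
  if ‖w - x - t * a‖ < ‖(r : ℂ) + t * ζ‖ then
    Zv x a ζ r t w / ((Real.pi * ‖(r : ℂ) + t * ζ‖ ^ 2 : ℝ) : ℂ) else 0

theorem ker_eq_kin (x a ζ : ℂ) (r T : ℝ) (w : ℂ) :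
    ker x a ζ r T w = ∫ t in (0 : ℝ)..T, kin x a ζ r w t := rfl

theorem measurable_kin (x a ζ : ℂ) (r : ℝ) :
    Measurable (fun p : ℂ × ℝ => kin x a ζ r p.1 p.2) := by
  unfold kin Zv
  refine Measurable.ite (measurableSet_lt (by fun_prop) (by fun_prop)) (by fun_prop)
    measurable_const

/-- the integrand is jointly (Borel) measurable in `(w, t)` -/
theorem measurable_ker (x a ζ : ℂ) (r T : ℝ) : Measurable (ker x a ζ r T) := by
  have h := (measurable_kin x a ζ r).stronglyMeasurable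
  have h1 := (h.integral_prod_right' (ν := volume.restrict (Ioc 0 T))).measurable
  have h2 := (h.integral_prod_right' (ν := volume.restrict (Ioc T 0))).measurable
  exact h1.sub h2

theorem half_le_norm {ζ : ℂ} {r T t : ℝ} (hT : T * ‖ζ‖ ≤ r / 2) (ht0 : 0 ≤ t) (ht : t ≤ T) :
    r / 2 ≤ ‖(r : ℂ) + t * ζ‖ := by
  have h1 : ‖(r : ℂ)‖ ≤ ‖(r : ℂ) + t * ζ‖ + ‖(t : ℂ) * ζ‖ := by
    simpa using norm_sub_le ((r : ℂ) + t * ζ) (t * ζ)
  rw [norm_mul, Complex.norm_real, Complex.norm_real, Real.norm_eq_abs, Real.norm_eq_abs,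
    abs_of_nonneg ht0] at h1
  have := le_abs_self r
  have := mul_le_mul_of_nonneg_right ht (norm_nonneg ζ)
  linarith

theorem norm_Zv_le {x a ζ : ℂ} {r t : ℝ} {w : ℂ}
    (h : ‖w - x - t * a‖ < ‖(r : ℂ) + t * ζ‖) : ‖Zv x a ζ r t w‖ ≤ ‖a‖ + ‖ζ‖ := by
  unfold Zv
  refine (norm_add_le _ _).trans (add_le_add le_rfl ?_)
  have h0 : 0 < ‖(r : ℂ) + t * ζ‖ := lt_of_le_of_lt (norm_nonneg _) h
  rw [norm_div, norm_mul, div_le_iff₀ h0]
  exact mul_le_mul_of_nonneg_left h.le (norm_nonneg _)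

theorem norm_kin_le {x a ζ : ℂ} {r T t : ℝ} (hr : 0 < r) (hT : T * ‖ζ‖ ≤ r / 2) (ht0 : 0 ≤ t)
    (ht : t ≤ T) {w : ℂ} {B : ℝ} (hB : 0 ≤ B)
    (h : ‖w - x - t * a‖ < ‖(r : ℂ) + t * ζ‖ → ‖Zv x a ζ r t w‖ ≤ B) :
    ‖kin x a ζ r w t‖ ≤ 2 * B / r ^ 2 := by
  unfold kin
  split_ifs with hc
  · have h1 := half_le_norm hT ht0 ht
    have hpi := Real.pi_gt_three
    have h2 : r ^ 2 / 2 ≤ Real.pi * ‖(r : ℂ) + t * ζ‖ ^ 2 := by
      have : (r / 2) ^ 2 ≤ ‖(r : ℂ) + t * ζ‖ ^ 2 := by gcongr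
      nlinarith [sq_nonneg r]
    rw [norm_div, Complex.norm_real, Real.norm_eq_abs, abs_of_nonneg (by positivity)]
    calc ‖Zv x a ζ r t w‖ / (Real.pi * ‖(r : ℂ) + t * ζ‖ ^ 2) ≤ B / (r ^ 2 / 2) := by
          gcongr
          exact h hc
      _ = 2 * B / r ^ 2 := by field_simp
  · rw [norm_zero]; positivity

/-- the integrand of `ker` is bounded and measurable -/
theorem intervalIntegrable_ker {x a ζ : ℂ} {r T : ℝ} (hr : 0 < r) (hT0 : 0 ≤ T)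
    (hT : T * ‖ζ‖ ≤ r / 2) (w : ℂ) :
    IntervalIntegrable (fun t : ℝ => if ‖w - x - t * a‖ < ‖(r : ℂ) + t * ζ‖ then
      Zv x a ζ r t w / ((Real.pi * ‖(r : ℂ) + t * ζ‖ ^ 2 : ℝ) : ℂ) else 0) volume 0 T := by
  change IntervalIntegrable (kin x a ζ r w) volume 0 T
  rw [intervalIntegrable_iff_integrableOn_Ioc_of_le hT0]
  have hm : Measurable (kin x a ζ r w) :=
    (measurable_kin x a ζ r).comp (measurable_const.prodMk measurable_id)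
  refine Measure.integrableOn_of_bounded (M := 2 * (‖a‖ + ‖ζ‖) / r ^ 2) (by simp)
    hm.aestronglyMeasurable ?_
  filter_upwards [ae_restrict_mem measurableSet_Ioc] with t ht
  exact norm_kin_le hr hT ht.1.le ht.2 (by positivity) norm_Zv_le

/-- size from a bound on the velocity -/
theorem norm_ker_le_of {x a ζ : ℂ} {r T : ℝ} (hr : 0 < r) (hT0 : 0 ≤ T) (hT : T * ‖ζ‖ ≤ r / 2)
    {w : ℂ} {B : ℝ} (hB : 0 ≤ B)
    (h : ∀ t : ℝ, 0 ≤ t → t ≤ T → ‖w - x - t * a‖ < ‖(r : ℂ) + t * ζ‖ → ‖Zv x a ζ r t w‖ ≤ B) :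
    ‖ker x a ζ r T w‖ ≤ 2 * B * T / r ^ 2 := by
  rw [ker_eq_kin]
  refine (intervalIntegral.norm_integral_le_of_norm_le_const (C := 2 * B / r ^ 2)
    fun t ht => ?_).trans (le_of_eq ?_)
  · rw [uIoc_of_le hT0] at ht
    exact norm_kin_le hr hT ht.1.le ht.2 hB (h t ht.1.le ht.2)
  · rw [sub_zero, abs_of_nonneg hT0]; ring

/-- inside the disc `‖Zv‖ ≤ ‖a‖ + ‖ζ‖` -/
theorem norm_ker_le_gen {x a ζ : ℂ} {r T : ℝ} (hr : 0 < r) (hT0 : 0 ≤ T) (hT : T * ‖ζ‖ ≤ r / 2)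
    (w : ℂ) : ‖ker x a ζ r T w‖ ≤ 2 * (‖a‖ + ‖ζ‖) * T / r ^ 2 :=
  norm_ker_le_of hr hT0 hT (by positivity) fun _ _ _ => norm_Zv_le

theorem norm_ker_le {x a ζ : ℂ} {r T : ℝ} (hr : 1 ≤ r) (hT0 : 0 ≤ T) (hT : T * ‖ζ‖ ≤ r / 2)
    (ha : ‖a‖ ≤ 1) (hζ : ‖ζ‖ ≤ 2) (w : ℂ) : ‖ker x a ζ r T w‖ ≤ 6 * T := by
  refine (norm_ker_le_gen (by linarith) hT0 hT w).trans ?_
  calc 2 * (‖a‖ + ‖ζ‖) * T / r ^ 2 ≤ 2 * (1 + 2) * T / 1 ^ 2 := by gcongr
    _ = 6 * T := by ring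

theorem ker_eq_zero_of {x a ζ : ℂ} {r T : ℝ} (hT0 : 0 ≤ T) {w : ℂ}
    (h : ∀ t : ℝ, 0 ≤ t → t ≤ T → ‖(r : ℂ) + t * ζ‖ ≤ ‖w - x - t * a‖) :
    ker x a ζ r T w = 0 := by
  rw [ker_eq_kin, intervalIntegral.integral_congr (g := fun _ => 0) fun t ht => ?_]
  · simp
  · rw [uIcc_of_le hT0] at ht
    simp only [kin]
    rw [if_neg (not_lt.2 (h t ht.1 ht.2))]

theorem ker_eq_zero {x a ζ : ℂ} {r T : ℝ} (hr : 0 < r) (hT0 : 0 ≤ T) {w : ℂ}
    (hw : r + T * (‖a‖ + ‖ζ‖) ≤ ‖w - x‖) : ker x a ζ r T w = 0 := by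
  refine ker_eq_zero_of hT0 fun t ht0 ht => ?_
  have h1 : ‖(r : ℂ) + t * ζ‖ ≤ r + t * ‖ζ‖ := by
    refine (norm_add_le _ _).trans (le_of_eq ?_)
    rw [norm_mul, Complex.norm_real, Complex.norm_real, Real.norm_eq_abs, Real.norm_eq_abs,
      abs_of_nonneg ht0, abs_of_pos hr]
  have h2 : ‖w - x‖ ≤ ‖w - x - t * a‖ + t * ‖a‖ := by
    have := norm_add_le (w - x - t * a) (t * a)
    rwa [sub_add_cancel, norm_mul, Complex.norm_real, Real.norm_eq_abs, abs_of_nonneg ht0] at this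
  have h3 := mul_le_mul_of_nonneg_right ht (add_nonneg (norm_nonneg a) (norm_nonneg ζ))
  nlinarith

/-- sign from the sign of the velocity -/
theorem ip_ker_nonneg {x a ζ : ℂ} {r T : ℝ} (hr : 0 < r) (hT0 : 0 ≤ T) (hT : T * ‖ζ‖ ≤ r / 2)
    {w u : ℂ}
    (h : ∀ t : ℝ, 0 ≤ t → t ≤ T → ‖w - x - t * a‖ < ‖(r : ℂ) + t * ζ‖ → 0 ≤ ip (Zv x a ζ r t w) u) :
    0 ≤ ip (ker x a ζ r T w) u := by
  have hi : IntervalIntegrable (kin x a ζ r w) volume 0 T := intervalIntegrable_ker hr hT0 hT w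
  have e := (innerSL ℝ u).intervalIntegral_comp_comm hi
  rw [ip_comm, ip_eq_inner, ker_eq_kin]
  simp only [innerSL_apply_apply] at e
  rw [← e]
  refine intervalIntegral.integral_nonneg hT0 fun t ht => ?_
  rw [← ip_eq_inner, ip_comm]
  unfold kin
  split_ifs with hc
  · rw [div_eq_mul_inv, mul_comm, ← Complex.ofReal_inv, ip_real_mul_left]
    exact mul_nonneg (by positivity) (h t ht.1 ht.2 hc)
  · simp

/-- pure translation, points that stay inside -/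
theorem ker_interior_zero {x a : ℂ} {r T : ℝ} (hr : 0 < r) (hT0 : 0 ≤ T) {w : ℂ}
    (hw : ‖w - x‖ + T * ‖a‖ < r) :
    ker x a 0 r T w = ((T / (Real.pi * r ^ 2) : ℝ) : ℂ) * a := by
  rw [ker_eq_kin, intervalIntegral.integral_congr
    (g := fun _ => a / ((Real.pi * r ^ 2 : ℝ) : ℂ)) fun t ht => ?_]
  · rw [intervalIntegral.integral_const, sub_zero, Complex.real_smul]
    push_cast; ring
  · rw [uIcc_of_le hT0] at ht
    have h1 : ‖w - x - t * a‖ ≤ ‖w - x‖ + t * ‖a‖ := by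
      have := norm_sub_le (w - x) (t * a)
      rwa [norm_mul, Complex.norm_real, Real.norm_eq_abs, abs_of_nonneg ht.1] at this
    have h2 := mul_le_mul_of_nonneg_right ht.2 (norm_nonneg a)
    have h3 : ‖(r : ℂ) + t * 0‖ = r := by simp [abs_of_pos hr]
    simp only [kin, Zv]
    rw [h3, if_pos (by linarith)]
    simp

/-- points that stay inside: the integrand is `C`-Lipschitz in `t` -/
theorem ker_interior : ∃ C : ℝ, 0 < C ∧ ∀ (x a ζ : ℂ) (r T : ℝ) (w : ℂ), 1 ≤ r → r ≤ 2 → 0 ≤ T →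
    T * ‖ζ‖ ≤ r / 2 → ‖a‖ ≤ 1 → ‖ζ‖ ≤ 2 → ‖w - x‖ + 3 * T < r →
    ‖ker x a ζ r T w - ((T / (Real.pi * r ^ 2) : ℝ) : ℂ) * Zv x a ζ r 0 w‖ ≤ C * T ^ 2 := by
  refine ⟨72, by norm_num, fun x a ζ r T w hr1 hr2 hT0 hT ha hζ hw => ?_⟩
  have hr : 0 < r := by linarith
  have hi : IntervalIntegrable (kin x a ζ r w) volume 0 T := intervalIntegrable_ker hr hT0 hT w
  have e : ((T / (Real.pi * r ^ 2) : ℝ) : ℂ) * Zv x a ζ r 0 w =
      ∫ _ in (0 : ℝ)..T, Zv x a ζ r 0 w / ((Real.pi * r ^ 2 : ℝ) : ℂ) := by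
    rw [intervalIntegral.integral_const, sub_zero, Complex.real_smul]
    push_cast; ring
  rw [ker_eq_kin, e, ← intervalIntegral.integral_sub hi intervalIntegrable_const]
  refine (intervalIntegral.norm_integral_le_of_norm_le_const (C := 72 * T)
    fun t ht => ?_).trans (le_of_eq ?_)
  swap
  · rw [sub_zero, abs_of_nonneg hT0]; ring
  rw [uIoc_of_le hT0] at ht
  have ht0 := ht.1.le
  set ρ : ℂ := (r : ℂ) + t * ζ with hρ
  have hn1 : r / 2 ≤ ‖ρ‖ := half_le_norm hT ht0 ht.2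
  have hn0 : 0 < ‖ρ‖ := by linarith
  have hρ0 : ρ ≠ 0 := norm_pos_iff.1 hn0
  have hrc : (r : ℂ) ≠ 0 := by exact_mod_cast hr.ne'
  have hd : |‖ρ‖ - r| ≤ 2 * t := by
    have h1 := abs_norm_sub_norm_le ρ (r : ℂ)
    rw [hρ, add_sub_cancel_left, norm_mul, Complex.norm_real, Complex.norm_real, Real.norm_eq_abs,
      Real.norm_eq_abs, abs_of_pos hr, abs_of_nonneg ht0] at h1
    nlinarith
  have hd' := abs_le.1 hd
  have hu := norm_nonneg (w - x)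
  have h1 : ‖w - x - t * a‖ ≤ ‖w - x‖ + t := by
    have := norm_sub_le (w - x) (t * a)
    rw [norm_mul, Complex.norm_real, Real.norm_eq_abs, abs_of_nonneg ht0] at this
    nlinarith
  have hin : ‖w - x - t * a‖ < ‖ρ‖ := by linarith [ht.2]
  have hZ0 : ‖Zv x a ζ r 0 w‖ ≤ 3 := by
    have : ‖Zv x a ζ r 0 w‖ ≤ ‖a‖ + ‖ζ‖ := norm_Zv_le (by
      simp only [Complex.ofReal_zero, zero_mul, sub_zero, add_zero, Complex.norm_real,
        Real.norm_eq_abs, abs_of_pos hr]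
      linarith)
    linarith
  have hZ : ‖Zv x a ζ r t w - Zv x a ζ r 0 w‖ ≤ 24 * t := by
    have e1 : Zv x a ζ r t w - Zv x a ζ r 0 w =
        -(t * ζ * (a * r + (w - x) * ζ)) / (ρ * r) := by
      simp only [Zv, Complex.ofReal_zero, zero_mul, sub_zero, add_zero, ← hρ]
      field_simp
      rw [hρ]; ring
    have e2 : ‖a * r + (w - x) * ζ‖ ≤ 6 := by
      refine (norm_add_le _ _).trans ?_
      rw [norm_mul, norm_mul, Complex.norm_real, Real.norm_eq_abs, abs_of_pos hr]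
      nlinarith [norm_nonneg a, norm_nonneg ζ]
    rw [e1, norm_div, norm_neg, norm_mul, norm_mul, norm_mul, Complex.norm_real, Complex.norm_real,
      Real.norm_eq_abs, Real.norm_eq_abs, abs_of_pos hr, abs_of_nonneg ht0]
    calc t * ‖ζ‖ * ‖a * r + (w - x) * ζ‖ / (‖ρ‖ * r) ≤ t * 2 * 6 / (1 / 2 * 1) := by
          gcongr; linarith
      _ = 24 * t := by ring
  have hpi := Real.pi_gt_three
  have hq : |1 / (Real.pi * ‖ρ‖ ^ 2) - 1 / (Real.pi * r ^ 2)| ≤ 40 / 3 * t := by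
    have e1 : 1 / (Real.pi * ‖ρ‖ ^ 2) - 1 / (Real.pi * r ^ 2) =
        -((‖ρ‖ - r) * (‖ρ‖ + r)) / (Real.pi * ‖ρ‖ ^ 2 * r ^ 2) := by
      field_simp; ring
    have hT2 : t ≤ 1 / 2 ∨ ‖ρ‖ ≤ 3 := by
      right
      have h2 : ‖ρ‖ ≤ r + t * ‖ζ‖ := by
        refine (norm_add_le _ _).trans (le_of_eq ?_)
        rw [norm_mul, Complex.norm_real, Complex.norm_real, Real.norm_eq_abs, Real.norm_eq_abs,
          abs_of_nonneg ht0, abs_of_pos hr]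
      have := mul_le_mul_of_nonneg_right ht.2 (norm_nonneg ζ)
      linarith
    have h5 : ‖ρ‖ + r ≤ 5 := by rcases hT2 with h | h <;> linarith
    rw [e1, abs_div, abs_neg, abs_mul, abs_of_pos (by positivity : 0 < ‖ρ‖ + r),
      abs_of_pos (by positivity : 0 < Real.pi * ‖ρ‖ ^ 2 * r ^ 2)]
    calc |‖ρ‖ - r| * (‖ρ‖ + r) / (Real.pi * ‖ρ‖ ^ 2 * r ^ 2)
        ≤ 2 * t * 5 / (3 * (1 / 2) ^ 2 * 1 ^ 2) := by gcongr; linarith
      _ = 40 / 3 * t := by ring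
  have e3 : kin x a ζ r w t - Zv x a ζ r 0 w / ((Real.pi * r ^ 2 : ℝ) : ℂ) =
      (Zv x a ζ r t w - Zv x a ζ r 0 w) * ((1 / (Real.pi * ‖ρ‖ ^ 2) : ℝ) : ℂ) +
      Zv x a ζ r 0 w * ((1 / (Real.pi * ‖ρ‖ ^ 2) - 1 / (Real.pi * r ^ 2) : ℝ) : ℂ) := by
    simp only [kin, ← hρ]
    rw [if_pos hin]
    push_cast; ring
  have h6 : |1 / (Real.pi * ‖ρ‖ ^ 2)| ≤ 4 / 3 := by
    rw [abs_of_pos (by positivity)]
    calc 1 / (Real.pi * ‖ρ‖ ^ 2) ≤ 1 / (3 * (1 / 2) ^ 2) := by gcongr; linarith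
      _ = 4 / 3 := by norm_num
  rw [e3]
  refine (norm_add_le _ _).trans ?_
  rw [norm_mul, norm_mul, Complex.norm_real, Complex.norm_real, Real.norm_eq_abs, Real.norm_eq_abs]
  calc _ ≤ 24 * t * (4 / 3) + 3 * (40 / 3 * t) := by gcongr
    _ ≤ 72 * T := by linarith [ht.2]

end Crest.Agent.R112
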