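import Crest.Agent.R112.Defi

set_option autoImplicit false

namespace Crest.Agent.R112

open MeasureTheory Metric Set Filter Topology

/-! # A translate of the dyadic grid with small total defect -/

/-- every point lies in exactly `s²` blocks of a level -/
theorem shift_count (n : ℤ) (o s : ℕ) (y : ℂ) :
    ∑' z : ℤ × ℤ, (box (n, z) o s).indicator (fun _ => (1 : ENNReal)) y = (s : ENNReal) ^ 2 := by
  classical
  set a := ⌊y.re / 2 ^ n⌋ + o with ha
  set b := ⌊y.im / 2 ^ n⌋ + o with hb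
  have hm : ∀ z : ℤ × ℤ, y ∈ box (n, z) o s ↔
      z ∈ Finset.Ioc (a - s) a ×ˢ Finset.Ioc (b - s) b := by
    intro z
    rw [cel_mem_box_iff]
    simp only [Finset.mem_product, Finset.mem_Ioc]
    omega
  rw [tsum_eq_sum (s := Finset.Ioc (a - s) a ×ˢ Finset.Ioc (b - s) b)
    fun z hz => indicator_of_notMem (fun h => hz ((hm z).1 h)) _,
    Finset.sum_congr rfl fun z hz => indicator_of_mem ((hm z).2 hz) _]
  simp [sq]

/-- unfolding: the cell `(n1, 0, 0)` is a union of `4^(n1-n)` fundamental domains of `2^n ℤ²` -/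
theorem lintegral_unfold {n n1 : ℤ} (h : n ≤ n1) {ψ : ℂ → ENNReal} (hψ : AEMeasurable ψ) :
    ∫⁻ t in cell (n1, 0, 0), ∑' z : ℤ × ℤ, ψ (cn (n, z) + t) =
      ENNReal.ofReal ((4 : ℝ) ^ (n1 - n)) * ∫⁻ y, ψ y := by
  obtain ⟨j, rfl⟩ := Int.le.dest h
  have hm : ∀ (z : ℤ × ℤ) (t : ℂ),
      t ∈ cell (n + j, 0, 0) ↔ cn (n, z) + t ∈ box (n, z) 0 (2 ^ j) := by
    intro z t
    rw [mem_box_iff, add_sub_cancel_left]
    simp only [cell, mem_ofPred_eq, zpow_add₀ (two_ne_zero (α := ℝ)), zpow_natCast]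
    push_cast
    simp only [zero_mul, zero_add, one_mul, neg_zero, sub_zero, mul_comm ((2 : ℝ) ^ n)]
  have h1 : ∀ z : ℤ × ℤ, ∫⁻ t in cell (n + j, 0, 0), ψ (cn (n, z) + t) =
      ∫⁻ y, (box (n, z) 0 (2 ^ j)).indicator (fun _ => (1 : ENNReal)) y * ψ y := by
    intro z
    rw [← lintegral_indicator (measurableSet_cell _), ← lintegral_add_left_eq_self
      (fun y => (box (n, z) 0 (2 ^ j)).indicator (fun _ => (1 : ENNReal)) y * ψ y) (cn (n, z))]
    refine lintegral_congr fun t => ?_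
    by_cases ht : t ∈ cell (n + j, 0, 0)
    · rw [indicator_of_mem ht, indicator_of_mem ((hm z t).1 ht), one_mul]
    · rw [indicator_of_notMem ht, indicator_of_notMem fun h' => ht ((hm z t).2 h'), zero_mul]
  have h2 : ∀ z : ℤ × ℤ, AEMeasurable (fun t => ψ (cn (n, z) + t))
      (volume.restrict (cell (n + j, 0, 0))) := fun z => (hψ.comp_quasiMeasurePreserving
    (measurePreserving_add_left volume (cn (n, z))).quasiMeasurePreserving).restrict
  have h3 : ∀ z : ℤ × ℤ, AEMeasurable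
      (fun y => (box (n, z) 0 (2 ^ j)).indicator (fun _ => (1 : ENNReal)) y * ψ y) := fun z =>
    (measurable_const.indicator (measurableSet_box _ _ _)).aemeasurable.mul hψ
  rw [lintegral_tsum h2]
  simp only [h1]
  rw [← lintegral_tsum h3]
  simp only [ENNReal.tsum_mul_right, shift_count]
  rw [lintegral_const_mul'' _ hψ, add_sub_cancel_left, zpow_natCast]
  congr 1
  rw [ENNReal.ofReal_pow (by norm_num), Nat.cast_pow, ← pow_mul, mul_comm j, pow_mul]
  norm_num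

/-- integral over a translated square -/
noncomputable def shPsi (G : ℂ → ℂ) (m : ℤ) (y : ℂ) : ℂ := ∫ w in sqr y (2 ^ m), G w

theorem shPsi_meas {G : ℂ → ℂ} (hG : Integrable G) (m : ℤ) : Measurable (shPsi G m) := by
  have e : shPsi G m = fun y => ∫ w, {p : ℂ × ℂ | p.2 ∈ sqr p.1 (2 ^ m)}.indicator
      (fun p => hG.1.mk G p.2) (y, w) := by
    funext y
    rw [shPsi, setIntegral_congr_ae (measurableSet_sqr _ _)
      (hG.1.ae_eq_mk.mono fun w hw _ => hw), ← integral_indicator (measurableSet_sqr _ _)]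
    rfl
  rw [e]
  refine (StronglyMeasurable.integral_prod_right' (f := {p : ℂ × ℂ | p.2 ∈ sqr p.1 (2 ^ m)}.indicator
    fun p => hG.1.mk G p.2) ?_).measurable
  refine (hG.1.stronglyMeasurable_mk.comp_measurable measurable_snd).indicator ?_
  have r1 : Measurable fun p : ℂ × ℂ => p.1.re := Complex.measurable_re.comp measurable_fst
  have r2 : Measurable fun p : ℂ × ℂ => p.2.re := Complex.measurable_re.comp measurable_snd
  have i1 : Measurable fun p : ℂ × ℂ => p.1.im := Complex.measurable_im.comp measurable_fst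
  have i2 : Measurable fun p : ℂ × ℂ => p.2.im := Complex.measurable_im.comp measurable_snd
  exact (measurableSet_le r1 r2).inter ((measurableSet_lt r2 (r1.add_const _)).inter
    ((measurableSet_le i1 i2).inter (measurableSet_lt i2 (i1.add_const _))))

theorem shPsi_lint {G : ℂ → ℂ} (hG : Integrable G) (m : ℤ) :
    ∫⁻ y, ENNReal.ofReal ‖shPsi G m y‖ = ENNReal.ofReal (4 ^ m * Nm G m) := by
  simp only [ofReal_norm, shPsi]
  rw [← ofReal_integral_norm_eq_lintegral_enorm (integrable_integral_sqr hG _), Nm,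
    mul_div_cancel₀ _ (zpow_ne_zero _ (by norm_num))]

theorem shift_V (G : ℂ → ℂ) (t : ℂ) (P : Cell) :
    V (fun w => G (w + t)) P = shPsi G P.1 (cn P + t) := by
  rw [V, cell_eq_sqr, integral_sqr_shift, shPsi]

theorem shift_Vb (G : ℂ → ℂ) (t : ℂ) (Q : Cell) :
    Vb (fun w => G (w + t)) Q 128 256 =
      shPsi G (Q.1 + 8) (cn Q + t - ⟨128 * 2 ^ Q.1, 128 * 2 ^ Q.1⟩) := by
  have e : box Q 128 256 = sqr (cn Q - ⟨128 * 2 ^ Q.1, 128 * 2 ^ Q.1⟩) (2 ^ (Q.1 + 8)) := by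
    ext w
    simp only [box, sqr, cn, mem_ofPred_eq, Complex.sub_re, Complex.sub_im,
      zpow_add₀ (two_ne_zero (α := ℝ))]
    push_cast
    constructor <;> rintro ⟨h1, h2, h3, h4⟩ <;>
      exact ⟨by linarith, by norm_num; linarith, by linarith, by norm_num; linarith⟩
  rw [Vb, e, integral_sqr_shift, shPsi, sub_add_eq_add_sub]

/-- the defect of one block at depth `j` -/
noncomputable def shU (G : ℂ → ℂ) (j : ℕ) (Q : Cell) (t : ℂ) : ℝ :=
  S (fun w => ‖w‖) (fun w => G (w + t)) Q 128 256 j - ‖Vb (fun w => G (w + t)) Q 128 256‖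

theorem shU_nonneg {G : ℂ → ℂ} (hG : Integrable G) (j : ℕ) (Q : Cell) (t : ℂ) : 0 ≤ shU G j Q t :=
  sub_nonneg.2 (norm_Vb_le_S (hG.comp_add_right t) _ _ _ _)

theorem shU_meas {G : ℂ → ℂ} (hG : Integrable G) (j : ℕ) (Q : Cell) : Measurable (shU G j Q) := by
  unfold shU S
  simp only [shift_V, shift_Vb]
  refine Measurable.sub (Finset.measurable_sum _ fun P _ => ?_) ?_
  · exact ((shPsi_meas hG _).comp (measurable_const_add _)).norm
  · exact ((shPsi_meas hG _).comp ((measurable_const_add _).sub_const _)).norm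

theorem shift_S_le (G : ℂ → ℂ) (n : ℤ) (j : ℕ) (t : ℂ) :
    ∑' z : ℤ × ℤ, ENNReal.ofReal (S (fun w => ‖w‖) (fun w => G (w + t)) (n, z) 128 256 j) ≤
      256 ^ 2 * ∑' z : ℤ × ℤ, ENNReal.ofReal ‖shPsi G (n - j) (cn (n - j, z) + t)‖ := by
  classical
  have h1 : ∀ z : ℤ × ℤ,
      ENNReal.ofReal (S (fun w => ‖w‖) (fun w => G (w + t)) (n, z) 128 256 j) ≤
        ∑' z' : ℤ × ℤ, (box (n, z) 128 256).indicator (fun _ => (1 : ENNReal)) (cn (n - j, z')) *
          ENNReal.ofReal ‖shPsi G (n - j) (cn (n - j, z') + t)‖ := by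
    intro z
    rw [S, ENNReal.ofReal_sum_of_nonneg fun _ _ => norm_nonneg _]
    refine le_trans (le_of_eq ?_) (ENNReal.sum_le_tsum ((sub (n, z) 128 256 j).image Prod.snd))
    rw [Finset.sum_image fun P hP P' hP' e =>
      Prod.ext ((mem_sub_iff.1 hP).1.trans (mem_sub_iff.1 hP').1.symm) e]
    refine Finset.sum_congr rfl fun P hP => ?_
    obtain ⟨h1, h2⟩ := mem_sub_iff.1 hP
    obtain ⟨m, z'⟩ := P
    obtain rfl : m = n - j := h1
    rw [indicator_of_mem (h2 (cn_mem_cell _)), one_mul, shift_V]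
  refine (ENNReal.tsum_le_tsum h1).trans (le_of_eq ?_)
  rw [ENNReal.tsum_comm]
  simp only [ENNReal.tsum_mul_right, shift_count]
  rw [ENNReal.tsum_mul_left]
  norm_num

theorem shift_level {G : ℂ → ℂ} (hG : Integrable G) {n n1 : ℤ} (h : n ≤ n1) (j : ℕ) :
    ∫⁻ t in cell (n1, 0, 0), ∑' z : ℤ × ℤ, ENNReal.ofReal (shU G j (n, z) t) ≤
      ENNReal.ofReal (4 ^ n1 * 256 ^ 2 * (defi G (n + 8) - defi G (n - j))) := by
  set c : ℂ := ⟨128 * 2 ^ n, 128 * 2 ^ n⟩ with hc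
  have m1 : Measurable fun y => ENNReal.ofReal ‖shPsi G (n + 8) (y - c)‖ :=
    ((shPsi_meas hG _).comp (measurable_sub_const c)).norm.ennreal_ofReal
  have m2 : Measurable fun y => ENNReal.ofReal ‖shPsi G (n - j) y‖ :=
    (shPsi_meas hG _).norm.ennreal_ofReal
  have e1 := lintegral_unfold h m1.aemeasurable
  have e2 := lintegral_unfold (n := n - j) (n1 := n1) (by omega) m2.aemeasurable
  rw [lintegral_sub_right_eq_self (fun y => ENNReal.ofReal ‖shPsi G (n + 8) y‖) c, shPsi_lint hG,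
    ← ENNReal.ofReal_mul (by positivity)] at e1
  rw [shPsi_lint hG, ← ENNReal.ofReal_mul (by positivity)] at e2
  have e3 : ∀ t, ∑' z : ℤ × ℤ, ENNReal.ofReal (shU G j (n, z) t) +
      ∑' z : ℤ × ℤ, ENNReal.ofReal ‖shPsi G (n + 8) (cn (n, z) + t - c)‖ ≤
      256 ^ 2 * ∑' z : ℤ × ℤ, ENNReal.ofReal ‖shPsi G (n - j) (cn (n - j, z) + t)‖ := by
    intro t
    refine le_trans (le_of_eq ?_) (shift_S_le G n j t)
    rw [← ENNReal.tsum_add]
    refine tsum_congr fun z => ?_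
    rw [← ENNReal.ofReal_add (shU_nonneg hG _ _ _) (norm_nonneg _), shU, shift_Vb]
    simp only [hc, sub_add_cancel]
  have e4 := lintegral_mono (μ := volume.restrict (cell (n1, 0, 0))) e3
  have m3 : Measurable fun t =>
      ∑' z : ℤ × ℤ, ENNReal.ofReal ‖shPsi G (n + 8) (cn (n, z) + t - c)‖ :=
    Measurable.tsum fun z => m1.comp (measurable_const_add _)
  have m4 : Measurable fun t =>
      ∑' z : ℤ × ℤ, ENNReal.ofReal ‖shPsi G (n - j) (cn (n - j, z) + t)‖ :=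
    Measurable.tsum fun z => m2.comp (measurable_const_add _)
  rw [lintegral_add_right _ m3, lintegral_const_mul _ m4, e1, e2] at e4
  have e5 := ENNReal.le_sub_of_add_le_right ENNReal.ofReal_ne_top e4
  have p1 : 0 ≤ (4 : ℝ) ^ (n1 - n) * (4 ^ (n + 8) * Nm G (n + 8)) :=
    mul_nonneg (by positivity) (mul_nonneg (by positivity) (Nm_nonneg _ _))
  rw [show (256 : ENNReal) ^ 2 = ENNReal.ofReal (256 ^ 2) by norm_num,
    ← ENNReal.ofReal_mul (by positivity), ← ENNReal.ofReal_sub _ p1] at e5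
  refine e5.trans (le_of_eq ?_)
  congr 1
  have a1 : (4 : ℝ) ^ (n1 - (n - j)) * 4 ^ (n - j) = 4 ^ n1 := by
    rw [← zpow_add₀ (by norm_num), sub_add_cancel]
  have a2 : (4 : ℝ) ^ (n1 - n) * 4 ^ (n + 8) = 4 ^ n1 * 256 ^ 2 := by
    rw [← zpow_add₀ (by norm_num), show n1 - n + (n + 8) = n1 + 8 by ring, zpow_add₀ (by norm_num)]
    norm_num
  rw [← mul_assoc (4 ^ (n1 - n)), a2, ← mul_assoc (4 ^ (n1 - (n - j))), a1]
  unfold defi
  ring

theorem shift_tele {d : ℤ → ℝ} (hd : Monotone d) (h0 : ∀ m, 0 ≤ d m) (a : ℤ) (M k : ℕ) :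
    ∑ i ∈ Finset.range M, (d (a - i) - d (a - i - k)) ≤ k * d a := by
  induction k with
  | zero => simp
  | succ k ih =>
    have e : ∀ i : ℕ, d (a - i) - d (a - i - (k + 1 : ℕ)) =
        (d (a - i) - d (a - i - k)) + (d (a - k - i) - d (a - k - (i + 1 : ℕ))) := by
      intro i
      rw [show a - i - (k + 1 : ℕ) = a - k - (i + 1 : ℕ) by push_cast; ring,
        show a - k - i = a - i - k by ring]
      ring
    simp only [e, Finset.sum_add_distrib]
    rw [Finset.sum_range_sub' (fun i : ℕ => d (a - k - i))]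
    have := h0 (a - k - M)
    have : d (a - k - (0 : ℕ)) ≤ d a := hd (by omega)
    push_cast at *
    linarith

/-- Recipe.  Let `G_t = G (· + t)`, `ψ_m y = ‖∫_{sqr y 2^m} G‖`, `τ = ∫ ‖G‖`.  For a level `n` and
depth `j` put `u n j Q t = S ‖·‖ G_t Q 128 256 j - ‖Vb G_t Q 128 256‖ ≥ 0` (`norm_Vb_le_S`).
`V G_t P = ∫_{sqr (cn P + t) 2^P.1} G`, `Vb G_t Q 128 256 = ∫_{sqr (cn Q - 128 * 2^n (1 + I) + t)
2^(n+8)} G`.  In `ℝ≥0∞`: `∑'_z ofReal (u) + ∑'_z ofReal ‖Vb‖ = ∑'_z ofReal (S) =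
256² ∑'_{z'} ofReal ψ_{n-j} (cn (n - j, z') + t)` (every cell of level `n - j` lies in exactly `256²`
blocks; only `≤` is needed, from `card_box_mem`).  Integrate over `t ∈ T0 = cell (n1,0,0)` with
`lintegral_unfold`: `∫⁻ ∑'_z ofReal u ≤ 4^n1 * 256² * ofReal (Nm G (n-j) - Nm G (n+8))` and
`Nm G (n-j) - Nm G (n+8) = defi G (n+8) - defi G (n-j)`.  Telescoping (`defi_mono`,
`defi_nonneg`): `∑_{n ∈ Icc n0 n1} (defi (n+8) - defi (n-j)) ≤ (j + 8) defi (n1+8)`.
So `f t = ∑_{n ∈ Icc n0 n1} ∑'_z ∑'_j ofReal ((64/65)^j u)` has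
`∫⁻_{T0} f ≤ volume T0 * ofReal (C defi (n1+8))`, `C = 256² ∑ (j+8)(64/65)^j`; pick `t` with
`exists_le_setLAverage` (or argue by contradiction); for a finset `𝒮`,
`ofReal (∑_{Q ∈ 𝒮} Dstar G_t Q) ≤ f t` (`ENNReal.ofReal_tsum_of_nonneg`). -/
theorem shift_lemma : ∃ C : ℝ, 0 < C ∧ ∀ (G : ℂ → ℂ), Integrable G → ∀ n0 n1 : ℤ, ∃ t : ℂ,
    ∀ 𝒮 : Finset Cell, (∀ Q ∈ 𝒮, n0 ≤ Q.1 ∧ Q.1 ≤ n1) →
      ∑ Q ∈ 𝒮, Dstar (fun w => G (w + t)) Q ≤ C * defi G (n1 + 8) := by
  classical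
  refine ⟨256 ^ 2 * 4680, by norm_num, fun G hG n0 n1 => ?_⟩
  set D := defi G (n1 + 8) with hD
  have D0 : 0 ≤ D := defi_nonneg hG _
  let f : ℂ → ENNReal := fun t => ∑' j : ℕ, ENNReal.ofReal ((64 / 65 : ℝ) ^ j) *
    ∑' i : ℕ, ∑' z : ℤ × ℤ, ENNReal.ofReal (shU G j (n1 - i, z) t)
  have m0 : ∀ (j i : ℕ), Measurable fun t => ∑' z : ℤ × ℤ, ENNReal.ofReal (shU G j (n1 - i, z) t) :=
    fun j i => Measurable.tsum fun z => (shU_meas hG _ _).ennreal_ofReal
  have m1 : ∀ j : ℕ, Measurable fun t =>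
      ∑' i : ℕ, ∑' z : ℤ × ℤ, ENNReal.ofReal (shU G j (n1 - i, z) t) :=
    fun j => Measurable.tsum (m0 j)
  have mf : Measurable f := Measurable.tsum fun j => (m1 j).const_mul _
  have b1 : ∀ j : ℕ, ∫⁻ t in cell (n1, 0, 0),
      ∑' i : ℕ, ∑' z : ℤ × ℤ, ENNReal.ofReal (shU G j (n1 - i, z) t) ≤
        ENNReal.ofReal (4 ^ n1 * 256 ^ 2 * ((j + 8) * D)) := by
    intro j
    rw [lintegral_tsum fun i => (m0 j i).aemeasurable]
    refine ENNReal.tsum_le_of_sum_range_le fun M => ?_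
    refine (Finset.sum_le_sum fun i _ => shift_level hG (by omega) j).trans ?_
    rw [← ENNReal.ofReal_sum_of_nonneg fun i _ => mul_nonneg (by positivity)
      (sub_nonneg.2 (defi_mono hG (by omega))), ← Finset.mul_sum]
    refine ENNReal.ofReal_le_ofReal (mul_le_mul_of_nonneg_left ?_ (by positivity))
    have := shift_tele (defi_mono hG) (defi_nonneg hG) (n1 + 8) M (j + 8)
    push_cast at this
    refine le_trans (le_of_eq (Finset.sum_congr rfl fun i _ => ?_)) this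
    congr 2 <;> ring
  have hs : HasSum (fun j : ℕ => (64 / 65 : ℝ) ^ j * (4 ^ n1 * 256 ^ 2 * ((j + 8) * D)))
      (4 ^ n1 * (256 ^ 2 * 4680 * D)) := by
    have s1 := hasSum_coe_mul_geometric_of_norm_lt_one (r := (64 / 65 : ℝ))
      (by rw [Real.norm_eq_abs, abs_of_pos] <;> norm_num)
    have s2 := ((s1.add (star_const 8)).mul_left (4 ^ n1 * 256 ^ 2 * D))
    have e1 : (fun j : ℕ => (64 / 65 : ℝ) ^ j * (4 ^ n1 * 256 ^ 2 * ((j + 8) * D))) = fun j : ℕ =>
        4 ^ n1 * 256 ^ 2 * D * (j * (64 / 65 : ℝ) ^ j + (64 / 65) ^ j * 8) := by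
      funext j; ring
    have e2 : (4 : ℝ) ^ n1 * (256 ^ 2 * 4680 * D) =
        4 ^ n1 * 256 ^ 2 * D * (64 / 65 / (1 - 64 / 65) ^ 2 + 65 * 8) := by ring
    rw [e1, e2]
    exact s2
  have b2 : ∫⁻ t in cell (n1, 0, 0), f t ≤
      ENNReal.ofReal (4 ^ n1) * ENNReal.ofReal (256 ^ 2 * 4680 * D) := by
    rw [lintegral_tsum fun j => ((m1 j).const_mul _).aemeasurable, ← ENNReal.ofReal_mul (by positivity),
      ← hs.tsum_eq, ENNReal.ofReal_tsum_of_nonneg (fun j => by positivity) hs.summable]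
    refine ENNReal.tsum_le_tsum fun j => ?_
    rw [lintegral_const_mul _ (m1 j), ENNReal.ofReal_mul (by positivity)]
    exact mul_le_mul_right (b1 j) _
  have v0 : ENNReal.ofReal ((4 : ℝ) ^ n1) ≠ 0 := (ENNReal.ofReal_pos.2 (by positivity)).ne'
  obtain ⟨t, -, ht⟩ := exists_le_setLAverage (μ := volume) (s := cell (n1, 0, 0)) (f := f)
    (by rw [volume_cell]; exact v0) (by rw [volume_cell]; exact ENNReal.ofReal_ne_top)
    mf.aemeasurable
  rw [setLAverage_eq, volume_cell] at ht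
  have ht' : f t ≤ ENNReal.ofReal (256 ^ 2 * 4680 * D) :=
    ht.trans (ENNReal.div_le_of_le_mul' b2)
  refine ⟨t, fun 𝒮 h𝒮 => ?_⟩
  have hGt : Integrable fun w => G (w + t) := hG.comp_add_right t
  rw [← ENNReal.ofReal_le_ofReal_iff (by positivity),
    ENNReal.ofReal_sum_of_nonneg fun Q _ => Dstar_nonneg hGt Q]
  refine le_trans ?_ ht'
  have e1 : ∀ Q, ENNReal.ofReal (Dstar (fun w => G (w + t)) Q) =
      ∑' j : ℕ, ENNReal.ofReal ((64 / 65 : ℝ) ^ j) * ENNReal.ofReal (shU G j Q t) := by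
    intro Q
    refine (ENNReal.ofReal_tsum_of_nonneg
      (fun j => mul_nonneg (by positivity) (shU_nonneg hG j Q t)) (star_summ_D hGt Q)).trans ?_
    exact tsum_congr fun j => ENNReal.ofReal_mul (by positivity)
  simp only [e1]
  rw [← Summable.tsum_finsetSum fun _ _ => ENNReal.summable]
  refine ENNReal.tsum_le_tsum fun j => ?_
  rw [← Finset.mul_sum, ← ENNReal.tsum_prod]
  refine mul_le_mul_right (le_trans (le_of_eq ?_)
    (ENNReal.sum_le_tsum (𝒮.image fun Q => ((n1 - Q.1).toNat, Q.2)))) _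
  rw [Finset.sum_image fun P hP P' hP' e => by
    have a1 := (h𝒮 P hP).2
    have a2 := (h𝒮 P' hP').2
    obtain ⟨e1, e2⟩ := Prod.mk.inj e
    exact Prod.ext (by omega) e2]
  refine Finset.sum_congr rfl fun Q hQ => ?_
  have a1 := (h𝒮 Q hQ).2
  rw [show n1 - ((n1 - Q.1).toNat : ℤ) = Q.1 by omega]

end Crest.Agent.R112
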