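import Crest.Agent.R112.Core
import Crest.Agent.R112.Shift

set_option autoImplicit false

namespace Crest.Agent.R112

open MeasureTheory Metric Set Filter Topology

/-! # Localised gradient bound for the truncated maximal function -/

theorem loc_overlap {h : ℂ → ℝ} (hi : Integrable h) (h0 : ∀ w, 0 ≤ h w) (k : ℤ) (o s : ℕ)
    (𝒲 : Finset Cell) (h𝒲 : ∀ W ∈ 𝒲, W.1 = k) :
    ∑ W ∈ 𝒲, ∫ w in box W o s, h w ≤ (s : ℝ) ^ 2 * ∫ w, h w := by
  classical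
  have h1 : ∀ W ∈ 𝒲, ∫ w in box W o s, h w = ∫ w, (box W o s).indicator h w := fun W _ =>
    (integral_indicator (measurableSet_box W o s)).symm
  rw [Finset.sum_congr rfl h1, ← integral_finsetSum _
    (fun W _ => hi.indicator (measurableSet_box W o s)), ← integral_const_mul]
  refine integral_mono (integrable_finsetSum _
    (fun W _ => hi.indicator (measurableSet_box W o s))) (hi.const_mul _) fun y => ?_
  have h2 : ∑ W ∈ 𝒲, (box W o s).indicator h y =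
      ((𝒲.filter fun W => y ∈ box W o s).card : ℝ) * h y := by
    simp only [Set.indicator_apply]
    rw [← Finset.sum_filter, Finset.sum_const, nsmul_eq_mul]
  have h3 := card_box_mem k y o s (𝒲.filter fun W => y ∈ box W o s) fun W hW =>
    ⟨h𝒲 W (Finset.mem_filter.1 hW).1, (Finset.mem_filter.1 hW).2⟩
  change ∑ W ∈ 𝒲, (box W o s).indicator h y ≤ (s : ℝ) ^ 2 * h y
  rw [h2]
  exact mul_le_mul_of_nonneg_right (by exact_mod_cast h3) (h0 y)

theorem loc_cover {φ : ℂ → ℝ} (hφ : HasCompactSupport φ) (n : ℤ) :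
    ∃ 𝒲 : Finset Cell, (∀ W ∈ 𝒲, W.1 = n) ∧ ∀ x, φ x ≠ 0 → ∃ W ∈ 𝒲, x ∈ cell W := by
  obtain ⟨R, hR⟩ := hφ.isBounded.subset_ball (0 : ℂ)
  obtain ⟨o, ho⟩ := exists_nat_ge (R / 2 ^ n)
  rw [div_le_iff₀ (cel_pos n)] at ho
  refine ⟨sub (n, 0, 0) o (2 * o) 0, fun W hW => by simpa using (mem_sub_iff.1 hW).1,
    fun x hx => ⟨_, cellOf_mem_sub 0 ?_, mem_cell_cellOf _ x⟩⟩
  have h1 := hR (subset_tsupport φ hx)
  rw [mem_ball_zero_iff] at h1
  refine mem_box_of_norm_lt (ρ := o) le_rfl (by push_cast; linarith) ?_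
  have : cn ((n, 0, 0) : Cell) = 0 := by simp [cn, Complex.ext_iff]
  rw [this, sub_zero]
  exact h1.trans_le ho

theorem loc_aux : ∃ C : ℝ, 0 < C ∧ ∀ (F : ℂ → ℝ) (G : ℂ → ℂ), Hyp F G →
    ∀ (n0 n1 : ℤ), n0 ≤ n1 → ∀ 𝔇 : ℝ,
    (∀ 𝒮 : Finset Cell, (∀ Q ∈ 𝒮, n0 ≤ Q.1 ∧ Q.1 ≤ n1) → ∑ Q ∈ 𝒮, Dstar G Q ≤ 𝔇) →
    ∀ (φ : ℂ → ℝ) (η : ℝ), Continuous φ → HasCompactSupport φ →
    (∀ x, 0 ≤ φ x ∧ φ x ≤ 1) → 0 ≤ η → (∀ x y, ‖x - y‖ ≤ 14 * 2 ^ n1 → φ x ≤ φ y + η) →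
    ∫ x, φ x * ‖fderiv ℝ (aa F n0 n1) x‖ ≤
      C * (289 * ((∫ w, φ w * ‖G w‖) + 2 * η * ∫ w, ‖G w‖) + 𝔇) := by
  obtain ⟨C, hC, hcore⟩ := core_lemma
  refine ⟨C, hC, fun F G hyp n0 n1 hn 𝔇 h𝔇 φ η hc hs h01 hη hlip => ?_⟩
  obtain ⟨𝒲, h𝒲, hcov⟩ := loc_cover hs n1
  obtain ⟨K, hK⟩ := hyp.aa_lip hn
  have hpos := cel_pos n1
  have hint : Integrable fun x => φ x * ‖fderiv ℝ (aa F n0 n1) x‖ :=
    (hc.integrable_of_hasCompactSupport hs).mul_bdd (c := K)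
      (measurable_fderiv ℝ _).norm.aestronglyMeasurable
      (Eventually.of_forall fun x => by
        rw [norm_norm]; exact norm_fderiv_le_of_lipschitz ℝ hK)
  have hGn : Integrable fun w => ‖G w‖ := hyp.intG.norm
  have hφG : Integrable fun w => φ w * ‖G w‖ :=
    hGn.bdd_mul (c := 1) hc.aestronglyMeasurable (Eventually.of_forall fun x => by
      rw [Real.norm_eq_abs, abs_of_nonneg (h01 x).1]; exact (h01 x).2)
  have hsum : Integrable fun w => φ w * ‖G w‖ + 2 * η * ‖G w‖ := hφG.add (hGn.const_mul _)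
  set ω : Cell → ℝ := fun W => min 1 (φ (cn W) + η) with hω
  have hω01 : ∀ W, 0 ≤ ω W ∧ ω W ≤ 1 := fun W =>
    ⟨le_min zero_le_one (add_nonneg (h01 _).1 hη), min_le_left _ _⟩
  have h1 := integral_le_sum_cell hint (fun x => mul_nonneg (h01 x).1 (norm_nonneg _)) 𝒲
    fun x hx => hcov x (left_ne_zero_of_mul hx)
  have h2 : ∀ W ∈ 𝒲, ∫ x in cell W, φ x * ‖fderiv ℝ (aa F n0 n1) x‖ ≤
      ω W * ∫ x in cell W, ‖fderiv ℝ (aa F n0 n1) x‖ := fun W hW => by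
    rw [← integral_const_mul]
    refine setIntegral_mono_on hint.integrableOn
      ((integrableOn_norm_fderiv hK (core_isBounded_cell W)).const_mul _) (measurableSet_cell W)
      fun x hx => mul_le_mul_of_nonneg_right (le_min (h01 x).2 (hlip _ _ ?_)) (norm_nonneg _)
    have := norm_sub_cn_le hx
    rw [h𝒲 W hW] at this
    linarith
  have h3 := hcore F G hyp n0 n1 hn 𝔇 h𝔇 𝒲 ω h𝒲 hω01
  have h4 : ∀ W ∈ 𝒲, ω W * ∫ w in box W 8 17, ‖G w‖ ≤
      ∫ w in box W 8 17, (φ w * ‖G w‖ + 2 * η * ‖G w‖) := fun W hW => by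
    rw [← integral_const_mul]
    refine setIntegral_mono_on (hGn.integrableOn.const_mul _) hsum.integrableOn
      (measurableSet_box W 8 17) fun y hy => ?_
    have h5 := norm_sub_cn_le_of_mem_box (ρ := 9) (by norm_num) (by norm_num) hy
    rw [h𝒲 W hW, norm_sub_rev] at h5
    have h6 := hlip (cn W) y (by linarith)
    have h7 : ω W ≤ φ (cn W) + η := min_le_right _ _
    rw [← add_mul]
    exact mul_le_mul_of_nonneg_right (by linarith) (norm_nonneg _)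
  have h5 := loc_overlap hsum (fun w => add_nonneg (mul_nonneg (h01 w).1 (norm_nonneg _))
    (mul_nonneg (by linarith) (norm_nonneg _))) n1 8 17 𝒲 h𝒲
  rw [integral_add hφG (hGn.const_mul _), integral_const_mul] at h5
  refine h1.trans ((Finset.sum_le_sum h2).trans (h3.trans ?_))
  refine mul_le_mul_of_nonneg_left ?_ hC.le
  have h6 := (Finset.sum_le_sum h4).trans h5
  norm_num at h6
  linarith

/-- Recipe.  Take `t` from `shift_lemma`, translate (`Hyp.translate`, `mx_translate`,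
`fderiv_comp_add_right`, `integral_add_right_eq_self`) so that the defect hypothesis of
`core_lemma` holds.  `𝒲 =` the cells of level `n1` in a big block containing the support
(`sub (n1,0,0) o (2 o) 0`), `ω W = min 1 (φ (cn W) + η)`.  Then `φ ≤ ω W` on `cell W`,
`ω W ≤ φ y + 2 η` on `box W 8 17` (distance `≤ 13.5 * 2^n1`), and
`∑_W 1_{box W 8 17} ≤ 289` (`card_box_mem`). -/
theorem loc_lemma : ∃ C : ℝ, 0 < C ∧ ∀ (F : ℂ → ℝ) (G : ℂ → ℂ), Hyp F G →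
    ∀ (n0 n1 : ℤ), n0 ≤ n1 → ∀ (φ : ℂ → ℝ) (η : ℝ), Continuous φ → HasCompactSupport φ →
    (∀ x, 0 ≤ φ x ∧ φ x ≤ 1) → 0 ≤ η → (∀ x y, ‖x - y‖ ≤ 14 * 2 ^ n1 → φ x ≤ φ y + η) →
    ∫ x, φ x * ‖fderiv ℝ (aa F n0 n1) x‖ ≤
      C * ((∫ w, φ w * ‖G w‖) + η * (∫ w, ‖G w‖) + defi G (n1 + 8)) := by
  obtain ⟨C₁, hC₁, h₁⟩ := loc_aux
  obtain ⟨C₂, hC₂, h₂⟩ := shift_lemma
  refine ⟨C₁ * (578 + C₂), by positivity, fun F G hyp n0 n1 hn φ η hc hs h01 hη hlip => ?_⟩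
  obtain ⟨t, ht⟩ := h₂ G hyp.intG n0 n1
  have h3 := h₁ _ _ (hyp.translate t) n0 n1 hn _ ht (fun x => φ (x + t)) η
    (hc.comp (continuous_add_const t)) (hs.comp_homeomorph (Homeomorph.addRight t))
    (fun x => h01 _) hη fun x y hxy => hlip _ _ (by rwa [add_sub_add_right_eq_sub])
  have e1 : aa (fun w => F (w + t)) n0 n1 = fun x => aa F n0 n1 (x + t) :=
    funext fun x => mx_translate F _ t x
  simp only [e1, fderiv_comp_add_right] at h3
  rw [integral_add_right_eq_self (fun x => φ x * ‖fderiv ℝ (aa F n0 n1) x‖) t,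
    integral_add_right_eq_self (fun x => φ x * ‖G x‖) t,
    integral_add_right_eq_self (fun x => ‖G x‖) t] at h3
  refine h3.trans ?_
  rw [mul_assoc C₁]
  refine mul_le_mul_of_nonneg_left ?_ hC₁.le
  have hA : 0 ≤ ∫ w, φ w * ‖G w‖ := integral_nonneg fun w => mul_nonneg (h01 w).1 (norm_nonneg _)
  have hB : 0 ≤ η * ∫ w, ‖G w‖ := mul_nonneg hη (integral_nonneg fun w => norm_nonneg _)
  have hD := defi_nonneg hyp.intG (n1 + 8)
  have := mul_nonneg hC₂.le hA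
  have := mul_nonneg hC₂.le hB
  nlinarith

end Crest.Agent.R112
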