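import Crest.Prelude.Def_MaximalSobolev

set_option autoImplicit false

namespace Crest.Agent.R112

open MeasureTheory Metric Set Filter Topology

open Crest.AnalysisR
open scoped ContDiff

theorem wk_ext {T E : Type*} [AddCommGroup T] [Module ℝ T] [NormedAddCommGroup E]
    [InnerProductSpace ℝ E] [CompleteSpace E] (j : T →ₗ[ℝ] E) (l : T →ₗ[ℝ] ℝ) (C : ℝ) (hC : 0 ≤ C)
    (h : ∀ t, |l t| ≤ C * ‖j t‖) : ∃ g : E, ‖g‖ ≤ C ∧ ∀ t, l t = inner ℝ g (j t) := by
  have hk : LinearMap.ker j ≤ LinearMap.ker l := by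
    intro t ht
    have := h t
    rw [LinearMap.mem_ker.1 ht, norm_zero, mul_zero] at this
    exact LinearMap.mem_ker.2 (abs_nonpos_iff.1 this)
  let f : E →ₗ.[ℝ] ℝ :=
    ⟨LinearMap.range j, ((LinearMap.ker j).liftQ l hk) ∘ₗ j.quotKerEquivRange.symm.toLinearMap⟩
  have hf : ∀ t, f ⟨j t, LinearMap.mem_range_self j t⟩ = l t := by
    intro t
    show ((LinearMap.ker j).liftQ l hk) (j.quotKerEquivRange.symm ⟨j t, _⟩) = l t
    rw [LinearMap.quotKerEquivRange_symm_apply_image]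
    rfl
  obtain ⟨g, hg1, hg2⟩ := exists_extension_of_le_sublinear f (fun x => C * ‖x‖)
    (fun c hc x => by rw [norm_smul, Real.norm_of_nonneg hc.le]; ring)
    (fun x y => by rw [← mul_add]; exact mul_le_mul_of_nonneg_left (norm_add_le x y) hC)
    (by
      rintro ⟨x, t, rfl⟩
      rw [hf t]
      exact (le_abs_self _).trans (h t))
  have hb : ∀ x, ‖g x‖ ≤ C * ‖x‖ := by
    intro x
    have h1 := hg2 x
    have h2 := hg2 (-x)
    rw [map_neg, norm_neg] at h2
    rw [Real.norm_eq_abs, abs_le]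
    constructor <;> linarith
  refine ⟨(InnerProductSpace.toDual ℝ E).symm (g.mkContinuous C hb), ?_, fun t => ?_⟩
  · rw [LinearIsometryEquiv.norm_map]
    exact g.mkContinuous_norm_le hC hb
  · rw [InnerProductSpace.toDual_symm_apply, LinearMap.mkContinuous_apply, ← hf t]
    exact (hg1 ⟨j t, LinearMap.mem_range_self j t⟩).symm

theorem wk_cs {α : Type*} [MeasurableSpace α] {μ : Measure α} [IsFiniteMeasure μ] (ψ : Lp ℝ 2 μ) :
    ∫ x, |ψ x| ∂μ ≤ √(μ.real univ) * ‖ψ‖ := by
  have h1 : ∫ x, |ψ x| ∂μ = inner ℝ (Lp.const 2 μ (1 : ℝ)) |ψ| := by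
    rw [L2.inner_def]
    refine integral_congr_ae ?_
    filter_upwards [Lp.coeFn_const 2 μ (1 : ℝ), Lp.coeFn_abs ψ] with x h1 h2
    rw [h1, h2]
    simp
  have h2 := real_inner_le_norm (Lp.const 2 μ (1 : ℝ)) |ψ|
  have h3 := Lp.norm_const_le 2 μ (1 : ℝ)
  rw [norm_one, one_mul, ENNReal.toReal_ofNat, ← Real.sqrt_eq_rpow] at h3
  rw [norm_abs_eq_norm] at h2
  rw [h1]
  exact h2.trans (mul_le_mul_of_nonneg_right h3 (norm_nonneg _))

/-- test functions -/
def wkT : Submodule ℝ (EuclideanSpace ℝ (Fin 2) → ℝ) where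
  carrier := {φ | ContDiff ℝ ∞ φ ∧ HasCompactSupport φ}
  add_mem' := fun h h' => ⟨h.1.add h'.1, h.2.add h'.2⟩
  zero_mem' := ⟨contDiff_const, HasCompactSupport.zero⟩
  smul_mem' := fun c _ h => ⟨h.1.const_smul c, h.2.smul_left (f := fun _ => c)⟩

theorem wk_int {u : EuclideanSpace ℝ (Fin 2) → ℝ} (hu : LocallyIntegrable u)
    {φ : EuclideanSpace ℝ (Fin 2) → ℝ} (h1 : ContDiff ℝ ∞ φ) (h2 : HasCompactSupport φ)
    (v : EuclideanSpace ℝ (Fin 2)) : Integrable (fun x => u x * fderiv ℝ φ x v) :=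
  hu.integrable_smul_right_of_hasCompactSupport
    ((h1.continuous_fderiv (by simp)).clm_apply continuous_const) (h2.fderiv_apply ℝ v)

theorem wk_dir (u H : EuclideanSpace ℝ (Fin 2) → ℝ) (hu : LocallyIntegrable u)
    (hH : Integrable H) (hH0 : ∀ x, 0 ≤ H x) (v : EuclideanSpace ℝ (Fin 2))
    (hdom : ∀ φ : EuclideanSpace ℝ (Fin 2) → ℝ, ContDiff ℝ ∞ φ → HasCompactSupport φ →
      |∫ x, u x * fderiv ℝ φ x v| ≤ ∫ x, |φ x| * H x) :
    ∃ g : EuclideanSpace ℝ (Fin 2) → ℝ, Integrable g ∧ ∫ x, |g x| ≤ ∫ x, H x ∧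
      ∀ φ : EuclideanSpace ℝ (Fin 2) → ℝ, ContDiff ℝ ∞ φ → HasCompactSupport φ →
        ∫ x, u x * fderiv ℝ φ x v = -∫ x, g x * φ x := by
  set μ : Measure (EuclideanSpace ℝ (Fin 2)) :=
    volume.withDensity (fun x => ENNReal.ofReal (H x)) with hμ
  haveI : IsFiniteMeasure μ := isFiniteMeasure_withDensity_ofReal hH.2
  have hm : AEMeasurable (fun x => ENNReal.ofReal (H x)) volume :=
    hH.aemeasurable.ennreal_ofReal
  have hlt : ∀ᵐ x ∂(volume : Measure (EuclideanSpace ℝ (Fin 2))), ENNReal.ofReal (H x) < ⊤ :=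
    Eventually.of_forall fun _ => ENNReal.ofReal_lt_top
  have hI : ∀ F : EuclideanSpace ℝ (Fin 2) → ℝ, ∫ x, F x ∂μ = ∫ x, H x * F x := by
    intro F
    rw [hμ, integral_withDensity_eq_integral_toReal_smul₀ hm hlt]
    simp only [ENNReal.toReal_ofReal (hH0 _), smul_eq_mul]
  have huniv : μ.real univ = ∫ x, H x := by
    have := hI (fun _ => 1)
    simpa using this
  have mem : ∀ φ : wkT, MemLp (φ : EuclideanSpace ℝ (Fin 2) → ℝ) 2 μ :=
    fun φ => φ.2.1.continuous.memLp_of_hasCompactSupport φ.2.2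
  let j : wkT →ₗ[ℝ] Lp ℝ 2 μ :=
    { toFun := fun φ => (mem φ).toLp φ
      map_add' := fun φ ψ => MemLp.toLp_add (mem φ) (mem ψ)
      map_smul' := fun c φ => MemLp.toLp_const_smul c (mem φ) }
  have hj : ∀ φ : wkT, j φ =ᵐ[μ] φ := fun φ => (mem φ).coeFn_toLp
  let l : wkT →ₗ[ℝ] ℝ :=
    { toFun := fun φ => ∫ x, u x * fderiv ℝ (φ : EuclideanSpace ℝ (Fin 2) → ℝ) x v
      map_add' := fun φ ψ => by
        rw [← integral_add (wk_int hu φ.2.1 φ.2.2 v) (wk_int hu ψ.2.1 ψ.2.2 v)]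
        refine integral_congr_ae (Eventually.of_forall fun x => ?_)
        simp only [Submodule.coe_add]
        rw [fderiv_add (φ.2.1.differentiable (by simp) x) (ψ.2.1.differentiable (by simp) x),
          add_apply, mul_add]
      map_smul' := fun c φ => by
        rw [RingHom.id_apply, smul_eq_mul, ← integral_const_mul]
        refine integral_congr_ae (Eventually.of_forall fun x => ?_)
        simp only [Submodule.coe_smul]
        rw [fderiv_const_smul (φ.2.1.differentiable (by simp) x), smul_apply,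
          smul_eq_mul, mul_left_comm] }
  obtain ⟨g, hg1, hg2⟩ := wk_ext j l (√(μ.real univ)) (Real.sqrt_nonneg _) (fun φ => by
    refine (hdom φ φ.2.1 φ.2.2).trans (le_trans (le_of_eq ?_) (wk_cs (j φ)))
    have : ∫ x, |j φ x| ∂μ = ∫ x, |(φ : EuclideanSpace ℝ (Fin 2) → ℝ) x| ∂μ := by
      refine integral_congr_ae ?_
      filter_upwards [hj φ] with x hx
      rw [hx]
    rw [this, hI]
    simp only [mul_comm])
  have ig : Integrable g μ := (Lp.memLp g).integrable (by norm_num)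
  refine ⟨fun x => -(H x * g x), ?_, ?_, fun φ h1 h2 => ?_⟩
  · have ig' := (integrable_withDensity_iff_integrable_smul₀' hm hlt).1 ig
    simp only [ENNReal.toReal_ofReal (hH0 _), smul_eq_mul] at ig'
    exact ig'.neg
  · have h1 := (wk_cs g).trans (mul_le_mul_of_nonneg_left hg1 (Real.sqrt_nonneg _))
    rw [Real.mul_self_sqrt measureReal_nonneg, huniv, hI] at h1
    simpa only [abs_neg, abs_mul, abs_of_nonneg (hH0 _)] using h1
  · have h3 : ∫ x, u x * fderiv ℝ φ x v = inner ℝ g (j ⟨φ, h1, h2⟩) := hg2 ⟨φ, h1, h2⟩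
    have h4 : inner ℝ g (j ⟨φ, h1, h2⟩) = ∫ x, g x * φ x ∂μ := by
      rw [L2.inner_def]
      refine integral_congr_ae ?_
      filter_upwards [hj ⟨φ, h1, h2⟩] with x hx
      rw [hx]
      simp [mul_comm]
    rw [h3, h4, hI, ← integral_neg]
    exact integral_congr_ae (Eventually.of_forall fun x => by ring)

/-- Recipe.  `μ = volume.withDensity (ENNReal.ofReal ∘ H)` is a finite measure.  For a unit basis
vector `v`, the functional `φ ↦ -∫ u ∂_v φ` on test functions is linear (`u` is locally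
integrable) and bounded by `p ψ = ∫ |ψ| dμ`; it factors through the image of the test functions in
`Lp ℝ 2 μ` (kernel argument, or define it on the graph / use `LinearPMap`).  Extend it with
`exists_extension_of_le_sublinear` to `ℓ ≤ p` on `Lp ℝ 2 μ`; `ℓ` is continuous
(`p ψ ≤ √(μ univ) ‖ψ‖`), Riesz (`InnerProductSpace.toDual`) gives `g_v ∈ L²(μ)`, and
`∫ |g_v| dμ = ℓ (sign g_v) ≤ μ univ = ∫ H`.  (A variant without quotients: apply Hahn–Banach on
the space of all bounded measurable / all `MemLp 2 μ` functions, where test functions form a genuine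
subspace, and descend afterwards.)  `G x = H x • (g₀ x • e₀ + g₁ x • e₁)`; a general `v` is
`v 0 • e₀ + v 1 • e₁`. -/
theorem weak_of_dominated (u H : EuclideanSpace ℝ (Fin 2) → ℝ) (hu : LocallyIntegrable u)
    (hH : Integrable H) (hH0 : ∀ x, 0 ≤ H x)
    (hdom : ∀ φ : EuclideanSpace ℝ (Fin 2) → ℝ, ContDiff ℝ ∞ φ → HasCompactSupport φ →
      ∀ v : EuclideanSpace ℝ (Fin 2), |∫ x, u x * fderiv ℝ φ x v| ≤ ‖v‖ * ∫ x, |φ x| * H x) :
    ∃ G : EuclideanSpace ℝ (Fin 2) → EuclideanSpace ℝ (Fin 2),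
      IsWeakGradient u G ∧ Integrable G ∧ ∫ x, ‖G x‖ ≤ 2 * ∫ x, H x := by
  have hd : ∀ i : Fin 2, ∃ g : EuclideanSpace ℝ (Fin 2) → ℝ, Integrable g ∧
      ∫ x, |g x| ≤ ∫ x, H x ∧
      ∀ φ : EuclideanSpace ℝ (Fin 2) → ℝ, ContDiff ℝ ∞ φ → HasCompactSupport φ →
        ∫ x, u x * fderiv ℝ φ x (EuclideanSpace.single i 1) = -∫ x, g x * φ x := fun i =>
    wk_dir u H hu hH hH0 _ fun φ h1 h2 => by simpa using hdom φ h1 h2 (EuclideanSpace.single i 1)
  obtain ⟨g0, i0, b0, e0⟩ := hd 0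
  obtain ⟨g1, i1, b1, e1⟩ := hd 1
  have iG : Integrable (fun x => g0 x • (EuclideanSpace.single 0 1 : EuclideanSpace ℝ (Fin 2)) +
      g1 x • (EuclideanSpace.single 1 1 : EuclideanSpace ℝ (Fin 2))) :=
    (i0.smul_const _).add (i1.smul_const _)
  refine ⟨_, ⟨hu, iG.locallyIntegrable, fun φ h1 h2 v => ?_⟩, iG, ?_⟩
  · have hv : v = v 0 • (EuclideanSpace.single 0 1 : EuclideanSpace ℝ (Fin 2)) +
        v 1 • (EuclideanSpace.single 1 1 : EuclideanSpace ℝ (Fin 2)) := by
      ext i; fin_cases i <;> simp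
    obtain ⟨C, hC⟩ := h1.continuous.bounded_above_of_compact_support h2
    have j0 : Integrable (fun x => g0 x * φ x) :=
      i0.mul_bdd h1.continuous.aestronglyMeasurable (Eventually.of_forall hC)
    have j1 : Integrable (fun x => g1 x * φ x) :=
      i1.mul_bdd h1.continuous.aestronglyMeasurable (Eventually.of_forall hC)
    have l1 : ∫ x, u x * fderiv ℝ φ x v =
        v 0 * (∫ x, u x * fderiv ℝ φ x (EuclideanSpace.single 0 1)) +
        v 1 * ∫ x, u x * fderiv ℝ φ x (EuclideanSpace.single 1 1) := by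
      rw [← integral_const_mul, ← integral_const_mul,
        ← integral_add ((wk_int hu h1 h2 _).const_mul _) ((wk_int hu h1 h2 _).const_mul _)]
      refine integral_congr_ae (Eventually.of_forall fun x => ?_)
      conv_lhs => rw [hv]
      simp only [map_add, map_smul, smul_eq_mul]
      ring
    have l2 : ∫ x, inner ℝ (g0 x • (EuclideanSpace.single 0 1 : EuclideanSpace ℝ (Fin 2)) +
        g1 x • (EuclideanSpace.single 1 1 : EuclideanSpace ℝ (Fin 2))) v * φ x =
        v 0 * (∫ x, g0 x * φ x) + v 1 * ∫ x, g1 x * φ x := by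
      rw [← integral_const_mul, ← integral_const_mul,
        ← integral_add (j0.const_mul _) (j1.const_mul _)]
      refine integral_congr_ae (Eventually.of_forall fun x => ?_)
      simp only [inner_add_left, real_inner_smul_left, EuclideanSpace.inner_single_left]
      simp only [conj_trivial, one_mul]
      ring
    rw [l1, l2, e0 φ h1 h2, e1 φ h1 h2]
    ring
  · have : ∫ x, ‖g0 x • (EuclideanSpace.single 0 1 : EuclideanSpace ℝ (Fin 2)) +
        g1 x • (EuclideanSpace.single 1 1 : EuclideanSpace ℝ (Fin 2))‖ ≤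
        ∫ x, (|g0 x| + |g1 x|) := by
      refine integral_mono iG.norm (i0.abs.add i1.abs) fun x => ?_
      refine (norm_add_le _ _).trans (le_of_eq ?_)
      simp [norm_smul]
    rw [integral_add i0.abs i1.abs] at this
    linarith

end Crest.Agent.R112
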