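import Crest.Agent.R112.Final
import Crest.Agent.R112.Weak
import Crest.Agent.R112.HypWeak

set_option autoImplicit false

namespace Crest.Agent.R112

open MeasureTheory Metric Set Filter Topology Crest.AnalysisR
open scoped ContDiff

/-! # Transfer from `ℂ` to `EuclideanSpace ℝ (Fin 2)` and the main theorem -/

/-- the plane as the complex numbers -/
noncomputable def LL : ℂ ≃ₗᵢ[ℝ] EuclideanSpace ℝ (Fin 2) := Complex.orthonormalBasisOneI.repr

theorem LL_mp : MeasurePreserving LL volume volume := LL.measurePreserving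

theorem LL_symm_mp : MeasurePreserving LL.symm volume volume := LL.symm.measurePreserving

theorem LL_emb : MeasurableEmbedding LL := LL.toHomeomorph.measurableEmbedding

theorem LL_symm_emb : MeasurableEmbedding LL.symm := LL.symm.toHomeomorph.measurableEmbedding

theorem integral_LL {E : Type*} [NormedAddCommGroup E] [NormedSpace ℝ E]
    (h : EuclideanSpace ℝ (Fin 2) → E) : ∫ x, h (LL x) = ∫ y, h y :=
  LL_mp.integral_comp LL_emb h

theorem fderiv_comp_LL (φ : EuclideanSpace ℝ (Fin 2) → ℝ) (x v : ℂ) :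
    fderiv ℝ (fun w => φ (LL w)) x v = fderiv ℝ φ (LL x) (LL v) := by
  have := LL.toContinuousLinearEquiv.comp_right_fderiv (f := φ) (x := x)
  have h2 : (fun w => φ (LL w)) = φ ∘ LL.toContinuousLinearEquiv := rfl
  rw [h2, this]
  rfl

theorem fderiv_comp_LL_symm (φ : ℂ → ℝ) (x v : ℂ) :
    fderiv ℝ (fun w => φ (LL.symm w)) (LL x) (LL v) = fderiv ℝ φ x v := by
  rw [← fderiv_comp_LL (fun w => φ (LL.symm w)) x v]
  simp

theorem cmf_term {f : EuclideanSpace ℝ (Fin 2) → ℝ} (hf : Integrable f) (x : ℂ) {r : ℝ}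
    (hr : 0 < r) :
    (∫⁻ y in ball (LL x) r, ‖f y‖ₑ) / volume (ball (LL x) r) =
      ENNReal.ofReal (av (fun w => |f (LL w)|) x r) := by
  have hpre : LL ⁻¹' ball (LL x) r = ball x r := by
    ext w; simp [mem_ball]
  have h1 : ∫⁻ y in ball (LL x) r, ‖f y‖ₑ = ∫⁻ w in ball x r, ‖f (LL w)‖ₑ := by
    rw [← hpre]
    exact (LL_mp.setLIntegral_comp_preimage_emb LL_emb (fun y => ‖f y‖ₑ) _).symm
  have h2 : volume (ball (LL x) r) = ENNReal.ofReal (Real.pi * r ^ 2) := by
    rw [← LL_mp.measure_preimage measurableSet_ball.nullMeasurableSet, hpre, Complex.volume_ball,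
      ENNReal.ofReal_mul Real.pi_pos.le, ENNReal.ofReal_pow hr.le, mul_comm]
    congr 1
    exact (ENNReal.ofReal_coe_nnreal (p := NNReal.pi)).symm
  have hf' : Integrable (fun w => f (LL w)) := (LL_mp.integrable_comp_emb LL_emb).2 hf
  have h3 : ∫⁻ w in ball x r, ‖f (LL w)‖ₑ = ENNReal.ofReal (∫ w in ball x r, |f (LL w)|) := by
    rw [← ofReal_integral_norm_eq_lintegral_enorm hf'.integrableOn]
    rfl
  rw [h1, h2, h3, av, ENNReal.ofReal_div_of_pos (by positivity)]

theorem cmf_eq {f : EuclideanSpace ℝ (Fin 2) → ℝ} (hf : Integrable f) {x : ℂ}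
    (hx : BddAbove (av (fun w => |f (LL w)|) x '' Ioi 0)) :
    centredMaximalFunction f (LL x) = ENNReal.ofReal (mx (fun w => |f (LL w)|) (Ioi 0) x) := by
  have h0 : centredMaximalFunction f (LL x) =
      ⨆ (r : ℝ) (_ : 0 < r), ENNReal.ofReal (av (fun w => |f (LL w)|) x r) := by
    unfold centredMaximalFunction
    refine iSup_congr fun r => iSup_congr fun hr => cmf_term hf x hr
  rw [h0]
  set m := ⨆ (r : ℝ) (_ : 0 < r), ENNReal.ofReal (av (fun w => |f (LL w)|) x r) with hm
  have hle : m ≤ ENNReal.ofReal (mx (fun w => |f (LL w)|) (Ioi 0) x) := by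
    refine iSup_le fun r => iSup_le fun hr => ENNReal.ofReal_le_ofReal ?_
    exact le_csSup hx ⟨r, hr, rfl⟩
  refine le_antisymm hle ?_
  have hmt : m ≠ ⊤ := ne_top_of_le_ne_top ENNReal.ofReal_ne_top hle
  rw [← ENNReal.ofReal_toReal hmt]
  refine ENNReal.ofReal_le_ofReal (mx_le _ _ ⟨1, by simp⟩ fun r hr => ?_)
  refine (ENNReal.ofReal_le_iff_le_toReal hmt).1 ?_
  exact le_iSup₂_of_le (f := fun (r : ℝ) (_ : 0 < r) =>
    ENNReal.ofReal (av (fun w => |f (LL w)|) x r)) r hr le_rfl

theorem main_theorem :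
    ∃ C : ℝ, ∀ (f : EuclideanSpace ℝ (Fin 2) → ℝ)
      (g : EuclideanSpace ℝ (Fin 2) → EuclideanSpace ℝ (Fin 2)),
      Integrable f → IsWeakGradient f g → Integrable g →
        (∀ᵐ x ∂(volume : Measure (EuclideanSpace ℝ (Fin 2))), centredMaximalFunction f x < ⊤) ∧
        LocallyIntegrable (fun x => (centredMaximalFunction f x).toReal) ∧
        ∃ G : EuclideanSpace ℝ (Fin 2) → EuclideanSpace ℝ (Fin 2),
          IsWeakGradient (fun x => (centredMaximalFunction f x).toReal) G ∧
          Integrable G ∧ ∫ x, ‖G x‖ ≤ C * ∫ x, ‖g x‖ := by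
  obtain ⟨C, hC, hfin⟩ := final_complex
  refine ⟨2 * C, fun f g hf hw hg => ?_⟩
  have hf' : Integrable (fun w => f (LL w)) := (LL_mp.integrable_comp_emb LL_emb).2 hf
  have hg0 : Integrable (fun w => g (LL w)) := (LL_mp.integrable_comp_emb LL_emb).2 hg
  have hg' : Integrable (fun w => LL.symm (g (LL w))) :=
    (LL.symm.toContinuousLinearEquiv : EuclideanSpace ℝ (Fin 2) →L[ℝ] ℂ).integrable_comp hg0
  have hw' : ∀ φ : ℂ → ℝ, ContDiff ℝ ∞ φ → HasCompactSupport φ → ∀ v : ℂ,
      ∫ x, f (LL x) * fderiv ℝ φ x v = -∫ x, ip (LL.symm (g (LL x))) v * φ x := by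
    intro φ hφ hc v
    have h1 := hw.2.2 (fun w => φ (LL.symm w)) (hφ.comp LL.symm.contDiff)
      (hc.comp_homeomorph LL.symm.toHomeomorph) (LL v)
    rw [← integral_LL, ← integral_LL (fun x => inner ℝ (g x) (LL v) * φ (LL.symm x))] at h1
    simp only [fderiv_comp_LL_symm, LinearIsometryEquiv.symm_apply_apply] at h1
    rw [h1]
    congr 1
    refine integral_congr_ae (Eventually.of_forall fun x => ?_)
    have : ip (LL.symm (g (LL x))) v = inner ℝ (g (LL x)) (LL v) := by
      rw [ip_eq_inner, ← LL.inner_map_map]; simp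
    simp only [this]
  obtain ⟨G0, hH, hG0⟩ := hyp_of_weak hf' hg' hw'
  have hF0 : ∀ x, 0 ≤ (fun w => |f (LL w)|) x := fun x => abs_nonneg _
  set M := mx (fun w => |f (LL w)|) (Ioi 0) with hM
  have hbdd := ae_bddAbove hH
  have hae : ∀ᵐ x, centredMaximalFunction f (LL x) = ENNReal.ofReal (M x) :=
    hbdd.mono fun x hx => cmf_eq hf hx
  have hM0 : ∀ᵐ x, 0 ≤ M x := hbdd.mono fun x hx =>
    (av_nonneg hF0 x 1).trans (le_csSup hx ⟨1, by simp, rfl⟩)
  have hu : ∀ᵐ x, (centredMaximalFunction f (LL x)).toReal = M x := by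
    filter_upwards [hae, hM0] with x h1 h2
    rw [h1, ENNReal.toReal_ofReal h2]
  have hu' : ∀ᵐ y, (centredMaximalFunction f y).toReal = M (LL.symm y) := by
    have := LL_symm_mp.quasiMeasurePreserving.ae hu
    simpa using this
  have hloc : LocallyIntegrable (fun x => (centredMaximalFunction f x).toReal) := by
    have h1 : LocallyIntegrable M := locallyIntegrable_mx hH hF0
    rw [locallyIntegrable_iff] at h1 ⊢
    intro K hK
    have h2 : IntegrableOn (fun y => M (LL.symm y)) K := by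
      have h3 := h1 (LL.symm '' K) (hK.image LL.symm.continuous)
      have h4 := (LL_symm_mp.integrableOn_comp_preimage LL_symm_emb).2 h3
      rwa [preimage_image_eq _ LL.symm.injective] at h4
    exact h2.congr (ae_restrict_of_ae (hu'.mono fun y hy => hy.symm))
  obtain ⟨H, hHi, hH0, hHle, hdom⟩ := hfin _ _ hH hF0
  refine ⟨?_, hloc, ?_⟩
  · have := LL_symm_mp.quasiMeasurePreserving.ae hae
    filter_upwards [this] with y hy
    rw [LinearIsometryEquiv.apply_symm_apply] at hy
    rw [hy]; exact ENNReal.ofReal_lt_top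
  · have hHi' : Integrable (fun y => H (LL.symm y)) :=
      (LL_symm_mp.integrable_comp_emb LL_symm_emb).2 hHi
    obtain ⟨G, hG1, hG2, hG3⟩ := weak_of_dominated
      (fun x => (centredMaximalFunction f x).toReal) (fun y => H (LL.symm y)) hloc hHi'
      (fun y => hH0 _) (by
        intro φ hφ hc v
        have h1 := hdom (fun w => φ (LL w)) ((hφ.of_le (by simp)).comp LL.contDiff)
          (hc.comp_homeomorph LL.toHomeomorph) (LL.symm v)
        rw [← integral_LL, ← integral_LL (fun x => |φ x| * H (LL.symm x))]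
        simp only [fderiv_comp_LL, LinearIsometryEquiv.apply_symm_apply,
          LinearIsometryEquiv.symm_apply_apply, LinearIsometryEquiv.norm_map] at h1 ⊢
        have h2 : ∫ x, (centredMaximalFunction f (LL x)).toReal * fderiv ℝ φ (LL x) v =
            ∫ x, M x * fderiv ℝ φ (LL x) v :=
          integral_congr_ae (hu.mono fun x hx => by simp only [hx])
        rw [h2]
        exact h1)
    refine ⟨G, hG1, hG2, hG3.trans ?_⟩
    have h5 : ∫ y, H (LL.symm y) = ∫ x, H x := by
      rw [← integral_LL]; simp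
    have h6 : ∫ w, ‖G0 w‖ ≤ ∫ y, ‖g y‖ := by
      rw [← integral_LL (fun y => ‖g y‖)]
      refine integral_mono hH.intG.norm hg0.norm fun w => ?_
      simpa using hG0 w
    rw [h5]
    nlinarith [mul_le_mul_of_nonneg_left h6 hC.le]

end Crest.Agent.R112
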