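import Crest.Agent.R112.KL
import Crest.Agent.R112.Basic
import Crest.Agent.R112.KerOsc

set_option autoImplicit false

namespace Crest.Agent.R112

open MeasureTheory Metric Set Filter Topology

/-! # Narrow peaks when the mass on the thin annulus is concentrated (unit scale) -/

/-- the combined kernel of the two paths -/
noncomputable def Yk (x e ζp ζq : ℂ) (r a b : ℝ) (w : ℂ) : ℂ :=
  -(((b / (a + b) : ℝ) : ℂ) * ker x (-e) ζp r a w + ((a / (a + b) : ℝ) : ℂ) * ker x e ζq r b w)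

theorem three_le_of_not_mem_box {x w : ℂ} (hx : x ∈ Reg) (hw : w ∉ box O 4 9) : 3 ≤ ‖w - x‖ := by
  obtain ⟨h1, h2, h3, h4⟩ := hx
  have a1 := Complex.abs_re_le_norm (w - x)
  have a2 := Complex.abs_im_le_norm (w - x)
  rw [Complex.sub_re] at a1
  rw [Complex.sub_im] at a2
  have b1 := abs_le.1 a1
  have b2 := abs_le.1 a2
  by_contra hlt
  push Not at hlt
  apply hw
  simp only [box, O, mem_ofPred_eq, Int.cast_zero, zpow_zero, mul_one, Nat.cast_ofNat]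
  refine ⟨by linarith, by linarith, by linarith, by linarith⟩

theorem norm_comb_le {a b B : ℝ} (ha : 0 < a) (hb : 0 < b) {u v : ℂ} (hu : ‖u‖ ≤ B) (hv : ‖v‖ ≤ B) :
    ‖((b / (a + b) : ℝ) : ℂ) * u + ((a / (a + b) : ℝ) : ℂ) * v‖ ≤ B := by
  have hab : 0 < a + b := by positivity
  have h1 : 0 ≤ b / (a + b) := by positivity
  have h2 : 0 ≤ a / (a + b) := by positivity
  have h3 : b / (a + b) + a / (a + b) = 1 := by field_simp; ring
  refine (norm_add_le _ _).trans ?_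
  rw [norm_mul, norm_mul, Complex.norm_real, Complex.norm_real, Real.norm_of_nonneg h1,
    Real.norm_of_nonneg h2]
  calc b / (a + b) * ‖u‖ + a / (a + b) * ‖v‖ ≤ b / (a + b) * B + a / (a + b) * B := by gcongr
    _ = B := by rw [← add_mul, h3, one_mul]

theorem two_path : ∃ C : ℝ, 0 < C ∧ ∀ (F : ℂ → ℝ) (G : ℂ → ℂ), Hyp F G → ∀ (ε e : ℂ),
    ‖ε‖ = 1 → ‖e‖ = 1 →
    ∀ (Es : ℝ), (∀ i : ℕ, S (nu ε) G O 4 9 i ≤ (65 / 64 : ℝ) ^ i * Es) →
    ∀ x ∈ Reg, ∀ (r a b κ : ℝ) (ζp ζq : ℂ), 1 ≤ r → r ≤ 2 → 0 < a → a ≤ 1 / 4 → 0 < b → b ≤ 1 / 4 →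
      ‖ζp‖ ≤ 2 → ‖ζq‖ ≤ 2 → 0 < κ → κ ≤ 1 → κ ≤ |1 - ‖ζp‖ ^ 2| → κ ≤ |1 - ‖ζq‖ ^ 2| →
      1 ≤ ‖(r : ℂ) + a * ζp‖ → ‖(r : ℂ) + a * ζp‖ ≤ 2 → 1 ≤ ‖(r : ℂ) + b * ζq‖ →
      ‖(r : ℂ) + b * ζq‖ ≤ 2 → ∀ (j : ℕ) (up dn : Cell → ℝ),
      (∀ P ∈ sub O 4 9 j, ∀ w ∈ cell P, ip (Yk x e ζp ζq r a b w) ε ≤ up P ∧
        ip (Yk x e ζp ζq r a b w) (Complex.I * ε) ≤ up P ∧ ‖Yk x e ζp ζq r a b w‖ ≤ dn P) →
      av F x r - max (bb F 0 (x - a * e)) (bb F 0 (x + b * e)) ≤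
        ∑ P ∈ sub O 4 9 j, (up P * pos ε (V G P) + dn P * nu ε (V G P)) +
          C / κ * (4 / 5) ^ j * Es := by
  obtain ⟨CK, hCK, hKL⟩ := kernel_lemma
  obtain ⟨CO, hCO, hosc⟩ := ker_osc
  refine ⟨CK * CO, by positivity, ?_⟩
  intro F G h ε e hε he Es hE x hx r a b κ ζp ζq hr1 hr2 ha ha' hb hb' hζp hζq hκ hκ1 hκp hκq
    hp1 hp2 hq1 hq2 j up dn hud
  have hr0 : 0 < r := by linarith
  have hne : ‖-e‖ = 1 := by rw [norm_neg, he]
  have hTp : a * ‖ζp‖ ≤ r / 2 := by nlinarith [norm_nonneg ζp]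
  have hTq : b * ‖ζq‖ ≤ r / 2 := by nlinarith [norm_nonneg ζq]
  have hab : 0 < a + b := by positivity
  have hw1 : 0 ≤ b / (a + b) := by positivity
  have hw2 : 0 ≤ a / (a + b) := by positivity
  have hw3 : b / (a + b) + a / (a + b) = 1 := by field_simp; ring
  have pp := h.path x (-e) ζp r a hr0 ha.le hTp
  have pq := h.path x e ζq r b hr0 hb.le hTq
  have ip1 := integrable_ip_ker h.intG (x := x) (a := -e) hr0 ha.le hTp
  have ip2 := integrable_ip_ker h.intG (x := x) (a := e) hr0 hb.le hTq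
  have hY : ∫ w, ip (Yk x e ζp ζq r a b w) (G w) =
      -(b / (a + b) * (∫ w, ip (ker x (-e) ζp r a w) (G w)) +
        a / (a + b) * ∫ w, ip (ker x e ζq r b w) (G w)) := by
    rw [← integral_const_mul, ← integral_const_mul, ← integral_add (ip1.const_mul _)
      (ip2.const_mul _), ← integral_neg]
    refine integral_congr_ae (Eventually.of_forall fun w => ?_)
    simp only [Yk, ip_neg_left, ip_add_left, ip_real_mul_left]
  have hbp : av F (x + a * -e) ‖(r : ℂ) + a * ζp‖ ≤ bb F 0 (x - a * e) := by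
    have : x + (a : ℂ) * -e = x - a * e := by ring
    rw [this]
    exact h.av_le_bb 0 _ (by simpa using hp1) (by simpa using hp2)
  have hbq : av F (x + b * e) ‖(r : ℂ) + b * ζq‖ ≤ bb F 0 (x + b * e) :=
    h.av_le_bb 0 _ (by simpa using hq1) (by simpa using hq2)
  have key := hKL G h.intG ε hε Es hE (Yk x e ζp ζq r a b) (CO / κ) (by positivity) ?_ ?_ j up dn hud
  · have m1 := le_max_left (bb F 0 (x - a * e)) (bb F 0 (x + b * e))
    have m2 := le_max_right (bb F 0 (x - a * e)) (bb F 0 (x + b * e))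
    set m := max (bb F 0 (x - a * e)) (bb F 0 (x + b * e))
    rw [hY, ← pp, ← pq] at key
    have e1 : CK * (CO / κ) = CK * CO / κ := by ring
    rw [e1] at key
    refine le_trans ?_ key
    have s1 : b / (a + b) * (av F (x + a * -e) ‖(r : ℂ) + a * ζp‖ - av F x r) ≤
        b / (a + b) * (m - av F x r) := mul_le_mul_of_nonneg_left (by linarith) hw1
    have s2 : a / (a + b) * (av F (x + b * e) ‖(r : ℂ) + b * ζq‖ - av F x r) ≤
        a / (a + b) * (m - av F x r) := mul_le_mul_of_nonneg_left (by linarith) hw2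
    have s3 : b / (a + b) * (m - av F x r) + a / (a + b) * (m - av F x r) = m - av F x r := by
      rw [← add_mul, hw3, one_mul]
    linarith
  · intro w hw
    have h3 := three_le_of_not_mem_box hx hw
    have z1 : ker x (-e) ζp r a w = 0 := ker_eq_zero hr0 ha.le (by rw [hne]; nlinarith)
    have z2 : ker x e ζq r b w = 0 := ker_eq_zero hr0 hb.le (by rw [he]; nlinarith)
    simp [Yk, z1, z2]
  · intro i w w' hww
    have o1 := hosc x (-e) ζp r a κ hr1 hr2 ha.le (by linarith) hTp hne.le hζp hκ hκ1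
      (by rw [hne]; simpa using hκp) i w w' hww
    have o2 := hosc x e ζq r b κ hr1 hr2 hb.le (by linarith) hTq he.le hζq hκ hκ1
      (by rw [he]; simpa using hκq) i w w' hww
    have : Yk x e ζp ζq r a b w - Yk x e ζp ζq r a b w' =
        -(((b / (a + b) : ℝ) : ℂ) * (ker x (-e) ζp r a w - ker x (-e) ζp r a w') +
          ((a / (a + b) : ℝ) : ℂ) * (ker x e ζq r b w - ker x e ζq r b w')) := by
      simp only [Yk]; ring
    rw [this, norm_neg]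
    exact norm_comb_le ha hb o1 o2

theorem sum_classes {s : Finset Cell} {In Far : Cell → Prop} [DecidablePred In] [DecidablePred Far]
    {p n : Cell → ℝ} (hp : ∀ P, 0 ≤ p P) (hn : ∀ P, 0 ≤ n P) {c1 c2 c3 : ℝ} (h1 : 0 ≤ c1)
    (h2 : 0 ≤ c2) (h3 : 0 ≤ c3) :
    ∑ P ∈ s, ((if In P then c1 else if Far P then c3 else 0) * p P +
      (if In P then c1 else if Far P then c3 else c2) * n P) ≤
      c1 * ∑ P ∈ s with In P, (p P + n P) + c3 * ∑ P ∈ s with Far P, (p P + n P) +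
        c2 * ∑ P ∈ s, n P := by
  rw [Finset.sum_filter, Finset.sum_filter, Finset.mul_sum, Finset.mul_sum, Finset.mul_sum,
    ← Finset.sum_add_distrib, ← Finset.sum_add_distrib]
  refine Finset.sum_le_sum fun P _ => ?_
  have a1 := mul_nonneg h1 (hp P)
  have a2 := mul_nonneg h1 (hn P)
  have a3 := mul_nonneg h2 (hn P)
  have a4 := mul_nonneg h3 (hp P)
  have a5 := mul_nonneg h3 (hn P)
  split_ifs <;> nlinarith

/-- the velocity near the concentration point -/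
theorem Zv_near {x a' e θ w : ℂ} {r t s η : ℝ} (he : ‖e‖ = 1) (hθ : ‖θ‖ = 1) {ζ : ℂ}
    (hζ : ζ = (s : ℂ) * e * (starRingEnd ℂ) θ) (hρ : 1 ≤ ‖(r : ℂ) + t * ζ‖)
    (hnum : ‖w - x - t * a' - ((r : ℂ) + t * ζ) * θ‖ ≤ η) :
    ‖Zv x a' ζ r t w - (a' + s * e)‖ ≤ |s| * η := by
  have hρ0 : (r : ℂ) + t * ζ ≠ 0 := by
    intro h0; rw [h0, norm_zero] at hρ; linarith
  have hθθ : (starRingEnd ℂ) θ * θ = 1 := by
    rw [Complex.conj_mul', hθ]; simp
  have hζn : ‖ζ‖ = |s| := by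
    rw [hζ, norm_mul, norm_mul, he, Complex.norm_conj, hθ, Complex.norm_real, Real.norm_eq_abs]
    ring
  have e1 : Zv x a' ζ r t w - (a' + s * e) =
      ζ * (w - x - t * a' - ((r : ℂ) + t * ζ) * θ) / ((r : ℂ) + t * ζ) := by
    have e2 : (s : ℂ) * e = ζ * θ := by
      rw [hζ, mul_assoc ((s : ℂ) * e), hθθ, mul_one]
    rw [e2, Zv]
    generalize (r : ℂ) + t * ζ = ρ at hρ0
    field_simp
    ring
  rw [e1, norm_div, norm_mul, hζn]
  have h0 : 0 ≤ |s| * ‖w - x - t * a' - ((r : ℂ) + t * ζ) * θ‖ := by positivity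
  calc |s| * ‖w - x - t * a' - ((r : ℂ) + t * ζ) * θ‖ / ‖(r : ℂ) + t * ζ‖
      ≤ |s| * ‖w - x - t * a' - ((r : ℂ) + t * ζ) * θ‖ := div_le_self h0 hρ
    _ ≤ |s| * η := by gcongr

theorem radius_bounds {r t δ : ℝ} {ζ : ℂ} (hr : 0 ≤ r) (ht0 : 0 ≤ t) (ht : t ≤ δ) (hζ : ‖ζ‖ ≤ 2) :
    r - 2 * δ ≤ ‖(r : ℂ) + t * ζ‖ ∧ ‖(r : ℂ) + t * ζ‖ ≤ r + 2 * δ := by
  have h1 : ‖(t : ℂ) * ζ‖ ≤ 2 * δ := by
    rw [norm_mul, Complex.norm_real, Real.norm_of_nonneg ht0]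
    nlinarith [norm_nonneg ζ]
  have h2 : ‖(r : ℂ)‖ = r := by rw [Complex.norm_real, Real.norm_of_nonneg hr]
  constructor
  · have := norm_sub_le ((r : ℂ) + t * ζ) (t * ζ)
    rw [add_sub_cancel_right, h2] at this
    linarith
  · have := norm_add_le (r : ℂ) (t * ζ)
    linarith

/-- sign and size of one kernel near the concentration point -/
theorem ker_near {x a' e ε θ c0 w : ℂ} {r T s γ δ : ℝ} (hc : Cone ε e) (hθ : ‖θ‖ = 1)
    (ha' : ‖a'‖ = 1) (hs : |s| ≤ 3 / 2) (has : a' + s * e = ((32 * γ : ℝ) : ℂ) * e)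
    (hγ : 0 < γ) (hδ : 0 < δ) (hδγ : δ ≤ γ / 100) (hγ' : γ ≤ 1 / 64) (hr : 1 + 2 * δ ≤ r)
    (hT0 : 0 ≤ T) (hT : T ≤ δ) (hc0 : ‖c0 - x - r * θ‖ ≤ 4 * δ) (hw : ‖w - c0‖ ≤ 6 * γ + δ) :
    0 ≤ ip (ker x a' ((s : ℂ) * e * (starRingEnd ℂ) θ) r T w) ε ∧
    0 ≤ ip (ker x a' ((s : ℂ) * e * (starRingEnd ℂ) θ) r T w) (Complex.I * ε) ∧
    ‖ker x a' ((s : ℂ) * e * (starRingEnd ℂ) θ) r T w‖ ≤ 88 * γ * δ := by
  obtain ⟨hε, he, c1, c2⟩ := hc
  set ζ := (s : ℂ) * e * (starRingEnd ℂ) θ with hζ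
  have hζn : ‖ζ‖ = |s| := by
    rw [hζ, norm_mul, norm_mul, he, Complex.norm_conj, hθ, Complex.norm_real, Real.norm_eq_abs]
    ring
  have hr0 : 0 < r := by linarith
  have hTζ : T * ‖ζ‖ ≤ r / 2 := by rw [hζn]; nlinarith [abs_nonneg s]
  have hZ : ∀ t : ℝ, 0 ≤ t → t ≤ T → ‖Zv x a' ζ r t w - ((32 * γ : ℝ) : ℂ) * e‖ ≤ 12 * γ := by
    intro t ht0 ht
    have hρ := (radius_bounds hr0.le ht0 (ht.trans hT) (ζ := ζ) (by rw [hζn]; linarith)).1
    have hnum : ‖w - x - t * a' - ((r : ℂ) + t * ζ) * θ‖ ≤ 8 * γ := by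
      have e1 : w - x - t * a' - ((r : ℂ) + t * ζ) * θ =
          (w - c0) + (c0 - x - r * θ) - t * a' - t * ζ * θ := by ring
      have n1 : ‖(t : ℂ) * a'‖ ≤ δ := by
        rw [norm_mul, ha', Complex.norm_real, Real.norm_of_nonneg ht0]; linarith
      have n2 : ‖(t : ℂ) * ζ * θ‖ ≤ 2 * δ := by
        rw [norm_mul, norm_mul, hθ, hζn, Complex.norm_real, Real.norm_of_nonneg ht0]
        nlinarith [abs_nonneg s]
      rw [e1]
      have n3 := norm_sub_le ((w - c0) + (c0 - x - r * θ) - t * a') (t * ζ * θ)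
      have n4 := norm_sub_le ((w - c0) + (c0 - x - r * θ)) (t * a')
      have n5 := norm_add_le (w - c0) (c0 - x - r * θ)
      linarith
    have := Zv_near he hθ hζ (by linarith) hnum
    rw [has] at this
    nlinarith
  have hip : ∀ u : ℂ, ‖u‖ = 1 → 1 / 2 ≤ ip e u → ∀ t : ℝ, 0 ≤ t → t ≤ T →
      0 ≤ ip (Zv x a' ζ r t w) u := by
    intro u hu heu t ht0 ht
    have h1 := hZ t ht0 ht
    have h2 := abs_ip_le (Zv x a' ζ r t w - ((32 * γ : ℝ) : ℂ) * e) u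
    rw [hu, ip_sub_left, ip_real_mul_left] at h2
    have h3 := (abs_le.1 h2).1
    nlinarith
  refine ⟨ip_ker_nonneg hr0 hT0 hTζ fun t ht0 ht _ => hip ε hε c1 t ht0 ht,
    ip_ker_nonneg hr0 hT0 hTζ fun t ht0 ht _ =>
      hip _ (by rw [norm_mul, Complex.norm_I, hε, one_mul]) c2 t ht0 ht, ?_⟩
  have hB := norm_ker_le_of (x := x) (a := a') (w := w) (B := 44 * γ) hr0 hT0 hTζ (by positivity)
    (fun t ht0 ht _ => by
      have h1 := hZ t ht0 ht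
      have h2 : ‖((32 * γ : ℝ) : ℂ) * e‖ = 32 * γ := by
        rw [norm_mul, he, Complex.norm_real, Real.norm_of_nonneg (by positivity), mul_one]
      have h3 := norm_sub_le (Zv x a' ζ r t w - ((32 * γ : ℝ) : ℂ) * e)
        (-(((32 * γ : ℝ) : ℂ) * e))
      rw [norm_neg, sub_neg_eq_add, sub_add_cancel] at h3
      linarith)
  refine hB.trans ?_
  have h1 : 1 ≤ r ^ 2 := by nlinarith
  calc 2 * (44 * γ) * T / r ^ 2 ≤ 2 * (44 * γ) * T := div_le_self (by positivity) h1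
    _ ≤ 88 * γ * δ := by nlinarith

/-- the combined kernel at points well inside the disc -/
theorem Yk_inner : ∃ C : ℝ, 0 < C ∧ ∀ (x e ζp ζq w : ℂ) (r a b δ η : ℝ), ‖e‖ = 1 → 1 ≤ r → r ≤ 2 →
    0 < a → a ≤ δ → 0 < b → b ≤ δ → δ ≤ 1 / 4 → ‖ζp‖ ≤ 2 → ‖ζq‖ ≤ 2 → ‖ζp + ζq‖ ≤ η →
    ‖w - x‖ + 3 * δ < r → ‖Yk x e ζp ζq r a b w‖ ≤ δ * η + C * δ ^ 2 := by
  obtain ⟨C, hC, hint⟩ := ker_interior
  refine ⟨C, hC, ?_⟩
  intro x e ζp ζq w r a b δ η he hr1 hr2 ha ha' hb hb' hδ hζp hζq hη hw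
  have hr0 : 0 < r := by linarith
  have hne : ‖-e‖ = 1 := by rw [norm_neg, he]
  have hTp : a * ‖ζp‖ ≤ r / 2 := by nlinarith [norm_nonneg ζp]
  have hTq : b * ‖ζq‖ ≤ r / 2 := by nlinarith [norm_nonneg ζq]
  have i1 := hint x (-e) ζp r a w hr1 hr2 ha.le hTp hne.le hζp (by linarith)
  have i2 := hint x e ζq r b w hr1 hr2 hb.le hTq he.le hζq (by linarith)
  have i1' := i1.trans (show C * a ^ 2 ≤ C * δ ^ 2 by gcongr)
  have i2' := i2.trans (show C * b ^ 2 ≤ C * δ ^ 2 by gcongr)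
  have hcomb := norm_comb_le ha hb i1' i2'
  have hab : 0 < a + b := by positivity
  have hpi := Real.pi_gt_three
  have hrc : (r : ℂ) ≠ 0 := by exact_mod_cast hr0.ne'
  have habc : ((a : ℂ) + b) ≠ 0 := by exact_mod_cast hab.ne'
  have hpic : (Real.pi : ℂ) ≠ 0 := by exact_mod_cast Real.pi_pos.ne'
  have e1 : Yk x e ζp ζq r a b w =
      -((((b / (a + b) : ℝ) : ℂ) * (ker x (-e) ζp r a w -
          ((a / (Real.pi * r ^ 2) : ℝ) : ℂ) * Zv x (-e) ζp r 0 w) +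
        ((a / (a + b) : ℝ) : ℂ) * (ker x e ζq r b w -
          ((b / (Real.pi * r ^ 2) : ℝ) : ℂ) * Zv x e ζq r 0 w)) +
        ((a * b / (a + b) / (Real.pi * r ^ 3) : ℝ) : ℂ) * ((ζp + ζq) * (w - x))) := by
    simp only [Yk, Zv, Complex.ofReal_zero, zero_mul, add_zero, sub_zero]
    push_cast
    field_simp
    ring
  rw [e1, norm_neg]
  refine (norm_add_le _ _).trans ?_
  have n1 : ‖((a * b / (a + b) / (Real.pi * r ^ 3) : ℝ) : ℂ) * ((ζp + ζq) * (w - x))‖ ≤ δ * η := by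
    rw [norm_mul, norm_mul, Complex.norm_real, Real.norm_of_nonneg (by positivity)]
    have f1 : a * b / (a + b) ≤ δ := by
      rw [div_le_iff₀ hab]; nlinarith
    have f2 : ‖w - x‖ ≤ Real.pi * r ^ 3 := by
      have : r ≤ r ^ 3 := by nlinarith [mul_nonneg (sub_nonneg.2 hr1) hr0.le]
      nlinarith
    have f3 : 0 < Real.pi * r ^ 3 := by positivity
    calc a * b / (a + b) / (Real.pi * r ^ 3) * (‖ζp + ζq‖ * ‖w - x‖)
        ≤ δ / (Real.pi * r ^ 3) * (η * (Real.pi * r ^ 3)) := by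
          have : 0 ≤ η := (norm_nonneg _).trans hη
          have : 0 ≤ δ := by linarith
          gcongr
      _ = δ * η := by field_simp
  linarith

/-- Recipe.  Put `w₁ = b/(a+b)`, `w₂ = a/(a+b)` (so `w₁ a = w₂ b`), `p = x - a e`, `q = x + b e`.
For paths `(−e, ζp, T = a)` and `(e, ζq, T = b)` from `ball x r` whose final radii stay in `[1,2]`,
`av F x r - max (bb p) (bb q) ≤ w₁ (av x r - av p rp) + w₂ (av x r - av q rq) = ∫ ip Y G`,
`Y = -(w₁ ker x (-e) ζp r a + w₂ ker x e ζq r b)` (`Hyp.path`, `Hyp.av_le_bb`, `bb_zero`,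
`integrable_ip_ker`).  Apply `kernel_lemma` at depth `j`.  For `w ∈ cell P`, `‖w - cn P‖ < δ`.
Classes of cells: INNER `‖cn P - x‖ ≤ r - 4δ` (then `‖w - x‖ + 3 T < r`), OUTER
`r + 4δ ≤ ‖cn P - x‖` (`Y = 0`, `ker_eq_zero`), ANNULUS otherwise (`‖Y‖ ≤ 6 δ`).
* Case B (whole annulus has mass `≤ 4 γ E`; also use it when no annulus cell has
  `‖cn P - z0‖ < 3γ`): `ζp = ζq = 0`, `κ = 1`; `Y = 0` on inner cells (`ker_interior_zero`),
  `up = dn = 6 δ` on the annulus.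
* Case A: pick an annulus cell `P0` with `‖cn P0 - z0‖ < 3γ`, `θ = (cn P0 - x)/‖cn P0 - x‖`,
  `κ = 32 γ ≤ 1/2`, `ζq = -(1-κ) e conj θ`, `ζp = (1+κ) e conj θ`; `|1 - ‖ζ‖²| ≥ κ`, radii move by
  `≤ 2δ`.  INNER: by `ker_interior`, `Y = -(w₁ a/(π r²)) (Zp + Zq) + O(δ²)` with
  `Zp + Zq = 2 κ e conj θ (w - x)/r`, so `‖Y‖ ≤ C δ γ =: up = dn`.  NEAR annulus cells
  (`‖cn P - z0‖ < 3γ`): `‖(w - x - t a)/(r + t ζ) - θ‖ ≤ 8γ` (numerator
  `≤ ‖w - cn P0‖ + |‖cn P0 - x‖ - r| + 3δ ≤ 6γ + 8δ`, denominator `≥ 1`), so both velocities are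
  `κ e + O(12 γ)`: `ip ≥ κ/2 - 12γ ≥ 0` with `ε` and `I ε` (`ip_ker_nonneg`, `up = 0`) and norm
  `≤ 44 γ` (`norm_ker_le_of`, `dn = 88 γ δ`).  FAR annulus cells: `up = dn = 6δ`, mass `≤ 4γE`.
The oscillation constant of `Y` is `C/κ` (`ker_osc`), whence the tail `(4/5)^j Es / γ`. -/
theorem narrow_lemma : ∃ C : ℝ, 0 < C ∧ ∀ (F : ℂ → ℝ) (G : ℂ → ℂ), Hyp F G → ∀ (ε e : ℂ), Cone ε e →
    ∀ (Es : ℝ), (∀ i : ℕ, S (nu ε) G O 4 9 i ≤ (65 / 64 : ℝ) ^ i * Es) →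
    ∀ (γ δ E : ℝ) (j : ℕ), 0 < γ → γ ≤ 1 / 64 → 0 < δ → δ ≤ γ / 100 → 2 * (1 / 2 : ℝ) ^ j < δ →
      S (nu ε) G O 4 9 j ≤ E →
    ∀ x ∈ Reg, ∀ (r a b : ℝ), 1 ≤ r → r ≤ 2 → 0 < a → a ≤ δ → 0 < b → b ≤ δ →
      ∑ P ∈ sub O 4 9 j with ‖cn P - x‖ ≤ r - 4 * δ, (pos ε (V G P) + nu ε (V G P)) ≤ 200 * E →
      ((1 + 2 * δ ≤ r ∧ r ≤ 2 - 2 * δ ∧ ∃ z0 : ℂ,
          ∑ P ∈ sub O 4 9 j with (r - 4 * δ < ‖cn P - x‖ ∧ ‖cn P - x‖ < r + 4 * δ ∧
            3 * γ ≤ ‖cn P - z0‖), (pos ε (V G P) + nu ε (V G P)) ≤ 4 * γ * E) ∨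
        ∑ P ∈ sub O 4 9 j with (r - 4 * δ < ‖cn P - x‖ ∧ ‖cn P - x‖ < r + 4 * δ),
          (pos ε (V G P) + nu ε (V G P)) ≤ 4 * γ * E) →
      av F x r - max (bb F 0 (x - a * e)) (bb F 0 (x + b * e)) ≤
        C * (δ * γ * E + (4 / 5) ^ j * Es / γ) := by
  obtain ⟨C2, hC2, htp⟩ := two_path
  obtain ⟨CI, hCI, hinn⟩ := Yk_inner
  refine ⟨200 * (64 + CI) + 24 + 88 + C2, by positivity, ?_⟩
  intro F G h ε e hc Es hE γ δ E j hγ hγ' hδ hδγ hj hSE x hx r a b hr1 hr2 ha ha' hb hb' hin hcase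
  have hε := hc.1
  have he := hc.2.1
  have hne : ‖-e‖ = 1 := by rw [norm_neg, he]
  have hIε : ‖Complex.I * ε‖ = 1 := by rw [norm_mul, Complex.norm_I, hε, one_mul]
  have hr0 : 0 < r := by linarith
  have hE0 : 0 ≤ E := (S_nonneg (nu_nonneg ε) G O 4 9 j).trans hSE
  have hEs : 0 ≤ Es := by simpa using (S_nonneg (nu_nonneg ε) G O 4 9 0).trans (hE 0)
  have hcell : ∀ P ∈ sub O 4 9 j, ∀ w ∈ cell P, ‖w - cn P‖ < δ := by
    intro P hP w hw
    have h1 := norm_sub_cn_le hw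
    have h2 : P.1 = -(j : ℤ) := by simpa [O] using (mem_sub_iff.1 hP).1
    have h3 : (2 : ℝ) ^ P.1 = (1 / 2) ^ j := by
      rw [h2, zpow_neg, zpow_natCast, one_div, inv_pow]
    rw [h3] at h1
    have : (0 : ℝ) < (1 / 2) ^ j := by positivity
    linarith
  -- the common part of both cases
  have core : ∀ (κ : ℝ) (ζp ζq : ℂ) (Far : Cell → Prop) [DecidablePred Far], ‖ζp‖ ≤ 2 → ‖ζq‖ ≤ 2 →
      γ ≤ κ → κ ≤ 1 → κ ≤ |1 - ‖ζp‖ ^ 2| → κ ≤ |1 - ‖ζq‖ ^ 2| →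
      1 ≤ ‖(r : ℂ) + a * ζp‖ → ‖(r : ℂ) + a * ζp‖ ≤ 2 → 1 ≤ ‖(r : ℂ) + b * ζq‖ →
      ‖(r : ℂ) + b * ζq‖ ≤ 2 → ‖ζp + ζq‖ ≤ 64 * γ →
      ∑ P ∈ sub O 4 9 j with Far P, (pos ε (V G P) + nu ε (V G P)) ≤ 4 * γ * E →
      (∀ P ∈ sub O 4 9 j, r - 4 * δ < ‖cn P - x‖ → ‖cn P - x‖ < r + 4 * δ → ¬ Far P →
        ∀ w ∈ cell P, ip (Yk x e ζp ζq r a b w) ε ≤ 0 ∧
          ip (Yk x e ζp ζq r a b w) (Complex.I * ε) ≤ 0 ∧ ‖Yk x e ζp ζq r a b w‖ ≤ 88 * γ * δ) →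
      av F x r - max (bb F 0 (x - a * e)) (bb F 0 (x + b * e)) ≤
        (200 * (64 + CI) + 24 + 88 + C2) * (δ * γ * E + (4 / 5) ^ j * Es / γ) := by
    intro κ ζp ζq Far _ hζp hζq hκ hκ1 hκp hκq hp1 hp2 hq1 hq2 hsum hfar hnear
    have hTp : a * ‖ζp‖ ≤ r / 2 := by nlinarith [norm_nonneg ζp]
    have hTq : b * ‖ζq‖ ≤ r / 2 := by nlinarith [norm_nonneg ζq]
    have hκ0 : 0 < κ := hγ.trans_le hκ
    have key := htp F G h ε e hε he Es hE x hx r a b κ ζp ζq hr1 hr2 ha (by linarith) hb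
      (by linarith) hζp hζq hκ0 hκ1 hκp hκq hp1 hp2 hq1 hq2 j
      (fun P => if ‖cn P - x‖ ≤ r - 4 * δ then (64 + CI) * (δ * γ) else if Far P then 6 * δ else 0)
      (fun P => if ‖cn P - x‖ ≤ r - 4 * δ then (64 + CI) * (δ * γ) else if Far P then 6 * δ
        else 88 * γ * δ) ?_
    · have s1 := sum_classes (s := sub O 4 9 j) (In := fun P => ‖cn P - x‖ ≤ r - 4 * δ)
        (Far := Far) (p := fun P => pos ε (V G P)) (n := fun P => nu ε (V G P))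
        (fun P => pos_nonneg _ _) (fun P => nu_nonneg _ _) (c1 := (64 + CI) * (δ * γ))
        (c2 := 88 * γ * δ) (c3 := 6 * δ) (by positivity) (by positivity) (by positivity)
      have s2 : (64 + CI) * (δ * γ) * ∑ P ∈ sub O 4 9 j with ‖cn P - x‖ ≤ r - 4 * δ,
          (pos ε (V G P) + nu ε (V G P)) ≤ (64 + CI) * (δ * γ) * (200 * E) := by gcongr
      have s3 : 6 * δ * ∑ P ∈ sub O 4 9 j with Far P, (pos ε (V G P) + nu ε (V G P)) ≤
          6 * δ * (4 * γ * E) := by gcongr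
      have s4 : 88 * γ * δ * ∑ P ∈ sub O 4 9 j, nu ε (V G P) ≤ 88 * γ * δ * E :=
        mul_le_mul_of_nonneg_left hSE (by positivity)
      have s5 : C2 / κ * (4 / 5) ^ j * Es ≤ C2 * ((4 / 5) ^ j * Es / γ) := by
        have : C2 / κ ≤ C2 / γ := by gcongr
        calc C2 / κ * (4 / 5) ^ j * Es ≤ C2 / γ * (4 / 5) ^ j * Es := by gcongr
          _ = C2 * ((4 / 5) ^ j * Es / γ) := by ring
      have s6 : 0 ≤ δ * γ * E := by positivity
      have s7 : 0 ≤ (4 / 5) ^ j * Es / γ := by positivity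
      have s8 := mul_nonneg hC2.le s6
      have s9 := mul_nonneg hCI.le s7
      nlinarith
    · intro P hP w hw
      have hwP := hcell P hP w hw
      have hall : ‖Yk x e ζp ζq r a b w‖ ≤ 6 * δ := by
        rw [Yk, norm_neg]
        refine norm_comb_le ha hb ?_ ?_
        · exact (norm_ker_le hr1 ha.le hTp hne.le hζp w).trans (by linarith)
        · exact (norm_ker_le hr1 hb.le hTq he.le hζq w).trans (by linarith)
      have i1 := ip_le (Yk x e ζp ζq r a b w) ε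
      have i2 := ip_le (Yk x e ζp ζq r a b w) (Complex.I * ε)
      rw [hε, mul_one] at i1
      rw [hIε, mul_one] at i2
      have t1 : ‖w - x‖ ≤ ‖w - cn P‖ + ‖cn P - x‖ := norm_sub_le_norm_sub_add_norm_sub _ _ _
      have t2 : ‖cn P - x‖ ≤ ‖cn P - w‖ + ‖w - x‖ := norm_sub_le_norm_sub_add_norm_sub _ _ _
      rw [norm_sub_rev (cn P) w] at t2
      by_cases hI : ‖cn P - x‖ ≤ r - 4 * δ
      · have := hinn x e ζp ζq w r a b δ (64 * γ) he hr1 hr2 ha ha' hb hb' (by linarith) hζp hζq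
          hsum (by linarith)
        have h2 : CI * δ ^ 2 ≤ CI * (δ * γ) := by
          refine mul_le_mul_of_nonneg_left ?_ hCI.le
          nlinarith
        simp only [hI, if_true]
        refine ⟨by nlinarith, by nlinarith, by nlinarith⟩
      · by_cases hF : Far P
        · simp only [hI, hF, if_true, if_false]
          exact ⟨by linarith, by linarith, hall⟩
        · simp only [hI, hF, if_false]
          by_cases hO : ‖cn P - x‖ < r + 4 * δ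
          · exact hnear P hP (not_le.1 hI) hO hF w hw
          · have z1 : ker x (-e) ζp r a w = 0 :=
              ker_eq_zero hr0 ha.le (by rw [hne]; nlinarith)
            have z2 : ker x e ζq r b w = 0 := ker_eq_zero hr0 hb.le (by rw [he]; nlinarith)
            have : Yk x e ζp ζq r a b w = 0 := by simp [Yk, z1, z2]
            rw [this]
            simp only [ip_zero_left, norm_zero, le_refl, true_and]
            positivity
  -- case B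
  have caseB : ∑ P ∈ sub O 4 9 j with (r - 4 * δ < ‖cn P - x‖ ∧ ‖cn P - x‖ < r + 4 * δ),
      (pos ε (V G P) + nu ε (V G P)) ≤ 4 * γ * E →
      av F x r - max (bb F 0 (x - a * e)) (bb F 0 (x + b * e)) ≤
        (200 * (64 + CI) + 24 + 88 + C2) * (δ * γ * E + (4 / 5) ^ j * Es / γ) := by
    intro hB
    have hrn : |r| = r := abs_of_pos hr0
    refine core 1 0 0 (fun P => r - 4 * δ < ‖cn P - x‖ ∧ ‖cn P - x‖ < r + 4 * δ) (by simp)
      (by simp) (by linarith) le_rfl (by simp) (by simp) (by simpa [hrn] using hr1)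
      (by simpa [hrn] using hr2) (by simpa [hrn] using hr1) (by simpa [hrn] using hr2)
      (by simp; positivity) hB ?_
    intro P _ h1 h2 h3
    exact absurd ⟨h1, h2⟩ h3
  rcases hcase with ⟨hA1, hA2, z0, hA⟩ | hB
  swap
  · exact caseB hB
  by_cases hex : ∃ P0 ∈ sub O 4 9 j, r - 4 * δ < ‖cn P0 - x‖ ∧ ‖cn P0 - x‖ < r + 4 * δ ∧
      ‖cn P0 - z0‖ < 3 * γ
  swap
  · refine caseB (le_trans (le_of_eq ?_) hA)
    refine Finset.sum_congr (Finset.filter_congr fun P hP => ?_) fun _ _ => rfl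
    refine ⟨fun h1 => ⟨h1.1, h1.2, ?_⟩, fun h1 => ⟨h1.1, h1.2.1⟩⟩
    by_contra hlt
    exact hex ⟨P, hP, h1.1, h1.2, not_le.1 hlt⟩
  obtain ⟨P0, -, hP1, hP2, hP3⟩ := hex
  have hc0 : 0 < ‖cn P0 - x‖ := by linarith
  set θ : ℂ := (cn P0 - x) / (‖cn P0 - x‖ : ℂ) with hθdef
  have hθ : ‖θ‖ = 1 := by
    rw [hθdef, norm_div, Complex.norm_real, Real.norm_of_nonneg hc0.le, div_self hc0.ne']
  have hθ2 : ‖cn P0 - x - r * θ‖ ≤ 4 * δ := by
    have hcc : (‖cn P0 - x‖ : ℂ) ≠ 0 := by exact_mod_cast hc0.ne'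
    have : cn P0 - x - r * θ = ((‖cn P0 - x‖ - r : ℝ) : ℂ) * θ := by
      rw [hθdef]; push_cast; field_simp
    rw [this, norm_mul, hθ, mul_one, Complex.norm_real, Real.norm_eq_abs, abs_le]
    constructor <;> linarith
  have hnζ : ∀ s : ℝ, ‖(s : ℂ) * e * (starRingEnd ℂ) θ‖ = |s| := fun s => by
    rw [norm_mul, norm_mul, he, Complex.norm_conj, hθ, Complex.norm_real, Real.norm_eq_abs]
    ring
  have hsp : |1 + 32 * γ| = 1 + 32 * γ := abs_of_nonneg (by linarith)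
  have hsq : |-(1 - 32 * γ)| = 1 - 32 * γ := by rw [abs_neg]; exact abs_of_nonneg (by linarith)
  have hζp : ‖((1 + 32 * γ : ℝ) : ℂ) * e * (starRingEnd ℂ) θ‖ ≤ 2 := by rw [hnζ, hsp]; linarith
  have hζq : ‖((-(1 - 32 * γ) : ℝ) : ℂ) * e * (starRingEnd ℂ) θ‖ ≤ 2 := by rw [hnζ, hsq]; linarith
  have rp := radius_bounds hr0.le ha.le ha' hζp
  have rq := radius_bounds hr0.le hb.le hb' hζq
  refine core (32 * γ) (((1 + 32 * γ : ℝ) : ℂ) * e * (starRingEnd ℂ) θ)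
    (((-(1 - 32 * γ) : ℝ) : ℂ) * e * (starRingEnd ℂ) θ)
    (fun P => r - 4 * δ < ‖cn P - x‖ ∧ ‖cn P - x‖ < r + 4 * δ ∧ 3 * γ ≤ ‖cn P - z0‖) hζp hζq
    (by linarith) (by linarith) ?_ ?_ (by linarith [rp.1]) (by linarith [rp.2])
    (by linarith [rq.1]) (by linarith [rq.2]) ?_ hA ?_
  · rw [hnζ, hsp, abs_sub_comm]
    refine le_trans ?_ (le_abs_self _)
    nlinarith
  · rw [hnζ, hsq]
    refine le_trans ?_ (le_abs_self _)
    nlinarith
  · have : ((1 + 32 * γ : ℝ) : ℂ) * e * (starRingEnd ℂ) θ +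
        ((-(1 - 32 * γ) : ℝ) : ℂ) * e * (starRingEnd ℂ) θ =
        ((64 * γ : ℝ) : ℂ) * e * (starRingEnd ℂ) θ := by push_cast; ring
    rw [this, hnζ, abs_of_nonneg (by positivity)]
  · intro P hP h1 h2 h3 w hw
    have hPz : ‖cn P - z0‖ < 3 * γ := by
      by_contra hge
      exact h3 ⟨h1, h2, not_lt.1 hge⟩
    have hw0 : ‖w - cn P0‖ ≤ 6 * γ + δ := by
      have t1 : ‖w - cn P0‖ ≤ ‖w - cn P‖ + ‖cn P - cn P0‖ := norm_sub_le_norm_sub_add_norm_sub _ _ _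
      have t2 : ‖cn P - cn P0‖ ≤ ‖cn P - z0‖ + ‖z0 - cn P0‖ :=
        norm_sub_le_norm_sub_add_norm_sub _ _ _
      rw [norm_sub_rev z0] at t2
      have := hcell P hP w hw
      linarith
    obtain ⟨p1, p2, p3⟩ := ker_near (x := x) (a' := -e) (w := w) (s := 1 + 32 * γ) (T := a) hc hθ hne
      (by rw [hsp]; linarith) (by push_cast; ring) hγ hδ hδγ hγ' hA1 ha.le ha' hθ2 hw0
    obtain ⟨q1, q2, q3⟩ := ker_near (x := x) (a' := e) (w := w) (s := -(1 - 32 * γ)) (T := b) hc hθ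
      he (by rw [hsq]; linarith) (by push_cast; ring) hγ hδ hδγ hγ' hA1 hb.le hb' hθ2 hw0
    have hab : 0 < a + b := by positivity
    have hw1 : 0 ≤ b / (a + b) := by positivity
    have hw2 : 0 ≤ a / (a + b) := by positivity
    refine ⟨?_, ?_, ?_⟩
    · simp only [Yk, ip_neg_left, ip_add_left, ip_real_mul_left]
      have := mul_nonneg hw1 p1
      have := mul_nonneg hw2 q1
      linarith
    · simp only [Yk, ip_neg_left, ip_add_left, ip_real_mul_left]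
      have := mul_nonneg hw1 p2
      have := mul_nonneg hw2 q2
      linarith
    · rw [Yk, norm_neg]
      exact norm_comb_le ha hb p3 q3

end Crest.Agent.R112
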