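import Crest.Agent.R112.Ceil

set_option autoImplicit false

namespace Crest.Agent.R112

open MeasureTheory Metric Set Filter Topology

/-! # Packing: choice of the maximal ancestors -/

/-- qualifying cells -/
def Qual (G : ℂ → ℂ) (n0 : ℤ) (d : ℂ → ℝ) (Q : Cell) : Prop :=
  ∃ T, Sel G n0 d T ∧ Q.1 ≤ T.1 + 2 ∧ ∃ y ∈ cell Q, 0 < tent T y

/-- maximal qualifying cells -/
def MaxQ (G : ℂ → ℂ) (n0 : ℤ) (d : ℂ → ℝ) (Q : Cell) : Prop :=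
  Qual G n0 d Q ∧ ∀ R, cell Q ⊆ cell R → Qual G n0 d R → R.1 ≤ Q.1

theorem zpow_lt_iff {a b : ℤ} : (2 : ℝ) ^ a < 2 ^ b ↔ a < b :=
  zpow_lt_zpow_iff_right₀ (by norm_num)

theorem zpow_le_iff {a b : ℤ} : (2 : ℝ) ^ a ≤ 2 ^ b ↔ a ≤ b :=
  zpow_le_zpow_iff_right₀ (by norm_num)

theorem two_zpow_succ (a : ℤ) : (2 : ℝ) ^ (a + 1) = 2 * 2 ^ a := by
  rw [zpow_add_one₀ (by norm_num)]; ring

theorem two_zpow_add_nat (a : ℤ) (i : ℕ) : (2 : ℝ) ^ (a + i) = 2 ^ i * 2 ^ a := by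
  rw [zpow_add₀ (by norm_num), zpow_natCast]; ring

theorem exists_maxQ {G : ℂ → ℂ} {n0 n1 : ℤ} {d : ℂ → ℝ} (hd : Ceil n1 d) {P : Cell}
    (hP : Qual G n0 d P) : ∃ Q, cell P ⊆ cell Q ∧ MaxQ G n0 d Q := by
  obtain ⟨m, ⟨Q, hQ1, hQ2, hQ3⟩, hm⟩ := Int.exists_greatest_of_bdd
    (P := fun m => ∃ R : Cell, R.1 = m ∧ cell P ⊆ cell R ∧ Qual G n0 d R)
    ⟨n1, by
      rintro z ⟨R, rfl, -, T, ⟨W, hW, hE, -⟩, h1, -⟩
      have := Top.level_le hd hW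
      have := hE.2.1
      omega⟩ ⟨P.1, P, rfl, subset_rfl, hP⟩
  refine ⟨Q, hQ2, hQ3, fun R hR hRq => ?_⟩
  rw [hQ1]
  exact hm _ ⟨R, rfl, hQ2.trans hR, hRq⟩

theorem maxQ_disjoint {G : ℂ → ℂ} {n0 : ℤ} {d : ℂ → ℝ} {Q Q' : Cell} (hQ : MaxQ G n0 d Q)
    (hQ' : MaxQ G n0 d Q') (hne : Q ≠ Q') : Disjoint (cell Q) (cell Q') := by
  rw [Set.disjoint_left]
  intro x hx hx'
  rcases le_total Q.1 Q'.1 with h | h
  · have hs := cell_subset_of_mem h hx hx'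
    exact hne (eq_of_subset hs (le_antisymm h (hQ.2 Q' hs hQ'.1)))
  · have hs := cell_subset_of_mem h hx' hx
    exact hne (eq_of_subset hs (le_antisymm h (hQ'.2 Q hs hQ.1))).symm

theorem maxQ_no_parent {G : ℂ → ℂ} {n0 : ℤ} {d : ℂ → ℝ} {Q T : Cell} (hQ : MaxQ G n0 d Q)
    (hT : Sel G n0 d T) {y : ℂ} (hy : y ∈ cell Q) (hyT : 0 < tent T y) : T.1 + 2 ≤ Q.1 := by
  by_contra hlt
  have hs : cell Q ⊆ cell (cellOf (Q.1 + 1) y) :=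
    cell_subset_of_mem (by simp [cellOf]) hy (mem_cell_cellOf _ _)
  have := hQ.2 _ hs ⟨T, hT, by simp only [cellOf]; omega, y, hs hy, hyT⟩
  simp only [cellOf] at this
  omega

theorem maxQ_spec {G : ℂ → ℂ} {n0 n1 : ℤ} {d : ℂ → ℝ} (hd : Ceil n1 d) {Q : Cell}
    (hQ : MaxQ G n0 d Q) : ∃ T W : Cell, Q.1 = T.1 + 2 ∧
      (∀ w ∈ cell Q, ‖w - cn T‖ ≤ 70 * 2 ^ T.1) ∧ Top d W ∧ Elig n0 W T ∧ Bad G W T ∧
      Lay d (next G n0 d) T := by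
  obtain ⟨T, hT, h1, y, hy, hyT⟩ := hQ.1
  have h2 := maxQ_no_parent hQ hT hy hyT
  have hlev : Q.1 = T.1 + 2 := le_antisymm h1 h2
  obtain ⟨W, hW, hE, hB⟩ := hT
  have hyn := norm_lt_of_tent_pos hyT
  have hpos : (0 : ℝ) < 2 ^ T.1 := by positivity
  refine ⟨T, W, hlev, fun w hw => ?_, hW, hE, hB, ⟨cn T, cn_mem_cell T, ?_⟩,
    cn T, cn_mem_cell T, ?_⟩
  · have a1 := norm_sub_le_of_mem_cell hw hy
    have a2 : (2 : ℝ) ^ Q.1 = 4 * 2 ^ T.1 := by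
      rw [hlev]; have := two_zpow_add_nat T.1 2; push_cast at this; rw [this]; norm_num
    have a3 : ‖w - cn T‖ ≤ ‖w - y‖ + ‖y - cn T‖ := norm_sub_le_norm_sub_add_norm_sub _ _ _
    rw [a2] at a1
    linarith
  · by_contra hlt
    obtain ⟨T', hT', h3⟩ := exists_tent_of_lt_next hd (by positivity) (not_le.1 hlt)
    have a1 := tent_le T' (cn T)
    have a2 := tent_lip T' (cn T) y
    rw [norm_sub_rev] at a2
    have a3 := maxQ_no_parent hQ hT' hy (by linarith)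
    have a4 : (2 : ℝ) ^ (T.1 + 1) < 2 ^ T'.1 := by rw [two_zpow_succ]; linarith
    have := zpow_lt_iff.1 a4
    omega
  · have a1 := (top_ball hd hW (x := cn T) (by
      have := hE.2.2
      have : (0 : ℝ) < 2 ^ W.1 := by positivity
      linarith)).1
    have a2 : (2 : ℝ) ^ T.1 ≤ 2 ^ W.1 := zpow_le_iff.2 (by have := hE.2.1; omega)
    linarith

/-- Recipe.  `d' = next G n0 d`.  Say a cell `Q` QUALIFIES if
`∃ T, Sel G n0 d T ∧ Q.1 ≤ T.1 + 2 ∧ ∃ y ∈ cell Q, 0 < tent T y`.  A cell `P` as in the hypothesis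
qualifies (`exists_tent_of_lt_next` with `s = 2^P.1/4` gives `P.1 ≤ T.1 + 2`), and qualifying cells
have level `≤ n1`.  `q0 P` is the ancestor `cellOf m (cn P)`, `m ≥ P.1`, of largest level that
qualifies (`Int.exists_greatest_of_bdd`); `t0 Q`, `w0 Q` are chosen witnesses for a qualifying `Q`.
Maximality gives `Q.1 = T.1 + 2` (otherwise the parent qualifies); two different `q0` are disjoint
(`cell_subset_of_mem`: otherwise nested, and the larger one is a qualifying ancestor of both);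
`d' (cn T) ≤ 4 * 2^T.1` (otherwise some tent `T'` has `tent T' (cn T) > 4 * 2^T.1`, so
`T'.1 ≥ T.1 + 2` and `tent T' y > 0` by `tent_lip`, `norm_lt_of_tent_pos`: the parent qualifies);
`d (cn T) ≥ 2^W.1 / 2` (`top_ball`). -/
theorem pack_select {G : ℂ → ℂ} {n0 n1 : ℤ} {d : ℂ → ℝ} (hd : Ceil n1 d) :
    ∃ q0 t0 w0 : Cell → Cell,
      (∀ P, (∃ y ∈ cell P, (2 : ℝ) ^ P.1 / 2 ≤ next G n0 d y) →
        cell P ⊆ cell (q0 P) ∧ (q0 P).1 = (t0 (q0 P)).1 + 2 ∧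
        (∀ w ∈ cell (q0 P), ‖w - cn (t0 (q0 P))‖ ≤ 70 * 2 ^ (t0 (q0 P)).1) ∧
        Top d (w0 (q0 P)) ∧ Elig n0 (w0 (q0 P)) (t0 (q0 P)) ∧ Bad G (w0 (q0 P)) (t0 (q0 P)) ∧
        Lay d (next G n0 d) (t0 (q0 P))) ∧
      ∀ P P', (∃ y ∈ cell P, (2 : ℝ) ^ P.1 / 2 ≤ next G n0 d y) →
        (∃ y ∈ cell P', (2 : ℝ) ^ P'.1 / 2 ≤ next G n0 d y) → q0 P ≠ q0 P' →
        Disjoint (cell (q0 P)) (cell (q0 P')) := by
  have hq : ∀ P : Cell, (∃ y ∈ cell P, (2 : ℝ) ^ P.1 / 2 ≤ next G n0 d y) →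
      ∃ Q, cell P ⊆ cell Q ∧ MaxQ G n0 d Q := by
    rintro P ⟨y, hy, h1⟩
    have hpos : (0 : ℝ) < 2 ^ P.1 := by positivity
    obtain ⟨T, hT, h2⟩ := exists_tent_of_lt_next hd (s := 2 ^ P.1 / 4) (x := y) (G := G) (n0 := n0)
      (by positivity) (by linarith)
    refine exists_maxQ hd ⟨T, hT, ?_, y, hy, by linarith⟩
    have a1 := tent_le T y
    have a2 : (2 : ℝ) ^ P.1 < 2 ^ (T.1 + (3 : ℕ)) := by
      rw [two_zpow_add_nat]; norm_num; linarith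
    have := zpow_lt_iff.1 a2
    push_cast at this
    omega
  choose! q0 hq0 using hq
  choose! t0 w0 htw using fun Q (hQ : MaxQ G n0 d Q) => maxQ_spec hd hQ
  exact ⟨q0, t0, w0, fun P hP => ⟨(hq0 P hP).1, htw _ (hq0 P hP).2⟩,
    fun P P' hP hP' hne => maxQ_disjoint (hq0 P hP).2 (hq0 P' hP').2 hne⟩

end Crest.Agent.R112
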