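import Crest.Agent.R112.Defs

set_option autoImplicit false

namespace Crest.Agent.R112

open MeasureTheory Metric Set Filter Topology

/-! # Rarity, part (2): radii near the endpoints -/

theorem rb_union {α ι : Type*} [MeasurableSpace α] {μ : Measure α} (t : Finset ι) (f : ι → Set α)
    {a N : ℝ} (ha : 0 ≤ a) (h : ∀ i ∈ t, μ (f i) ≤ ENNReal.ofReal a) (hN : (t.card : ℝ) ≤ N) :
    μ (⋃ i ∈ t, f i) ≤ ENNReal.ofReal (N * a) := by
  refine (measure_biUnion_finset_le _ _).trans ((Finset.sum_le_card_nsmul _ _ _ h).trans ?_)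
  rw [nsmul_eq_mul, ← ENNReal.ofReal_natCast, ← ENNReal.ofReal_mul (Nat.cast_nonneg _)]
  exact ENNReal.ofReal_le_ofReal (mul_le_mul_of_nonneg_right hN ha)

/-- a bounded function that increases by `η` over every distance `d` lives on a short set -/
theorem rb_label {S : Set ℝ} {f : ℝ → ℝ} {B η d : ℝ} (hη : 0 < η) (hd : 0 ≤ d) (hB : 0 ≤ B)
    (h0 : ∀ t ∈ S, 0 ≤ f t ∧ f t ≤ B) (h : ∀ t ∈ S, ∀ t' ∈ S, d ≤ t' - t → f t + η < f t') :
    volume S ≤ ENNReal.ofReal ((B / η + 1) * d) := by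
  have hS : S ⊆ ⋃ k ∈ Finset.range (⌊B / η⌋₊ + 1), {t ∈ S | ⌊f t / η⌋₊ = k} := fun t ht =>
    mem_biUnion (Finset.mem_coe.2 (Finset.mem_range.2 (Nat.lt_succ_of_le (Nat.floor_mono
      (div_le_div_of_nonneg_right (h0 t ht).2 hη.le))))) ⟨ht, rfl⟩
  refine (measure_mono hS).trans (rb_union _ _ hd (fun k _ => ?_) ?_)
  · have key : ∀ a ∈ {t ∈ S | ⌊f t / η⌋₊ = k}, ∀ b ∈ {t ∈ S | ⌊f t / η⌋₊ = k}, b - a < d := by
      intro a ha b hb
      by_contra hle
      have h1 := h a ha.1 b hb.1 (not_lt.1 hle)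
      have h2 := Nat.floor_le (div_nonneg (h0 a ha.1).1 hη.le)
      have h3 := Nat.lt_floor_add_one (f b / η)
      rw [ha.2, le_div_iff₀ hη] at h2
      rw [hb.2, div_lt_iff₀ hη] at h3
      linarith
    refine (Real.volume_le_diam _).trans (Metric.ediam_le fun a ha b hb => ?_)
    rw [edist_dist, Real.dist_eq]
    exact ENNReal.ofReal_le_ofReal
      (abs_le.2 ⟨by linarith [key a ha b hb], by linarith [key b hb a ha]⟩)
  · rw [Finset.card_range]
    push_cast
    linarith [Nat.floor_le (div_nonneg hB hη.le)]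

/-- light centres whose annulus carries mass in the right sector -/
def rbBad {ι : Type} (s : Finset ι) (c : ι → ℂ) (σ : ι → ℝ) (γ δ E r : ℝ) : Set ℂ :=
  {x | |x.re| ≤ 2 ∧ |x.im| ≤ 2 ∧ ∑ i ∈ s with ‖c i - x‖ ≤ r - 6 * δ, σ i ≤ 200 * E ∧
    γ * E < ∑ i ∈ s with (r - 6 * δ < ‖c i - x‖ ∧ ‖c i - x‖ < r + 6 * δ ∧
      3 / 5 ≤ (c i - x).re), σ i}

theorem rb_meas {ι : Type} (s : Finset ι) (c : ι → ℂ) (σ : ι → ℝ) (γ δ E r : ℝ) :
    MeasurableSet (rbBad s c σ γ δ E r) := by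
  unfold rbBad
  simp only [Finset.sum_filter]
  have hn : ∀ i, Measurable fun x => ‖c i - x‖ := fun i => by fun_prop
  have h1 : Measurable fun x : ℂ => ∑ i ∈ s, if ‖c i - x‖ ≤ r - 6 * δ then σ i else 0 :=
    Finset.measurable_sum _ fun i _ => Measurable.ite (measurableSet_le (hn i) measurable_const)
      measurable_const measurable_const
  have h2 : Measurable fun x : ℂ => ∑ i ∈ s, if r - 6 * δ < ‖c i - x‖ ∧ ‖c i - x‖ < r + 6 * δ ∧
      3 / 5 ≤ (c i - x).re then σ i else 0 :=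
    Finset.measurable_sum _ fun i _ => Measurable.ite
      ((measurableSet_lt measurable_const (hn i)).inter
        ((measurableSet_lt (hn i) measurable_const).inter
          (measurableSet_le measurable_const
            (show Measurable fun x : ℂ => (c i - x).re by fun_prop))))
      measurable_const measurable_const
  exact (measurableSet_le Complex.measurable_re.abs measurable_const).inter
    ((measurableSet_le Complex.measurable_im.abs measurable_const).inter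
      ((measurableSet_le h1 measurable_const).inter (measurableSet_lt measurable_const h2)))

theorem rb_geom {c : ℂ} {t t' y m r δ : ℝ} (hδ : 0 < δ) (hδ1 : δ ≤ 1 / 1000) (hr1 : 1 ≤ r)
    (hr2 : r ≤ 2) (ht' : t' < m + 1 / 10) (hd : 100 * δ ≤ t' - t) (hc : m + 1 / 2 ≤ c.re)
    (hin : ‖c - ⟨t, y⟩‖ < r + 6 * δ) : ‖c - ⟨t', y⟩‖ ≤ r - 6 * δ := by
  refine (abs_le_of_sq_le_sq' ?_ (by linarith)).2
  have h1 : ‖c - ⟨t, y⟩‖ ^ 2 ≤ (r + 6 * δ) ^ 2 := pow_le_pow_left₀ (norm_nonneg _) hin.le 2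
  rw [Complex.sq_norm, Complex.normSq_apply] at h1 ⊢
  simp only [Complex.sub_re, Complex.sub_im] at h1 ⊢
  have h2 : 100 * δ * (4 / 5) ≤ (t' - t) * (2 * c.re - t - t') :=
    mul_le_mul hd (by linarith) (by norm_num) (by linarith)
  nlinarith [mul_le_mul_of_nonneg_right hr2 hδ.le]

theorem rb_section {ι : Type} (s : Finset ι) (c : ι → ℂ) {σ : ι → ℝ} (hσ : ∀ i, 0 ≤ σ i)
    {γ δ E r : ℝ} (hγ : 0 < γ) (hδ : 0 < δ) (hδ1 : δ ≤ 1 / 1000) (hE : 0 < E) (hr1 : 1 ≤ r)
    (hr2 : r ≤ 2) (y : ℝ) : volume {t : ℝ | (⟨t, y⟩ : ℂ) ∈ rbBad s c σ γ δ E r} ≤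
      ENNReal.ofReal (41 * ((200 / γ + 1) * (100 * δ))) := by
  classical
  set S := {t : ℝ | (⟨t, y⟩ : ℂ) ∈ rbBad s c σ γ δ E r} with hS
  have hc : S ⊆ ⋃ k ∈ Finset.range 41,
      S ∩ Ico ((k : ℝ) / 10 - 2) ((k : ℝ) / 10 - 2 + 1 / 10) := by
    intro t ht
    have h1 : -2 ≤ t ∧ t ≤ 2 := abs_le.1 ht.1
    have h2 := Nat.floor_le (show 0 ≤ 10 * (t + 2) by linarith)
    have h3 := Nat.lt_floor_add_one (10 * (t + 2))
    refine mem_biUnion (x := ⌊10 * (t + 2)⌋₊) (Finset.mem_coe.2 (Finset.mem_range.2 ?_))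
      ⟨ht, by linarith, by linarith⟩
    exact (Nat.floor_lt (by linarith)).2 (by push_cast; linarith)
  refine (measure_mono hc).trans (rb_union _ _ (by positivity) (fun k _ => ?_) (by simp))
  set m : ℝ := (k : ℝ) / 10 - 2
  have e : 200 / γ = 200 * E / (γ * E) := by field_simp
  rw [e]
  refine rb_label (f := fun t => ∑ i ∈ s with
    (‖c i - ⟨t, y⟩‖ ≤ r - 6 * δ ∧ m + 1 / 2 ≤ (c i).re), σ i) (by positivity) (by positivity)
    (by positivity) (fun t ht => ⟨Finset.sum_nonneg fun i _ => hσ i, ?_⟩)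
    fun t ht t' ht' hd => ?_
  · exact le_trans (Finset.sum_le_sum_of_subset_of_nonneg
      (Finset.monotone_filter_right _ fun i _ hi => hi.1) fun i _ _ => hσ i) ht.1.2.2.1
  · refine lt_of_lt_of_le (add_lt_add_right ht.1.2.2.2 _) ?_
    simp only [Finset.sum_filter]
    rw [← Finset.sum_add_distrib]
    refine Finset.sum_le_sum fun i _ => ?_
    have h0 := hσ i
    have g := fun h1 h2 => rb_geom (c := c i) (t := t) (y := y) hδ hδ1 hr1 hr2 ht'.2.2 hd h1 h2
    by_cases h1 : ‖c i - ⟨t, y⟩‖ ≤ r - 6 * δ ∧ m + 1 / 2 ≤ (c i).re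
    · rw [if_pos h1, if_neg (fun h => absurd h.1 (not_lt.2 h1.1)),
        if_pos ⟨g h1.2 (by linarith [h1.1]), h1.2⟩, add_zero]
    · rw [if_neg h1, zero_add]
      by_cases h2 : r - 6 * δ < ‖c i - ⟨t, y⟩‖ ∧ ‖c i - ⟨t, y⟩‖ < r + 6 * δ ∧
          3 / 5 ≤ (c i - ⟨t, y⟩).re
      · have h3 : m + 1 / 2 ≤ (c i).re := by
          have := h2.2.2
          rw [Complex.sub_re] at this
          linarith [ht.2.1]
        rw [if_pos h2, if_pos ⟨g h3 h2.2.1, h3⟩]
      · rw [if_neg h2]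
        split_ifs
        exacts [h0, le_rfl]

theorem rb_vol {ι : Type} (s : Finset ι) (c : ι → ℂ) {σ : ι → ℝ} (hσ : ∀ i, 0 ≤ σ i)
    {γ δ E r : ℝ} (hγ : 0 < γ) (hδ : 0 < δ) (hδ1 : δ ≤ 1 / 1000) (hE : 0 < E) (hr1 : 1 ≤ r)
    (hr2 : r ≤ 2) : volume (rbBad s c σ γ δ E r) ≤
      ENNReal.ofReal (4 * (41 * ((200 / γ + 1) * (100 * δ)))) := by
  have hm := rb_meas s c σ γ δ E r
  rw [← (Complex.volume_preserving_equiv_real_prod.symm _).measure_preimage hm.nullMeasurableSet,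
    Measure.volume_eq_prod,
    Measure.prod_apply_symm (hm.preimage Complex.measurableEquivRealProd.symm.measurable)]
  set K := 41 * ((200 / γ + 1) * (100 * δ)) with hK
  calc _ ≤ ∫⁻ y : ℝ, (Icc (-2 : ℝ) 2).indicator (fun _ => ENNReal.ofReal K) y := by
        refine lintegral_mono fun y => ?_
        by_cases hy : y ∈ Icc (-2 : ℝ) 2
        · rw [indicator_of_mem hy]
          exact rb_section s c hσ hγ hδ hδ1 hE hr1 hr2 y
        · rw [indicator_of_notMem hy, nonpos_iff_eq_zero]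
          convert measure_empty (μ := (volume : Measure ℝ))
          exact eq_empty_of_forall_notMem fun t ht => hy (abs_le.1 ht.2.1)
    _ = ENNReal.ofReal (4 * K) := by
        rw [lintegral_indicator_const measurableSet_Icc, Real.volume_Icc,
          ← ENNReal.ofReal_mul (by positivity)]
        congr 1
        ring

theorem rb_rot {u : ℂ} (hu : ‖u‖ = 1) : MeasurePreserving (fun x : ℂ => u * x) volume volume :=
  (rotation ⟨u, mem_sphere_zero_iff_norm.2 hu⟩).measurePreserving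

theorem rb_dir {z : ℂ} (hz : 9 / 10 ≤ ‖z‖) :
    ∃ u ∈ ({1, -1, Complex.I, -Complex.I} : Finset ℂ), 3 / 5 ≤ (u * z).re := by
  by_contra h
  push Not at h
  have h1 := h 1 (by simp)
  have h2 := h (-1) (by simp)
  have h3 := h Complex.I (by simp)
  have h4 := h (-Complex.I) (by simp)
  simp only [one_mul, neg_mul, Complex.neg_re, Complex.I_mul_re, neg_neg] at h1 h2 h3 h4
  have h5 : (9 / 10 : ℝ) ^ 2 ≤ ‖z‖ ^ 2 := pow_le_pow_left₀ (by norm_num) hz 2
  rw [Complex.sq_norm, Complex.normSq_apply] at h5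
  nlinarith

/-- THIS FILE: part (2) only.  Recipe (pure plane geometry + counting; no `G`).
Call `(x, r)` (`x ∈ Reg`, `1 ≤ r ≤ 2`) LIGHT if the inner mass (`‖c i - x‖ ≤ r - 4δ`) is `≤ 200 E`.
Bad centres are covered by finitely many sets, each handled on the lines parallel to an axis
(symmetry `re ↔ im` and `re ↔ -re`: it is worth proving ONE lemma on `ℝ × ℝ` or for a general
unit direction `u ∈ {1, -1, I, -I}` with the coordinate `ip u`).
To get measurability work with `δ`-thickenings: `X = ⋃ ball x' δ` over bad `x'` is open; a point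
`x` of it inherits from `x'` a radius `r` with mass of `{‖c - x‖ ≤ r - 5δ}` `≤ 200 E` and the
masses named below inside the annulus `r - 5δ < ‖c - x‖ < r + 5δ`.
POWER: `π_k(c) = ‖c - x_k‖² - r_k²`; for two centres on one horizontal line, `x_k = t_k + I y`,
`π_i(c) - π_k(c) = 2 (t_k - t_i) (re c - m') + (ψ_i - ψ_k)`, `ψ = t² - 2 t m' - r²`.
`‖c - x_i‖ < r_i + 5δ` gives `π_i ≤ 21 δ`, and `π_k ≤ -20 δ` gives `‖c - x_k‖ ≤ r_k - 5δ`.
(1) SPREAD: if for every `z0` the annulus mass outside `ball z0 (3γ)` is `> 4γE`, then for one of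
the two axes there is a grid point `m ∈ γ ℤ ∩ [-4, 5]` with annulus mass `> γE` in `re c < m` and
`> γE` in `m + γ ≤ re c` (take the largest grid `s₁` with left mass `≤ γE`, the smallest `s₂` with
right mass `≤ γE`; if `s₂ - s₁ ≤ 2γ` for both axes the mass outside a `2γ`-square is `≤ 4γE`;
otherwise `m = s₁ + γ`).  Fix the axis, `m`, the line; `m' = m + γ/2`; `α, β ∈ [0, 200E]` the inner
masses left of `m`, right of `m + γ`.  If `t_k - t_i ≥ 41 δ/γ`: either `ψ_i ≥ ψ_k`, then every point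
right of `m + γ` that is inner or annular for `i` is inner for `k`, `β_k > β_i + γE`; or
`ψ_i < ψ_k` and `α_i > α_k + γE`.  So the labels `(⌊α/(γE)⌋, ⌊β/(γE)⌋)` of `41δ/γ`-separated points
differ: the points of the line with one given label lie in an interval of length `≤ 82 δ/γ`
(no maximal separated set is needed), the line section has measure `≤ (200/γ + 1)² 82 δ/γ`.
(2) ENDPOINT: `|r - r0| < 2δ`, `r0 ∈ {1, 2}`, annulus mass `> 4γE`: one of the four sectors
`±re (c - x) ≥ 0.6`, `±im (c - x) ≥ 0.6` carries `> γE`.  For `+re`: cut the line in windows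
`t ∈ [m, m + 1/10)`, `β =` inner mass in `re c ≥ m + 1/2`; for `t_k - t_i ≥ 100 δ` in one window
`β_k > β_i + γE`.  Measure of the line section `≤ C δ/γ`.
Fubini: `Complex.volume_preserving_equiv_real_prod`, `Measure.prod_apply` / `prod_apply_symm`;
the other coordinate ranges in `[-2, 3]`. -/
theorem rarity_end : ∃ C : ℝ, 0 < C ∧ ∀ (ι : Type) (s : Finset ι) (c : ι → ℂ) (σ : ι → ℝ),
    (∀ i, 0 ≤ σ i) → ∀ (γ δ E : ℝ), 0 < γ → γ ≤ 1 / 64 → 0 < δ → δ ≤ γ / 100 → 0 < E →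
    ∃ X : Set ℂ, MeasurableSet X ∧ volume X ≤ ENNReal.ofReal (C * δ / γ ^ 4) ∧
      ∀ x ∈ Reg, x ∉ X → ∀ r : ℝ, 1 ≤ r → r ≤ 2 →
        ∑ i ∈ s with ‖c i - x‖ ≤ r - 4 * δ, σ i ≤ 200 * E →
        (r < 1 + 2 * δ ∨ 2 - 2 * δ < r) →
          ∑ i ∈ s with (r - 4 * δ < ‖c i - x‖ ∧ ‖c i - x‖ < r + 4 * δ), σ i ≤ 4 * γ * E := by
  refine ⟨8 * (4 * (41 * (201 * 100))), by norm_num,
    fun ι s c σ hσ γ δ E hγ hγ' hδ hδ' hE => ?_⟩
  have hδ1 : δ ≤ 1 / 1000 := by linarith
  let U : Finset ℂ := {1, -1, Complex.I, -Complex.I}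
  have hU : ∀ u ∈ U, ‖u‖ = 1 := by simp [U]
  let Y : ℝ → ℂ → Set ℂ := fun r u => (fun x => u * x) ⁻¹' rbBad s (fun i => u * c i) σ γ δ E r
  have hYm : ∀ r u, MeasurableSet (Y r u) := fun r u =>
    (rb_meas s _ σ γ δ E r).preimage (by fun_prop)
  have hYv : ∀ r, 1 ≤ r → r ≤ 2 → volume (⋃ u ∈ U, Y r u) ≤
      ENNReal.ofReal (4 * (4 * (41 * ((200 / γ + 1) * (100 * δ))))) := by
    intro r h1 h2
    refine rb_union U _ (by positivity) (fun u hu => ?_) (by exact_mod_cast Finset.card_le_four)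
    rw [(rb_rot (hU u hu)).measure_preimage (rb_meas s _ σ γ δ E r).nullMeasurableSet]
    exact rb_vol s _ hσ hγ hδ hδ1 hE h1 h2
  refine ⟨(⋃ u ∈ U, Y 1 u) ∪ ⋃ u ∈ U, Y 2 u,
    (U.measurableSet_biUnion fun u _ => hYm 1 u).union (U.measurableSet_biUnion fun u _ => hYm 2 u),
    ?_, fun x hx hxX r hr1 hr2 hin hr => ?_⟩
  · refine (measure_union_le _ _).trans ((add_le_add (hYv 1 le_rfl one_le_two)
      (hYv 2 one_le_two le_rfl)).trans ?_)
    rw [← ENNReal.ofReal_add (by positivity) (by positivity)]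
    refine ENNReal.ofReal_le_ofReal ?_
    have h1 : 200 / γ + 1 ≤ 201 / γ ^ 4 := by
      have h2 : γ ^ 4 ≤ γ := pow_le_of_le_one hγ.le (by linarith) (by norm_num)
      have h3 : 201 / γ ≤ 201 / γ ^ 4 := div_le_div_of_nonneg_left (by norm_num) (by positivity) h2
      have h4 : 1 ≤ 1 / γ := by rw [le_div_iff₀ hγ]; linarith
      have h5 : 201 / γ = 200 / γ + 1 / γ := by ring
      linarith
    have h2 := mul_le_mul_of_nonneg_right h1 hδ.le
    have h3 : 8 * (4 * (41 * (201 * 100))) * δ / γ ^ 4 =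
        8 * (4 * (41 * 100)) * (201 / γ ^ 4 * δ) := by ring
    rw [h3]
    nlinarith
  · obtain ⟨r0, h1, h2, h3, h4, hnot⟩ : ∃ r0 : ℝ, 1 ≤ r0 ∧ r0 ≤ 2 ∧ r0 - 2 * δ ≤ r ∧
        r ≤ r0 + 2 * δ ∧ ∀ u ∈ U, x ∉ Y r0 u := by
      simp only [mem_union, mem_iUnion, not_or, not_exists] at hxX
      rcases hr with hr | hr
      · exact ⟨1, le_rfl, one_le_two, by linarith, by linarith, hxX.1⟩
      · exact ⟨2, one_le_two, le_rfl, by linarith, by linarith, hxX.2⟩
    have hsec : ∀ u ∈ U, ∑ i ∈ s with (r0 - 6 * δ < ‖c i - x‖ ∧ ‖c i - x‖ < r0 + 6 * δ ∧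
        3 / 5 ≤ (u * (c i - x)).re), σ i ≤ γ * E := by
      intro u hu
      have hn : ∀ i, ‖u * c i - u * x‖ = ‖c i - x‖ := fun i => by
        rw [← mul_sub, norm_mul, hU u hu, one_mul]
      by_contra hlt
      refine hnot u hu ⟨?_, ?_, ?_, ?_⟩
      · obtain ⟨a1, a2, a3, a4⟩ := hx
        simp only [U, Finset.mem_insert, Finset.mem_singleton] at hu
        rcases hu with rfl | rfl | rfl | rfl <;> rw [abs_le] <;> simp <;> constructor <;> linarith
      · obtain ⟨a1, a2, a3, a4⟩ := hx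
        simp only [U, Finset.mem_insert, Finset.mem_singleton] at hu
        rcases hu with rfl | rfl | rfl | rfl <;> rw [abs_le] <;> simp <;> constructor <;> linarith
      · simp only [hn]
        refine le_trans (Finset.sum_le_sum_of_subset_of_nonneg
          (Finset.monotone_filter_right _ fun i _ hi => ?_) fun i _ _ => hσ i) hin
        linarith
      · simpa only [mul_sub, hn] using not_le.1 hlt
    calc ∑ i ∈ s with (r - 4 * δ < ‖c i - x‖ ∧ ‖c i - x‖ < r + 4 * δ), σ i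
        ≤ ∑ u ∈ U, ∑ i ∈ s with (r0 - 6 * δ < ‖c i - x‖ ∧ ‖c i - x‖ < r0 + 6 * δ ∧
            3 / 5 ≤ (u * (c i - x)).re), σ i := by
          simp only [Finset.sum_filter]
          rw [Finset.sum_comm]
          refine Finset.sum_le_sum fun i _ => ?_
          have h0 : ∀ u ∈ U, 0 ≤ if r0 - 6 * δ < ‖c i - x‖ ∧ ‖c i - x‖ < r0 + 6 * δ ∧
              3 / 5 ≤ (u * (c i - x)).re then σ i else 0 := fun u _ => by
            split_ifs
            exacts [hσ i, le_rfl]
          split_ifs with hi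
          · obtain ⟨u, hu, hu'⟩ := rb_dir (z := c i - x) (by linarith [hi.1])
            refine le_trans (le_of_eq ?_) (Finset.single_le_sum h0 hu)
            rw [if_pos ⟨by linarith [hi.1], by linarith [hi.2], hu'⟩]
          · exact Finset.sum_nonneg h0
      _ ≤ U.card • (γ * E) := Finset.sum_le_card_nsmul _ _ _ hsec
      _ ≤ 4 * γ * E := by
          rw [nsmul_eq_mul, mul_assoc]
          exact mul_le_mul_of_nonneg_right (by exact_mod_cast Finset.card_le_four) (by positivity)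

end Crest.Agent.R112
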