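import Crest.Agent.R112.RarityA
import Crest.Agent.R112.RarityB

set_option autoImplicit false

namespace Crest.Agent.R112

open MeasureTheory Metric Set Filter Topology

/-! # Spread mass on a thin annulus around a light disc is rare -/

theorem rarity : ∃ C : ℝ, 0 < C ∧ ∀ (ι : Type) (s : Finset ι) (c : ι → ℂ) (σ : ι → ℝ),
    (∀ i, 0 ≤ σ i) → ∀ (γ δ E : ℝ), 0 < γ → γ ≤ 1 / 64 → 0 < δ → δ ≤ γ / 100 → 0 < E →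
    ∃ X : Set ℂ, MeasurableSet X ∧ volume X ≤ ENNReal.ofReal (C * δ / γ ^ 4) ∧
      ∀ x ∈ Reg, x ∉ X → ∀ r : ℝ, 1 ≤ r → r ≤ 2 →
        ∑ i ∈ s with ‖c i - x‖ ≤ r - 4 * δ, σ i ≤ 200 * E →
        (∃ z0 : ℂ, ∑ i ∈ s with (r - 4 * δ < ‖c i - x‖ ∧ ‖c i - x‖ < r + 4 * δ ∧
            3 * γ ≤ ‖c i - z0‖), σ i ≤ 4 * γ * E) ∧
        ((r < 1 + 2 * δ ∨ 2 - 2 * δ < r) →
          ∑ i ∈ s with (r - 4 * δ < ‖c i - x‖ ∧ ‖c i - x‖ < r + 4 * δ), σ i ≤ 4 * γ * E) := by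
  obtain ⟨C1, hC1, h1⟩ := rarity_spread
  obtain ⟨C2, hC2, h2⟩ := rarity_end
  refine ⟨C1 + C2, by positivity, fun ι s c σ hσ γ δ E hγ hγ' hδ hδ' hE => ?_⟩
  obtain ⟨X1, hm1, hv1, hX1⟩ := h1 ι s c σ hσ γ δ E hγ hγ' hδ hδ' hE
  obtain ⟨X2, hm2, hv2, hX2⟩ := h2 ι s c σ hσ γ δ E hγ hγ' hδ hδ' hE
  refine ⟨X1 ∪ X2, hm1.union hm2, ?_, fun x hx hxX r hr1 hr2 hin => ?_⟩
  · refine (measure_union_le _ _).trans ((add_le_add hv1 hv2).trans (le_of_eq ?_))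
    rw [← ENNReal.ofReal_add (by positivity) (by positivity)]
    congr 1; ring
  · rw [mem_union, not_or] at hxX
    exact ⟨hX1 x hx hxX.1 r hr1 hr2 hin, hX2 x hx hxX.2 r hr1 hr2 hin⟩

end Crest.Agent.R112
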