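import Crest.Agent.R112.Drop
import Crest.Agent.R112.Narrow
import Crest.Agent.R112.Rarity

set_option autoImplicit false

namespace Crest.Agent.R112

open MeasureTheory Metric Set Filter Topology

/-! # Height of peaks of width `2^(-k)` of the single scale maximal function -/

theorem peak_num1 (i : ℕ) :
    (1 / 2 : ℝ) ^ i * (65 / 64 : ℝ) ^ (32 * i) ≤ ((99 / 100 : ℝ) ^ 8) ^ i := by
  rw [pow_mul, ← mul_pow]
  exact pow_le_pow_left₀ (by positivity) (by norm_num) i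

theorem peak_num2 (i : ℕ) :
    (4 / 5 : ℝ) ^ (32 * i) / (1 / 2 : ℝ) ^ i ≤ ((1 / 2 : ℝ) ^ i) ^ 8 * ((99 / 100 : ℝ) ^ 8) ^ i := by
  rw [pow_mul, ← div_pow, ← pow_mul (1 / 2 : ℝ) i 8, mul_comm i 8, pow_mul, ← mul_pow]
  exact pow_le_pow_left₀ (by positivity) (by norm_num) i

theorem peak_num3 (k : ℕ) : ((1 / 2 : ℝ) ^ (k / 8)) ^ 8 * ((99 / 100 : ℝ) ^ 8) ^ (k / 8) ≤
    200 * (1 / 2) ^ k * (99 / 100) ^ k := by
  have hk : k ≤ 8 * (k / 8) + 7 := by omega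
  have h1 : ((1 / 2 : ℝ) * (99 / 100)) ^ (8 * (k / 8) + 7) ≤ ((1 / 2 : ℝ) * (99 / 100)) ^ k :=
    pow_le_pow_of_le_one (by norm_num) (by norm_num) hk
  rw [← pow_mul, ← pow_mul, mul_comm (k / 8) 8, ← mul_pow, mul_assoc, ← mul_pow]
  rw [pow_add] at h1
  have h2 : (0 : ℝ) ≤ ((1 / 2 : ℝ) * (99 / 100)) ^ (8 * (k / 8)) := by positivity
  have h3 : (1 : ℝ) / 200 ≤ ((1 / 2 : ℝ) * (99 / 100)) ^ 7 := by norm_num
  nlinarith

/-- Recipe.  `k0 = 48`, `i = k / 8 ≥ 6`, `γ = (1/2)^i`, `δ = γ^8` (`(1/2)^k ≤ δ ≤ 128 (1/2)^k`),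
`j = 32 i`, `E = (65/64)^j Es`, `tail = (4/5)^j Es`; `X` from `rarity` (`ι = Cell`,
`s = sub O 4 9 j`, `c = cn`, `σ P = pos + nu`).  `bb F 0 x = av F x r` (`Hyp.exists_bb_eq`).
With `λ` the left side, `drop_lemma` (`T = b`, `av F (x + b e) r ≤ bb F 0 (x + b e)`) gives
`λ + b/30 ∑ pos ≤ 6 b E + Cd tail`.  So always `λ ≤ B := 6 δ E + Cd tail`.  If `λ ≤ Cd tail` we are
done; otherwise `∑ pos ≤ 180 E` over a set containing the cells with `‖cn P - x‖ ≤ r - 4δ`, the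
inner mass is `≤ 181 E`, and for `x ∉ X` `narrow_lemma` gives `λ ≤ Cn (δγE + tail/γ)`.
`A = Cd tail + Cn (δγE + tail/γ)`.  Numerics: `(65/64)^32 ≤ 1.65`, `(4/5)^32 * 2^9 ≤ 0.41`,
`1.65/2 ≤ 0.92 ≤ (99/100)^8`, `(99/100)^k ≥ 0.93 * ((99/100)^8)^i`; `δ/γ^4 = γ^4 ≤ γ`. -/
theorem peak_lemma : ∃ C : ℝ, 0 < C ∧ ∃ k0 : ℕ, ∀ (F : ℂ → ℝ) (G : ℂ → ℂ), Hyp F G →
    ∀ (ε e : ℂ), Cone ε e → ∀ (Es : ℝ), 0 < Es →
    (∀ i : ℕ, S (nu ε) G O 4 9 i ≤ (65 / 64 : ℝ) ^ i * Es) → ∀ k : ℕ, k0 ≤ k →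
    ∃ (X : Set ℂ) (A B : ℝ), MeasurableSet X ∧ volume X ≠ ⊤ ∧ 0 ≤ A ∧ 0 ≤ B ∧
      A + B * (volume X).toReal ≤ C * (1 / 2) ^ k * (99 / 100) ^ k * Es ∧
      ∀ x ∈ Reg, ∀ a b : ℝ, 0 < a → a ≤ (1 / 2) ^ k → 0 < b → b ≤ (1 / 2) ^ k →
        bb F 0 x - max (bb F 0 (x - a * e)) (bb F 0 (x + b * e)) ≤
          A + B * X.indicator (fun _ => (1 : ℝ)) x := by
  classical
  obtain ⟨Cd, hCd, hdrop⟩ := drop_lemma
  obtain ⟨Cn, hCn, hnar⟩ := narrow_lemma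
  obtain ⟨Cr, hCr, hrar⟩ := rarity
  refine ⟨200 * (Cd + 2 * Cn + 6 * Cr + Cd * Cr), by positivity, 48, ?_⟩
  intro F G h ε e hc Es hEs hE k hk
  have n1 := peak_num1 (k / 8)
  have n2 := peak_num2 (k / 8)
  have n3 := peak_num3 k
  have hi : 6 ≤ k / 8 := by omega
  have hkδ : (1 / 2 : ℝ) ^ k ≤ ((1 / 2 : ℝ) ^ (k / 8)) ^ 8 := by
    rw [← pow_mul]
    exact pow_le_pow_of_le_one (by norm_num) (by norm_num) (by omega)
  have hγ1 : (1 / 2 : ℝ) ^ (k / 8) ≤ 1 / 64 :=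
    (pow_le_pow_of_le_one (by norm_num) (by norm_num) hi).trans (by norm_num)
  have hjγ : (1 / 2 : ℝ) ^ (32 * (k / 8)) = ((1 / 2 : ℝ) ^ (k / 8)) ^ 32 := by
    rw [← pow_mul, mul_comm]
  have hSE := hE (32 * (k / 8))
  have hγ0 : (0 : ℝ) < (1 / 2 : ℝ) ^ (k / 8) := by positivity
  generalize hq : ((99 / 100 : ℝ) ^ 8) ^ (k / 8) = q at n1 n2 n3
  generalize (1 / 2 : ℝ) ^ (k / 8) = γ at *
  generalize 32 * (k / 8) = j at *
  obtain ⟨δ, hδ⟩ : ∃ δ, δ = γ ^ 8 := ⟨_, rfl⟩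
  obtain ⟨E, hEdef⟩ : ∃ E, E = (65 / 64 : ℝ) ^ j * Es := ⟨_, rfl⟩
  obtain ⟨tl, htl⟩ : ∃ tl, tl = (4 / 5 : ℝ) ^ j * Es := ⟨_, rfl⟩
  rw [← hδ] at n2 n3 hkδ
  rw [← hEdef] at hSE
  have hδ0 : 0 < δ := by rw [hδ]; positivity
  have hE0 : 0 < E := by rw [hEdef]; positivity
  have htl0 : 0 < tl := by rw [htl]; positivity
  have hγle : γ ≤ 1 := by linarith
  have hδγ : δ ≤ γ / 100 := by
    have h1 : γ ^ 8 ≤ γ ^ 3 := pow_le_pow_of_le_one hγ0.le hγle (by norm_num)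
    have h2 : γ ^ 2 ≤ (1 / 64) ^ 2 := pow_le_pow_left₀ hγ0.le hγ1 2
    rw [hδ]; nlinarith
  have hj : 2 * (1 / 2 : ℝ) ^ j < δ := by
    have h1 : γ ^ 32 ≤ γ ^ 9 := pow_le_pow_of_le_one hγ0.le hγle (by norm_num)
    have h2 : γ ^ 9 = δ * γ := by rw [hδ]; ring
    rw [hjγ]; nlinarith
  obtain ⟨X, hXm, hXv, hX⟩ := hrar Cell (sub O 4 9 j) cn (fun P => pos ε (V G P) + nu ε (V G P))
    (fun P => add_nonneg (pos_nonneg _ _) (nu_nonneg _ _)) γ δ E hγ0 hγ1 hδ0 hδγ hE0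
  have hvol : (volume X).toReal ≤ Cr * γ := by
    refine (ENNReal.toReal_le_of_le_ofReal (by positivity) hXv).trans ?_
    have h1 : Cr * δ / γ ^ 4 = Cr * γ ^ 4 := by rw [hδ]; field_simp
    have h2 : γ ^ 4 ≤ γ ^ 1 := pow_le_pow_of_le_one hγ0.le hγle (by norm_num)
    rw [h1, pow_one] at *
    exact mul_le_mul_of_nonneg_left h2 hCr.le
  refine ⟨X, Cd * tl + Cn * (δ * γ * E + tl / γ), 6 * δ * E + Cd * tl, hXm,
    ne_top_of_le_ne_top ENNReal.ofReal_ne_top hXv, by positivity, by positivity, ?_, ?_⟩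
  · obtain ⟨D, hD⟩ : ∃ D, D = δ * q * Es := ⟨_, rfl⟩
    have u1 : δ * γ * E ≤ D := by
      rw [hD, hEdef]
      have := mul_le_mul_of_nonneg_left n1 (show 0 ≤ δ * Es by positivity)
      nlinarith
    have u2 : tl / γ ≤ D := by
      rw [hD, htl]
      have := mul_le_mul_of_nonneg_right n2 hEs.le
      calc (4 / 5 : ℝ) ^ j * Es / γ = (4 / 5 : ℝ) ^ j / γ * Es := by ring
        _ ≤ _ := this
    have u3 : tl ≤ D := by
      refine le_trans ?_ u2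
      rw [le_div_iff₀ hγ0]; nlinarith
    have u4 : D ≤ 200 * (1 / 2) ^ k * (99 / 100) ^ k * Es := by
      rw [hD]; exact mul_le_mul_of_nonneg_right n3 hEs.le
    have u5 : (6 * δ * E + Cd * tl) * (volume X).toReal ≤ (6 * δ * E + Cd * tl) * (Cr * γ) :=
      mul_le_mul_of_nonneg_left hvol (by positivity)
    have u6 : tl * γ ≤ D := by nlinarith
    have v1 := mul_le_mul_of_nonneg_left u3 hCd.le
    have v2 := mul_le_mul_of_nonneg_left (add_le_add u1 u2) hCn.le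
    have v3 := mul_le_mul_of_nonneg_left u1 hCr.le
    have v4 := mul_le_mul_of_nonneg_left u6 (mul_pos hCd hCr).le
    have v5 := mul_le_mul_of_nonneg_left u4
      (show 0 ≤ Cd + 2 * Cn + 6 * Cr + Cd * Cr by positivity)
    nlinarith
  · intro x hx a b ha ha' hb hb'
    obtain ⟨r, hra, hrb, hbb⟩ := h.exists_bb_eq 0 x
    have hr1 : 1 ≤ r := by simpa using hra
    have hr2 : r ≤ 2 := by simpa using hrb
    have hbδ : b ≤ δ := hb'.trans hkδ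
    have hd := hdrop F G h ε e hc Es hE x hx r b hr1 hr2 hb.le (by linarith) j
    have hav : av F (x + b * e) r ≤ bb F 0 (x + b * e) := h.av_le_bb 0 _ hra hrb
    have hmax := le_max_right (bb F 0 (x - a * e)) (bb F 0 (x + b * e))
    rw [mul_assoc Cd, ← htl] at hd
    have hS0 : 0 ≤ ∑ P ∈ sub O 4 9 j with ‖cn P - x‖ + 2 * (1 / 2) ^ j + b ≤ r, pos ε (V G P) :=
      Finset.sum_nonneg fun P _ => pos_nonneg _ _
    have hbE : 6 * b * S (nu ε) G O 4 9 j ≤ 6 * b * E :=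
      mul_le_mul_of_nonneg_left hSE (by positivity)
    have hA1 : 0 ≤ Cn * (δ * γ * E + tl / γ) := by positivity
    have hA2 : 0 ≤ Cd * tl := by positivity
    rw [hbb]
    by_cases hxX : x ∈ X
    · rw [indicator_of_mem hxX]
      have h1 : 6 * b * E ≤ 6 * δ * E := by gcongr
      have h2 := mul_nonneg (show 0 ≤ b / 30 by positivity) hS0
      linarith
    · rw [indicator_of_notMem hxX, mul_zero, add_zero]
      by_cases hl : av F x r - max (bb F 0 (x - a * e)) (bb F 0 (x + b * e)) ≤ Cd * tl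
      · linarith
      have hpos : ∑ P ∈ sub O 4 9 j with ‖cn P - x‖ + 2 * (1 / 2) ^ j + b ≤ r, pos ε (V G P) ≤
          180 * E := by
        have h1 : b * ∑ P ∈ sub O 4 9 j with ‖cn P - x‖ + 2 * (1 / 2) ^ j + b ≤ r, pos ε (V G P) ≤
            b * (180 * E) := by linarith
        exact le_of_mul_le_mul_left h1 hb
      have hin : ∑ P ∈ sub O 4 9 j with ‖cn P - x‖ ≤ r - 4 * δ,
          (pos ε (V G P) + nu ε (V G P)) ≤ 200 * E := by
        rw [Finset.sum_add_distrib]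
        have h1 : ∑ P ∈ sub O 4 9 j with ‖cn P - x‖ ≤ r - 4 * δ, pos ε (V G P) ≤
            ∑ P ∈ sub O 4 9 j with ‖cn P - x‖ + 2 * (1 / 2) ^ j + b ≤ r, pos ε (V G P) := by
          refine Finset.sum_le_sum_of_subset_of_nonneg (fun P hP => ?_) fun P _ _ => pos_nonneg _ _
          rw [Finset.mem_filter] at hP ⊢
          exact ⟨hP.1, by linarith [hP.2]⟩
        have h2 : ∑ P ∈ sub O 4 9 j with ‖cn P - x‖ ≤ r - 4 * δ, nu ε (V G P) ≤
            S (nu ε) G O 4 9 j :=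
          Finset.sum_le_sum_of_subset_of_nonneg (Finset.filter_subset _ _)
            fun P _ _ => nu_nonneg _ _
        linarith
      obtain ⟨hX1, hX2⟩ := hX x hx hxX r hr1 hr2 hin
      have hn := hnar F G h ε e hc Es hE γ δ E j hγ0 hγ1 hδ0 hδγ hj hSE x hx r a b hr1 hr2 ha
        (ha'.trans hkδ) hb hbδ hin (by
          by_cases hrr : r < 1 + 2 * δ ∨ 2 - 2 * δ < r
          · exact Or.inr (hX2 hrr)
          · push Not at hrr
            exact Or.inl ⟨hrr.1, hrr.2, hX1⟩)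
      rw [← htl] at hn
      linarith

end Crest.Agent.R112
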