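import Crest.Agent.R112.Defs

set_option autoImplicit false

namespace Crest.Agent.R112

open MeasureTheory Metric Set Filter Topology

/-! # Rarity, part (1): spread mass -/

namespace RA

variable {ι : Type}

open Classical in
/-- mass of the points with a property -/
noncomputable def mass (s : Finset ι) (σ : ι → ℝ) (p : ι → Prop) : ℝ :=
  ∑ i ∈ s, if p i then σ i else 0

theorem mass_eq (s : Finset ι) (σ : ι → ℝ) (p : ι → Prop) [DecidablePred p] :
    ∑ i ∈ s with p i, σ i = mass s σ p := by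
  rw [Finset.sum_filter, mass]
  refine Finset.sum_congr rfl fun i _ => ?_
  congr

variable {s : Finset ι} {σ : ι → ℝ}

theorem mass_nonneg (hσ : ∀ i, 0 ≤ σ i) (p : ι → Prop) : 0 ≤ mass s σ p := by
  refine Finset.sum_nonneg fun i _ => ?_
  split_ifs
  · exact hσ i
  · exact le_rfl

theorem mass_mono (hσ : ∀ i, 0 ≤ σ i) {p q : ι → Prop} (h : ∀ i, p i → q i) :
    mass s σ p ≤ mass s σ q := by
  refine Finset.sum_le_sum fun i _ => ?_
  have := hσ i
  split_ifs with h1 h2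
  · exact le_rfl
  · exact absurd (h i h1) h2
  · exact this
  · exact le_rfl

theorem mass_add_le (hσ : ∀ i, 0 ≤ σ i) {p q r : ι → Prop} (hd : ∀ i, p i → ¬ q i)
    (h1 : ∀ i, p i → r i) (h2 : ∀ i, q i → r i) : mass s σ p + mass s σ q ≤ mass s σ r := by
  rw [mass, mass, mass, ← Finset.sum_add_distrib]
  refine Finset.sum_le_sum fun i _ => ?_
  have := hσ i
  have := hd i
  have := h1 i
  have := h2 i
  split_ifs <;> first | linarith | tauto

theorem mass_le_add (hσ : ∀ i, 0 ≤ σ i) {p q r : ι → Prop} (h : ∀ i, r i → p i ∨ q i) :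
    mass s σ r ≤ mass s σ p + mass s σ q := by
  rw [mass, mass, mass, ← Finset.sum_add_distrib]
  refine Finset.sum_le_sum fun i _ => ?_
  have := hσ i
  have := h i
  split_ifs <;> first | linarith | tauto

theorem exists_of_mass_pos {p : ι → Prop} (h : 0 < mass s σ p) : ∃ i, p i := by
  by_contra hn
  push Not at hn
  have : mass s σ p = 0 := Finset.sum_eq_zero fun i _ => by simp [hn i]
  linarith

/-- points with monotone labels are rare on a line -/
theorem volume_le_of_labels (A : Set ℝ) (α β : ℝ → ℝ) {h D : ℝ} (N : ℕ) (hh : 0 < h)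
    (hα : ∀ t ∈ A, 0 ≤ α t ∧ α t < N * h) (hβ : ∀ t ∈ A, 0 ≤ β t ∧ β t < N * h)
    (hsep : ∀ t ∈ A, ∀ t' ∈ A, t + D ≤ t' → α t' + h ≤ α t ∨ β t + h ≤ β t') :
    volume A ≤ (N : ENNReal) ^ 2 * ENNReal.ofReal D := by
  have hfl : ∀ a b : ℝ, 0 ≤ a → a + h ≤ b → ⌊a / h⌋₊ ≠ ⌊b / h⌋₊ := by
    intro a b ha hab
    have h1 : a / h + 1 ≤ b / h := by
      rw [div_add_one hh.ne']; gcongr
    have h2 := Nat.floor_mono h1
    rw [Nat.floor_add_one (by positivity)] at h2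
    omega
  have hcov : A ⊆ ⋃ l ∈ Finset.range N ×ˢ Finset.range N,
      {t | t ∈ A ∧ ⌊α t / h⌋₊ = l.1 ∧ ⌊β t / h⌋₊ = l.2} := by
    intro t ht
    simp only [mem_iUnion]
    refine ⟨(⌊α t / h⌋₊, ⌊β t / h⌋₊), ?_, ht, rfl, rfl⟩
    simp only [Finset.mem_product, Finset.mem_range]
    constructor
    · rw [Nat.floor_lt (div_nonneg (hα t ht).1 hh.le), div_lt_iff₀ hh]; exact (hα t ht).2
    · rw [Nat.floor_lt (div_nonneg (hβ t ht).1 hh.le), div_lt_iff₀ hh]; exact (hβ t ht).2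
  refine (measure_mono hcov).trans ((measure_biUnion_finset_le _ _).trans ?_)
  refine (Finset.sum_le_card_nsmul _ _ (ENNReal.ofReal D) fun l _ => ?_).trans ?_
  · refine (Real.volume_le_diam _).trans (ediam_le_of_forall_dist_le ?_)
    have aux : ∀ t t' : ℝ, t ∈ A → t' ∈ A → ⌊α t / h⌋₊ = ⌊α t' / h⌋₊ → ⌊β t / h⌋₊ = ⌊β t' / h⌋₊ →
        t' < t + D := by
      intro t t' ht ht' e1 e2
      by_contra hge
      rcases hsep t ht t' ht' (not_lt.1 hge) with h1 | h1
      · exact hfl _ _ (hα t' ht').1 h1 e1.symm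
      · exact hfl _ _ (hβ t ht).1 h1 e2
    rintro t ⟨ht, a1, a2⟩ t' ⟨ht', b1, b2⟩
    have c1 := aux t t' ht ht' (a1.trans b1.symm) (a2.trans b2.symm)
    have c2 := aux t' t ht' ht (b1.trans a1.symm) (b2.trans a2.symm)
    rw [Real.dist_eq, abs_le]
    constructor <;> linarith
  · simp [Finset.card_product, sq]

theorem sq_le_of_lt {d r δ : ℝ} (hd : 0 ≤ d) (hr : r ≤ 2) (hδ : 0 < δ) (hδ' : δ ≤ 1 / 100)
    (h : d < r + 5 * δ) : d ^ 2 - r ^ 2 ≤ 21 * δ := by
  nlinarith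

theorem le_of_sq_le {d r δ : ℝ} (hr1 : 1 ≤ r) (hr : r ≤ 2) (hδ : 0 < δ) (hδ' : δ ≤ 1 / 100)
    (h : d ^ 2 - r ^ 2 ≤ -(20 * δ)) : d ≤ r - 5 * δ := by
  have h1 : d ^ 2 ≤ (r - 5 * δ) ^ 2 := by nlinarith
  exact (abs_le_of_sq_le_sq' h1 (by linarith)).2

/-- the section of the bad set by a line -/
theorem section_le (hσ : ∀ i, 0 ≤ σ i) {γ δ E : ℝ} (hγ : 0 < γ) (hδ : 0 < δ) (hδ' : δ ≤ 1 / 100)
    (hE : 0 < E) (N : ℕ) (hN : 200 < N * γ) (f k : ι → ℝ) (D : ι → ℝ → ℝ) (hD0 : ∀ i t, 0 ≤ D i t)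
    (hD : ∀ i t, D i t ^ 2 = (f i - t) ^ 2 + k i) (m : ℝ) :
    volume {t : ℝ | ∃ r : ℝ, 1 ≤ r ∧ r ≤ 2 ∧ mass s σ (fun i => D i t ≤ r - 5 * δ) ≤ 200 * E ∧
      γ * E < mass s σ (fun i => (r - 5 * δ < D i t ∧ D i t < r + 5 * δ) ∧ f i < m) ∧
      γ * E < mass s σ (fun i => (r - 5 * δ < D i t ∧ D i t < r + 5 * δ) ∧ m + γ ≤ f i)} ≤
      (N : ENNReal) ^ 2 * ENNReal.ofReal (41 * δ / γ) := by
  set A := {t : ℝ | ∃ r : ℝ, 1 ≤ r ∧ r ≤ 2 ∧ mass s σ (fun i => D i t ≤ r - 5 * δ) ≤ 200 * E ∧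
      γ * E < mass s σ (fun i => (r - 5 * δ < D i t ∧ D i t < r + 5 * δ) ∧ f i < m) ∧
      γ * E < mass s σ (fun i => (r - 5 * δ < D i t ∧ D i t < r + 5 * δ) ∧ m + γ ≤ f i)} with hA
  have hex : ∀ t ∈ A, ∃ r : ℝ, 1 ≤ r ∧ r ≤ 2 ∧ mass s σ (fun i => D i t ≤ r - 5 * δ) ≤ 200 * E ∧
      γ * E < mass s σ (fun i => (r - 5 * δ < D i t ∧ D i t < r + 5 * δ) ∧ f i < m) ∧
      γ * E < mass s σ (fun i => (r - 5 * δ < D i t ∧ D i t < r + 5 * δ) ∧ m + γ ≤ f i) :=
    fun t ht => ht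
  choose! ρ h1 h2 h3 h4 h5 using hex
  have hNE : 200 * E < N * (γ * E) := by nlinarith
  refine volume_le_of_labels A (fun t => mass s σ (fun i => D i t ≤ ρ t - 5 * δ ∧ f i < m))
    (fun t => mass s σ (fun i => D i t ≤ ρ t - 5 * δ ∧ m + γ ≤ f i)) N (h := γ * E) (by positivity)
    (fun t ht => ⟨mass_nonneg hσ _, ((mass_mono hσ fun i h => h.1).trans (h3 t ht)).trans_lt hNE⟩)
    (fun t ht => ⟨mass_nonneg hσ _, ((mass_mono hσ fun i h => h.1).trans (h3 t ht)).trans_lt hNE⟩)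
    ?_
  intro t ht t' ht' htt
  have hg : 41 * δ ≤ (t' - t) * γ := by
    have : 41 * δ / γ ≤ t' - t := by linarith
    rwa [div_le_iff₀ hγ] at this
  have htt' : 0 ≤ t' - t := by
    have : 0 < 41 * δ / γ := by positivity
    linarith
  have hid : ∀ i, (D i t ^ 2 - ρ t ^ 2) - (D i t' ^ 2 - ρ t' ^ 2) =
      2 * (t' - t) * (f i - (m + γ / 2)) + ((t ^ 2 - 2 * t * (m + γ / 2) - ρ t ^ 2) -
        (t' ^ 2 - 2 * t' * (m + γ / 2) - ρ t' ^ 2)) := fun i => by
    rw [hD, hD]; ring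
  rcases le_total (t ^ 2 - 2 * t * (m + γ / 2) - ρ t ^ 2)
    (t' ^ 2 - 2 * t' * (m + γ / 2) - ρ t' ^ 2) with hψ | hψ
  · left
    have key : ∀ i, D i t' < ρ t' + 5 * δ → f i < m → D i t ≤ ρ t - 5 * δ := by
      intro i a1 a2
      have b1 := sq_le_of_lt (hD0 i t') (h2 t' ht') hδ hδ' a1
      refine le_of_sq_le (h1 t ht) (h2 t ht) hδ hδ' ?_
      have b2 := hid i
      have b3 : 2 * (t' - t) * (f i - (m + γ / 2)) ≤ 2 * (t' - t) * (-(γ / 2)) :=
        mul_le_mul_of_nonneg_left (by linarith) (by linarith)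
      linarith
    refine le_trans (add_le_add le_rfl (h4 t' ht').le) (mass_add_le hσ ?_ ?_ ?_)
    · intro i a b; linarith [a.1, b.1.1]
    · intro i a; exact ⟨key i (by linarith [a.1]) a.2, a.2⟩
    · intro i a; exact ⟨key i a.1.2 a.2, a.2⟩
  · right
    have key : ∀ i, D i t < ρ t + 5 * δ → m + γ ≤ f i → D i t' ≤ ρ t' - 5 * δ := by
      intro i a1 a2
      have b1 := sq_le_of_lt (hD0 i t) (h2 t ht) hδ hδ' a1
      refine le_of_sq_le (h1 t' ht') (h2 t' ht') hδ hδ' ?_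
      have b2 := hid i
      have b3 : 2 * (t' - t) * (γ / 2) ≤ 2 * (t' - t) * (f i - (m + γ / 2)) :=
        mul_le_mul_of_nonneg_left (by linarith) (by linarith)
      linarith
    refine le_trans (add_le_add le_rfl (h5 t ht).le) (mass_add_le hσ ?_ ?_ ?_)
    · intro i a b; linarith [a.1, b.1.1]
    · intro i a; exact ⟨key i (by linarith [a.1]) a.2, a.2⟩
    · intro i a; exact ⟨key i a.1.2 a.2, a.2⟩

theorem volume_eq_prod {X : Set ℂ} (hX : MeasurableSet X) :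
    volume X = (volume : Measure ℝ).prod volume (Complex.measurableEquivRealProd.symm ⁻¹' X) := by
  rw [← Measure.volume_eq_prod]
  exact (Complex.volume_preserving_equiv_real_prod.symm.measure_preimage
    hX.nullMeasurableSet).symm

theorem lintegral_le_three {g : ℝ → ENNReal} {K : ENNReal} (h1 : ∀ y, g y ≤ K)
    (h2 : ∀ y, y ∉ Icc (-1 : ℝ) 2 → g y = 0) : ∫⁻ y, g y ≤ 3 * K := by
  calc ∫⁻ y, g y ≤ ∫⁻ y, (Icc (-1 : ℝ) 2).indicator (fun _ => K) y := by
        refine lintegral_mono fun y => ?_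
        by_cases hy : y ∈ Icc (-1 : ℝ) 2
        · rw [indicator_of_mem hy]; exact h1 y
        · rw [h2 y hy]; exact zero_le
    _ = 3 * K := by
        rw [lintegral_indicator_const measurableSet_Icc, Real.volume_Icc, mul_comm]
        norm_num

theorem volume_le_horizontal {X : Set ℂ} (hX : MeasurableSet X) (hR : X ⊆ Reg) {K : ENNReal}
    (h : ∀ y : ℝ, volume {t : ℝ | (⟨t, y⟩ : ℂ) ∈ X} ≤ K) : volume X ≤ 3 * K := by
  rw [volume_eq_prod hX, Measure.prod_apply_symm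
    (Complex.measurableEquivRealProd.symm.measurable hX)]
  refine lintegral_le_three (fun y => h y) fun y hy => ?_
  convert measure_empty (μ := (volume : Measure ℝ))
  ext t
  simp only [mem_preimage, mem_empty_iff_false, iff_false]
  intro ht
  exact hy ⟨(hR ht).2.2.1, (hR ht).2.2.2⟩

theorem volume_le_vertical {X : Set ℂ} (hX : MeasurableSet X) (hR : X ⊆ Reg) {K : ENNReal}
    (h : ∀ y : ℝ, volume {t : ℝ | (⟨y, t⟩ : ℂ) ∈ X} ≤ K) : volume X ≤ 3 * K := by
  rw [volume_eq_prod hX, Measure.prod_apply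
    (Complex.measurableEquivRealProd.symm.measurable hX)]
  refine lintegral_le_three (fun y => h y) fun y hy => ?_
  convert measure_empty (μ := (volume : Measure ℝ))
  ext t
  simp only [mem_preimage, mem_empty_iff_false, iff_false]
  intro ht
  exact hy ⟨(hR ht).1, (hR ht).2.1⟩

theorem measurableSet_Reg : MeasurableSet Reg := by
  unfold Reg
  measurability

/-- either a gap with mass on both sides, or concentration in a strip -/
theorem split_or_strip (hσ : ∀ i, 0 ≤ σ i) {γ h : ℝ} (hγ : 0 < γ) (hh : 0 < h) (A : ι → Prop)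
    (f : ι → ℝ) (hf : ∀ i, A i → -5 < f i ∧ f i < 5) (K : ℕ) (hK : 5 ≤ K * γ) :
    (∃ k ∈ Finset.Icc (-(K : ℤ)) K, h < mass s σ (fun i => A i ∧ f i < k * γ) ∧
      h < mass s σ (fun i => A i ∧ k * γ + γ ≤ f i)) ∨
    ∃ a : ℝ, mass s σ (fun i => A i ∧ (f i < a ∨ a + 2 * γ ≤ f i)) ≤ 2 * h := by
  by_cases htot : mass s σ A ≤ h
  · right
    exact ⟨0, (mass_mono hσ fun i a => a.1).trans (by linarith)⟩
  obtain ⟨k, hk1, hk2⟩ := Int.exists_greatest_of_bdd
    (P := fun k : ℤ => mass s σ (fun i => A i ∧ f i < k * γ) ≤ h)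
    ⟨K, fun z hz => by
      by_contra hlt
      have h1 : (K : ℝ) ≤ z := by exact_mod_cast (not_le.1 hlt).le
      refine htot (le_trans (mass_mono hσ fun i a => ⟨a, ?_⟩) hz)
      have := (hf i a).2
      nlinarith⟩
    ⟨-K, by
      by_contra hlt
      obtain ⟨i, a1, a2⟩ := exists_of_mass_pos (hh.trans (not_le.1 hlt))
      have := (hf i a1).1
      push_cast at a2
      linarith⟩
  by_cases hR : mass s σ (fun i => A i ∧ k * γ + 2 * γ ≤ f i) ≤ h
  · right
    refine ⟨k * γ, (mass_le_add hσ (p := fun i => A i ∧ f i < k * γ)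
      (q := fun i => A i ∧ k * γ + 2 * γ ≤ f i) fun i a => ?_).trans (by linarith)⟩
    tauto
  · left
    have hL : h < mass s σ (fun i => A i ∧ f i < ((k + 1 : ℤ) : ℝ) * γ) := by
      by_contra hle
      have := hk2 (k + 1) (not_lt.1 hle)
      omega
    have hR' : h < mass s σ (fun i => A i ∧ ((k + 1 : ℤ) : ℝ) * γ + γ ≤ f i) := by
      refine (not_le.1 hR).trans_le (mass_mono hσ fun i a => ⟨a.1, ?_⟩)
      push_cast; linarith [a.2]
    refine ⟨k + 1, ?_, hL, hR'⟩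
    obtain ⟨i, a1, a2⟩ := exists_of_mass_pos (hh.trans hL)
    obtain ⟨i', b1, b2⟩ := exists_of_mass_pos (hh.trans hR')
    have c1 := (hf i a1).1
    have c2 := (hf i' b1).2
    rw [Finset.mem_Icc]
    constructor
    · have : (-(K : ℝ)) * γ < ((k + 1 : ℤ) : ℝ) * γ := by linarith
      have := lt_of_mul_lt_mul_right this hγ.le
      exact_mod_cast this.le
    · have : ((k + 1 : ℤ) : ℝ) * γ < (K : ℝ) * γ := by linarith
      have := lt_of_mul_lt_mul_right this hγ.le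
      exact_mod_cast this.le

/-- bad centres for the coordinate `u` and the gap `[m, m + γ)` -/
def Bset (s : Finset ι) (c : ι → ℂ) (σ : ι → ℝ) (γ δ E : ℝ) (u : ℂ → ℝ) (m : ℝ) : Set ℂ :=
  {x | ∃ r : ℝ, 1 ≤ r ∧ r ≤ 2 ∧ mass s σ (fun i => ‖c i - x‖ ≤ r - 5 * δ) ≤ 200 * E ∧
      γ * E < mass s σ (fun i => (r - 5 * δ < ‖c i - x‖ ∧ ‖c i - x‖ < r + 5 * δ) ∧ u (c i) < m) ∧
      γ * E < mass s σ (fun i => (r - 5 * δ < ‖c i - x‖ ∧ ‖c i - x‖ < r + 5 * δ) ∧
        m + γ ≤ u (c i))}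

theorem mem_interior_Bset (hσ : ∀ i, 0 ≤ σ i) {c : ι → ℂ} {γ δ E : ℝ} (hδ : 0 < δ) {u : ℂ → ℝ}
    {m r : ℝ} {x : ℂ} (hr1 : 1 ≤ r) (hr2 : r ≤ 2)
    (h1 : mass s σ (fun i => ‖c i - x‖ ≤ r - 4 * δ) ≤ 200 * E)
    (h2 : γ * E < mass s σ (fun i => (r - 4 * δ < ‖c i - x‖ ∧ ‖c i - x‖ < r + 4 * δ) ∧
      u (c i) < m))
    (h3 : γ * E < mass s σ (fun i => (r - 4 * δ < ‖c i - x‖ ∧ ‖c i - x‖ < r + 4 * δ) ∧
      m + γ ≤ u (c i))) : x ∈ interior (Bset s c σ γ δ E u m) := by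
  refine mem_interior.2 ⟨ball x δ, fun y hy => ?_, isOpen_ball, mem_ball_self hδ⟩
  rw [mem_ball, dist_eq_norm] at hy
  have t1 : ∀ i, ‖c i - x‖ ≤ ‖c i - y‖ + ‖y - x‖ := fun i =>
    norm_sub_le_norm_sub_add_norm_sub _ _ _
  have t2 : ∀ i, ‖c i - y‖ ≤ ‖c i - x‖ + ‖y - x‖ := fun i => by
    rw [norm_sub_rev y x]; exact norm_sub_le_norm_sub_add_norm_sub _ _ _
  refine ⟨r, hr1, hr2, le_trans (mass_mono hσ fun i a => ?_) h1,
    h2.trans_le (mass_mono hσ fun i a => ⟨⟨?_, ?_⟩, a.2⟩),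
    h3.trans_le (mass_mono hσ fun i a => ⟨⟨?_, ?_⟩, a.2⟩)⟩
  · linarith [t1 i]
  · linarith [t1 i, a.1.1]
  · linarith [t2 i, a.1.2]
  · linarith [t1 i, a.1.1]
  · linarith [t2 i, a.1.2]

end RA

open RA in
/-- THIS FILE: part (1) only.  Recipe (pure plane geometry + counting; no `G`).
Call `(x, r)` (`x ∈ Reg`, `1 ≤ r ≤ 2`) LIGHT if the inner mass (`‖c i - x‖ ≤ r - 4δ`) is `≤ 200 E`.
Bad centres are covered by finitely many sets, each handled on the lines parallel to an axis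
(symmetry `re ↔ im` and `re ↔ -re`: it is worth proving ONE lemma on `ℝ × ℝ` or for a general
unit direction `u ∈ {1, -1, I, -I}` with the coordinate `ip u`).
To get measurability work with `δ`-thickenings: `X = ⋃ ball x' δ` over bad `x'` is open; a point
`x` of it inherits from `x'` a radius `r` with mass of `{‖c - x‖ ≤ r - 5δ}` `≤ 200 E` and the
masses named below inside the annulus `r - 5δ < ‖c - x‖ < r + 5δ`.
POWER: `π_k(c) = ‖c - x_k‖² - r_k²`; for two centres on one horizontal line, `x_k = t_k + I y`,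
`π_i(c) - π_k(c) = 2 (t_k - t_i) (re c - m') + (ψ_i - ψ_k)`, `ψ = t² - 2 t m' - r²`.
`‖c - x_i‖ < r_i + 5δ` gives `π_i ≤ 21 δ`, and `π_k ≤ -20 δ` gives `‖c - x_k‖ ≤ r_k - 5δ`.
(1) SPREAD: if for every `z0` the annulus mass outside `ball z0 (3γ)` is `> 4γE`, then for one of
the two axes there is a grid point `m ∈ γ ℤ ∩ [-4, 5]` with annulus mass `> γE` in `re c < m` and
`> γE` in `m + γ ≤ re c` (take the largest grid `s₁` with left mass `≤ γE`, the smallest `s₂` with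
right mass `≤ γE`; if `s₂ - s₁ ≤ 2γ` for both axes the mass outside a `2γ`-square is `≤ 4γE`;
otherwise `m = s₁ + γ`).  Fix the axis, `m`, the line; `m' = m + γ/2`; `α, β ∈ [0, 200E]` the inner
masses left of `m`, right of `m + γ`.  If `t_k - t_i ≥ 41 δ/γ`: either `ψ_i ≥ ψ_k`, then every point
right of `m + γ` that is inner or annular for `i` is inner for `k`, `β_k > β_i + γE`; or
`ψ_i < ψ_k` and `α_i > α_k + γE`.  So the labels `(⌊α/(γE)⌋, ⌊β/(γE)⌋)` of `41δ/γ`-separated points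
differ: the points of the line with one given label lie in an interval of length `≤ 82 δ/γ`
(no maximal separated set is needed), the line section has measure `≤ (200/γ + 1)² 82 δ/γ`.
(2) ENDPOINT: `|r - r0| < 2δ`, `r0 ∈ {1, 2}`, annulus mass `> 4γE`: one of the four sectors
`±re (c - x) ≥ 0.6`, `±im (c - x) ≥ 0.6` carries `> γE`.  For `+re`: cut the line in windows
`t ∈ [m, m + 1/10)`, `β =` inner mass in `re c ≥ m + 1/2`; for `t_k - t_i ≥ 100 δ` in one window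
`β_k > β_i + γE`.  Measure of the line section `≤ C δ/γ`.
Fubini: `Complex.volume_preserving_equiv_real_prod`, `Measure.prod_apply` / `prod_apply_symm`;
the other coordinate ranges in `[-2, 3]`. -/
theorem rarity_spread : ∃ C : ℝ, 0 < C ∧ ∀ (ι : Type) (s : Finset ι) (c : ι → ℂ) (σ : ι → ℝ),
    (∀ i, 0 ≤ σ i) → ∀ (γ δ E : ℝ), 0 < γ → γ ≤ 1 / 64 → 0 < δ → δ ≤ γ / 100 → 0 < E →
    ∃ X : Set ℂ, MeasurableSet X ∧ volume X ≤ ENNReal.ofReal (C * δ / γ ^ 4) ∧
      ∀ x ∈ Reg, x ∉ X → ∀ r : ℝ, 1 ≤ r → r ≤ 2 →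
        ∑ i ∈ s with ‖c i - x‖ ≤ r - 4 * δ, σ i ≤ 200 * E →
        ∃ z0 : ℂ, ∑ i ∈ s with (r - 4 * δ < ‖c i - x‖ ∧ ‖c i - x‖ < r + 4 * δ ∧
            3 * γ ≤ ‖c i - z0‖), σ i ≤ 4 * γ * E := by
  refine ⟨2 * 13 * 3 * 201 ^ 2 * 41, by norm_num, ?_⟩
  intro ι s c σ hσ γ δ E hγ hγ' hδ hδγ hE
  have hδ' : δ ≤ 1 / 100 := by linarith
  set N : ℕ := ⌊200 / γ⌋₊ + 1 with hNdef
  set K : ℕ := ⌈5 / γ⌉₊ with hKdef
  have hN : 200 < N * γ := by
    have := Nat.lt_floor_add_one (200 / γ)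
    rw [div_lt_iff₀ hγ] at this
    rw [hNdef]; push_cast; exact this
  have hN' : (N : ℝ) ≤ 201 / γ := by
    have h1 : (⌊200 / γ⌋₊ : ℝ) ≤ 200 / γ := Nat.floor_le (by positivity)
    have h2 : 1 ≤ 1 / γ := by rw [le_div_iff₀ hγ]; linarith
    have h3 : 201 / γ = 200 / γ + 1 / γ := by ring
    rw [hNdef]; push_cast; linarith
  have hK : 5 ≤ K * γ := by
    have := Nat.le_ceil (5 / γ)
    rwa [div_le_iff₀ hγ] at this
  have hK' : 2 * (K : ℝ) + 1 ≤ 13 / γ := by
    have h1 : (K : ℝ) < 5 / γ + 1 := Nat.ceil_lt_add_one (by positivity)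
    have h2 : 1 ≤ 1 / γ := by rw [le_div_iff₀ hγ]; linarith
    have h3 : 13 / γ = 2 * (5 / γ) + 3 * (1 / γ) := by ring
    linarith
  refine ⟨⋃ k ∈ Finset.Icc (-(K : ℤ)) K, (interior (Bset s c σ γ δ E Complex.re (k * γ)) ∩ Reg ∪
    interior (Bset s c σ γ δ E Complex.im (k * γ)) ∩ Reg), ?_, ?_, ?_⟩
  · exact Finset.measurableSet_biUnion _ fun k _ =>
      (isOpen_interior.measurableSet.inter measurableSet_Reg).union
        (isOpen_interior.measurableSet.inter measurableSet_Reg)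
  · refine (measure_biUnion_finset_le _ _).trans ?_
    refine (Finset.sum_le_card_nsmul _ _
      (2 * (3 * ((N : ENNReal) ^ 2 * ENNReal.ofReal (41 * δ / γ)))) fun k _ => ?_).trans ?_
    · rw [two_mul]
      refine (measure_union_le _ _).trans (add_le_add ?_ ?_)
      · refine volume_le_horizontal (isOpen_interior.measurableSet.inter measurableSet_Reg)
          inter_subset_right fun y => ?_
        refine le_trans (measure_mono fun t ht => ?_) (section_le (s := s) hσ hγ hδ hδ' hE N hN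
          (fun i => (c i).re) (fun i => ((c i).im - y) ^ 2)
          (fun i t => ‖c i - ⟨t, y⟩‖) (fun _ _ => norm_nonneg _) (fun i t => ?_) (k * γ))
        · have := interior_subset ht.1
          exact this
        rw [Complex.sq_norm, Complex.normSq_apply]
        simp only [Complex.sub_re, Complex.sub_im]; ring
      · refine volume_le_vertical (isOpen_interior.measurableSet.inter measurableSet_Reg)
          inter_subset_right fun y => ?_
        refine le_trans (measure_mono fun t ht => ?_) (section_le (s := s) hσ hγ hδ hδ' hE N hN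
          (fun i => (c i).im) (fun i => ((c i).re - y) ^ 2)
          (fun i t => ‖c i - ⟨y, t⟩‖) (fun _ _ => norm_nonneg _) (fun i t => ?_) (k * γ))
        · have := interior_subset ht.1
          exact this
        rw [Complex.sq_norm, Complex.normSq_apply]
        simp only [Complex.sub_re, Complex.sub_im]; ring
    · have e1 : (Finset.Icc (-(K : ℤ)) K).card = 2 * K + 1 := by
        rw [Int.card_Icc]; omega
      have e2 : (2 * K + 1) • (2 * (3 * ((N : ENNReal) ^ 2 * ENNReal.ofReal (41 * δ / γ)))) =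
          ENNReal.ofReal ((2 * (K : ℝ) + 1) * (2 * (3 * ((N : ℝ) ^ 2 * (41 * δ / γ))))) := by
        rw [nsmul_eq_mul, ENNReal.ofReal_mul (by positivity), ENNReal.ofReal_mul (by positivity),
          ENNReal.ofReal_mul (by positivity), ENNReal.ofReal_mul (by positivity),
          ENNReal.ofReal_pow (by positivity), ENNReal.ofReal_natCast,
          ENNReal.ofReal_add (by positivity) (by positivity), ENNReal.ofReal_mul (by positivity),
          ENNReal.ofReal_natCast]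
        simp
      rw [e1, e2]
      refine ENNReal.ofReal_le_ofReal ?_
      calc (2 * (K : ℝ) + 1) * (2 * (3 * ((N : ℝ) ^ 2 * (41 * δ / γ))))
          ≤ (13 / γ) * (2 * (3 * ((201 / γ) ^ 2 * (41 * δ / γ)))) := by gcongr
        _ = 2 * 13 * 3 * 201 ^ 2 * 41 * δ / γ ^ 4 := by field_simp
  · intro x hx hxX r hr1 hr2 hin
    rw [mass_eq] at hin
    simp only [mem_iUnion, not_exists, mem_union, not_or] at hxX
    obtain ⟨x1, x2, x3, x4⟩ := id hx
    have hγE : 0 < γ * E := by positivity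
    rcases split_or_strip (s := s) hσ hγ hγE
      (fun i => r - 4 * δ < ‖c i - x‖ ∧ ‖c i - x‖ < r + 4 * δ) (fun i => (c i).re)
      (fun i a => by
        have := abs_le.1 (Complex.abs_re_le_norm (c i - x))
        rw [Complex.sub_re] at this
        constructor <;> linarith [a.2, this.1, this.2]) K hK with ⟨k, hk, h1, h2⟩ | ⟨a, ha⟩
    · exact absurd ⟨mem_interior_Bset hσ hδ hr1 hr2 hin h1 h2, hx⟩ (hxX k hk).1
    rcases split_or_strip (s := s) hσ hγ hγE
      (fun i => r - 4 * δ < ‖c i - x‖ ∧ ‖c i - x‖ < r + 4 * δ) (fun i => (c i).im)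
      (fun i a => by
        have := abs_le.1 (Complex.abs_im_le_norm (c i - x))
        rw [Complex.sub_im] at this
        constructor <;> linarith [a.2, this.1, this.2]) K hK with ⟨k, hk, h1, h2⟩ | ⟨b, hb⟩
    · exact absurd ⟨mem_interior_Bset hσ hδ hr1 hr2 hin h1 h2, hx⟩ (hxX k hk).2
    refine ⟨⟨a + γ, b + γ⟩, ?_⟩
    rw [mass_eq]
    refine le_trans (mass_le_add hσ fun i h => ?_) ((add_le_add ha hb).trans (by linarith))
    by_contra hn
    have n1 : ¬ ((c i).re < a ∨ a + 2 * γ ≤ (c i).re) := fun h' => hn (Or.inl ⟨⟨h.1, h.2.1⟩, h'⟩)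
    have n2 : ¬ ((c i).im < b ∨ b + 2 * γ ≤ (c i).im) := fun h' => hn (Or.inr ⟨⟨h.1, h.2.1⟩, h'⟩)
    push Not at n1 n2
    have n3 := Complex.norm_le_abs_re_add_abs_im (c i - ⟨a + γ, b + γ⟩)
    simp only [Complex.sub_re, Complex.sub_im] at n3
    have n4 : |(c i).re - (a + γ)| ≤ γ := abs_le.2 ⟨by linarith [n1.1], by linarith [n1.2]⟩
    have n5 : |(c i).im - (b + γ)| ≤ γ := abs_le.2 ⟨by linarith [n2.1], by linarith [n2.2]⟩
    linarith [h.2.2]

end Crest.Agent.R112
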