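import Crest.Agent.R112.Defs

set_option autoImplicit false

namespace Crest.Agent.R112

open MeasureTheory Metric Set Filter Topology

/-! # One dimensional lemma: total descent of a finite sequence -/

/-- Pointwise counting inequality at the level `t`. -/
theorem run_point (N K : ℕ) (hK : N ≤ 2 ^ K) (y : ℕ → ℝ) (B : ℝ) (Λ : ℕ → ℕ → ℝ)
    (hB : ∀ i, i ≤ N → y 0 - y i ≤ B)
    (hΛ : ∀ m p z q : ℕ, m < K → p < z → z < q → q ≤ N → q - p ≤ 2 ^ (m + 1) →
      y z - max (y p) (y q) ≤ Λ m z) (t : ℝ) (n : ℕ) (hn : n ≤ N) :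
    ∑ i ∈ Finset.range n, (Ico (y (i + 1)) (y i)).indicator (fun _ => (1 : ℝ)) t ≤
      (Ico (y 0 - B) (y 0)).indicator (fun _ => (1 : ℝ)) t +
        ∑ z ∈ Finset.range n, ∑ m ∈ Finset.range K,
          (1 / 2 : ℝ) ^ m * (Ico (y z - Λ m z) (y z)).indicator (fun _ => (1 : ℝ)) t := by
  classical
  have hind : ∀ a b : ℝ, 0 ≤ (Ico a b).indicator (fun _ => (1 : ℝ)) t := fun a b =>
    Set.indicator_nonneg (fun _ _ => zero_le_one) t
  obtain ⟨w, hw⟩ : ∃ w : ℕ → ℝ, w = fun z => ∑ m ∈ Finset.range K,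
      (1 / 2 : ℝ) ^ m * (Ico (y z - Λ m z) (y z)).indicator (fun _ => (1 : ℝ)) t := ⟨_, rfl⟩
  have hw0 : ∀ z, 0 ≤ w z := fun z => by
    rw [hw]
    exact Finset.sum_nonneg fun m _ => mul_nonneg (by positivity) (hind _ _)
  obtain ⟨d, hd⟩ : ∃ d : ℕ → ℝ, d = fun i =>
      (Ico (y (i + 1)) (y i)).indicator (fun _ => (1 : ℝ)) t := ⟨_, rfl⟩
  have hd0 : ∀ i, t < y (i + 1) → d i = 0 := fun i hi => by
    rw [hd]
    exact Set.indicator_of_notMem (fun h => absurd h.1 (not_le.2 hi)) _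
  suffices h : ∑ i ∈ Finset.range n, d i ≤
      (Ico (y 0 - B) (y 0)).indicator (fun _ => (1 : ℝ)) t + ∑ z ∈ Finset.range n, w z by
    rw [hd, hw] at h
    exact h
  induction n using Nat.strong_induction_on with
  | _ n ih =>
  rcases n with _ | k
  · simpa using hind _ _
  by_cases hk : t ∈ Ico (y (k + 1)) (y k)
  swap
  · have h1 : d k = 0 := by
      rw [hd]
      exact Set.indicator_of_notMem hk _
    have h2 := ih k (Nat.lt_succ_self k) (by omega)
    rw [Finset.sum_range_succ, Finset.sum_range_succ, h1]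
    linarith [hw0 k]
  have hdk : d k = 1 := by
    rw [hd]
    exact Set.indicator_of_mem hk _
  by_cases hex : ∃ p, p ≤ k ∧ y p ≤ t
  swap
  · have hall : ∀ p, p ≤ k → t < y p := fun p hp => by
      by_contra h
      exact hex ⟨p, hp, not_lt.1 h⟩
    have h1 : ∑ i ∈ Finset.range k, d i = 0 :=
      Finset.sum_eq_zero fun i hi => hd0 i (hall _ (Finset.mem_range.1 hi))
    have h2 : t ∈ Ico (y 0 - B) (y 0) :=
      ⟨by linarith [hB (k + 1) hn, hk.1], hall 0 (Nat.zero_le _)⟩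
    rw [Finset.sum_range_succ, h1, hdk, Set.indicator_of_mem h2]
    have := Finset.sum_nonneg (s := Finset.range (k + 1)) fun z _ => hw0 z
    linarith
  obtain ⟨p0, hp0, hp0t⟩ := hex
  obtain ⟨p, hp⟩ : ∃ p, p = Nat.findGreatest (fun p => y p ≤ t) k := ⟨_, rfl⟩
  have hpt : y p ≤ t := by
    rw [hp]
    exact Nat.findGreatest_spec (P := fun p => y p ≤ t) hp0 hp0t
  have hpk : p ≤ k := by
    rw [hp]
    exact Nat.findGreatest_le k
  have hgt : ∀ z, p < z → z ≤ k → t < y z := fun z h1 h2 => by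
    rw [hp] at h1
    exact not_le.1 (Nat.findGreatest_is_greatest (P := fun p => y p ≤ t) h1 h2)
  have hpk' : p < k := by
    rcases hpk.lt_or_eq with h | h
    · exact h
    · subst h
      exact absurd hpt (not_le.2 hk.2)
  have h1 : ∑ i ∈ Finset.range (k + 1), d i = ∑ i ∈ Finset.range p, d i + 1 := by
    rw [Finset.sum_range_succ, hdk, ← Finset.sum_range_add_sum_Ico d hpk,
      Finset.sum_eq_zero (s := Finset.Ico p k) fun i hi => hd0 i
        (hgt _ (by have := (Finset.mem_Ico.1 hi).1; omega)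
          (by have := (Finset.mem_Ico.1 hi).2; omega)), add_zero]
  obtain ⟨m, hm⟩ : ∃ m, m = Nat.log 2 (k - p) := ⟨_, rfl⟩
  have hm1 : 2 ^ m ≤ k - p := by
    rw [hm]
    exact Nat.pow_log_le_self 2 (by omega)
  have hm2 : k - p < 2 ^ (m + 1) := by
    rw [hm]
    exact Nat.lt_pow_succ_log_self (by norm_num) _
  have hmK : m < K := by
    have : 2 ^ m < 2 ^ K := by omega
    exact (Nat.pow_lt_pow_iff_right (by norm_num)).1 this
  have h2 : ∀ z ∈ Finset.Ico (p + 1) (k + 1), (1 / 2 : ℝ) ^ m ≤ w z := by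
    intro z hz
    obtain ⟨hz1, hz2⟩ := Finset.mem_Ico.1 hz
    have hmem : t ∈ Ico (y z - Λ m z) (y z) := by
      refine ⟨?_, hgt z (by omega) (by omega)⟩
      have h3 := hΛ m p z (k + 1) hmK (by omega) hz2 hn (by omega)
      have h4 : max (y p) (y (k + 1)) ≤ t := max_le hpt hk.1
      linarith
    rw [hw]
    have h5 := Finset.single_le_sum (s := Finset.range K) (f := fun m => (1 / 2 : ℝ) ^ m *
      (Ico (y z - Λ m z) (y z)).indicator (fun _ => (1 : ℝ)) t)
      (fun m _ => mul_nonneg (by positivity) (hind _ _)) (Finset.mem_range.2 hmK)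
    rwa [Set.indicator_of_mem hmem, mul_one] at h5
  have h3 : (1 : ℝ) ≤ ∑ z ∈ Finset.Ico (p + 1) (k + 1), w z := by
    have h4 := Finset.card_nsmul_le_sum _ _ _ h2
    rw [Nat.card_Ico, nsmul_eq_mul] at h4
    refine le_trans ?_ h4
    have h5 : ((2 ^ m : ℕ) : ℝ) ≤ ((k + 1 - (p + 1) : ℕ) : ℝ) := by
      exact_mod_cast (by omega : 2 ^ m ≤ k + 1 - (p + 1))
    have h6 : ((2 ^ m : ℕ) : ℝ) * (1 / 2 : ℝ) ^ m = 1 := by
      push_cast
      rw [← mul_pow]
      norm_num
    calc (1 : ℝ) = ((2 ^ m : ℕ) : ℝ) * (1 / 2 : ℝ) ^ m := h6.symm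
      _ ≤ _ := mul_le_mul_of_nonneg_right h5 (by positivity)
  have h4 : ∑ z ∈ Finset.range (k + 1), w z = ∑ z ∈ Finset.range p, w z + w p +
      ∑ z ∈ Finset.Ico (p + 1) (k + 1), w z := by
    rw [← Finset.sum_range_succ, Finset.sum_range_add_sum_Ico w (by omega)]
  have h5 := ih p (by omega) (by omega)
  rw [h1, h4]
  linarith [hw0 p]

theorem run_integrable (a b : ℝ) :
    Integrable ((Ico a b).indicator (fun _ => (1 : ℝ))) volume :=
  (integrable_indicator_iff measurableSet_Ico).2 (integrableOn_const (by simp))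

theorem run_integral (a b : ℝ) :
    ∫ t, (Ico a b).indicator (fun _ => (1 : ℝ)) t = max 0 (b - a) := by
  rw [integral_indicator_const _ measurableSet_Ico, smul_eq_mul, mul_one, Real.volume_real_Ico,
    max_comm]

/-- Recipe (layer cake).  `max 0 (y i - y (i+1)) = |{t | y (i+1) ≤ t < y i}|`.  Fix `t`.  Every
`i < N` with `y (i+1) ≤ t < y i` ends a maximal run of indices with `t < y`.  At most one such run
starts at `0`, and then `y 0 - B ≤ t < y 0`.  Any other run is `p < z < q = i + 1` with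
`y p, y q ≤ t`; for its length `ℓ = q - p - 1`, `2^m ≤ ℓ < 2^(m+1)`, `m < K`, and
`1 ≤ (1/2)^m * #{z in the run}`, every such `z` has `y z - Λ m z ≤ t < y z`.  Runs with different
ends are disjoint, so pointwise in `t`
`#{i} ≤ 1[y 0 - B ≤ t < y 0] + ∑ m < K, (1/2)^m ∑ z ≤ N, 1[y z - Λ m z ≤ t < y z]`; integrate. -/
theorem run_lemma (N K : ℕ) (hK : N ≤ 2 ^ K) (y : ℕ → ℝ) (B : ℝ) (Λ : ℕ → ℕ → ℝ)
    (hB : ∀ i, i ≤ N → y 0 - y i ≤ B) (hΛ0 : ∀ m z, 0 ≤ Λ m z)
    (hΛ : ∀ m p z q : ℕ, m < K → p < z → z < q → q ≤ N → q - p ≤ 2 ^ (m + 1) →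
      y z - max (y p) (y q) ≤ Λ m z) :
    ∑ i ∈ Finset.range N, max 0 (y i - y (i + 1)) ≤
      B + ∑ m ∈ Finset.range K, (1 / 2 : ℝ) ^ m * ∑ z ∈ Finset.range (N + 1), Λ m z := by
  have hB0 : 0 ≤ B := by simpa using hB 0 (Nat.zero_le _)
  have hi2 : ∀ z, Integrable (fun t => ∑ m ∈ Finset.range K,
      (1 / 2 : ℝ) ^ m * (Ico (y z - Λ m z) (y z)).indicator (fun _ => (1 : ℝ)) t) volume :=
    fun z => integrable_finsetSum _ fun m _ => (run_integrable _ _).const_mul _
  have h := integral_mono (μ := volume)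
    (integrable_finsetSum (Finset.range N) fun i _ => run_integrable (y (i + 1)) (y i))
    ((run_integrable (y 0 - B) (y 0)).add
      (integrable_finsetSum (Finset.range N) fun z _ => hi2 z))
    fun t => run_point N K hK y B Λ hB hΛ t N le_rfl
  rw [integral_finsetSum _ fun i _ => run_integrable _ _] at h
  have e : ∫ t, ((Ico (y 0 - B) (y 0)).indicator (fun _ => (1 : ℝ)) +
      fun t => ∑ z ∈ Finset.range N, ∑ m ∈ Finset.range K,
        (1 / 2 : ℝ) ^ m * (Ico (y z - Λ m z) (y z)).indicator (fun _ => (1 : ℝ)) t) t =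
      B + ∑ z ∈ Finset.range N, ∑ m ∈ Finset.range K, (1 / 2 : ℝ) ^ m * Λ m z := by
    simp only [Pi.add_apply]
    rw [integral_add (run_integrable _ _) (integrable_finsetSum _ fun z _ => hi2 z),
      run_integral, integral_finsetSum _ fun z _ => hi2 z, sub_sub_cancel, max_eq_right hB0]
    congr 1
    refine Finset.sum_congr rfl fun z _ => ?_
    rw [integral_finsetSum _ fun m _ => (run_integrable _ _).const_mul _]
    refine Finset.sum_congr rfl fun m _ => ?_
    rw [integral_const_mul, run_integral, sub_sub_cancel, max_eq_right (hΛ0 m z)]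
  rw [e] at h
  simp only [run_integral] at h
  refine h.trans ?_
  rw [Finset.sum_comm]
  gcongr with m hm
  rw [Finset.sum_range_succ, mul_add, Finset.mul_sum]
  have := mul_nonneg (show (0 : ℝ) ≤ (1 / 2) ^ m by positivity) (hΛ0 m N)
  linarith

end Crest.Agent.R112
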