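import Crest.Agent.R112.Single

set_option autoImplicit false

namespace Crest.Agent.R112

open MeasureTheory Metric Set Filter Topology

/-! # The single scale bounds for an arbitrary cell -/

theorem Scale_pre (Q : Cell) (j : ℕ) (p : ℤ × ℤ) :
    (fun w : ℂ => (((2 : ℝ) ^ Q.1 : ℝ) : ℂ) * w + cn Q) ⁻¹'
      cell ((Q.1 - j, (Q.2.1 * 2 ^ j + p.1, Q.2.2 * 2 ^ j + p.2)) : Cell) =
      cell ((0 - j, p) : Cell) := by
  have hc : (0 : ℝ) < 2 ^ Q.1 := cel_pos _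
  have h1 : (2 : ℝ) ^ (Q.1 - j) = 2 ^ Q.1 * 2 ^ ((0 : ℤ) - j) := by
    rw [← zpow_add₀ two_ne_zero]; congr 1; ring
  have h2 : (2 : ℝ) ^ j * 2 ^ ((0 : ℤ) - j) = 1 := by
    rw [← zpow_natCast, ← zpow_add₀ two_ne_zero]; simp
  have key : ∀ (a b : ℤ) (t e : ℝ),
      (((a * 2 ^ j + b : ℤ) : ℝ) + e) * 2 ^ (Q.1 - j) = 2 ^ Q.1 * ((b + e) * 2 ^ ((0 : ℤ) - j)) +
        a * 2 ^ Q.1 := by
    intro a b t e
    rw [h1]
    push_cast
    linear_combination (a * 2 ^ Q.1 : ℝ) * h2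
  have k1 : ∀ (a b : ℤ) (t : ℝ), ((a * 2 ^ j + b : ℤ) : ℝ) * 2 ^ (Q.1 - j) ≤ 2 ^ Q.1 * t +
      a * 2 ^ Q.1 ↔ (b : ℝ) * 2 ^ ((0 : ℤ) - j) ≤ t := by
    intro a b t
    have := key a b t 0
    rw [add_zero, add_zero] at this
    rw [this, add_le_add_iff_right, mul_le_mul_iff_right₀ hc]
  have k2 : ∀ (a b : ℤ) (t : ℝ), 2 ^ Q.1 * t + a * 2 ^ Q.1 <
      (((a * 2 ^ j + b : ℤ) : ℝ) + 1) * 2 ^ (Q.1 - j) ↔ t < ((b : ℝ) + 1) * 2 ^ ((0 : ℤ) - j) := by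
    intro a b t
    rw [key a b t 1, add_lt_add_iff_right, mul_lt_mul_iff_right₀ hc]
  ext w
  simp only [mem_preimage, cell, mem_ofPred_eq, cn, Complex.add_re, Complex.add_im,
    Complex.re_ofReal_mul, Complex.im_ofReal_mul, k1, k2]

theorem Scale_pre0 (Q : Cell) :
    (fun w : ℂ => (((2 : ℝ) ^ Q.1 : ℝ) : ℂ) * w + cn Q) ⁻¹' cell Q = cell O := by
  have := Scale_pre Q 0 (0, 0)
  simpa [O] using this

theorem Scale_nu (ε : ℂ) (t : ℝ) (w : ℂ) (ht : 0 < t) : nu ε (t * w) = t * nu ε w := by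
  unfold nu
  rw [ip_real_mul_right, ip_real_mul_right, mul_add, mul_max_of_nonneg _ _ ht.le,
    mul_max_of_nonneg _ _ ht.le, mul_zero, mul_neg, mul_neg]

theorem Scale_reg {x : ℂ} (hx : x ∈ cell O) : x ∈ Reg := by
  obtain ⟨h1, h2, h3, h4⟩ := hx
  simp [O] at h1 h2 h3 h4
  exact ⟨by linarith, by linarith, by linarith, by linarith⟩

/-- the affine map `w ↦ 2^n w + cn Q` sends the cell `(-j, p)` to the cell
`(n - j, Q.2 * 2^j + p)`; so with `c = 2^n`, `G' w = c G (c w + cn Q)`,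
`V G' (-j, p) = c⁻¹ V G (n - j, …)` (`setIntegral_affine`) -/
theorem S_affine {φ : ℂ → ℝ} (hφ : ∀ (t : ℝ) (w : ℂ), 0 < t → φ (t * w) = t * φ w) (G : ℂ → ℂ)
    (Q : Cell) (o s j : ℕ) :
    S φ (fun w => (((2 : ℝ) ^ Q.1 : ℝ) : ℂ) * G ((((2 : ℝ) ^ Q.1 : ℝ) : ℂ) * w + cn Q)) O o s j =
      ((2 : ℝ) ^ Q.1)⁻¹ * S φ G Q o s j := by
  have hc : (0 : ℝ) < 2 ^ Q.1 := cel_pos _
  unfold S sub
  rw [Finset.sum_image (fun p _ q _ h => (Prod.mk.inj h).2),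
    Finset.sum_image (fun p _ q _ h => (Prod.mk.inj h).2), Finset.mul_sum]
  refine Finset.sum_nbij' (fun p => (Q.2.1 * 2 ^ j + p.1, Q.2.2 * 2 ^ j + p.2))
    (fun p => (p.1 - Q.2.1 * 2 ^ j, p.2 - Q.2.2 * 2 ^ j)) ?_ ?_ ?_ ?_ ?_
  · intro p hp
    simp only [Finset.mem_product, Finset.mem_Ico, O] at hp ⊢
    obtain ⟨⟨h1, h2⟩, h3, h4⟩ := hp
    refine ⟨⟨?_, ?_⟩, ?_, ?_⟩ <;> linarith
  · intro p hp
    simp only [Finset.mem_product, Finset.mem_Ico, O] at hp ⊢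
    obtain ⟨⟨h1, h2⟩, h3, h4⟩ := hp
    refine ⟨⟨?_, ?_⟩, ?_, ?_⟩ <;> linarith
  · intro p _
    ext <;> simp
  · intro p _
    ext <;> simp
  · intro p _
    rw [← hφ _ _ (inv_pos.2 hc)]
    congr 1
    unfold V
    have e : cell ((O.1 - j, p) : Cell) = cell ((0 - j, p) : Cell) := rfl
    rw [e, ← Scale_pre Q j p, integral_const_mul,
      setIntegral_affine G hc (cn Q) (measurableSet_cell _), Complex.real_smul, ← mul_assoc,
      ← Complex.ofReal_mul]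
    congr 2
    field_simp

/-- `Hyp.affine`, `bb_affine`, `single_unit`, `S_le_estar`; chain rule at the points of
differentiability (or `fderiv_comp` with the invertible affine map) -/
theorem single_scale : ∃ C : ℝ, 0 < C ∧ ∀ (F : ℂ → ℝ) (G : ℂ → ℂ), Hyp F G →
    ∀ (ε e : ℂ), Cone ε e → ∀ Q : Cell,
    ∫ x in cell Q, max 0 (-(fderiv ℝ (bb F Q.1) x e)) ≤ C * estar ε G Q := by
  obtain ⟨C, hC, H⟩ := single_unit
  refine ⟨C, hC, fun F G h ε e hcone Q => ?_⟩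
  have hc : (0 : ℝ) < 2 ^ Q.1 := cel_pos _
  have h1 := H _ _ (h.affine hc (cn Q)) ε e hcone (((2 : ℝ) ^ Q.1)⁻¹ * estar ε G Q) (fun i => by
    rw [S_affine (Scale_nu ε), mul_left_comm]
    exact mul_le_mul_of_nonneg_left (S_le_estar h.intG hcone.1 Q i) (inv_pos.2 hc).le)
  have e1 : bb (fun w => F ((((2 : ℝ) ^ Q.1 : ℝ) : ℂ) * w + cn Q)) 0 =
      fun x => (fun y => bb F Q.1 (y + cn Q)) (((2 : ℝ) ^ Q.1) • x) := by
    funext x
    rw [bb_affine, Complex.real_smul]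
  have e2 : ∀ x, max 0 (-(fderiv ℝ (bb (fun w => F ((((2 : ℝ) ^ Q.1 : ℝ) : ℂ) * w + cn Q)) 0) x e)) =
      2 ^ Q.1 * (fun y => max 0 (-(fderiv ℝ (bb F Q.1) y e)))
        ((((2 : ℝ) ^ Q.1 : ℝ) : ℂ) * x + cn Q) := by
    intro x
    have e0 := fderiv_comp_smul (𝕜 := ℝ) (f := fun y => bb F Q.1 (y + cn Q)) (x := x) (2 ^ Q.1)
    beta_reduce
    rw [e1, e0, fderiv_comp_add_right, ContinuousLinearMap.smul_apply, smul_eq_mul,
      Complex.real_smul, mul_max_of_nonneg _ _ hc.le, mul_zero, mul_neg]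
  simp only [e2] at h1
  rw [integral_const_mul, ← Scale_pre0 Q,
    setIntegral_affine (fun y => max 0 (-(fderiv ℝ (bb F Q.1) y e))) hc (cn Q)
      (measurableSet_cell _), smul_eq_mul] at h1
  have h2 := mul_le_mul_of_nonneg_left h1 hc.le
  have e3 : ∀ t : ℝ, 2 ^ Q.1 * (2 ^ Q.1 * ((((2 : ℝ) ^ Q.1) ^ 2)⁻¹ * t)) = t := fun t => by
    field_simp
  have e4 : 2 ^ Q.1 * (C * (((2 : ℝ) ^ Q.1)⁻¹ * estar ε G Q)) = C * estar ε G Q := by
    field_simp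
  rwa [e3, e4] at h2

/-- both signs: `|t| = max 0 (-t) + max 0 t`, `Cone.neg`, `estar_le_mstar` -/
theorem single_scale_abs : ∃ C : ℝ, 0 < C ∧ ∀ (F : ℂ → ℝ) (G : ℂ → ℂ), Hyp F G →
    ∀ (ε e : ℂ), Cone ε e → ∀ Q : Cell,
    ∫ x in cell Q, |fderiv ℝ (bb F Q.1) x e| ≤ C * mstar G Q 4 9 := by
  obtain ⟨C, hC, H⟩ := single_scale
  refine ⟨4 * C, by positivity, fun F G h ε e hcone Q => ?_⟩
  have h1 := H F G h ε e hcone Q
  have h2 := H F G h (-ε) (-e) hcone.neg Q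
  have h3 := mul_le_mul_of_nonneg_left (estar_le_mstar h.intG hcone.1 Q) hC.le
  have h4 := mul_le_mul_of_nonneg_left (estar_le_mstar h.intG hcone.neg.1 Q) hC.le
  obtain ⟨K, hK⟩ := h.bb_lip Q.1
  have hb : Bornology.IsBounded (cell Q) := box_zero_one Q ▸ isBounded_box Q 0 1
  have i1 : IntegrableOn (fun x => max 0 (-(fderiv ℝ (bb F Q.1) x e))) (cell Q) :=
    (integrable_zero _ _ _).sup (integrableOn_fderiv_apply hK hb e).neg
  have i2 : IntegrableOn (fun x => max 0 (-(fderiv ℝ (bb F Q.1) x (-e)))) (cell Q) :=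
    (integrable_zero _ _ _).sup (integrableOn_fderiv_apply hK hb (-e)).neg
  have e1 : ∫ x in cell Q, |fderiv ℝ (bb F Q.1) x e| =
      (∫ x in cell Q, max 0 (-(fderiv ℝ (bb F Q.1) x e))) +
        ∫ x in cell Q, max 0 (-(fderiv ℝ (bb F Q.1) x (-e))) := by
    rw [← integral_add i1 i2]
    congr 1
    funext x
    rw [map_neg, neg_neg]
    rcases le_total 0 (fderiv ℝ (bb F Q.1) x e) with h0 | h0
    · rw [abs_of_nonneg h0, max_eq_left (by linarith), max_eq_right h0, zero_add]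
    · rw [abs_of_nonpos h0, max_eq_right (by linarith), max_eq_left h0, add_zero]
  rw [e1]
  linarith

/-- `radial_lemma` after scaling, `S_le_mstar`, `Hyp.exists_bb_eq` -/
theorem radial_scale : ∃ C : ℝ, 0 < C ∧ ∀ (F : ℂ → ℝ) (G : ℂ → ℂ), Hyp F G → ∀ Q : Cell,
    ∀ x ∈ cell Q, bb F Q.1 x - av F x (2 ^ (Q.1 + 1)) ≤ C * mstar G Q 4 9 / 2 ^ Q.1 := by
  obtain ⟨C, hC, H⟩ := radial_lemma
  refine ⟨C, hC, fun F G h Q x hx => ?_⟩
  have hc : (0 : ℝ) < 2 ^ Q.1 := cel_pos _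
  obtain ⟨r, hr1, hr2, e⟩ := h.exists_bb_eq Q.1 x
  have e2 : (2 : ℝ) ^ (Q.1 + 1) = 2 ^ Q.1 * 2 := zpow_add_one₀ two_ne_zero _
  set y : ℂ := (x - cn Q) / (((2 : ℝ) ^ Q.1 : ℝ) : ℂ) with hy
  have hxy : (((2 : ℝ) ^ Q.1 : ℝ) : ℂ) * y + cn Q = x := by
    have : (((2 : ℝ) ^ Q.1 : ℝ) : ℂ) ≠ 0 := Complex.ofReal_ne_zero.2 hc.ne'
    rw [hy, mul_div_cancel₀ _ this, sub_add_cancel]
  have hyO : y ∈ cell O := by
    rw [← Scale_pre0 Q, mem_preimage, hxy]; exact hx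
  have h1 := H _ _ (h.affine hc (cn Q)) (((2 : ℝ) ^ Q.1)⁻¹ * mstar G Q 4 9) (fun i => by
    rw [S_affine (φ := fun w => ‖w‖) (fun t w ht => by
      rw [norm_mul, Complex.norm_real, Real.norm_of_nonneg ht.le]), mul_left_comm]
    exact mul_le_mul_of_nonneg_left (S_le_mstar h.intG Q 4 9 i) (inv_pos.2 hc).le)
    y (Scale_reg hyO) (r / 2 ^ Q.1) ((one_le_div hc).2 hr1)
    ((div_le_iff₀ hc).2 (by rw [e2] at hr2; linarith))
  rw [av_affine F hc, av_affine F hc, hxy, mul_div_cancel₀ _ hc.ne', ← e2, ← e] at h1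
  refine h1.trans (le_of_eq ?_)
  field_simp

end Crest.Agent.R112
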