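import Crest.Agent.R112.Peak
import Crest.Agent.R112.Run

set_option autoImplicit false

namespace Crest.Agent.R112

open MeasureTheory Metric Set Filter Topology

/-! # The one-sided single scale bound at unit scale -/

/-- the disc of starting points -/
def singleS : Set ℂ := closedBall (⟨1 / 2, 1 / 2⟩ : ℂ) 1

theorem single_compact : IsCompact singleS := isCompact_closedBall _ _

theorem single_meas : MeasurableSet singleS := single_compact.measurableSet

theorem single_reg {x e : ℂ} (he : ‖e‖ = 1) (hx : x ∈ singleS) {T : ℝ} (h0 : 0 ≤ T)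
    (h1 : T ≤ 1 / 8) : x + T * e ∈ Reg := by
  have h2 : ‖x + T * e - ⟨1 / 2, 1 / 2⟩‖ ≤ 9 / 8 := by
    have h3 : ‖x - ⟨1 / 2, 1 / 2⟩‖ ≤ 1 := mem_closedBall_iff_norm.1 hx
    have h4 : ‖(T : ℂ) * e‖ = T := by
      rw [norm_mul, he, Complex.norm_real, Real.norm_of_nonneg h0, mul_one]
    calc ‖x + T * e - ⟨1 / 2, 1 / 2⟩‖ = ‖(x - ⟨1 / 2, 1 / 2⟩) + T * e‖ := by congr 1; ring
      _ ≤ ‖x - ⟨1 / 2, 1 / 2⟩‖ + ‖(T : ℂ) * e‖ := norm_add_le _ _
      _ ≤ 9 / 8 := by linarith
  have a := abs_le.1 ((Complex.abs_re_le_norm _).trans h2)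
  have b := abs_le.1 ((Complex.abs_im_le_norm _).trans h2)
  rw [Complex.sub_re] at a
  rw [Complex.sub_im] at b
  exact ⟨by linarith [a.1], by linarith [a.2], by linarith [b.1], by linarith [b.2]⟩

theorem single_mem {x v : ℂ} (hv : ‖v‖ ≤ 1 / 8) (hx : x + v ∈ cell O) : x ∈ singleS := by
  obtain ⟨h1, h2, h3, h4⟩ := hx
  simp only [O, Int.cast_zero, zpow_zero, mul_one, zero_add] at h1 h2 h3 h4
  have h5 : ‖x + v - ⟨1 / 2, 1 / 2⟩‖ ≤ 3 / 2 * (1 / 2) := by
    refine cel_norm_le (abs_le.2 ?_) (abs_le.2 ?_)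
    · rw [Complex.sub_re]
      exact ⟨by linarith, by linarith⟩
    · rw [Complex.sub_im]
      exact ⟨by linarith, by linarith⟩
  refine mem_closedBall_iff_norm.2 ?_
  calc ‖x - ⟨1 / 2, 1 / 2⟩‖ = ‖(x + v - ⟨1 / 2, 1 / 2⟩) - v‖ := by congr 1; ring
    _ ≤ ‖x + v - ⟨1 / 2, 1 / 2⟩‖ + ‖v‖ := norm_sub_le _ _
    _ ≤ 1 := by linarith

theorem single_shift_left {φ : ℂ → ℝ} (hφ : Continuous φ) (h0 : ∀ x, 0 ≤ φ x) {v : ℂ}
    (hv : ‖v‖ ≤ 1 / 8) : ∫ x in cell O, φ x ≤ ∫ x in singleS, φ (x + v) := by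
  have hi : IntegrableOn (fun x => φ (x + v)) singleS :=
    (hφ.comp (continuous_id.add continuous_const)).continuousOn.integrableOn_compact
      single_compact
  rw [← integral_indicator (measurableSet_cell O), ← integral_indicator single_meas,
    ← integral_add_right_eq_self _ v]
  refine integral_mono_of_nonneg (Eventually.of_forall fun x => indicator_nonneg
    (fun y _ => h0 y) _) ((integrable_indicator_iff single_meas).2 hi)
    (Eventually.of_forall fun x => ?_)
  by_cases hx : x + v ∈ cell O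
  · simp only [indicator_of_mem hx, indicator_of_mem (single_mem hv hx), le_refl]
  · simp only [indicator_of_notMem hx]
    exact indicator_nonneg (fun y _ => h0 _) _

theorem single_ind_integrable {X : Set ℂ} (hX : MeasurableSet X) (hv : volume X ≠ ⊤) (v : ℂ) :
    Integrable (fun x => X.indicator (fun _ => (1 : ℝ)) (x + v)) :=
  ((integrable_indicator_iff hX).2 (integrableOn_const hv)).comp_add_right v

theorem single_shift_right {X : Set ℂ} (hX : MeasurableSet X) (hv : volume X ≠ ⊤) (v : ℂ) :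
    ∫ x in singleS, X.indicator (fun _ => (1 : ℝ)) (x + v) ≤ (volume X).toReal := by
  refine (setIntegral_le_integral (single_ind_integrable hX hv v)
    (Eventually.of_forall fun x => indicator_nonneg (fun _ _ => zero_le_one) _)).trans ?_
  rw [integral_add_right_eq_self (fun x => X.indicator (fun _ => (1 : ℝ)) x) v,
    integral_indicator_const _ hX, smul_eq_mul, mul_one]
  rfl

theorem single_geom (K : ℕ) :
    ∑ m ∈ Finset.range K, (99 / 100 : ℝ) ^ (K - (m + 1)) ≤ 100 := by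
  have h1 := Finset.sum_range_reflect (fun j => (99 / 100 : ℝ) ^ j) K
  have h2 : ∑ m ∈ Finset.range K, (99 / 100 : ℝ) ^ (K - (m + 1)) =
      ∑ m ∈ Finset.range K, (99 / 100 : ℝ) ^ (K - 1 - m) :=
    Finset.sum_congr rfl fun m _ => by congr 1; omega
  rw [h2, h1, geom_sum_eq (by norm_num)]
  have : (0 : ℝ) ≤ (99 / 100) ^ K := by positivity
  rw [div_le_iff_of_neg (by norm_num)]
  linarith

/-- the discrete estimate -/
theorem single_core {b : ℂ → ℝ} (hb : Continuous b) {e : ℂ} (he : ‖e‖ = 1) {k1 : ℕ}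
    (hk1 : 3 ≤ k1) {Bd Cp : ℝ} (hCp : 0 ≤ Cp)
    (hdrop : ∀ x ∈ Reg, ∀ T : ℝ, 0 ≤ T → T ≤ 1 / 4 → b x - b (x + T * e) ≤ Bd)
    (hpeak : ∀ j : ℕ, ∃ (X : Set ℂ) (A B : ℝ), MeasurableSet X ∧ volume X ≠ ⊤ ∧ 0 ≤ A ∧ 0 ≤ B ∧
      A + B * (volume X).toReal ≤ (1 / 2) ^ (k1 + j) * (99 / 100) ^ (k1 + j) * Cp ∧
      ∀ x ∈ Reg, ∀ a c : ℝ, 0 < a → a ≤ (1 / 2) ^ (k1 + j) → 0 < c → c ≤ (1 / 2) ^ (k1 + j) →
        b x - max (b (x - a * e)) (b (x + c * e)) ≤ A + B * X.indicator (fun _ => (1 : ℝ)) x)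
    (K : ℕ) :
    (2 : ℝ) ^ K * ∫ x in cell O, max 0 (b x - b (x + (((1 / 2 : ℝ) ^ (k1 + K) : ℝ) : ℂ) * e)) ≤
      volume.real singleS * Bd + 400 * (1 / 2) ^ k1 * (volume.real singleS + 1) * Cp := by
  choose X A B hX hXv hA hB hsum hpk using hpeak
  obtain ⟨h, hh⟩ : ∃ h : ℝ, h = (1 / 2) ^ (k1 + K) := ⟨_, rfl⟩
  rw [← hh]
  have hh0 : 0 < h := by rw [hh]; positivity
  have hNh : (2 : ℝ) ^ K * h = (1 / 2) ^ k1 := by
    rw [hh, pow_add, mul_comm, mul_assoc, ← mul_pow]
    norm_num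
  have hL : (1 / 2 : ℝ) ^ k1 ≤ 1 / 8 :=
    (pow_le_pow_of_le_one (by norm_num) (by norm_num) hk1).trans (by norm_num)
  have hT : ∀ i : ℕ, i ≤ 2 ^ K → (i : ℝ) * h ≤ 1 / 8 := fun i hi => by
    have h1 : (i : ℝ) ≤ 2 ^ K := by exact_mod_cast hi
    calc (i : ℝ) * h ≤ 2 ^ K * h := mul_le_mul_of_nonneg_right h1 hh0.le
      _ ≤ 1 / 8 := by rw [hNh]; exact hL
  obtain ⟨φ, hφ⟩ : ∃ φ : ℂ → ℝ, φ = fun x => max 0 (b x - b (x + (h : ℂ) * e)) := ⟨_, rfl⟩
  have hφc : Continuous φ := by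
    rw [hφ]
    exact continuous_const.max (hb.sub (hb.comp (continuous_id.add continuous_const)))
  have hφ0 : ∀ x, 0 ≤ φ x := fun x => by rw [hφ]; exact le_max_left _ _
  have hind : ∀ j x, 0 ≤ (X j).indicator (fun _ => (1 : ℝ)) x := fun j x =>
    indicator_nonneg (fun _ _ => zero_le_one) _
  -- the pointwise inequality
  have hpt : ∀ x ∈ singleS, ∑ i ∈ Finset.range (2 ^ K), φ (x + ((i * h : ℝ) : ℂ) * e) ≤
      Bd + ∑ m ∈ Finset.range K, (1 / 2 : ℝ) ^ m * ∑ z ∈ Finset.range (2 ^ K + 1),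
        (A (K - (m + 1)) + B (K - (m + 1)) *
          (X (K - (m + 1))).indicator (fun _ => (1 : ℝ)) (x + ((z * h : ℝ) : ℂ) * e)) := by
    intro x hx
    have key := run_lemma (2 ^ K) K le_rfl (fun i => b (x + ((i * h : ℝ) : ℂ) * e)) Bd
      (fun m z => A (K - (m + 1)) + B (K - (m + 1)) *
        (X (K - (m + 1))).indicator (fun _ => (1 : ℝ)) (x + ((z * h : ℝ) : ℂ) * e))
      (fun i hi => by
        have h1 := hdrop x (by simpa using single_reg he hx le_rfl (by norm_num)) (i * h)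
          (by positivity) (by linarith [hT i hi])
        simpa using h1)
      (fun m z => add_nonneg (hA _) (mul_nonneg (hB _) (hind _ _)))
      (fun m p z q hm hpz hzq hq hqp => by
        have h1 : (2 : ℝ) ^ (m + 1) * h = (1 / 2) ^ (k1 + (K - (m + 1))) := by
          have h2 : k1 + K = k1 + (K - (m + 1)) + (m + 1) := by omega
          rw [hh, h2, pow_add (1 / 2 : ℝ) (k1 + (K - (m + 1))), mul_comm, mul_assoc, ← mul_pow]
          norm_num
        have h3 : (p : ℝ) < z := by exact_mod_cast hpz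
        have h4 : (z : ℝ) < q := by exact_mod_cast hzq
        have h5 : (q : ℝ) - p ≤ 2 ^ (m + 1) := by
          have : ((q - p : ℕ) : ℝ) ≤ ((2 ^ (m + 1) : ℕ) : ℝ) := by exact_mod_cast hqp
          rw [Nat.cast_sub (by omega)] at this
          exact_mod_cast this
        have h6 := hpk (K - (m + 1)) _
          (single_reg he hx (T := z * h) (by positivity) (hT z (by omega)))
          ((z - p) * h) ((q - z) * h) (mul_pos (by linarith) hh0)
          (by rw [← h1]; exact mul_le_mul_of_nonneg_right (by linarith) hh0.le)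
          (mul_pos (by linarith) hh0)
          (by rw [← h1]; exact mul_le_mul_of_nonneg_right (by linarith) hh0.le)
        have e1 : x + ((z * h : ℝ) : ℂ) * e - (((z - p) * h : ℝ) : ℂ) * e =
            x + ((p * h : ℝ) : ℂ) * e := by push_cast; ring
        have e2 : x + ((z * h : ℝ) : ℂ) * e + (((q - z) * h : ℝ) : ℂ) * e =
            x + ((q * h : ℝ) : ℂ) * e := by push_cast; ring
        rw [e1, e2] at h6
        exact h6)
    refine le_trans (le_of_eq (Finset.sum_congr rfl fun i _ => ?_)) key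
    have e3 : x + ((i * h : ℝ) : ℂ) * e + (h : ℂ) * e =
        x + ((((i + 1 : ℕ) : ℝ) * h : ℝ) : ℂ) * e := by push_cast; ring
    rw [hφ]
    simp only [e3]
  -- integrate
  have hfin : volume singleS ≠ ⊤ := single_compact.measure_lt_top.ne
  have hic : ∀ c : ℝ, Integrable (fun _ : ℂ => c) (volume.restrict singleS) := fun c =>
    integrableOn_const hfin
  have hi1 : ∀ i : ℕ, IntegrableOn (fun x => φ (x + ((i * h : ℝ) : ℂ) * e)) singleS := fun i =>
    (hφc.comp (continuous_id.add continuous_const)).continuousOn.integrableOn_compact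
      single_compact
  have hi2 : ∀ (j z : ℕ), IntegrableOn (fun x => A j + B j *
      (X j).indicator (fun _ => (1 : ℝ)) (x + ((z * h : ℝ) : ℂ) * e)) singleS := fun j z =>
    (integrableOn_const hfin).add
      ((single_ind_integrable (hX j) (hXv j) _).integrableOn.const_mul _)
  have hi3 : ∀ m : ℕ, IntegrableOn (fun x => (1 / 2 : ℝ) ^ m *
      ∑ z ∈ Finset.range (2 ^ K + 1), (A (K - (m + 1)) + B (K - (m + 1)) *
        (X (K - (m + 1))).indicator (fun _ => (1 : ℝ)) (x + ((z * h : ℝ) : ℂ) * e))) singleS :=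
    fun m => (integrable_finsetSum _ fun z _ => hi2 _ z).const_mul _
  have hint := setIntegral_mono_on (integrable_finsetSum _ fun i _ => hi1 i)
    ((integrableOn_const hfin).add (integrable_finsetSum _ fun m _ => hi3 m)) single_meas hpt
  rw [integral_finsetSum _ fun i _ => hi1 i] at hint
  simp only [Pi.add_apply] at hint
  rw [integral_add (hic _) (integrable_finsetSum _ fun m _ => hi3 m),
    integral_finsetSum _ fun m _ => hi3 m, setIntegral_const, smul_eq_mul] at hint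
  have ha0 : 0 ≤ volume.real singleS := measureReal_nonneg
  have hleft : (2 : ℝ) ^ K * ∫ x in cell O, φ x ≤
      ∑ i ∈ Finset.range (2 ^ K), ∫ x in singleS, φ (x + ((i * h : ℝ) : ℂ) * e) := by
    have h1 := Finset.card_nsmul_le_sum (Finset.range (2 ^ K))
      (fun i : ℕ => ∫ x in singleS, φ (x + ((i * h : ℝ) : ℂ) * e)) (∫ x in cell O, φ x)
      (fun i hi => single_shift_left hφc hφ0 (by
        rw [norm_mul, he, Complex.norm_real, Real.norm_of_nonneg (by positivity), mul_one]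
        exact hT i (Finset.mem_range.1 hi).le))
    rw [Finset.card_range, nsmul_eq_mul] at h1
    exact_mod_cast h1
  have hright : ∀ m ∈ Finset.range K, ∫ x in singleS, (1 / 2 : ℝ) ^ m *
      ∑ z ∈ Finset.range (2 ^ K + 1), (A (K - (m + 1)) + B (K - (m + 1)) *
        (X (K - (m + 1))).indicator (fun _ => (1 : ℝ)) (x + ((z * h : ℝ) : ℂ) * e)) ≤
      4 * (1 / 2) ^ k1 * (volume.real singleS + 1) * Cp * (99 / 100) ^ (K - (m + 1)) := by
    intro m hm
    have hm' := Finset.mem_range.1 hm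
    obtain ⟨j, hj⟩ : ∃ j, j = K - (m + 1) := ⟨_, rfl⟩
    rw [← hj, integral_const_mul, integral_finsetSum _ fun z _ => hi2 _ z]
    have h1 : ∀ z ∈ Finset.range (2 ^ K + 1), ∫ x in singleS, (A j + B j *
        (X j).indicator (fun _ => (1 : ℝ)) (x + ((z * h : ℝ) : ℂ) * e)) ≤
        (volume.real singleS + 1) * ((1 / 2) ^ (k1 + j) * (99 / 100) ^ j * Cp) := by
      intro z _
      rw [integral_add (hic _)
        ((single_ind_integrable (hX j) (hXv j) _).integrableOn.const_mul _), setIntegral_const,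
        smul_eq_mul, integral_const_mul]
      have h2 := mul_le_mul_of_nonneg_left
        (single_shift_right (hX j) (hXv j) (((z * h : ℝ) : ℂ) * e)) (hB j)
      have h3 : (1 / 2 : ℝ) ^ (k1 + j) * (99 / 100) ^ (k1 + j) * Cp ≤
          (1 / 2) ^ (k1 + j) * (99 / 100) ^ j * Cp := by
        have : (99 / 100 : ℝ) ^ (k1 + j) ≤ (99 / 100) ^ j :=
          pow_le_pow_of_le_one (by norm_num) (by norm_num) (by omega)
        gcongr
      have h4 := (hsum j).trans h3
      have h5 : 0 ≤ B j * (volume (X j)).toReal := mul_nonneg (hB j) ENNReal.toReal_nonneg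
      have h6 := mul_le_mul_of_nonneg_left h4 (show 0 ≤ volume.real singleS + 1 by linarith)
      have h7 := mul_nonneg ha0 h5
      have h8 := hA j
      nlinarith
    have h2 := Finset.sum_le_card_nsmul _ _ _ h1
    rw [Finset.card_range, nsmul_eq_mul] at h2
    have h3 : (1 / 2 : ℝ) ^ m * (1 / 2) ^ (k1 + j) = 2 * h := by
      have h4 : k1 + K = m + (k1 + j) + 1 := by omega
      rw [hh, h4, ← pow_add, pow_succ]
      ring
    have h4 : ((2 ^ K + 1 : ℕ) : ℝ) * h ≤ 2 * (1 / 2) ^ k1 := by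
      have h5 : (1 : ℝ) ≤ 2 ^ K := one_le_pow₀ (by norm_num)
      push_cast
      nlinarith
    have h5 : 0 ≤ (volume.real singleS + 1) * Cp * (99 / 100 : ℝ) ^ j := by positivity
    calc _ ≤ (1 / 2 : ℝ) ^ m * (((2 ^ K + 1 : ℕ) : ℝ) *
          ((volume.real singleS + 1) * ((1 / 2) ^ (k1 + j) * (99 / 100) ^ j * Cp))) :=
          mul_le_mul_of_nonneg_left h2 (by positivity)
      _ = ((1 / 2 : ℝ) ^ m * (1 / 2) ^ (k1 + j)) * ((2 ^ K + 1 : ℕ) : ℝ) *
          ((volume.real singleS + 1) * Cp * (99 / 100) ^ j) := by ring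
      _ = 2 * (((2 ^ K + 1 : ℕ) : ℝ) * h) *
          ((volume.real singleS + 1) * Cp * (99 / 100) ^ j) := by rw [h3]; ring
      _ ≤ 2 * (2 * (1 / 2) ^ k1) * ((volume.real singleS + 1) * Cp * (99 / 100) ^ j) := by
          gcongr
      _ = _ := by ring
  have hr2 := Finset.sum_le_sum hright
  rw [← Finset.mul_sum] at hr2
  have hr3 := mul_le_mul_of_nonneg_left (single_geom K)
    (show 0 ≤ 4 * (1 / 2 : ℝ) ^ k1 * (volume.real singleS + 1) * Cp by positivity)
  rw [← hφ]
  linarith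

/-- passage to the limit -/
theorem single_limit {b : ℂ → ℝ} {L : NNReal} (hb : LipschitzWith L b) (e : ℂ) (k1 : ℕ) {M : ℝ}
    (h : ∀ K : ℕ, (2 : ℝ) ^ K *
      ∫ x in cell O, max 0 (b x - b (x + (((1 / 2 : ℝ) ^ (k1 + K) : ℝ) : ℂ) * e)) ≤ M) :
    ∫ x in cell O, max 0 (-(fderiv ℝ b x e)) ≤ 2 ^ k1 * M := by
  have hfin : IsFiniteMeasure (volume.restrict (cell O)) :=
    isFiniteMeasure_restrict.2 (by rw [volume_cell]; exact ENNReal.ofReal_ne_top)
  have hpos : ∀ K : ℕ, (0 : ℝ) < (1 / 2) ^ (k1 + K) := fun K => by positivity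
  have ht : Tendsto (fun K : ℕ => (1 / 2 : ℝ) ^ (k1 + K)) atTop (𝓝[>] 0) := by
    refine tendsto_nhdsWithin_iff.2 ⟨?_, Eventually.of_forall hpos⟩
    have h1 := (tendsto_pow_atTop_nhds_zero_of_lt_one (r := (1 / 2 : ℝ)) (by norm_num)
      (by norm_num)).const_mul ((1 / 2 : ℝ) ^ k1)
    simpa only [pow_add, mul_zero] using h1
  have hlim := tendsto_integral_of_dominated_convergence (μ := volume.restrict (cell O))
    (F := fun (K : ℕ) x => max 0 (-(((1 / 2 : ℝ) ^ (k1 + K))⁻¹ •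
      (b (x + ((1 / 2 : ℝ) ^ (k1 + K)) • e) - b x))))
    (f := fun x => max 0 (-(fderiv ℝ b x e))) (fun _ => L * ‖e‖)
    (fun K => by
      have := hb.continuous
      exact Continuous.aestronglyMeasurable (by fun_prop))
    (integrable_const _)
    (fun K => Eventually.of_forall fun x => by
      have h1 := hb.dist_le_mul (x + ((1 / 2 : ℝ) ^ (k1 + K)) • e) x
      rw [dist_self_add_left, norm_smul, Real.norm_of_nonneg (hpos K).le, Real.dist_eq] at h1
      rw [Real.norm_of_nonneg (le_max_left _ _)]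
      refine max_le (by positivity) ((neg_le_abs _).trans ?_)
      rw [smul_eq_mul, abs_mul, abs_of_pos (inv_pos.2 (hpos K)), inv_mul_le_iff₀ (hpos K)]
      linarith)
    (ae_restrict_of_ae (hb.ae_differentiableAt.mono fun x hx =>
      tendsto_const_nhds.max
        (((hx.hasFDerivAt.hasLineDerivAt e).tendsto_slope_zero_right.comp ht).neg)))
  refine le_of_tendsto' hlim fun K => ?_
  have h1 : ∀ x, max 0 (-(((1 / 2 : ℝ) ^ (k1 + K))⁻¹ •
      (b (x + ((1 / 2 : ℝ) ^ (k1 + K)) • e) - b x))) =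
      2 ^ k1 * (2 ^ K * max 0 (b x - b (x + (((1 / 2 : ℝ) ^ (k1 + K) : ℝ) : ℂ) * e))) := by
    intro x
    rw [← mul_assoc, mul_max_of_nonneg _ _ (by positivity), mul_zero, Complex.real_smul,
      smul_eq_mul, ← pow_add, ← inv_pow]
    congr 1
    norm_num
    ring
  simp only [h1]
  rw [integral_const_mul, integral_const_mul]
  exact mul_le_mul_of_nonneg_left (h K) (by positivity)

/-- Recipe.  First assume `0 < Es` (general case: apply it to `Es + η`, `η ↓ 0`; `0 ≤ Es`).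
`b = bb F 0` is Lipschitz (`Hyp.bb_lip`).  `k1 = max k0 3`, `L = (1/2)^k1`, and for `K : ℕ`,
`N = 2^K`, `h = L/N`.  For `x` in `S0 = {-1/2 ≤ re, im ≤ 3/2}` (area `4`) apply `run_lemma` to
`y i = b (x + i h e)`, `B = C' Es` (`drop_lemma` with `j = 0`, `T = i h ≤ 1/8`,
`Hyp.exists_bb_eq`, `Hyp.av_le_bb`), `Λ m z = A_k + B_k 1_{X_k}(x + z h e)` with
`k = k1 + K - (m+1)` (so `2^(m+1) h = (1/2)^k`), from `peak_lemma` (all points are in `Reg`).
Integrate over `S0` (translation invariance): the left side is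
`≥ N ∫_{cell O} max 0 (b x - b (x + h e))` (`cell O - i h e ⊆ S0`), the right side
`≤ 4 C' Es + ∑ m (1/2)^m (N+1) 4 C (1/2)^k (99/100)^k Es ≤ (4 C' + 1600 C L) Es`.
Hence `∫_{cell O} max 0 ((b x - b (x + h e))/h) ≤ (4 C'/L + 1600 C) Es` for all `K`; let
`K → ∞` with dominated convergence (`LipschitzWith.ae_differentiableAt`,
`HasFDerivAt.lim` or `HasLineDerivAt.tendsto_slope_zero_right`). -/
theorem single_unit : ∃ C : ℝ, 0 < C ∧ ∀ (F : ℂ → ℝ) (G : ℂ → ℂ), Hyp F G →
    ∀ (ε e : ℂ), Cone ε e → ∀ (Es : ℝ),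
    (∀ i : ℕ, S (nu ε) G O 4 9 i ≤ (65 / 64 : ℝ) ^ i * Es) →
    ∫ x in cell O, max 0 (-(fderiv ℝ (bb F 0) x e)) ≤ C * Es := by
  obtain ⟨Cd, hCd, hD⟩ := drop_lemma
  obtain ⟨Cp, hCp, k0, hP⟩ := peak_lemma
  have ha0 : 0 ≤ volume.real singleS := measureReal_nonneg
  obtain ⟨C, hC⟩ : ∃ C : ℝ, C = 2 ^ max k0 3 * (volume.real singleS * (2 + Cd) +
      400 * (1 / 2) ^ max k0 3 * (volume.real singleS + 1) * Cp) := ⟨_, rfl⟩
  have hC0 : 0 < C := by rw [hC]; positivity
  refine ⟨C, hC0, fun F G h ε e hc => ?_⟩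
  have key : ∀ Es : ℝ, 0 < Es → (∀ i : ℕ, S (nu ε) G O 4 9 i ≤ (65 / 64 : ℝ) ^ i * Es) →
      ∫ x in cell O, max 0 (-(fderiv ℝ (bb F 0) x e)) ≤ C * Es := by
    intro Es hEs hE
    obtain ⟨L, hL⟩ := h.bb_lip 0
    have h1 := single_limit hL e (max k0 3) fun K => single_core hL.continuous hc.2.1
      (le_max_right k0 3) (Bd := (2 + Cd) * Es) (Cp := Cp * Es) (by positivity)
      (fun x hx T hT0 hT => by
        obtain ⟨r, hr1, hr2, hr⟩ := h.exists_bb_eq 0 x
        have h2 := h.av_le_bb 0 (x + T * e) hr1 hr2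
        have h3 := hD F G h ε e hc Es hE x hx r T (by simpa using hr1) (by simpa using hr2)
          hT0 hT 0
        have h4 : 0 ≤ T / 30 * ∑ P ∈ sub O 4 9 0 with ‖cn P - x‖ + 2 * (1 / 2) ^ 0 + T ≤ r,
            pos ε (V G P) :=
          mul_nonneg (by positivity) (Finset.sum_nonneg fun P _ => pos_nonneg _ _)
        have h5 := hE 0
        rw [pow_zero, one_mul] at h5
        have h6 : 6 * T * S (nu ε) G O 4 9 0 ≤ 6 * T * Es :=
          mul_le_mul_of_nonneg_left h5 (by positivity)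
        rw [pow_zero (4 / 5 : ℝ), mul_one] at h3
        nlinarith)
      (fun j => by
        obtain ⟨X, A, B, a1, a2, a3, a4, a5, a6⟩ := hP F G h ε e hc Es hEs hE (max k0 3 + j)
          ((le_max_left k0 3).trans (Nat.le_add_right _ _))
        exact ⟨X, A, B, a1, a2, a3, a4, by linarith, a6⟩) K
    refine h1.trans (le_of_eq ?_)
    rw [hC]
    ring
  intro Es hE
  have hEs : 0 ≤ Es := by
    have h1 := hE 0
    rw [pow_zero, one_mul] at h1
    exact (Finset.sum_nonneg fun P _ => nu_nonneg _ _).trans h1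
  refine le_of_forall_pos_le_add fun η hη => ?_
  have h1 := key (Es + η / C) (by positivity) fun i => (hE i).trans
    (mul_le_mul_of_nonneg_left (le_add_of_nonneg_right (by positivity)) (by positivity))
  rwa [mul_add, mul_div_cancel₀ _ hC0.ne'] at h1

end Crest.Agent.R112
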