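import Crest.Agent.R112.Cells
import Crest.Agent.R112.Dirs

set_option autoImplicit false

namespace Crest.Agent.R112

open MeasureTheory Metric Set Filter Topology

/-! # The damped sums `mstar`, `cost`, `estar`, `Dstar` -/

variable {G : ℂ → ℂ}

theorem star_summ {a : ℕ → ℝ} {B : ℝ} (h0 : ∀ j, 0 ≤ a j) (hB : ∀ j, a j ≤ B) :
    Summable fun j => (64 / 65 : ℝ) ^ j * a j :=
  Summable.of_nonneg_of_le (fun j => mul_nonneg (by positivity) (h0 j))
    (fun j => mul_le_mul_of_nonneg_left (hB j) (by positivity))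
    ((summable_geometric_of_lt_one (by norm_num) (by norm_num)).mul_right B)

theorem star_const (B : ℝ) : HasSum (fun j : ℕ => (64 / 65 : ℝ) ^ j * B) (65 * B) := by
  have h := (hasSum_geometric_of_lt_one (r := (64 / 65 : ℝ)) (by norm_num) (by norm_num)).mul_right B
  norm_num at h
  exact h

theorem star_cancel (i : ℕ) : (65 / 64 : ℝ) ^ i * (64 / 65) ^ i = 1 := by
  rw [← mul_pow]
  norm_num

theorem star_term {a : ℕ → ℝ} (h0 : ∀ j, 0 ≤ a j)
    (hs : Summable fun j => (64 / 65 : ℝ) ^ j * a j) (j : ℕ) :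
    a j ≤ (65 / 64 : ℝ) ^ j * ∑' j, (64 / 65 : ℝ) ^ j * a j := by
  have h := hs.le_tsum j fun i _ => mul_nonneg (by positivity) (h0 i)
  have h2 := mul_le_mul_of_nonneg_left h (by positivity : (0 : ℝ) ≤ (65 / 64) ^ j)
  rwa [← mul_assoc, star_cancel, one_mul] at h2

theorem star_shift {a : ℕ → ℝ} (h0 : ∀ j, 0 ≤ a j)
    (hs : Summable fun j => (64 / 65 : ℝ) ^ j * a j) (i : ℕ) :
    ∑' j, (64 / 65 : ℝ) ^ j * a (j + i) ≤ (65 / 64 : ℝ) ^ i * ∑' j, (64 / 65 : ℝ) ^ j * a j := by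
  have h1 : ∀ j, (64 / 65 : ℝ) ^ j * a (j + i) =
      (65 / 64 : ℝ) ^ i * ((64 / 65 : ℝ) ^ (j + i) * a (j + i)) := fun j => by
    rw [pow_add]
    linear_combination -((64 / 65 : ℝ) ^ j * a (j + i)) * star_cancel i
  simp only [h1]
  rw [tsum_mul_left, ← hs.sum_add_tsum_nat_add i]
  refine mul_le_mul_of_nonneg_left (le_add_of_nonneg_left ?_) (by positivity)
  exact Finset.sum_nonneg fun j _ => mul_nonneg (by positivity) (h0 j)

theorem star_box (Q : Cell) {o s o' s' : ℕ} (h1 : o ≤ o') (h2 : s + o' ≤ s' + o) :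
    box Q o s ⊆ box Q o' s' := by
  intro x hx
  rw [cel_mem_box_iff] at hx ⊢
  omega

theorem star_sub {Q W : Cell} {o s o' s' j j' : ℕ} (hi : Q.1 - j = W.1 - j')
    (hsub : box Q o s ⊆ box W o' s') : sub Q o s j ⊆ sub W o' s' j' := fun _ hP =>
  mem_sub_iff.2 ⟨(mem_sub_iff.1 hP).1.trans hi, (mem_sub_iff.1 hP).2.trans hsub⟩

theorem star_Vb (G : ℂ → ℂ) (Q : Cell) : Vb G Q 0 1 = V G Q := by
  rw [Vb, box_zero_one, V]

theorem star_ip_sum {ι : Type*} (v : ℂ) (T : Finset ι) (f : ι → ℂ) :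
    ip v (∑ P ∈ T, f P) = ∑ P ∈ T, ip v (f P) := by
  simp only [ip_eq_inner, inner_sum]

theorem S_nonneg {φ : ℂ → ℝ} (hφ : ∀ w, 0 ≤ φ w) (G : ℂ → ℂ) (Q : Cell) (o s j : ℕ) :
    0 ≤ S φ G Q o s j := by
  exact Finset.sum_nonneg fun P _ => hφ _

theorem S_mono_fun {φ ψ : ℂ → ℝ} (h : ∀ w, φ w ≤ ψ w) (G : ℂ → ℂ) (Q : Cell) (o s j : ℕ) :
    S φ G Q o s j ≤ S ψ G Q o s j := by
  exact Finset.sum_le_sum fun P _ => h _

theorem sum_V (hG : Integrable G) (Q : Cell) (o s j : ℕ) :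
    ∑ P ∈ sub Q o s j, V G P = Vb G Q o s := by
  exact (integral_box_eq_sum j hG.integrableOn).symm

theorem S_norm_le (hG : Integrable G) (Q : Cell) (o s j : ℕ) :
    S (fun w => ‖w‖) G Q o s j ≤ ∫ w in box Q o s, ‖G w‖ := by
  rw [integral_box_eq_sum j hG.norm.integrableOn]
  exact Finset.sum_le_sum fun P _ => norm_integral_le_integral_norm _

theorem norm_Vb_le_S (hG : Integrable G) (Q : Cell) (o s j : ℕ) :
    ‖Vb G Q o s‖ ≤ S (fun w => ‖w‖) G Q o s j := by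
  rw [← sum_V hG Q o s j]
  exact norm_sum_le _ _

/-- a smaller block has fewer cells -/
theorem S_mono_block {φ : ℂ → ℝ} (hφ : ∀ w, 0 ≤ φ w) (G : ℂ → ℂ) {Q W : Cell} {o s o' s' : ℕ}
    (i j : ℕ) (hi : Q.1 + i = W.1) (hsub : box Q o s ⊆ box W o' s') :
    S φ G Q o s j ≤ S φ G W o' s' (j + i) := by
  exact Finset.sum_le_sum_of_subset_of_nonneg (star_sub (by push_cast; omega) hsub)
    fun P _ _ => hφ _

/-- blocks of distinct cells of one level overlap at most `s ^ 2` times (`card_box_mem`) -/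
theorem S_overlap {φ : ℂ → ℝ} (hφ : ∀ w, 0 ≤ φ w) (G : ℂ → ℂ) {W : Cell} {o s o' s' : ℕ}
    (i j : ℕ) (𝒬 : Finset Cell) (h : ∀ Q ∈ 𝒬, Q.1 + i = W.1 ∧ box Q o s ⊆ box W o' s') :
    ∑ Q ∈ 𝒬, S φ G Q o s j ≤ (s : ℝ) ^ 2 * S φ G W o' s' (j + i) := by
  classical
  have h1 : ∀ Q ∈ 𝒬, S φ G Q o s j =
      ∑ P ∈ sub W o' s' (j + i), if P ∈ sub Q o s j then φ (V G P) else 0 := by
    intro Q hQ
    have h2 := (h Q hQ).1
    rw [← Finset.sum_filter, Finset.filter_mem_eq_inter,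
      Finset.inter_eq_right.2 (star_sub (by push_cast; omega) (h Q hQ).2), S]
  rw [Finset.sum_congr rfl h1, Finset.sum_comm, S, Finset.mul_sum]
  refine Finset.sum_le_sum fun P _ => ?_
  rw [← Finset.sum_filter, Finset.sum_const, nsmul_eq_mul]
  refine mul_le_mul_of_nonneg_right ?_ (hφ _)
  have h3 := card_box_mem (W.1 - i) (cn P) o s (𝒬.filter fun Q => P ∈ sub Q o s j) fun Q hQ => by
    rw [Finset.mem_filter] at hQ
    have h2 := (h Q hQ.1).1
    exact ⟨by omega, (mem_sub_iff.1 hQ.2).2 (cn_mem_cell P)⟩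
  exact_mod_cast h3

theorem star_summ_m (hG : Integrable G) (Q : Cell) (o s i : ℕ) :
    Summable fun j => (64 / 65 : ℝ) ^ j * S (fun w => ‖w‖) G Q o s (j + i) :=
  star_summ (fun _ => S_nonneg (fun _ => norm_nonneg _) _ _ _ _ _) fun _ => S_norm_le hG Q o s _

theorem mstar_nonneg (G : ℂ → ℂ) (Q : Cell) (o s : ℕ) : 0 ≤ mstar G Q o s := by
  exact tsum_nonneg fun j => mul_nonneg (by positivity) (S_nonneg (fun _ => norm_nonneg _) _ _ _ _ _)

theorem S_le_mstar (hG : Integrable G) (Q : Cell) (o s j : ℕ) :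
    S (fun w => ‖w‖) G Q o s j ≤ (65 / 64 : ℝ) ^ j * mstar G Q o s := by
  exact star_term (a := S (fun w => ‖w‖) G Q o s)
    (fun _ => S_nonneg (fun _ => norm_nonneg _) _ _ _ _ _) (star_summ_m hG Q o s 0) j

theorem mstar_le_integral (hG : Integrable G) (Q : Cell) (o s : ℕ) :
    mstar G Q o s ≤ 65 * ∫ w in box Q o s, ‖G w‖ := by
  rw [← (star_const _).tsum_eq]
  exact (star_summ_m hG Q o s 0).tsum_le_tsum
    (fun j => mul_le_mul_of_nonneg_left (S_norm_le hG Q o s j) (by positivity))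
    (star_const _).summable

theorem mstar_overlap (hG : Integrable G) {W : Cell} {o s o' s' : ℕ} (i : ℕ) (𝒬 : Finset Cell)
    (h : ∀ Q ∈ 𝒬, Q.1 + i = W.1 ∧ box Q o s ⊆ box W o' s') :
    ∑ Q ∈ 𝒬, mstar G Q o s ≤ (s : ℝ) ^ 2 * (65 / 64) ^ i * mstar G W o' s' := by
  unfold mstar
  have h0 : ∀ Q ∈ 𝒬, Summable fun j => (64 / 65 : ℝ) ^ j * S (fun w => ‖w‖) G Q o s j :=
    fun Q _ => star_summ_m hG Q o s 0
  rw [← Summable.tsum_finsetSum h0, mul_assoc]
  refine le_trans ?_ (mul_le_mul_of_nonneg_left (star_shift (a := S (fun w => ‖w‖) G W o' s')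
    (fun _ => S_nonneg (fun _ => norm_nonneg _) _ _ _ _ _) (star_summ_m hG W o' s' 0) i)
    (by positivity))
  rw [← tsum_mul_left]
  refine (summable_sum h0).tsum_le_tsum (fun j => ?_) ((star_summ_m hG W o' s' i).mul_left _)
  rw [← Finset.mul_sum, mul_left_comm]
  exact mul_le_mul_of_nonneg_left (S_overlap (fun _ => norm_nonneg _) G i j 𝒬 h) (by positivity)

theorem cost_nonneg (G : ℂ → ℂ) (W : Cell) : 0 ≤ cost G W := mstar_nonneg G W 8 17

theorem mstar_le_cost (hG : Integrable G) (Q : Cell) : mstar G Q 4 9 ≤ cost G Q := by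
  exact (star_summ_m hG Q 4 9 0).tsum_le_tsum (fun j => mul_le_mul_of_nonneg_left
    (S_mono_block (fun _ => norm_nonneg _) G 0 j (by simp) (star_box Q (by omega) (by omega)))
    (by positivity)) (star_summ_m hG Q 8 17 0)

theorem estar_nonneg (ε : ℂ) (G : ℂ → ℂ) (Q : Cell) : 0 ≤ estar ε G Q := by
  exact tsum_nonneg fun j => mul_nonneg (by positivity) (S_nonneg (nu_nonneg ε) _ _ _ _ _)

theorem star_S_mul (c : ℝ) (φ : ℂ → ℝ) (G : ℂ → ℂ) (Q : Cell) (o s j : ℕ) :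
    S (fun w => c * φ w) G Q o s j = c * S φ G Q o s j := by
  simp only [S, Finset.mul_sum]

theorem star_nu {ε : ℂ} (hε : ‖ε‖ = 1) (G : ℂ → ℂ) (Q : Cell) (o s j : ℕ) :
    S (nu ε) G Q o s j ≤ 2 * S (fun w => ‖w‖) G Q o s j := by
  rw [← star_S_mul]
  exact S_mono_fun (nu_le hε) _ _ _ _ _

theorem star_summ_e (hG : Integrable G) {ε : ℂ} (hε : ‖ε‖ = 1) (Q : Cell) :
    Summable fun j => (64 / 65 : ℝ) ^ j * S (nu ε) G Q 4 9 j :=
  star_summ (fun _ => S_nonneg (nu_nonneg ε) _ _ _ _ _) fun j => (star_nu hε G Q 4 9 j).trans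
    (mul_le_mul_of_nonneg_left (S_norm_le hG Q 4 9 j) zero_le_two)

theorem S_le_estar (hG : Integrable G) {ε : ℂ} (hε : ‖ε‖ = 1) (Q : Cell) (j : ℕ) :
    S (nu ε) G Q 4 9 j ≤ (65 / 64 : ℝ) ^ j * estar ε G Q := by
  exact star_term (fun _ => S_nonneg (nu_nonneg ε) _ _ _ _ _) (star_summ_e hG hε Q) j

theorem estar_le_mstar (hG : Integrable G) {ε : ℂ} (hε : ‖ε‖ = 1) (Q : Cell) :
    estar ε G Q ≤ 2 * mstar G Q 4 9 := by
  rw [mstar, ← tsum_mul_left]
  refine (star_summ_e hG hε Q).tsum_le_tsum (fun j => ?_) ((star_summ_m hG Q 4 9 0).mul_left _)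
  rw [mul_left_comm]
  exact mul_le_mul_of_nonneg_left (star_nu hε G Q 4 9 j) (by positivity)

theorem star_summ_D (hG : Integrable G) (Q : Cell) : Summable fun j =>
    (64 / 65 : ℝ) ^ j * (S (fun w => ‖w‖) G Q 128 256 j - ‖Vb G Q 128 256‖) :=
  star_summ (fun _ => sub_nonneg.2 (norm_Vb_le_S hG _ _ _ _)) fun j =>
    (sub_le_self _ (norm_nonneg _)).trans (S_norm_le hG Q 128 256 j)

theorem Dstar_nonneg (hG : Integrable G) (Q : Cell) : 0 ≤ Dstar G Q := by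
  exact tsum_nonneg fun j => mul_nonneg (by positivity) (sub_nonneg.2 (norm_Vb_le_S hG _ _ _ _))

theorem Dc_nonneg (hG : Integrable G) (Q : Cell) : 0 ≤ Dc G Q := by
  rw [Dc, ← star_Vb]
  exact sub_nonneg.2 (norm_Vb_le_S hG _ _ _ _)

theorem S_sub_le_Dstar (hG : Integrable G) (Q : Cell) (j : ℕ) :
    S (fun w => ‖w‖) G Q 128 256 j - ‖Vb G Q 128 256‖ ≤ (65 / 64 : ℝ) ^ j * Dstar G Q := by
  exact star_term (a := fun j => S (fun w => ‖w‖) G Q 128 256 j - ‖Vb G Q 128 256‖)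
    (fun _ => sub_nonneg.2 (norm_Vb_le_S hG _ _ _ _)) (star_summ_D hG Q) j

theorem star_defect (hG : Integrable G) (Q : Cell) {o s o' s' : ℕ}
    (hsub : box Q o s ⊆ box Q o' s') (j : ℕ) :
    S (fun w => ‖w‖) G Q o s j - ‖Vb G Q o s‖ ≤ S (fun w => ‖w‖) G Q o' s' j - ‖Vb G Q o' s'‖ := by
  classical
  have h := star_sub (j := j) (j' := j) rfl hsub
  have h1 := Finset.sum_sdiff (f := V G) h
  have h2 := Finset.sum_sdiff (f := fun P => ‖V G P‖) h
  rw [sum_V hG, sum_V hG] at h1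
  have h3 := norm_sum_le (sub Q o' s' j \ sub Q o s j) (V G)
  have h4 := norm_add_le (∑ P ∈ sub Q o' s' j \ sub Q o s j, V G P) (Vb G Q o s)
  rw [h1] at h4
  unfold S
  linarith

/-- `S j - S 0 = ∑ over the level-`Q.1` cells `P` of the block of (S ‖·‖ G P 0 1 j - ‖V G P‖)`, a
sum of nonnegative terms, hence monotone in the block; and `‖Vb‖ ≤ S 0` on the big block. -/
theorem S_sub_S_le (hG : Integrable G) (Q : Cell) {o s : ℕ} (hsub : box Q o s ⊆ box Q 128 256)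
    (j : ℕ) :
    S (fun w => ‖w‖) G Q o s j - S (fun w => ‖w‖) G Q o s 0 ≤
      S (fun w => ‖w‖) G Q 128 256 j - ‖Vb G Q 128 256‖ := by
  linarith [star_defect hG Q hsub j, norm_Vb_le_S hG Q o s 0]

theorem cost_split (hG : Integrable G) (W : Cell) :
    cost G W ≤ 65 * S (fun w => ‖w‖) G W 8 17 0 + Dstar G W := by
  rw [← (star_const _).tsum_eq, Dstar, ← (star_const _).summable.tsum_add (star_summ_D hG W)]
  refine (star_summ_m hG W 8 17 0).tsum_le_tsum (fun j => ?_)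
    ((star_const _).summable.add (star_summ_D hG W))
  rw [← mul_add]
  refine mul_le_mul_of_nonneg_left ?_ (by positivity)
  have := S_sub_S_le hG W (star_box W (o := 8) (s := 17) (by omega) (by omega)) j
  linarith

theorem Dc_le_Dstar (hG : Integrable G) (Q : Cell) : Dc G Q ≤ 2 * Dstar G Q := by
  have h1 := star_defect hG Q (star_box Q (o := 0) (s := 1) (o' := 128) (s' := 256)
    (by omega) (by omega)) 1
  have h2 := S_sub_le_Dstar hG Q 1
  have h3 := Dstar_nonneg hG Q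
  rw [Dc, ← star_Vb]
  linarith

theorem norm_dir (G : ℂ → ℂ) (Q : Cell) : ‖dir G Q‖ = 1 := by
  unfold dir
  split_ifs with h
  · exact norm_one
  · rw [norm_div, Complex.norm_real, norm_norm, div_self (norm_ne_zero_iff.2 h)]

theorem ip_dir (G : ℂ → ℂ) (Q : Cell) : ip (dir G Q) (Vb G Q 128 256) = ‖Vb G Q 128 256‖ := by
  unfold dir
  split_ifs with h
  · simp [h]
  · rw [div_eq_inv_mul, ← Complex.ofReal_inv, ip_real_mul_left, ip_self]
    field_simp

/-- `S (Phi (dir G Q)) G Q 128 256 j = S ‖·‖ … j - ‖Vb‖` -/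
theorem S_Phi_dir (hG : Integrable G) (Q : Cell) (j : ℕ) :
    S (Phi (dir G Q)) G Q 128 256 j = S (fun w => ‖w‖) G Q 128 256 j - ‖Vb G Q 128 256‖ := by
  rw [← ip_dir, ← sum_V hG Q 128 256 j, star_ip_sum]
  simp only [S, Phi, Finset.sum_sub_distrib]

/-- `Phi v` is subadditive: split `R` into its cells of level `Q.1` -/
theorem Phi_le_Dstar (hG : Integrable G) {Q R : Cell} (h : Q.1 ≤ R.1)
    (hsub : cell R ⊆ box Q 128 256) : Phi (dir G Q) (V G R) ≤ Dstar G Q := by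
  obtain ⟨i, hi⟩ := Int.le.dest h
  have h1 : Phi (dir G Q) (V G R) ≤ S (Phi (dir G Q)) G R 0 1 i := by
    rw [← star_Vb, ← sum_V hG R 0 1 i]
    simp only [S, Phi, Finset.sum_sub_distrib, star_ip_sum]
    exact sub_le_sub_right (norm_sum_le _ _) _
  have h2 : S (Phi (dir G Q)) G R 0 1 i ≤ S (Phi (dir G Q)) G Q 128 256 0 :=
    Finset.sum_le_sum_of_subset_of_nonneg (star_sub (by omega) (by rwa [box_zero_one]))
      fun P _ _ => Phi_nonneg (norm_dir G Q) _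
  have h3 := S_sub_le_Dstar hG Q 0
  rw [S_Phi_dir hG] at h2
  rw [pow_zero, one_mul] at h3
  linarith

theorem estar_le_Dstar (hG : Integrable G) {v : ℂ} (hv : ‖v‖ = 1) {Q : Cell}
    (h : ‖dir G Q - v‖ ≤ 1 / 4) : estar (eps v) G Q ≤ 20 * Dstar G Q := by
  rw [Dstar, ← tsum_mul_left]
  refine (star_summ_e hG (norm_eps hv) Q).tsum_le_tsum (fun j => ?_) ((star_summ_D hG Q).mul_left _)
  rw [mul_left_comm, ← S_Phi_dir hG, ← star_S_mul 20]
  refine mul_le_mul_of_nonneg_left ((S_mono_fun (nu_le_Phi (norm_dir G Q) hv h) _ _ _ _ _).trans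
    ?_) (by positivity)
  exact S_mono_block (fun w => mul_nonneg (by norm_num) (Phi_nonneg (norm_dir G Q) w)) G 0 j
    (by simp) (star_box Q (by omega) (by omega))

end Crest.Agent.R112
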