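import Crest.Agent.R112.Basic

set_option autoImplicit false

namespace Crest.Agent.R112

open MeasureTheory Metric Set Filter Topology

/-! # Integration by parts and the telescoping inequality -/

/-- `LipschitzWith.integral_lineDeriv_mul_eq`, `LipschitzWith.ae_differentiableAt`,
`DifferentiableAt.lineDeriv_eq_fderiv` -/
theorem ibp {u χ : ℂ → ℝ} {K L : NNReal} (hu : LipschitzWith K u) (hχ : LipschitzWith L χ)
    (hc : HasCompactSupport χ) (e : ℂ) :
    ∫ x, χ x * fderiv ℝ u x e = -∫ x, u x * fderiv ℝ χ x e := by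
  have h := LipschitzWith.integral_lineDeriv_mul_eq (μ := volume) hu hχ hc e
  have h1 : ∫ x, χ x * fderiv ℝ u x e = ∫ x, lineDeriv ℝ u x e * χ x := by
    refine integral_congr_ae ?_
    filter_upwards [hu.ae_differentiableAt (μ := volume)] with x hx
    rw [hx.lineDeriv_eq_fderiv, mul_comm]
  have h2 : ∫ x, lineDeriv ℝ χ x (-e) * u x = ∫ x, -(u x * fderiv ℝ χ x e) := by
    refine integral_congr_ae ?_
    filter_upwards [hχ.ae_differentiableAt (μ := volume)] with x hx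
    rw [hx.lineDeriv_eq_fderiv, map_neg]
    ring
  rw [h1, h, h2, integral_neg]

theorem tele_abs_le {u : ℂ → ℝ} {K : NNReal} (hu : LipschitzWith K u) (e x : ℂ) :
    |fderiv ℝ u x e| ≤ K * ‖e‖ :=
  ((fderiv ℝ u x).le_opNorm e).trans
    (mul_le_mul_of_nonneg_right (norm_fderiv_le_of_lipschitz ℝ hu) (norm_nonneg e))

theorem tele_int₁ {u χ : ℂ → ℝ} {K L : NNReal} (hu : LipschitzWith K u) (hχ : LipschitzWith L χ)
    (hc : HasCompactSupport χ) (e : ℂ) {φ : ℝ → ℝ} (hφ : Continuous φ)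
    (hφ' : ∀ t, |φ t| ≤ |t|) : Integrable fun x => χ x * φ (fderiv ℝ u x e) := by
  refine (hχ.continuous.integrable_of_hasCompactSupport hc).mul_bdd (c := K * ‖e‖) ?_
    (Eventually.of_forall fun x => (hφ' _).trans (tele_abs_le hu e x))
  exact (hφ.measurable.comp (measurable_fderiv_apply_const ℝ u e)).aestronglyMeasurable

theorem tele_int₂ {u χ : ℂ → ℝ} {L : NNReal} (hu : Continuous u) (hχ : LipschitzWith L χ)
    (hc : HasCompactSupport χ) (e : ℂ) {φ : ℝ → ℝ} (hφ : Continuous φ)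
    (hφ' : ∀ t, |φ t| ≤ |t|) : Integrable fun x => u x * φ (fderiv ℝ χ x e) := by
  have h1 : IntegrableOn u (tsupport χ) := hu.continuousOn.integrableOn_compact hc
  have h2 : IntegrableOn (fun x => u x * φ (fderiv ℝ χ x e)) (tsupport χ) := by
    refine Integrable.mul_bdd h1 (c := L * ‖e‖) ?_
      (Eventually.of_forall fun x => (hφ' _).trans (tele_abs_le hχ e x))
    exact (hφ.measurable.comp (measurable_fderiv_apply_const ℝ χ e)).aestronglyMeasurable
  refine h2.integrable_of_forall_notMem_eq_zero fun x hx => ?_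
  have h3 : fderiv ℝ χ x = 0 := by
    by_contra h
    exact hx (support_fderiv_subset ℝ h)
  have h4 := hφ' 0
  rw [abs_zero, abs_nonpos_iff] at h4
  rw [h3, _root_.zero_apply, h4, mul_zero]

theorem tele_max_le (t : ℝ) : |max 0 (-t)| ≤ |t| := by
  rw [abs_of_nonneg (le_max_left _ _)]
  exact max_le (abs_nonneg t) (neg_le_abs t)

theorem tele_step {a₀ a₁ b χ : ℂ → ℝ} {K₀ K₁ K L : NNReal} (h₀ : LipschitzWith K₀ a₀)
    (h₁ : LipschitzWith K₁ a₁) (hb : LipschitzWith K b) (hχ : LipschitzWith L χ)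
    (hc : HasCompactSupport χ) (hχ0 : ∀ x, 0 ≤ χ x) (hm : ∀ x, a₀ x = max (b x) (a₁ x)) (e : ℂ) :
    ∫ x, χ x * |fderiv ℝ a₀ x e| ≤ (∫ x, χ x * |fderiv ℝ a₁ x e|) +
      ((∫ x, (a₀ x - a₁ x) * |fderiv ℝ χ x e|) +
        2 * ∫ x, χ x * max 0 (-(fderiv ℝ b x e))) := by
  have hle₁ : ∀ y, a₁ y ≤ a₀ y := fun y => by rw [hm]; exact le_max_right _ _
  have hle₂ : ∀ y, b y ≤ a₀ y := fun y => by rw [hm]; exact le_max_left _ _
  have i1 := tele_int₁ h₀ hχ hc e continuous_abs (fun t => (abs_abs t).le)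
  have i2 := tele_int₁ h₁ hχ hc e continuous_abs (fun t => (abs_abs t).le)
  have i3 := tele_int₁ h₀ hχ hc e continuous_id (fun t => le_rfl)
  have i4 := tele_int₁ h₁ hχ hc e continuous_id (fun t => le_rfl)
  have i5 := tele_int₁ hb hχ hc e (φ := fun t => max 0 (-t)) (by fun_prop) tele_max_le
  have i6 := tele_int₂ h₀.continuous hχ hc e continuous_id (fun t => le_rfl)
  have i7 := tele_int₂ h₁.continuous hχ hc e continuous_id (fun t => le_rfl)
  have i8 := tele_int₂ (h₀.continuous.sub h₁.continuous) hχ hc e continuous_abs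
    (fun t => (abs_abs t).le)
  simp only [id] at i3 i4 i6 i7
  have key : ∫ x, χ x * |fderiv ℝ a₀ x e| ≤ ∫ x, (χ x * fderiv ℝ a₀ x e - χ x * fderiv ℝ a₁ x e +
      χ x * |fderiv ℝ a₁ x e| + 2 * (χ x * max 0 (-(fderiv ℝ b x e)))) := by
    refine integral_mono_ae i1 (((i3.sub i4).add i2).add (i5.const_mul 2)) ?_
    filter_upwards [h₀.ae_differentiableAt (μ := volume), h₁.ae_differentiableAt (μ := volume),
      hb.ae_differentiableAt (μ := volume)] with x d0 d1 db
    have : |fderiv ℝ a₀ x e| ≤ fderiv ℝ a₀ x e - fderiv ℝ a₁ x e + |fderiv ℝ a₁ x e| +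
        2 * max 0 (-(fderiv ℝ b x e)) := by
      rcases le_total (b x) (a₁ x) with h | h
      · have e1 := fderiv_eq_of_touch hle₁ (by rw [hm, max_eq_right h]) d1 d0
        rw [e1]
        linarith [le_max_left 0 (-(fderiv ℝ b x e))]
      · have e1 := fderiv_eq_of_touch hle₂ (by rw [hm, max_eq_left h]) db d0
        rw [e1]
        have := le_abs_self (fderiv ℝ a₁ x e)
        rcases abs_cases (fderiv ℝ a₀ x e) with h2 | h2
        · linarith [le_max_left 0 (-(fderiv ℝ a₀ x e)), h2.1]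
        · linarith [le_max_right 0 (-(fderiv ℝ a₀ x e)), h2.1]
    have h3 := mul_le_mul_of_nonneg_left this (hχ0 x)
    linarith
  have j1 : Integrable fun x => χ x * fderiv ℝ a₀ x e - χ x * fderiv ℝ a₁ x e := i3.sub i4
  have j2 : Integrable fun x => χ x * fderiv ℝ a₀ x e - χ x * fderiv ℝ a₁ x e +
    χ x * |fderiv ℝ a₁ x e| := j1.add i2
  rw [integral_add j2 (i5.const_mul 2), integral_add j1 i2,
    integral_sub i3 i4, integral_const_mul, ibp h₀ hχ hc e, ibp h₁ hχ hc e] at key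
  have key2 : (∫ x, a₁ x * fderiv ℝ χ x e) - ∫ x, a₀ x * fderiv ℝ χ x e ≤
      ∫ x, (a₀ x - a₁ x) * |fderiv ℝ χ x e| := by
    rw [← integral_sub i7 i6]
    refine integral_mono (i7.sub i6) i8 fun x => ?_
    have h3 := mul_le_mul_of_nonneg_left (neg_le_abs (fderiv ℝ χ x e)) (sub_nonneg.2 (hle₁ x))
    simp only
    linarith
  linarith

/-- Recipe.  Write `∂ u = fderiv ℝ u x e`, `h m = a m - a (m+1) ≥ 0`.  At a point where
`a m, a (m+1), b m` are differentiable,
`|∂ a m| ≤ (∂ a m - ∂ a (m+1)) + |∂ a (m+1)| + 2 max 0 (-∂ b m)`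
(if `a m x = a (m+1) x` the derivatives agree, `fderiv_eq_of_touch`; otherwise `a m x = b m x`,
`∂ a m = ∂ b m` and `|t| = t + 2 max 0 (-t)`).  With `I m = ∫ χ m |∂ a m|` and `ibp`:
`I m + ∫ (χ (m+1) - χ m) |∂ a (m+1)| ≤ I (m+1) + ∫ h m |∂ χ m| + 2 ∫ χ m max 0 (-∂ b m)`.
Sum over `m ∈ [n0, k)`.  On `Z`, for a.e. `x` with witness `n`: `a m x = A x` and `∂ a m = ∂ A`
for `n0 ≤ m ≤ n` (`b n ≤ a n ≤ a m ≤ A`), so
`χ n0 |∂ a n0| + ∑_{m} (χ (m+1) - χ m) |∂ a (m+1)| ≥ χ n |∂ A| = |∂ A|`.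
(It may be easier to reindex by `ℕ`, `m = n0 + i`, or to induct downwards on `n0` with
`Int.le_induction_down`, keeping the pointwise function
`Ψ n0 = χ n0 |∂ a n0| + ∑_{m ∈ Ico n0 k} (χ (m+1) - χ m) |∂ a (m+1)|`.) -/
theorem telescope (n0 k : ℤ) (hk : n0 ≤ k) (e : ℂ) (b a χ : ℤ → ℂ → ℝ) (A : ℂ → ℝ)
    (hb : ∀ m, ∃ K, LipschitzWith K (b m)) (ha : ∀ m, m ≤ k → ∃ K, LipschitzWith K (a m))
    (hA : ∃ K, LipschitzWith K A)
    (hχ : ∀ m, ∃ K, LipschitzWith K (χ m)) (hχc : ∀ m, HasCompactSupport (χ m))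
    (hχ0 : ∀ m x, 0 ≤ χ m x) (hχm : ∀ m x, χ m x ≤ χ (m + 1) x)
    (hak : a k = b k) (ham : ∀ m, n0 ≤ m → m < k → ∀ x, a m x = max (b m x) (a (m + 1) x))
    (hA' : ∀ m, n0 ≤ m → m ≤ k → ∀ x, a m x ≤ A x)
    (Z : Set ℂ) (hZm : MeasurableSet Z)
    (hZ : ∀ x ∈ Z, ∃ n, n0 ≤ n ∧ n ≤ k ∧ A x = b n x ∧ χ n x = 1) :
    ∫ x in Z, |fderiv ℝ A x e| ≤ (∫ x, χ k x * |fderiv ℝ (b k) x e|) +
      ∑ m ∈ Finset.Ico n0 k, ((∫ x, (a m x - a (m + 1) x) * |fderiv ℝ (χ m) x e|) +
        2 * ∫ x, χ m x * max 0 (-(fderiv ℝ (b m) x e))) := by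
  obtain ⟨KA, hA⟩ := hA
  have main : ∀ n, n ≤ k → n0 ≤ n → ∃ Ψ : ℂ → ℝ, Integrable Ψ ∧
      (∫ x, Ψ x ≤ (∫ x, χ k x * |fderiv ℝ (b k) x e|) +
        ∑ m ∈ Finset.Ico n k, ((∫ x, (a m x - a (m + 1) x) * |fderiv ℝ (χ m) x e|) +
          2 * ∫ x, χ m x * max 0 (-(fderiv ℝ (b m) x e)))) ∧
      (∀ x, χ n x * |fderiv ℝ (a n) x e| ≤ Ψ x) ∧
      (∀ x j, n ≤ j → j ≤ k → A x = b j x → a n x = A x) ∧
      ∀ᵐ x, ∀ j, n ≤ j → j ≤ k → A x = b j x → χ j x = 1 → |fderiv ℝ A x e| ≤ Ψ x := by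
    intro n hn
    induction n, hn using Int.leInductionDown with
    | base =>
      intro _
      obtain ⟨K, hK⟩ := hb k
      obtain ⟨L, hL⟩ := hχ k
      refine ⟨fun x => χ k x * |fderiv ℝ (b k) x e|,
        tele_int₁ hK hL (hχc k) e continuous_abs (fun t => (abs_abs t).le), by simp,
        fun x => by rw [hak], fun x j h1 h2 h3 => ?_, ?_⟩
      · obtain rfl : j = k := le_antisymm h2 h1
        rw [hak, h3]
      · filter_upwards [hA.ae_differentiableAt (μ := volume), hK.ae_differentiableAt (μ := volume)]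
          with x dA db j h1 h2 h3 h4
        obtain rfl : j = k := le_antisymm h2 h1
        have h5 : ∀ y, b j y ≤ A y := fun y => by rw [← hak]; exact hA' j hk le_rfl y
        rw [h4, one_mul, fderiv_eq_of_touch h5 h3.symm db dA]
    | pred n hn ih =>
      intro hn0
      obtain ⟨Ψ, hΨ, h1, h2, h3, h4⟩ := ih (by omega)
      obtain ⟨m, rfl⟩ : ∃ m, n = m + 1 := ⟨n - 1, by ring⟩
      simp only [add_sub_cancel_right] at hn0 ⊢
      obtain ⟨K₀, hK₀⟩ := ha m (by omega)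
      obtain ⟨K₁, hK₁⟩ := ha (m + 1) hn
      obtain ⟨K, hK⟩ := hb m
      obtain ⟨L, hL⟩ := hχ m
      have hm := ham m hn0 (by omega)
      have i1 := tele_int₁ hK₀ hL (hχc m) e continuous_abs (fun t => (abs_abs t).le)
      have i2 := tele_int₁ hK₁ hL (hχc m) e continuous_abs (fun t => (abs_abs t).le)
      have hs := tele_step hK₀ hK₁ hK hL (hχc m) (hχ0 m) hm e
      have hlow : ∀ x, χ m x * |fderiv ℝ (a m) x e| ≤
          Ψ x + χ m x * |fderiv ℝ (a m) x e| - χ m x * |fderiv ℝ (a (m + 1)) x e| := by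
        intro x
        have := mul_le_mul_of_nonneg_right (hχm m x) (abs_nonneg (fderiv ℝ (a (m + 1)) x e))
        linarith [h2 x]
      have heq : ∀ x j, m ≤ j → j ≤ k → A x = b j x → a m x = A x := by
        intro x j j1 j2 j3
        refine le_antisymm (hA' m hn0 (by omega) x) ?_
        rw [hm]
        rcases eq_or_lt_of_le j1 with rfl | j4
        · rw [j3]; exact le_max_left _ _
        · rw [← h3 x j (by omega) j2 j3]; exact le_max_right _ _
      refine ⟨fun x => Ψ x + χ m x * |fderiv ℝ (a m) x e| - χ m x * |fderiv ℝ (a (m + 1)) x e|,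
        (hΨ.add i1).sub i2, ?_, hlow, heq, ?_⟩
      · have hI : Finset.Ico m k = insert m (Finset.Ico (m + 1) k) := by
          ext j
          simp only [Finset.mem_insert, Finset.mem_Ico]
          omega
        have j1 : Integrable fun x => Ψ x + χ m x * |fderiv ℝ (a m) x e| := hΨ.add i1
        simp only
        rw [integral_sub j1 i2, integral_add hΨ i1, hI, Finset.sum_insert (by simp)]
        linarith
      · filter_upwards [h4, hA.ae_differentiableAt (μ := volume),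
          hK₀.ae_differentiableAt (μ := volume), hK₁.ae_differentiableAt (μ := volume)]
          with x hx dA d0 d1 j j1 j2 j3 j4
        have e0 := fderiv_eq_of_touch (hA' m hn0 (by omega)) (heq x j j1 j2 j3) d0 dA
        rcases eq_or_lt_of_le j1 with rfl | j5
        · have := hlow x
          rw [j4, one_mul, e0] at this
          rw [j4, e0]
          linarith
        · have e1 := fderiv_eq_of_touch (hA' (m + 1) (by omega) hn) (h3 x j (by omega) j2 j3) d1 dA
          have := hx j (by omega) j2 j3 j4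
          rw [e0, e1]
          linarith
  obtain ⟨Ψ, hΨ, h1, h2, -, h4⟩ := main n0 hk le_rfl
  have h0 : ∀ x, 0 ≤ Ψ x := fun x => (mul_nonneg (hχ0 n0 x) (abs_nonneg _)).trans (h2 x)
  refine le_trans ?_ h1
  refine le_trans ?_ (setIntegral_le_integral (s := Z) hΨ (Eventually.of_forall h0))
  refine integral_mono_of_nonneg (Eventually.of_forall fun x => abs_nonneg _) hΨ.integrableOn ?_
  filter_upwards [ae_restrict_of_ae h4, ae_restrict_mem hZm] with x hx hxZ
  obtain ⟨j, j1, j2, j3, j4⟩ := hZ x hxZ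
  exact hx j j1 j2 j3 j4

end Crest.Agent.R112
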