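import Crest.Agent.R112.Tele
import Crest.Agent.R112.Scale
import Crest.Agent.R112.Chi

set_option autoImplicit false

namespace Crest.Agent.R112

open MeasureTheory Metric Set Filter Topology

/-! # One tree of the corona decomposition -/

theorem measurableSet_Zs {F : ℂ → ℝ} {G : ℂ → ℂ} (h : Hyp F G) {n0 n1 : ℤ} (hn : n0 ≤ n1)
    (W : Cell) {d' : ℂ → ℝ} (hd : Ceil n1 d') : MeasurableSet (Zs F n0 n1 W d') := by
  obtain ⟨K, hK⟩ := h.aa_lip hn
  refine (measurableSet_cell W).inter ?_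
  change MeasurableSet {x | ∃ n, n0 ≤ n ∧ n ≤ W.1 ∧ aa F n0 n1 x = bb F n x ∧ d' x ≤ 2 ^ n}
  rw [Set.ofPred_exists]
  refine MeasurableSet.iUnion fun n => ?_
  obtain ⟨L, hL⟩ := h.bb_lip n
  exact (MeasurableSet.const _).inter ((MeasurableSet.const _).inter
    ((measurableSet_eq_fun hK.continuous.measurable hL.continuous.measurable).inter
      (measurableSet_le hd.continuous.measurable measurable_const)))

theorem tree_geom (n0 k : ℤ) :
    ∑ m ∈ Finset.Ico n0 k, (65 / 128 : ℝ) ^ (k - m).toNat ≤ 3 := by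
  rw [← Finset.sum_image (s := Finset.Ico n0 k) (g := fun m => (k - m).toNat)
    (f := fun j => (65 / 128 : ℝ) ^ j)]
  · have hs : Summable fun j : ℕ => (65 / 128 : ℝ) ^ j :=
      summable_geometric_of_lt_one (by norm_num) (by norm_num)
    refine (hs.sum_le_tsum _ fun j _ => by positivity).trans ?_
    rw [tsum_geometric_of_lt_one (by norm_num) (by norm_num)]
    norm_num
  · intro a ha b hb hab
    simp only [Finset.coe_Ico, mem_Ico] at ha hb hab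
    omega

theorem tree_fiber (n0 k : ℤ) (𝒬 : Finset Cell) {c : Cell → ℝ} (hc : ∀ Q, 0 ≤ c Q) :
    ∑ m ∈ Finset.Ico n0 k, ∑ Q ∈ 𝒬.filter (fun Q => Q.1 = m), c Q ≤ ∑ Q ∈ 𝒬, c Q :=
  Finset.sum_fiberwise_le_sum_of_sum_fiber_nonneg fun _ _ => Finset.sum_nonneg fun Q _ => hc Q

theorem tree_cover {W : Cell} {m : ℤ} {j : ℕ} (hj : m + j = W.1) {x : ℂ}
    (hx : ‖x - cn W‖ < 3 * 2 ^ W.1) : cellOf m x ∈ sub W 3 6 j := by
  have h := cellOf_mem_sub j (mem_box_of_norm_lt (o := 3) (s := 6) (ρ := 3) (by norm_num)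
    (by norm_num) hx)
  rwa [show W.1 - j = m by omega] at h

theorem tree_box {W Q : Cell} {j : ℕ} (hQ : Q ∈ sub W 3 6 j) :
    Q.1 + j = W.1 ∧ box Q 4 9 ⊆ box W 8 17 := by
  obtain ⟨h1, h2⟩ := mem_sub_iff.1 hQ
  refine ⟨by omega, fun x hx => ?_⟩
  have h3 := mem_box_iff.1 (h2 (cn_mem_cell Q))
  have h4 := mem_box_iff.1 hx
  have h5 : (2 : ℝ) ^ Q.1 ≤ 2 ^ W.1 := zpow_le_zpow_right₀ one_le_two (by omega)
  have h6 : (0 : ℝ) < 2 ^ Q.1 := by positivity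
  rw [mem_box_iff]
  simp only [Complex.sub_re, Complex.sub_im] at h3 h4 ⊢
  push_cast at h3 h4 ⊢
  refine ⟨?_, ?_, ?_, ?_⟩ <;> linarith [h3.1, h3.2.1, h3.2.2.1, h3.2.2.2, h4.1, h4.2.1, h4.2.2.1,
    h4.2.2.2]

theorem tree_mstar {G : ℂ → ℂ} (hG : Integrable G) {W : Cell} {j : ℕ} {𝒬 : Finset Cell}
    (h : 𝒬 ⊆ sub W 3 6 j) : ∑ Q ∈ 𝒬, mstar G Q 4 9 ≤ 81 * (65 / 64) ^ j * cost G W := by
  have := mstar_overlap hG j 𝒬 fun Q hQ => tree_box (h hQ)
  norm_num at this ⊢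
  exact this

theorem tree_fam {W Q : Cell} {n0 m : ℤ} {j : ℕ} (h0 : n0 ≤ m) (hj : m + j = W.1)
    (hQ : Q ∈ sub W 3 6 j) : Q ∈ fam W n0 ∧ Q.1 = m := by
  obtain ⟨h1, h2⟩ := mem_sub_iff.1 hQ
  exact ⟨(mem_fam_iff (by omega)).2 ⟨by omega, by omega, h2⟩, by omega⟩

/-- an integral against the cutoff is bounded by the cell integrals -/
theorem tree_cut {u : ℂ → ℝ} {K : NNReal} (hu : LipschitzWith K u) {n1 : ℤ} {d' : ℂ → ℝ}
    (hd : Ceil n1 d') {W : Cell} {m : ℤ} (e : ℂ) {φ : ℝ → ℝ} (hφ : Continuous φ)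
    (hφ0 : ∀ t, 0 ≤ φ t) (hφ' : ∀ t, |φ t| ≤ |t|) (𝒬 : Finset Cell)
    (h : ∀ x, chi W d' m x ≠ 0 → ∃ Q ∈ 𝒬, x ∈ cell Q) :
    ∫ x, chi W d' m x * φ (fderiv ℝ u x e) ≤ ∑ Q ∈ 𝒬, ∫ x in cell Q, φ (fderiv ℝ u x e) := by
  obtain ⟨L, hL⟩ := chi_lip hd W m
  have i1 := tele_int₁ hu hL (chi_compact W d' m) e hφ hφ'
  refine (integral_le_sum_cell i1 (fun x => mul_nonneg (chi_nonneg W d' m x) (hφ0 _)) 𝒬
    fun x hx => h x (left_ne_zero_of_mul hx)).trans (Finset.sum_le_sum fun Q _ => ?_)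
  have hb : Bornology.IsBounded (cell Q) := by
    rw [← box_zero_one]
    exact isBounded_box Q 0 1
  refine integral_mono i1.integrableOn ?_ fun x => ?_
  · refine Measure.integrableOn_of_bounded (M := K * ‖e‖) hb.measure_lt_top.ne
      (hφ.measurable.comp (measurable_fderiv_apply_const ℝ u e)).aestronglyMeasurable
      (Eventually.of_forall fun x => (hφ' _).trans (tele_abs_le hu e x))
  · exact mul_le_of_le_one_left (hφ0 _) (chi_le_one W d' m x)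

theorem tree_neg {C : ℝ} (hC : 0 < C) {F : ℂ → ℝ} {G : ℂ → ℂ} (h : Hyp F G) {ε e : ℂ}
    (hε : ‖ε‖ = 1)
    (hs : ∀ Q : Cell, ∫ x in cell Q, max 0 (-(fderiv ℝ (bb F Q.1) x e)) ≤ C * estar ε G Q)
    {n0 n1 : ℤ} {d' : ℂ → ℝ} (hd : Ceil n1 d') {W : Cell} {m : ℤ} {j : ℕ} (h0 : n0 ≤ m)
    (hj : m + j = W.1) :
    ∫ x, chi W d' m x * max 0 (-(fderiv ℝ (bb F m) x e)) ≤
      C * (∑ Q ∈ (lowsIn d' W n0).filter (fun Q => Q.1 = m), estar ε G Q +
        5184 * (65 / 128) ^ j * cost G W) := by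
  classical
  obtain ⟨K, hK⟩ := h.bb_lip m
  have h1 := tree_cut hK hd (W := W) (m := m) e (φ := fun t => max 0 (-t)) (by fun_prop)
    (fun t => le_max_left _ _) tele_max_le
    ((sub W 3 6 j).filter fun Q => ∃ x ∈ cell Q, d' x < 3 / 2 * 2 ^ m) fun x hx => by
      obtain ⟨h1, h2⟩ := of_chi_ne_zero hx
      exact ⟨cellOf m x, Finset.mem_filter.2 ⟨tree_cover hj h1, x, mem_cell_cellOf m x, h2⟩,
        mem_cell_cellOf m x⟩
  have h2 : ∑ Q ∈ (sub W 3 6 j).filter fun Q => ∃ x ∈ cell Q, d' x < 3 / 2 * 2 ^ m,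
      ∫ x in cell Q, max 0 (-(fderiv ℝ (bb F m) x e)) ≤
      C * ∑ Q ∈ (sub W 3 6 j).filter fun Q => ∃ x ∈ cell Q, d' x < 3 / 2 * 2 ^ m,
        estar ε G Q := by
    rw [Finset.mul_sum]
    refine Finset.sum_le_sum fun Q hQ => ?_
    have := hs Q
    rwa [(tree_fam h0 hj (Finset.mem_filter.1 hQ).1).2] at this
  refine h1.trans (h2.trans (mul_le_mul_of_nonneg_left ?_ hC.le))
  have p1 : 0 ≤ ∑ Q ∈ (lowsIn d' W n0).filter (fun Q => Q.1 = m), estar ε G Q :=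
    Finset.sum_nonneg fun Q _ => estar_nonneg ε G Q
  have p2 := cost_nonneg G W
  rcases le_or_gt 6 j with h6 | h6
  · have : ∑ Q ∈ (sub W 3 6 j).filter fun Q => ∃ x ∈ cell Q, d' x < 3 / 2 * 2 ^ m,
        estar ε G Q ≤ ∑ Q ∈ (lowsIn d' W n0).filter (fun Q => Q.1 = m), estar ε G Q := by
      refine Finset.sum_le_sum_of_subset_of_nonneg (fun Q hQ => ?_) fun Q _ _ => estar_nonneg ε G Q
      obtain ⟨q1, q2⟩ := Finset.mem_filter.1 hQ
      obtain ⟨q3, q4⟩ := tree_fam h0 hj q1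
      refine Finset.mem_filter.2 ⟨mem_lowsIn.2 ⟨q3, by omega, ?_⟩, q4⟩
      rwa [q4]
    have p3 : 0 ≤ 5184 * (65 / 128 : ℝ) ^ j * cost G W := by positivity
    linarith
  · have q1 : ∑ Q ∈ (sub W 3 6 j).filter fun Q => ∃ x ∈ cell Q, d' x < 3 / 2 * 2 ^ m,
        estar ε G Q ≤ 2 * ∑ Q ∈ (sub W 3 6 j).filter fun Q => ∃ x ∈ cell Q, d' x < 3 / 2 * 2 ^ m,
          mstar G Q 4 9 := by
      rw [Finset.mul_sum]
      exact Finset.sum_le_sum fun Q _ => estar_le_mstar h.intG hε Q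
    have q2 := tree_mstar h.intG (Finset.filter_subset
      (fun Q => ∃ x ∈ cell Q, d' x < 3 / 2 * 2 ^ m) (sub W 3 6 j))
    have q3 : (65 / 64 : ℝ) ^ j ≤ 32 * (65 / 128) ^ j := by
      have e1 : (65 / 64 : ℝ) ^ j = 2 ^ j * (65 / 128) ^ j := by
        rw [← mul_pow]; norm_num
      have e2 : (2 : ℝ) ^ j ≤ 2 ^ 5 := pow_le_pow_right₀ one_le_two (by omega)
      rw [e1]
      refine mul_le_mul_of_nonneg_right (e2.trans (by norm_num)) (by positivity)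
    have q4 := mul_le_mul_of_nonneg_right q3 p2
    linarith

theorem tree_rad {C : ℝ} (hC : 0 < C) {F : ℂ → ℝ} {G : ℂ → ℂ} (h : Hyp F G) {e : ℂ}
    (he : ‖e‖ = 1)
    (hr : ∀ Q : Cell, ∀ x ∈ cell Q,
      bb F Q.1 x - av F x (2 ^ (Q.1 + 1)) ≤ C * mstar G Q 4 9 / 2 ^ Q.1)
    {n0 n1 : ℤ} {d' : ℂ → ℝ} (hd : Ceil n1 d') {W : Cell} {m : ℤ} {j : ℕ} (h0 : n0 ≤ m)
    (hj : m + j = W.1) (hm : m < W.1) :
    ∫ x, (aa F m W.1 x - aa F (m + 1) W.1 x) * |fderiv ℝ (chi W d' m) x e| ≤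
      C * (∑ Q ∈ (topsIn d' W n0).filter (fun Q => Q.1 = m), cost G Q +
        81 * (65 / 128) ^ j * cost G W) := by
  classical
  obtain ⟨K₀, hK₀⟩ := h.aa_lip hm.le
  obtain ⟨K₁, hK₁⟩ := h.aa_lip (show m + 1 ≤ W.1 by omega)
  obtain ⟨L, hL⟩ := chi_lip hd W m
  have i1 : Integrable fun x =>
      (aa F m W.1 x - aa F (m + 1) W.1 x) * |fderiv ℝ (chi W d' m) x e| :=
    tele_int₂ (hK₀.continuous.sub hK₁.continuous) hL (chi_compact W d' m) e continuous_abs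
      fun t => (abs_abs t).le
  have hpos : ∀ x, 0 ≤ aa F m W.1 x - aa F (m + 1) W.1 x := fun x => by
    rw [h.aa_eq_max hm, sub_nonneg]
    exact le_max_right _ _
  have hder : ∀ x, |fderiv ℝ (chi W d' m) x e| ≤ ‖fderiv ℝ (chi W d' m) x‖ := fun x => by
    have := (fderiv ℝ (chi W d' m) x).le_opNorm e
    rwa [he, mul_one] at this
  have h1 := integral_le_sum_cell i1 (fun x => mul_nonneg (hpos x) (abs_nonneg _)) (sub W 3 6 j)
    fun x hx => by
      refine ⟨cellOf m x, tree_cover hj ?_, mem_cell_cellOf m x⟩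
      by_contra hc
      have := (hder x).trans (norm_fderiv_chi_le hd W m x)
      rw [if_neg hc] at this
      exact right_ne_zero_of_mul hx (le_antisymm this (abs_nonneg _))
  have hp : (0 : ℝ) < 2 ^ m := by positivity
  have hk : (2 : ℝ) ^ W.1 = 2 ^ m * 2 ^ j := by
    rw [← hj, zpow_add₀ two_ne_zero, zpow_natCast]
  have h2 : ∀ Q ∈ sub W 3 6 j, ∫ x in cell Q,
      (aa F m W.1 x - aa F (m + 1) W.1 x) * |fderiv ℝ (chi W d' m) x e| ≤
      C * ((if Top d' Q then cost G Q else 0) + (1 / 2) ^ j * mstar G Q 4 9) := by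
    intro Q hQ
    have hQm := (tree_fam h0 hj hQ).2
    have hM := mstar_nonneg G Q 4 9
    have hb : ∀ x ∈ cell Q, ‖(aa F m W.1 x - aa F (m + 1) W.1 x) * |fderiv ℝ (chi W d' m) x e|‖ ≤
        C * mstar G Q 4 9 / 2 ^ m *
          (((2 : ℝ) ^ W.1)⁻¹ + if Top d' Q then ((2 : ℝ) ^ m)⁻¹ else 0) := by
      intro x hx
      rw [Real.norm_of_nonneg (mul_nonneg (hpos x) (abs_nonneg _))]
      refine mul_le_mul ?_ ?_ (abs_nonneg _) (by positivity)
      · have a1 := hr Q x hx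
        rw [hQm] at a1
        have a2 := h.av_le_aa (n := m + 1) (k := W.1) x (r := 2 ^ (m + 1)) le_rfl
          (zpow_le_zpow_right₀ one_le_two (by omega))
        have a3 : 0 ≤ C * mstar G Q 4 9 / 2 ^ m := by positivity
        rw [h.aa_eq_max hm]
        rcases le_total (bb F m x) (aa F (m + 1) W.1 x) with a4 | a4
        · rw [max_eq_right a4]; linarith
        · rw [max_eq_left a4]; linarith
      · refine ((hder x).trans (norm_fderiv_chi_le hd W m x)).trans ?_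
        have a0 : (0 : ℝ) ≤ if Top d' Q then ((2 : ℝ) ^ m)⁻¹ else 0 := by
          split_ifs <;> positivity
        have a1 : (0 : ℝ) ≤ ((2 : ℝ) ^ W.1)⁻¹ := by positivity
        by_cases c1 : ‖x - cn W‖ < 3 * 2 ^ W.1
        · rw [if_pos c1]
          by_cases c2 : (2 : ℝ) ^ m ≤ d' x ∧ d' x ≤ 3 / 2 * 2 ^ m
          · have : Top d' Q := by
              refine ⟨x, hx, by rw [hQm]; exact c2.1, ?_⟩
              rw [hQm, zpow_add₀ two_ne_zero, zpow_one]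
              linarith [c2.2]
            rw [if_pos c2, if_pos this]
          · rw [if_neg c2]
            linarith
        · rw [if_neg c1]
          linarith
    have a5 := norm_setIntegral_le_of_norm_le_const (μ := volume)
      (by rw [volume_cell]; exact ENNReal.ofReal_lt_top) hb
    have a6 : volume.real (cell Q) = 2 ^ m * 2 ^ m := by
      rw [Measure.real, volume_cell, ENNReal.toReal_ofReal (by positivity), hQm, ← mul_zpow]
      norm_num
    refine (le_abs_self _).trans (a5.trans ?_)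
    rw [a6, hk]
    have a7 := mstar_le_cost h.intG Q
    split_ifs
    · have : C * mstar G Q 4 9 / 2 ^ m * (((2 : ℝ) ^ m * 2 ^ j)⁻¹ + ((2 : ℝ) ^ m)⁻¹) *
          (2 ^ m * 2 ^ m) = C * (mstar G Q 4 9 + (1 / 2) ^ j * mstar G Q 4 9) := by
        rw [one_div, inv_pow]
        field_simp
        ring
      rw [this]
      exact mul_le_mul_of_nonneg_left (by linarith) hC.le
    · refine le_of_eq ?_
      rw [one_div, inv_pow]
      field_simp
      ring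
  refine h1.trans ((Finset.sum_le_sum h2).trans ?_)
  rw [← Finset.mul_sum, Finset.sum_add_distrib, ← Finset.mul_sum, ← Finset.sum_filter]
  refine mul_le_mul_of_nonneg_left (add_le_add ?_ ?_) hC.le
  · refine Finset.sum_le_sum_of_subset_of_nonneg (fun Q hQ => ?_) fun Q _ _ => cost_nonneg G Q
    obtain ⟨q1, q2⟩ := Finset.mem_filter.1 hQ
    obtain ⟨q3, q4⟩ := tree_fam h0 hj q1
    exact Finset.mem_filter.2 ⟨mem_topsIn.2 ⟨q3, q2⟩, q4⟩
  · refine (mul_le_mul_of_nonneg_left (tree_mstar h.intG (Finset.Subset.refl _))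
      (by positivity)).trans (le_of_eq ?_)
    have : (65 / 128 : ℝ) ^ j = (1 / 2) ^ j * (65 / 64) ^ j := by
      rw [← mul_pow]; norm_num
    rw [this]
    ring

/-- Recipe.  `k = W.1`.  Apply `telescope` with `b = bb F`, `a m = aa F m k`, `A = aa F n0 n1`,
`χ = chi W d'` (file `Chi`; `U = ball (cn W) (3 * 2^k) ⊆ box W 3 6`, `mem_box_of_norm_lt`).
For `m ≤ k` let
`𝒬 m = sub W 3 6 (k - m)`, these cells cover `U`, lie in `fam W n0` for `m ≥ n0`, and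
`box Q 4 9 ⊆ box W 8 17`, so `∑_{Q ∈ 𝒬 m} mstar G Q 4 9 ≤ 81 (65/64)^(k-m) cost G W`
(`mstar_overlap`).
* first term `≤ ∑_{Q ∈ 𝒬 k} ∫_Q |∂ b k| ≤ C cost W` (`single_scale_abs`, `integral_le_sum_cell`);
* `∫ χ m (∂ b m)₋ ≤ ∑ ∫_Q` over the `Q ∈ 𝒬 m` that contain a point with `d' < 3/2 * 2^m`:
  `≤ C estar` (`single_scale`); for `m + 6 ≤ k` these are in `lowsIn`, for the five levels
  `k - 5 ≤ m < k` use `estar_le_mstar` and the overlap bound;
* `0 ≤ a m - a (m+1) ≤ bb F m - av F · 2^(m+1) ≤ C mstar G Q 4 9 / 2^m` on `Q ∈ 𝒬 m`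
  (`Hyp.aa_eq_max`, `Hyp.av_le_aa`, `radial_scale`), and `norm_fderiv_chi_le` splits
  `|∂ χ m x|` in two parts.  The first part sums to
  `∑_m 2^(m-k) (65/64)^(k-m) C cost W ≤ C cost W`; in the second the cell `cellOf m x` is in
  `topsIn d' W n0` and contributes `C mstar G Q 4 9 ≤ C cost G Q` (`mstar_le_cost`, `volume_cell`).
Cells of different levels are different, so the sums over `m` inject into the sums over
`topsIn`, `lowsIn` (`Finset.sum_fiberwise_of_maps_to` or `sum_biUnion`). -/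
theorem tree_lemma : ∃ C : ℝ, 0 < C ∧ ∀ (F : ℂ → ℝ) (G : ℂ → ℂ), Hyp F G →
    ∀ (ε e : ℂ), Cone ε e → ∀ (n0 n1 : ℤ) (W : Cell), n0 ≤ W.1 → W.1 ≤ n1 →
    ∀ d' : ℂ → ℝ, Ceil n1 d' →
    ∫ x in Zs F n0 n1 W d', |fderiv ℝ (aa F n0 n1) x e| ≤
      C * (cost G W + ∑ Q ∈ topsIn d' W n0, cost G Q + ∑ Q ∈ lowsIn d' W n0, estar ε G Q) := by
  obtain ⟨C₁, hC₁, h₁⟩ := single_scale
  obtain ⟨C₂, hC₂, h₂⟩ := single_scale_abs
  obtain ⟨C₃, hC₃, h₃⟩ := radial_scale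
  refine ⟨81 * C₂ + 243 * C₃ + 31104 * C₁, by positivity, ?_⟩
  intro F G h ε e hc n0 n1 W h0 h1 d' hd
  have key := telescope n0 W.1 h0 e (bb F) (fun m => aa F m W.1) (chi W d') (aa F n0 n1)
    h.bb_lip (fun m hm => h.aa_lip hm) (h.aa_lip (h0.trans h1)) (chi_lip hd W)
    (chi_compact W d') (chi_nonneg W d') (chi_mono hd W) (aa_self F W.1)
    (fun m _ hm x => h.aa_eq_max hm x) (fun m hm hm' x => h.aa_mono hm hm' h1 x)
    (Zs F n0 n1 W d') (measurableSet_Zs h (h0.trans h1) W hd)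
    (fun x ⟨hx, n, j1, j2, j3, j4⟩ => ⟨n, j1, j2, j3, chi_eq_one hx j4⟩)
  obtain ⟨K, hK⟩ := h.bb_lip W.1
  have t1 : ∫ x, chi W d' W.1 x * |fderiv ℝ (bb F W.1) x e| ≤ C₂ * (81 * cost G W) := by
    have hj : W.1 + (0 : ℕ) = W.1 := by simp
    refine (tree_cut hK hd (W := W) (m := W.1) e continuous_abs abs_nonneg
      (fun t => (abs_abs t).le) (sub W 3 6 0) fun x hx =>
        ⟨cellOf W.1 x, tree_cover hj (of_chi_ne_zero hx).1, mem_cell_cellOf _ x⟩).trans ?_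
    have a1 : ∑ Q ∈ sub W 3 6 0, ∫ x in cell Q, |fderiv ℝ (bb F W.1) x e| ≤
        C₂ * ∑ Q ∈ sub W 3 6 0, mstar G Q 4 9 := by
      rw [Finset.mul_sum]
      refine Finset.sum_le_sum fun Q hQ => ?_
      have := h₂ F G h ε e hc Q
      rwa [(tree_fam h0 hj hQ).2] at this
    refine a1.trans (mul_le_mul_of_nonneg_left ?_ hC₂.le)
    simpa using tree_mstar h.intG (Finset.Subset.refl (sub W 3 6 0))
  have t2 : ∑ m ∈ Finset.Ico n0 W.1,
      ((∫ x, (aa F m W.1 x - aa F (m + 1) W.1 x) * |fderiv ℝ (chi W d' m) x e|) +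
        2 * ∫ x, chi W d' m x * max 0 (-(fderiv ℝ (bb F m) x e))) ≤
      ∑ m ∈ Finset.Ico n0 W.1,
        (C₃ * ∑ Q ∈ (topsIn d' W n0).filter (fun Q => Q.1 = m), cost G Q +
          2 * C₁ * ∑ Q ∈ (lowsIn d' W n0).filter (fun Q => Q.1 = m), estar ε G Q +
          (81 * C₃ + 10368 * C₁) * cost G W * (65 / 128) ^ (W.1 - m).toNat) := by
    refine Finset.sum_le_sum fun m hm => ?_
    obtain ⟨m1, m2⟩ := Finset.mem_Ico.1 hm
    have hj : m + ((W.1 - m).toNat : ℕ) = W.1 := by omega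
    have a1 := tree_rad hC₃ h hc.2.1 (h₃ F G h) hd m1 hj m2
    have a2 := tree_neg hC₁ h hc.1 (h₁ F G h ε e hc) hd m1 hj
    linarith
  replace key := key.trans (add_le_add t1 t2)
  rw [Finset.sum_add_distrib, Finset.sum_add_distrib, ← Finset.mul_sum, ← Finset.mul_sum,
    ← Finset.mul_sum] at key
  have p0 := cost_nonneg G W
  have t3 := mul_le_mul_of_nonneg_left (tree_fiber n0 W.1 (topsIn d' W n0) (cost_nonneg G)) hC₃.le
  have t4 := mul_le_mul_of_nonneg_left (tree_fiber n0 W.1 (lowsIn d' W n0) (estar_nonneg ε G))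
    hC₁.le
  have t5 := mul_le_mul_of_nonneg_left (tree_geom n0 W.1)
    (show 0 ≤ (81 * C₃ + 10368 * C₁) * cost G W by positivity)
  have p1 : 0 ≤ ∑ Q ∈ topsIn d' W n0, cost G Q := Finset.sum_nonneg fun Q _ => cost_nonneg G Q
  have p2 : 0 ≤ ∑ Q ∈ lowsIn d' W n0, estar ε G Q :=
    Finset.sum_nonneg fun Q _ => estar_nonneg ε G Q
  generalize ∑ Q ∈ topsIn d' W n0, cost G Q = a at *
  generalize ∑ Q ∈ lowsIn d' W n0, estar ε G Q = b at *
  have := mul_nonneg hC₁.le p1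
  have := mul_nonneg hC₂.le p1
  have := mul_nonneg hC₃.le p1
  have := mul_nonneg hC₁.le p2
  have := mul_nonneg hC₂.le p2
  have := mul_nonneg hC₃.le p2
  linarith

end Crest.Agent.R112
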